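import Vale.Agent.P120.Bas

/-! P120: flat and good implies bilaterally flat. -/

namespace Vale.Agent.P120

open MeasureTheory Metric Filter Module
open scoped Topology ENNReal NNReal RealInnerProductSpace

namespace BilX

variable {V : Type} [NormedAddCommGroup V] [InnerProductSpace ℝ V] [FiniteDimensional ℝ V]
  [MeasurableSpace V] [BorelSpace V] {n : ℕ} {C : ℝ}

/-- A support point far from the plane forces a large excess. -/
theorem key {ν : Measure V} (hC : 1 ≤ C) (hu : Up n C ν) (hl : Low n C 1 ν) {D : Submodule ℝ V}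
    {p x : V} {δ R r : ℝ} (he : ExcD n ν 0 1 δ D p) (hx : x ∈ ν.support) (hR : ‖x‖ ≤ R)
    (h0 : 0 < r) (h1 : r ≤ 1) (h2 : 2 * r ≤ ‖perp D (x - p)‖) :
    r ^ 2 * (2 + R)⁻¹ ^ (n + 3) * (r ^ n / C) ≤ δ ^ 2 := by
  have hi := hu.integrable_exc (by linarith) D 0 p one_pos
  have hR0 : 0 ≤ R := (norm_nonneg _).trans hR
  have h3 : ∀ z ∈ ball x r,
      r ^ 2 * (2 + R)⁻¹ ^ (n + 3) ≤ ‖perp D (z - p)‖ ^ 2 * wt n 0 1 z := by
    intro z hz
    rw [mem_ball, dist_eq_norm] at hz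
    have h4 : r ≤ ‖perp D (z - p)‖ := by
      have e : perp D (x - p) = perp D (z - p) - perp D (z - x) := by
        rw [← perp_sub]; congr 1; abel
      have := norm_sub_le (perp D (z - p)) (perp D (z - x))
      rw [← e] at this
      linarith [norm_perp_le D (z - x)]
    have h5 : ‖z‖ ≤ 1 + R := by
      have := norm_add_le (z - x) x
      rw [sub_add_cancel] at this
      linarith
    have h6 : (2 + R)⁻¹ ≤ (1 + ‖z‖)⁻¹ := inv_anti₀ (by positivity) (by linarith)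
    rw [wt_unit]
    gcongr
  have h4 := setIntegral_ge_of_const_le_real measurableSet_ball
    (ne_top_of_le_ne_top ENNReal.ofReal_ne_top (hu x r h0)) h3 hi.integrableOn
  have h5 := setIntegral_le_integral (s := ball x r) hi
    (Eventually.of_forall fun z => mul_nonneg (sq_nonneg _) (wt_pos n 0 one_pos z).le)
  have h6 := mul_le_mul_of_nonneg_left (hl.real_ball hu hx h0 h1)
    (by positivity : 0 ≤ r ^ 2 * (2 + R)⁻¹ ^ (n + 3))
  unfold ExcD at he
  rw [one_pow, mul_one] at he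
  linarith

/-- With vanishing excess, bounded parts of the supports are close to the plane. -/
theorem close (hC : 1 ≤ C) {U : Ultrafilter ℕ} {ν : ℕ → Measure V} {D : Submodule ℝ V}
    {p : ℕ → V} {δ : ℕ → ℝ} (h : ∀ k, Up n C (ν k) ∧ Low n C 1 (ν k) ∧ 0 ∈ (ν k).support ∧
      ExcD n (ν k) 0 1 (δ k) D (p k)) (hδ : Tendsto δ U (𝓝 0)) {R ε : ℝ} (hR : 0 ≤ R)
    (hε : 0 < ε) : ∀ᶠ k in U, ∀ x ∈ (ν k).support, ‖x‖ ≤ R → ‖perp D x‖ ≤ ε := by
  obtain ⟨r, h0, h1, h2⟩ : ∃ r : ℝ, 0 < r ∧ r ≤ 1 ∧ 4 * r ≤ ε :=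
    ⟨min 1 (ε / 4), by positivity, min_le_left _ _, by linarith [min_le_right 1 (ε / 4)]⟩
  have h3 : Tendsto (fun k => δ k ^ 2) U (𝓝 0) := by simpa using hδ.pow 2
  have h4 : 0 < r ^ 2 * (2 + R)⁻¹ ^ (n + 3) * (r ^ n / C) := by positivity
  filter_upwards [h3.eventually (gt_mem_nhds h4)] with k hk x hx hxR
  obtain ⟨a, b, c, d⟩ := h k
  have h5 : ∀ z ∈ (ν k).support, ‖z‖ ≤ R → ‖perp D (z - p k)‖ < 2 * r := fun z hz hzR =>
    lt_of_not_ge fun h6 => (key hC a b d hz hzR h0 h1 h6).not_gt hk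
  have e : perp D x = perp D (x - p k) - perp D (0 - p k) := by
    rw [← perp_sub]; congr 1; abel
  have := norm_sub_le (perp D (x - p k)) (perp D (0 - p k))
  rw [← e] at this
  linarith [h5 x hx hxR, h5 0 c (by simpa using hR)]

omit [MeasurableSpace V] [BorelSpace V] in
/-- Transport of bilateral flatness along a similarity. -/
theorem back {E E' : Set V} {O : V ≃ₗᵢ[ℝ] V} {y : V} {s ε : ℝ} (hs : 0 < s) {D : Submodule ℝ V}
    (hD : finrank ℝ D = n) (hE : ∀ x, sim O y s x ∈ E' ↔ x ∈ E)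
    (h : BF n E' 0 1 ε (D.map (O.toLinearEquiv : V →ₗ[ℝ] V))) : BF n E y s ε D := by
  have hn : ∀ z : V, ‖s⁻¹ • O z‖ = ‖z‖ / s := fun z => by
    rw [norm_smul, O.norm_map, Real.norm_eq_abs, abs_of_pos (inv_pos.2 hs), div_eq_inv_mul]
  refine ⟨hD, fun x hx hxy => ?_, fun w hw hws => ?_⟩
  · have h1 := h.2.1 _ ((hE x).2 hx) (by
      rw [sub_zero, sim, hn, div_le_iff₀ hs]; linarith)
    rw [sub_zero, sim, perp_smul, perp_map, hn, div_le_iff₀ hs] at h1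
    linarith
  · obtain ⟨x, hx, h1⟩ := h.2.2 (s⁻¹ • O w)
      (Submodule.smul_mem _ _ (Submodule.mem_map_of_mem hw))
      (by rw [hn, div_le_iff₀ hs]; linarith)
    have e : sim O y s (y + s • O.symm x) = x := by
      simp [sim, smul_smul, inv_mul_cancel₀ hs.ne']
    refine ⟨y + s • O.symm x, (hE _).1 (by rwa [e]), ?_⟩
    have e2 : x - (0 + s⁻¹ • O w) = s⁻¹ • O (y + s • O.symm x - (y + w)) := by
      simp [smul_sub, smul_smul, inv_mul_cancel₀ hs.ne']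
    rw [e2, hn, div_le_iff₀ hs] at h1
    linarith

end BilX

theorem flatLim_pf (h : LimP_stmt) : FlatLim_stmt := by
  intro V _ _ _ _ _ n C hn hC U ν σ D p δ hν hσ hL hδ x hx
  rw [← perp_eq_zero, ← norm_le_zero_iff]
  refine le_of_forall_pos_le_add fun ε hε => ?_
  obtain ⟨r, h0, h1, h2⟩ : ∃ r : ℝ, 0 < r ∧ r ≤ 1 ∧ 2 * r ≤ ε :=
    ⟨min 1 (ε / 2), by positivity, min_le_left _ _, by linarith [min_le_right 1 (ε / 2)]⟩
  have h3 := (h V n C hn hC U ν σ (fun k => (hν k).1) hσ hL).2.1 x hx r h0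
  obtain ⟨k, ⟨x', hx', h4⟩, h5⟩ :=
    (h3.and (BilX.close hC hν hδ (R := ‖x‖ + 1) (by positivity) h0)).exists
  rw [dist_eq_norm] at h4
  have h6 : ‖x'‖ ≤ ‖x‖ + 1 := by
    have := norm_add_le (x' - x) x
    rw [sub_add_cancel] at this
    linarith
  have e : perp D x = perp D x' - perp D (x' - x) := by
    rw [← perp_sub]; congr 1; abel
  have := norm_sub_le (perp D x') (perp D (x' - x))
  rw [← e] at this
  linarith [h5 x' hx' h6, norm_perp_le D (x' - x)]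

theorem bil_pf (hLim : Lim_stmt) (hP : LimP_stmt) (hQ : LimQ_stmt) (hR : Resc_stmt)
    (hF : Full_stmt) (hFL : FlatLim_stmt) : Bil_stmt := by
  intro V _ _ _ _ _ n C hn hC ε hε
  by_contra hc
  push Not at hc
  have h0 : ∀ k : ℕ, (0 : ℝ) < 1 / (k + 1) := fun k => by positivity
  have h1 : ∀ k : ℕ, (1 : ℝ) ≤ k + 1 := fun k => by linarith [(by positivity : (0 : ℝ) ≤ k)]
  choose ν y s hs hu hl hy hg he hb using fun k : ℕ => hc _ _ _ (h0 k) (h1 k) (h0 k)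
  choose D p hD hp using he
  obtain ⟨hR1, hR2⟩ := hR V n C hn hC
  choose O hO using fun k => hR2 (D k) (D 0) ((hD k).trans (hD 0).symm)
  have h2 : ∀ k, sim (O k) (y k) (s k) (y k) = 0 := fun k => by simp [sim]
  obtain ⟨μ, hμ⟩ : ∃ μ : ℕ → Measure V, ∀ k, μ k = resc n (O k) (y k) (s k) (ν k) :=
    ⟨_, fun _ => rfl⟩
  have a1 : ∀ k, Up n C (μ k) := fun k => by
    rw [hμ]; exact (hR1 _ _ _ _ (hs k)).1 (hu k)
  have a2 : ∀ k : ℕ, Low n C (k + 1) (μ k) := fun k => by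
    have := (hR1 (O k) (y k) _ _ (hs k)).2.1 _ (hl k)
    rwa [mul_div_assoc, div_self (hs k).ne', mul_one, ← hμ] at this
  have a3 : ∀ k x, sim (O k) (y k) (s k) x ∈ (μ k).support ↔ x ∈ (ν k).support := fun k => by
    rw [hμ]; exact (hR1 _ _ _ _ (hs k)).2.2.2.1
  have a4 : ∀ k, 0 ∈ (μ k).support := fun k => by rw [← h2 k]; exact (a3 k _).2 (hy k)
  have a5 : ∀ k : ℕ, Good n (μ k) 0 1 (k + 1) (1 / (k + 1)) := fun k => by
    have := (hR1 (O k) (y k) _ _ (hs k)).2.2.2.2.1 _ _ _ _ (hg k)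
    rwa [h2, div_self (hs k).ne', ← hμ] at this
  have a6 : ∀ k : ℕ, ExcD n (μ k) 0 1 (1 / (k + 1)) (D 0) (sim (O k) (y k) (s k) (p k)) :=
    fun k => by
      have := ((hR1 (O k) (y k) _ _ (hs k)).2.2.2.2.2.1 _ _ _ _ _ (hs k)).1 (hp k)
      rwa [h2, div_self (hs k).ne', ← hμ, hO] at this
  obtain ⟨σ, hσ, hL⟩ := hLim V n C hn hC (hyperfilter ℕ) μ a1
  have t1 : Tendsto (fun k : ℕ => (1 : ℝ) / (k + 1)) (hyperfilter ℕ) (𝓝 0) :=
    tendsto_one_div_add_atTop_nhds_zero_nat.mono_left Nat.hyperfilter_le_atTop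
  have t2 : Tendsto (fun k : ℕ => (k : ℝ) + 1) (hyperfilter ℕ) atTop :=
    (tendsto_atTop_add_const_right _ 1 tendsto_natCast_atTop_atTop).mono_left
      Nat.hyperfilter_le_atTop
  obtain ⟨-, p2, p3⟩ := hP V n C hn hC _ μ σ a1 hσ hL
  have b1 : 0 ∈ σ.support :=
    (p3 _ 1 one_pos (Eventually.of_forall h1) a2).2 (fun _ => 0) 0 (Eventually.of_forall a4)
      tendsto_const_nhds
  have b2 : σ ≠ 0 := fun e => by rw [e, Measure.support_zero] at b1; exact b1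
  have b3 : Cl n C σ := ⟨hσ, fun R => Low.mono (p3 _ (max R 1) (by positivity)
    (t2.eventually_ge_atTop _) a2).1 (le_max_left _ _),
    (hQ V n C hn hC _ μ σ a1 hσ hL).2 b2 _ _ t2 t1 a5⟩
  have a7 := fun k => And.intro (a1 k) (And.intro ((a2 k).mono (h1 k)) (And.intro (a4 k) (a6 k)))
  have b4 := hF V n C hn hC σ (D 0) b3 b1 (hD 0) (hFL V n C hn hC _ μ σ _ _ _ a7 hσ hL t1)
  have c1 := BilX.close hC a7 t1 (R := 10) (by norm_num) hε
  have c2 : ∀ᶠ k in hyperfilter ℕ, ∀ w ∈ D 0, ‖w‖ ≤ 10 → ∃ x ∈ (μ k).support, ‖x - w‖ ≤ ε := by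
    by_contra c3
    rw [← Ultrafilter.eventually_not] at c3
    have c4 : ∀ k, ∃ w, w ∈ D 0 ∧ ‖w‖ ≤ 10 ∧
        ((¬ ∀ w ∈ D 0, ‖w‖ ≤ 10 → ∃ x ∈ (μ k).support, ‖x - w‖ ≤ ε) →
          ∀ x ∈ (μ k).support, ε < ‖x - w‖) := fun k => by
      by_cases c5 : ∀ w ∈ D 0, ‖w‖ ≤ 10 → ∃ x ∈ (μ k).support, ‖x - w‖ ≤ ε
      · exact ⟨0, zero_mem _, by simp, fun c6 => (c6 c5).elim⟩
      · push Not at c5
        obtain ⟨w, c6, c7, c8⟩ := c5
        exact ⟨w, c6, c7, fun _ => c8⟩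
    choose w hw hw1 hw2 using c4
    obtain ⟨w₀, -, hw₀⟩ := (isCompact_closedBall (0 : V) 10).ultrafilter_le_nhds'
      ((hyperfilter ℕ).map w) (Ultrafilter.mem_map.2 (univ_mem' fun k => by simpa using hw1 k))
    have c5 : Tendsto w (hyperfilter ℕ) (𝓝 w₀) := hw₀
    have c6 : w₀ ∈ D 0 :=
      (D 0).closed_of_finiteDimensional.mem_of_tendsto c5 (Eventually.of_forall hw)
    obtain ⟨k, ⟨c7, x, hx, c8⟩, c9⟩ := ((c3.and (p2 w₀ (b4 _ c6) _ (half_pos hε))).and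
      (c5.eventually (ball_mem_nhds w₀ (half_pos hε)))).exists
    have d1 := hw2 k c7 x hx
    have d2 := dist_triangle_right x (w k) w₀
    rw [← dist_eq_norm] at d1
    have d3 : dist (w k) w₀ < ε / 2 := c9
    linarith
  obtain ⟨k, d1, d2⟩ := (c1.and c2).exists
  refine hb k (D k) (BilX.back (hs k) (hD k) (a3 k) ?_)
  rw [hO]
  exact ⟨hD 0, fun x hx h => by simpa using d1 x hx (by simpa using h),
    fun w hw h => by simpa using d2 w hw (by simpa using h)⟩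

end Vale.Agent.P120
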