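import Vale.Agent.P120.Bas

/-! P120: the Caccioppoli inequality. -/

namespace Vale.Agent.P120

open MeasureTheory Metric Filter Module
open scoped Topology ENNReal NNReal RealInnerProductSpace

namespace CaccX

section point
variable {V : Type} [NormedAddCommGroup V] [InnerProductSpace ℝ V] {r q : ℝ} {e : V}

/-- the cutoff -/
noncomputable def ph (r : ℝ) (x : V) : ℝ := max 0 (min 1 (2 - ‖x‖ / r))

/-- the height -/
noncomputable def vv (e : V) (q : ℝ) (x : V) : ℝ := ⟪x, e⟫ - q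

noncomputable def gg (r : ℝ) (e : V) (q : ℝ) (x : V) : ℝ := ph r x ^ 2 * vv e q x

noncomputable def XX (r : ℝ) (e : V) (q : ℝ) (x : V) : V := gg r e q x • e

omit [InnerProductSpace ℝ V] in
theorem ph_nonneg (r : ℝ) (x : V) : 0 ≤ ph r x := le_max_left _ _

omit [InnerProductSpace ℝ V] in
theorem ph_le (r : ℝ) (x : V) : ph r x ≤ 1 := max_le zero_le_one (min_le_left _ _)

omit [InnerProductSpace ℝ V] in
theorem ph_sq_le (r : ℝ) (x : V) : ph r x ^ 2 ≤ 1 := pow_le_one₀ (ph_nonneg r x) (ph_le r x)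

omit [InnerProductSpace ℝ V] in
theorem ph_one (hr : 0 < r) {x : V} (h : ‖x‖ ≤ r) : ph r x = 1 := by
  have : ‖x‖ / r ≤ 1 := (div_le_one hr).2 h
  rw [ph, min_eq_left (by linarith), max_eq_right zero_le_one]

omit [InnerProductSpace ℝ V] in
theorem ph_zero (hr : 0 < r) {x : V} (h : 2 * r ≤ ‖x‖) : ph r x = 0 := by
  have : 2 ≤ ‖x‖ / r := (le_div_iff₀ hr).2 h
  rw [ph, max_eq_left ((min_le_right _ _).trans (by linarith))]

omit [InnerProductSpace ℝ V] in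
theorem ph_lip (hr : 1 ≤ r) (x y : V) : |ph r x - ph r y| ≤ ‖x - y‖ := by
  have h1 : |(2 - ‖x‖ / r) - (2 - ‖y‖ / r)| ≤ ‖x - y‖ := by
    have e1 : (2 - ‖x‖ / r) - (2 - ‖y‖ / r) = (‖y‖ - ‖x‖) / r := by ring
    rw [e1, abs_div, abs_of_pos (by linarith : (0 : ℝ) < r), abs_sub_comm]
    exact (div_le_self (abs_nonneg _) hr).trans (abs_norm_sub_norm_le x y)
  refine (abs_max_sub_max_le_max _ _ _ _).trans (max_le (by simp) ?_)
  exact (abs_min_sub_min_le_max _ _ _ _).trans (max_le (by simp) h1)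

omit [InnerProductSpace ℝ V] in
theorem continuous_ph (r : ℝ) : Continuous (ph r : V → ℝ) := by
  unfold ph; fun_prop

theorem continuous_vv (e : V) (q : ℝ) : Continuous (vv e q) := by
  unfold vv; fun_prop

theorem continuous_gg (r : ℝ) (e : V) (q : ℝ) : Continuous (gg r e q) :=
  ((continuous_ph r).pow 2).mul (continuous_vv e q)

theorem continuous_XX (r : ℝ) (e : V) (q : ℝ) : Continuous (XX r e q) :=
  (continuous_gg r e q).smul continuous_const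

theorem abs_inner_le (he : ‖e‖ ≤ 1) (x : V) : |⟪x, e⟫| ≤ ‖x‖ :=
  (abs_real_inner_le_norm x e).trans (mul_le_of_le_one_right (norm_nonneg _) he)

theorem vv_sub (e : V) (q : ℝ) (x y : V) : vv e q x - vv e q y = ⟪x - y, e⟫ := by
  rw [vv, vv, inner_sub_left]; ring

theorem abs_vv (he : ‖e‖ ≤ 1) (q : ℝ) (x : V) : |vv e q x| ≤ ‖x‖ + |q| :=
  (abs_sub _ _).trans (add_le_add_left (abs_inner_le he x) _)

theorem gg_zero (hr : 0 < r) {x : V} (h : 2 * r ≤ ‖x‖) : gg r e q x = 0 := by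
  rw [gg, ph_zero hr h]; ring

theorem XX_zero (hr : 0 < r) {x : V} (h : 2 * r ≤ ‖x‖) : XX r e q x = 0 := by
  rw [XX, gg_zero hr h, zero_smul]

theorem inner_XX (r : ℝ) (e : V) (q : ℝ) (x y : V) :
    ⟪x - y, XX r e q x⟫ = (vv e q x - vv e q y) * gg r e q x := by
  rw [XX, inner_smul_right, vv_sub, mul_comm]

theorem gg_lip1 (hr : 1 ≤ r) (he : ‖e‖ ≤ 1) (hq : |q| ≤ 2 * r) {x : V} (hx : ‖x‖ ≤ 2 * r)
    (y : V) : |gg r e q x - gg r e q y| ≤ (8 * r + 1) * ‖x - y‖ := by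
  have e1 : gg r e q x - gg r e q y = (ph r x - ph r y) * (ph r x + ph r y) * vv e q x
      + ph r y ^ 2 * (vv e q x - vv e q y) := by unfold gg; ring
  have h1 := ph_lip hr x y
  have h2 : |ph r x + ph r y| ≤ 2 := by
    rw [abs_of_nonneg (add_nonneg (ph_nonneg r x) (ph_nonneg r y))]
    linarith [ph_le r x, ph_le r y]
  have h3 : |vv e q x| ≤ 4 * r := by linarith [abs_vv he q x]
  have h4 : |vv e q x - vv e q y| ≤ ‖x - y‖ := by rw [vv_sub]; exact abs_inner_le he _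
  have h5 : |ph r y ^ 2| ≤ 1 := by rw [abs_of_nonneg (sq_nonneg _)]; exact ph_sq_le r y
  rw [e1]
  refine (abs_add_le _ _).trans ?_
  rw [abs_mul, abs_mul, abs_mul]
  calc _ ≤ ‖x - y‖ * 2 * (4 * r) + 1 * ‖x - y‖ := by gcongr
    _ = _ := by ring

theorem gg_lip (hr : 1 ≤ r) (he : ‖e‖ ≤ 1) (hq : |q| ≤ 2 * r) (x y : V) :
    |gg r e q x - gg r e q y| ≤ (8 * r + 1) * ‖x - y‖ := by
  by_cases hx : ‖x‖ ≤ 2 * r
  · exact gg_lip1 hr he hq hx y
  by_cases hy : ‖y‖ ≤ 2 * r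
  · rw [abs_sub_comm, norm_sub_rev]; exact gg_lip1 hr he hq hy x
  rw [gg_zero (by linarith) (not_le.1 hx).le, gg_zero (by linarith) (not_le.1 hy).le, sub_zero,
    abs_zero]
  positivity

theorem XX_lip (hr : 1 ≤ r) (he : ‖e‖ ≤ 1) (hq : |q| ≤ 2 * r) :
    LipschitzWith 1 fun x => (8 * r + 1)⁻¹ • XX r e q x := by
  refine LipschitzWith.of_dist_le_mul fun x y => ?_
  have h0 : 0 < 8 * r + 1 := by linarith
  rw [dist_eq_norm, dist_eq_norm, ← smul_sub, XX, XX, ← sub_smul, norm_smul, norm_smul,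
    Real.norm_eq_abs, Real.norm_eq_abs, abs_of_pos (inv_pos.2 h0), NNReal.coe_one, one_mul,
    inv_mul_le_iff₀ h0]
  exact (mul_le_of_le_one_right (abs_nonneg _) he).trans (gg_lip hr he hq x y)

theorem alg (a b s t : ℝ) : (s ^ 2 + t ^ 2) * (a - b) ^ 2 / 4 - (s - t) ^ 2 * (a ^ 2 + b ^ 2) ≤
    (a - b) * (s ^ 2 * a - t ^ 2 * b) := by
  nlinarith [sq_nonneg ((s + t) * (a - b) / 2 + (s - t) * (a + b)), sq_nonneg ((s - t) * (a - b))]

omit [InnerProductSpace ℝ V] in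
theorem one_le_wt {R : ℝ} {x : V} (hx : ‖x‖ ≤ R) (k : ℕ) :
    1 ≤ (1 + R) ^ k * (1 + ‖x‖)⁻¹ ^ k := by
  have h0 : 0 < 1 + ‖x‖ := by positivity
  rw [← mul_pow]
  exact one_le_pow₀ (by rw [← div_eq_mul_inv, le_div_iff₀ h0]; linarith)

theorem amgm {δ a t : ℝ} (hδ : 0 < δ) (ht : 0 ≤ t) (n : ℕ) :
    |a| * t ^ (n + 2) ≤ (a ^ 2 * t ^ (n + 3) / δ + δ * t ^ (n + 1)) / 2 := by
  have h1 : 0 ≤ t ^ (n + 1) := by positivity
  have h2 : 2 * (|a| * t) ≤ (|a| * t) ^ 2 / δ + δ := by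
    rw [div_add' _ _ _ hδ.ne', le_div_iff₀ hδ]
    nlinarith [sq_nonneg (|a| * t - δ)]
  have h3 := mul_le_mul_of_nonneg_right h2 h1
  rw [mul_pow, sq_abs] at h3
  have e1 : t ^ (n + 2) = t ^ (n + 1) * t := by ring
  have e2 : t ^ (n + 3) = t ^ (n + 1) * t ^ 2 := by ring
  have e3 : a ^ 2 * (t ^ (n + 1) * t ^ 2) / δ = a ^ 2 * t ^ 2 / δ * t ^ (n + 1) := by ring
  rw [e1, e2, e3]
  nlinarith

end point

section meas
variable {V : Type} [NormedAddCommGroup V] [InnerProductSpace ℝ V] [FiniteDimensional ℝ V]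
  [MeasurableSpace V] [BorelSpace V] {n : ℕ} {C : ℝ} {ν : Measure V} {r q ε : ℝ} {e : V}

theorem int_ball (h : Up n C ν) {f : V → ℝ} (hf : Continuous f) (R : ℝ) :
    IntegrableOn f (ball 0 R) ν := by
  have := h.locFin
  exact (hf.continuousOn.integrableOn_compact (isCompact_closedBall 0 R)).mono_set
    ball_subset_closedBall

theorem int_supp (h : Up n C ν) {E : Type} [NormedAddCommGroup E] {f : V → E} (hf : Continuous f)
    {R : ℝ} (h0 : ∀ x, R ≤ ‖x‖ → f x = 0) : Integrable f ν := by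
  have := h.locFin
  refine hf.integrable_of_hasCompactSupport
    (HasCompactSupport.intro (isCompact_closedBall 0 R) fun x hx => h0 x ?_)
  rw [mem_closedBall_zero_iff] at hx
  exact (not_le.1 hx).le

theorem int_prod (h : Up n C ν) {f : V × V → ℝ} (hf : Continuous f) (R : ℝ) :
    Integrable f ((ν.restrict (ball 0 R)).prod (ν.restrict (ball 0 R))) := by
  have := h.locFin
  rw [Measure.prod_restrict]
  exact (hf.continuousOn.integrableOn_compact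
    ((isCompact_closedBall 0 R).prod (isCompact_closedBall 0 R))).mono_set
    (Set.prod_mono ball_subset_closedBall ball_subset_closedBall)

theorem int_dec (h : Up n C ν) (hC : 0 ≤ C) : Integrable (fun y : V => (1 + ‖y‖)⁻¹ ^ (n + 1)) ν ∧
    ∫ y : V, (1 + ‖y‖)⁻¹ ^ (n + 1) ∂ν ≤ 2 ^ (n + 2) * C := by
  simpa using h.dec hC 0 one_pos (a := 1) le_rfl

theorem int_vw (h : Up n C ν) (hC : 0 ≤ C) (he : ‖e‖ ≤ 1) (q : ℝ) :
    Integrable (fun x => vv e q x ^ 2 * (1 + ‖x‖)⁻¹ ^ (n + 3)) ν := by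
  have hc : Continuous fun x : V => (1 + ‖x‖)⁻¹ :=
    Continuous.inv₀ (by fun_prop) fun x => by positivity
  refine h.integrable hC (((continuous_vv e q).pow 2).mul (hc.pow _)).aestronglyMeasurable
    (N := (1 + |q|) ^ 2) fun x => ?_
  have h0 : 0 < 1 + ‖x‖ := by positivity
  have h1 : |vv e q x| ≤ (1 + |q|) * (1 + ‖x‖) := by
    nlinarith [abs_vv he q x, abs_nonneg q, norm_nonneg x]
  have h2 : vv e q x ^ 2 ≤ ((1 + |q|) * (1 + ‖x‖)) ^ 2 := by
    rw [← sq_abs]; gcongr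
  rw [Real.norm_eq_abs, abs_of_nonneg (by positivity)]
  calc _ ≤ ((1 + |q|) * (1 + ‖x‖)) ^ 2 * (1 + ‖x‖)⁻¹ ^ (n + 3) := by gcongr
    _ = _ := by
      rw [show n + 3 = (n + 1) + 2 by ring, pow_add]
      field_simp

theorem int_H (h : Up n C ν) (hC : 0 ≤ C) (he : ‖e‖ ≤ 1) (q : ℝ) {δ : ℝ} (hδ : 0 < δ) :
    Integrable (fun x => |vv e q x| * (1 + ‖x‖)⁻¹ ^ (n + 2)) ν ∧
    ∫ x, |vv e q x| * (1 + ‖x‖)⁻¹ ^ (n + 2) ∂ν ≤
      ((∫ x, vv e q x ^ 2 * (1 + ‖x‖)⁻¹ ^ (n + 3) ∂ν) / δ + δ * (2 ^ (n + 2) * C)) / 2 := by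
  have hc : Continuous fun x : V => (1 + ‖x‖)⁻¹ :=
    Continuous.inv₀ (by fun_prop) fun x => by positivity
  have h1 := int_vw h hC he q
  obtain ⟨h2, h3⟩ := int_dec h hC
  have h4 : Integrable (fun x : V => (vv e q x ^ 2 * (1 + ‖x‖)⁻¹ ^ (n + 3) / δ +
      δ * (1 + ‖x‖)⁻¹ ^ (n + 1)) / 2) ν := ((h1.div_const δ).add (h2.const_mul δ)).div_const 2
  have h5 : ∀ x : V, |vv e q x| * (1 + ‖x‖)⁻¹ ^ (n + 2) ≤
      (vv e q x ^ 2 * (1 + ‖x‖)⁻¹ ^ (n + 3) / δ + δ * (1 + ‖x‖)⁻¹ ^ (n + 1)) / 2 :=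
    fun x => amgm hδ (by positivity) n
  have h6 : Integrable (fun x => |vv e q x| * (1 + ‖x‖)⁻¹ ^ (n + 2)) ν :=
    h4.mono' ((continuous_vv e q).abs.mul (hc.pow _)).aestronglyMeasurable
      (Eventually.of_forall fun x => by
        rw [Real.norm_eq_abs, abs_of_nonneg (by positivity)]; exact h5 x)
  refine ⟨h6, (integral_mono h6 h4 h5).trans ?_⟩
  rw [integral_div, integral_add (h1.div_const δ) (h2.const_mul δ), integral_div,
    integral_const_mul]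
  gcongr

theorem int_gg (h : Up n C ν) (hr : 0 < r) : Integrable (gg r e q) ν :=
  int_supp h (continuous_gg r e q) fun _ hx => gg_zero hr hx

theorem int_XX (h : Up n C ν) (hr : 0 < r) : Integrable (XX r e q) ν :=
  int_supp h (continuous_XX r e q) fun _ hx => XX_zero hr hx

theorem abs_gg_le (h : Up n C ν) (hC : 0 ≤ C) (he : ‖e‖ ≤ 1) (hr : 0 < r) :
    ∫ x, |gg r e q x| ∂ν ≤
      (1 + 2 * r) ^ (n + 2) * ∫ x, |vv e q x| * (1 + ‖x‖)⁻¹ ^ (n + 2) ∂ν := by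
  rw [← integral_const_mul]
  refine integral_mono (int_gg h hr).abs ((int_H h hC he q one_pos).1.const_mul _) fun x => ?_
  by_cases hx : ‖x‖ ≤ 2 * r
  · have h1 := one_le_wt hx (n + 2)
    have h2 : |gg r e q x| ≤ |vv e q x| := by
      rw [gg, abs_mul, abs_of_nonneg (sq_nonneg _)]
      exact mul_le_of_le_one_left (abs_nonneg _) (ph_sq_le r x)
    have h3 := mul_le_mul_of_nonneg_left h1 (abs_nonneg (vv e q x))
    change |gg r e q x| ≤ (1 + 2 * r) ^ (n + 2) * (|vv e q x| * (1 + ‖x‖)⁻¹ ^ (n + 2))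
    linarith
  · change |gg r e q x| ≤ (1 + 2 * r) ^ (n + 2) * (|vv e q x| * (1 + ‖x‖)⁻¹ ^ (n + 2))
    rw [gg_zero hr (not_le.1 hx).le, abs_zero]
    positivity

theorem far (h : Up n C ν) (hr : 1 ≤ r) (hε : 0 < ε) (hm : ∫ x, gg r e q x ∂ν = 0) {y : V}
    (hy : 4 * r ≤ ‖y‖) :
    -((cK n * (2 * r) * 2 ^ (n + 2) * ∫ x, |gg r e q x| ∂ν) *
      (|vv e q y| * (1 + ‖y‖)⁻¹ ^ (n + 2))) ≤ Ti n ε ν (XX r e q) y := by
  have hr0 : 0 < r := by linarith
  have hg : Integrable (gg r e q) ν := int_gg h hr0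
  have hy0 : 0 < ‖y‖ := by linarith
  have hK := cK_pos n
  set L := cK n * (2 * r) * 2 ^ (n + 2) * (|vv e q y| * (1 + ‖y‖)⁻¹ ^ (n + 2)) with hL
  have h1 : ∀ x, -(L * |gg r e q x|) - vv e q y * kr n ε (-y) * gg r e q x ≤
      kr n ε (x - y) * ⟪x - y, XX r e q x⟫ := by
    intro x
    rw [inner_XX]
    by_cases hx : ‖x‖ ≤ 2 * r
    · have h2 := kr_lip_far (n := n) hε (z := -y) (z' := x - y) (by
        rw [show -y - (x - y) = -x by abel, norm_neg, norm_neg]; linarith)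
      rw [show -y - (x - y) = -x by abel, norm_neg, norm_neg] at h2
      have h3 : ‖y‖⁻¹ ≤ 2 * (1 + ‖y‖)⁻¹ := by
        rw [← div_eq_mul_inv, inv_eq_one_div, div_le_div_iff₀ hy0 (by positivity)]
        linarith
      have h4 : |kr n ε (-y) - kr n ε (x - y)| ≤
          cK n * (2 * r) * (2 ^ (n + 2) * (1 + ‖y‖)⁻¹ ^ (n + 2)) := by
        rw [← mul_pow]
        exact h2.trans (by gcongr)
      have h5 : 0 ≤ kr n ε (x - y) * (vv e q x * gg r e q x) := by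
        refine mul_nonneg (kr_nonneg _ _ _) ?_
        rw [gg, mul_left_comm, ← sq]
        positivity
      have h6 : |vv e q y * (kr n ε (-y) - kr n ε (x - y)) * gg r e q x| ≤ L * |gg r e q x| := by
        rw [abs_mul, abs_mul]
        refine mul_le_mul_of_nonneg_right ?_ (abs_nonneg _)
        calc _ ≤ |vv e q y| * (cK n * (2 * r) * (2 ^ (n + 2) * (1 + ‖y‖)⁻¹ ^ (n + 2))) := by gcongr
          _ = L := by rw [hL]; ring
      have h7 := neg_abs_le (vv e q y * (kr n ε (-y) - kr n ε (x - y)) * gg r e q x)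
      nlinarith
    · rw [gg_zero hr0 (not_le.1 hx).le]
      simp
  have h8 := integral_mono (((hg.abs.const_mul L).neg).sub
    (hg.const_mul (vv e q y * kr n ε (-y)))) (integrable_Ti_aux hε (int_XX h hr0) y) h1
  rw [integral_sub' (hg.abs.const_mul L).neg (hg.const_mul _), integral_neg', integral_const_mul,
    integral_const_mul, hm, mul_zero, sub_zero] at h8
  refine le_trans (le_of_eq ?_) h8
  rw [hL]; ring

omit [InnerProductSpace ℝ V] [FiniteDimensional ℝ V] [BorelSpace V] in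
theorem sym (μ : Measure V) [SFinite μ] {Φ : V × V → ℝ} (hΦ : Integrable Φ (μ.prod μ))
    (h : ∀ x y, 0 ≤ Φ (x, y) + Φ (y, x)) : 0 ≤ ∫ z, Φ z ∂μ.prod μ := by
  have h1 : ∫ z : V × V, Φ z.swap ∂μ.prod μ = ∫ z, Φ z ∂μ.prod μ := integral_prod_swap Φ
  have h2 : 0 ≤ ∫ z : V × V, (Φ z + Φ z.swap) ∂μ.prod μ := integral_nonneg fun z => h z.1 z.2
  have h3 : Integrable (fun z : V × V => Φ z.swap) (μ.prod μ) := hΦ.swap
  rw [integral_add hΦ h3, h1] at h2
  linarith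

theorem err_le (h : Up n C ν) (hn : 1 ≤ n) (hC : 0 ≤ C) (hr : 0 < r) (hε : 0 < ε) {y : V}
    (hy : ‖y‖ < 4 * r) :
    ∫ x in ball 0 (4 * r), kr n ε (x - y) * ‖x - y‖ ^ 2 ∂ν ≤ 2 ^ (n + 1) * C * (8 * r) := by
  obtain ⟨h1, h2⟩ := h.near hn hC y (s := 8 * r) (by linarith)
  have hs : ball (0 : V) (4 * r) ⊆ ball y (8 * r) := fun x hx => by
    rw [mem_ball_zero_iff] at hx
    rw [mem_ball, dist_eq_norm]
    linarith [norm_sub_le x y]
  have hc : Continuous fun x : V => kr n ε (x - y) * ‖x - y‖ ^ 2 :=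
    ((continuous_kr n hε).comp (by fun_prop)).mul (by fun_prop)
  refine (integral_mono (int_ball h hc _) (h1.mono_set hs) fun x => kr_mul_sq_le hn ε _).trans ?_
  exact (setIntegral_mono_set h1 (Eventually.of_forall fun x => by positivity)
    hs.eventuallyLE).trans h2

theorem near (h : Up n C ν) (hn : 1 ≤ n) (hC : 0 ≤ C) (hr : 1 ≤ r) (he : ‖e‖ ≤ 1) (hε : 0 < ε)
    {ρ : ℝ} (hρ : ρ ≤ r) :
    (∫ x in ball 0 ρ, (∫ y in ball 0 ρ, kr n ε (x - y) * ⟪x - y, e⟫ ^ 2 ∂ν) ∂ν) / 4 ≤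
      ∫ y in ball 0 (4 * r), Ti n ε ν (XX r e q) y ∂ν +
        2 ^ (n + 1) * C * (8 * r) * (1 + 4 * r) ^ (n + 3) *
          ∫ x, vv e q x ^ 2 * (1 + ‖x‖)⁻¹ ^ (n + 3) ∂ν := by
  have := h.locFin
  have hr0 : 0 < r := by linarith
  have hk := continuous_kr (V := V) n hε
  have hv := continuous_vv e q
  have hX := continuous_XX r e q
  have hsub : ball (0 : V) ρ ⊆ ball 0 (4 * r) := ball_subset_ball (by linarith)
  set μ := ν.restrict (ball (0 : V) (4 * r)) with hμ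
  have cF : Continuous fun z : V × V => kr n ε (z.2 - z.1) * ⟪z.2 - z.1, XX r e q z.2⟫ := by
    fun_prop
  have cE : Continuous fun z : V × V =>
      vv e q z.1 ^ 2 * (kr n ε (z.2 - z.1) * ‖z.2 - z.1‖ ^ 2) := by fun_prop
  have cM : Continuous fun z : V × V => kr n ε (z.1 - z.2) * ⟪z.1 - z.2, e⟫ ^ 2 := by fun_prop
  have iF := int_prod h cF (4 * r)
  have iE := int_prod h cE (4 * r)
  have hB : MeasurableSet (ball (0 : V) ρ ×ˢ ball (0 : V) ρ) :=
    measurableSet_ball.prod measurableSet_ball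
  have iM := (int_prod h cM (4 * r)).indicator hB
  have h1 := sym μ ((iF.add iE).sub (iM.div_const 4)) fun x y => by
    have a1 := alg (vv e q y) (vv e q x) (ph r y) (ph r x)
    have a2 : (ph r y - ph r x) ^ 2 ≤ ‖y - x‖ ^ 2 := by
      rw [← sq_abs]; exact pow_le_pow_left₀ (abs_nonneg _) (ph_lip hr y x) 2
    have a3 := kr_nonneg n ε (y - x)
    have a4 : (ph r y - ph r x) ^ 2 * (vv e q y ^ 2 + vv e q x ^ 2) ≤
        ‖y - x‖ ^ 2 * (vv e q y ^ 2 + vv e q x ^ 2) := by gcongr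
    simp only [Pi.add_apply, Pi.sub_apply, inner_XX]
    rw [kr_sub_comm n ε x y, norm_sub_rev x y]
    by_cases hc : x ∈ ball (0 : V) ρ ∧ y ∈ ball (0 : V) ρ
    · rw [Set.indicator_of_mem (Set.mk_mem_prod hc.1 hc.2),
        Set.indicator_of_mem (Set.mk_mem_prod hc.2 hc.1)]
      have b1 : ph r x = 1 := ph_one hr0 (by linarith [mem_ball_zero_iff.1 hc.1])
      have b2 : ph r y = 1 := ph_one hr0 (by linarith [mem_ball_zero_iff.1 hc.2])
      simp only [gg, b1, b2]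
      rw [kr_sub_comm n ε x y, ← vv_sub e q, ← vv_sub e q]
      have b3 := mul_nonneg a3 (sq_nonneg (vv e q y - vv e q x))
      have b4 := mul_nonneg (mul_nonneg a3 (sq_nonneg ‖y - x‖))
        (add_nonneg (sq_nonneg (vv e q y)) (sq_nonneg (vv e q x)))
      nlinarith
    · rw [Set.indicator_of_notMem fun hh => hc (Set.mem_prod.1 hh),
        Set.indicator_of_notMem fun hh => hc (Set.mem_prod.1 hh).symm]
      have b1 : 0 ≤ (ph r y ^ 2 + ph r x ^ 2) * (vv e q y - vv e q x) ^ 2 / 4 := by positivity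
      have b2 : 0 ≤ (vv e q y - vv e q x) * (ph r y ^ 2 * vv e q y - ph r x ^ 2 * vv e q x) +
          ‖y - x‖ ^ 2 * (vv e q y ^ 2 + vv e q x ^ 2) := by linarith
      have b3 := mul_nonneg a3 b2
      simp only [gg]
      nlinarith
  rw [integral_sub' (iF.add iE) (iM.div_const 4), integral_add' iF iE, integral_div,
    integral_indicator hB, ← Measure.prod_restrict, Measure.restrict_restrict_of_subset hsub,
    integral_prod _ (int_prod h cM ρ), integral_prod _ iF, integral_prod _ iE] at h1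
  have h2 : ∫ y, (∫ x, kr n ε (x - y) * ⟪x - y, XX r e q x⟫ ∂μ) ∂μ =
      ∫ y, Ti n ε ν (XX r e q) y ∂μ := by
    refine integral_congr_ae (Eventually.of_forall fun y => ?_)
    refine setIntegral_eq_integral_of_forall_compl_eq_zero fun x hx => ?_
    rw [mem_ball_zero_iff, not_lt] at hx
    rw [XX_zero hr0 (by linarith), inner_zero_right, mul_zero]
  have h3 : ∫ y, (∫ x, vv e q y ^ 2 * (kr n ε (x - y) * ‖x - y‖ ^ 2) ∂μ) ∂μ ≤
      2 ^ (n + 1) * C * (8 * r) * (1 + 4 * r) ^ (n + 3) *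
        ∫ x, vv e q x ^ 2 * (1 + ‖x‖)⁻¹ ^ (n + 3) ∂ν := by
    have i1 := (int_vw h hC he q).const_mul (2 ^ (n + 1) * C * (8 * r) * (1 + 4 * r) ^ (n + 3))
    rw [← integral_const_mul]
    refine le_trans (setIntegral_mono_on iE.integral_prod_left i1.integrableOn measurableSet_ball
      fun y hy => ?_) (setIntegral_le_integral i1 (Eventually.of_forall fun x => by positivity))
    rw [mem_ball_zero_iff] at hy
    rw [integral_const_mul]
    have a1 := err_le h hn hC hr0 hε hy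
    have a2 := one_le_wt hy.le (n + 3)
    have a3 : 0 ≤ vv e q y ^ 2 * (2 ^ (n + 1) * C * (8 * r)) := by positivity
    calc _ ≤ vv e q y ^ 2 * (2 ^ (n + 1) * C * (8 * r)) := by gcongr
      _ ≤ vv e q y ^ 2 * (2 ^ (n + 1) * C * (8 * r)) *
          ((1 + 4 * r) ^ (n + 3) * (1 + ‖y‖)⁻¹ ^ (n + 3)) := le_mul_of_one_le_right a3 a2
      _ = _ := by ring
  simp only at h1
  linarith

theorem total (h : Up n C ν) (hn : 1 ≤ n) (hC : 0 ≤ C) (hr : 1 ≤ r) (he : ‖e‖ ≤ 1) (hε : 0 < ε)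
    {ρ : ℝ} (hρ : ρ ≤ r) (hm : ∫ x, gg r e q x ∂ν = 0) :
    (∫ x in ball 0 ρ, (∫ y in ball 0 ρ, kr n ε (x - y) * ⟪x - y, e⟫ ^ 2 ∂ν) ∂ν) / 4 ≤
      Tf n ε ν (XX r e q) + cK n * (2 * r) * 2 ^ (n + 2) * (1 + 2 * r) ^ (n + 2) *
        (∫ x, |vv e q x| * (1 + ‖x‖)⁻¹ ^ (n + 2) ∂ν) ^ 2 +
        2 ^ (n + 1) * C * (8 * r) * (1 + 4 * r) ^ (n + 3) *
          ∫ x, vv e q x ^ 2 * (1 + ‖x‖)⁻¹ ^ (n + 3) ∂ν := by
  have hr0 : 0 < r := by linarith
  have hK := cK_pos n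
  have hm' : ∫ x, XX r e q x ∂ν = 0 := by
    unfold XX
    rw [integral_smul_const, hm, zero_smul]
  have iT : Integrable (Ti n ε ν (XX r e q)) ν :=
    h.integrable_Ti hC hε (int_XX h hr0) (z := 0) (ρ := 2 * r)
      (fun x hx => XX_zero hr0 (by simpa using hx)) hm'
  have h1 := near (q := q) h hn hC hr he hε hρ
  have h2 := integral_add_compl (measurableSet_ball (x := (0 : V)) (ε := 4 * r)) iT
  have iH := (int_H h hC he q one_pos).1
  have h3 := abs_gg_le (q := q) h hC he hr0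
  have hG : 0 ≤ ∫ x, |gg r e q x| ∂ν := integral_nonneg fun x => abs_nonneg _
  have hH : 0 ≤ ∫ x, |vv e q x| * (1 + ‖x‖)⁻¹ ^ (n + 2) ∂ν :=
    integral_nonneg fun x => by positivity
  set L := cK n * (2 * r) * 2 ^ (n + 2) * ∫ x, |gg r e q x| ∂ν with hL
  have hL0 : 0 ≤ L := by positivity
  have h4 := setIntegral_mono_on ((iH.const_mul L).neg.integrableOn) iT.integrableOn
    (measurableSet_ball (x := (0 : V)) (ε := 4 * r)).compl fun y hy =>
      far h hr hε hm (by simpa using hy)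
  rw [integral_neg', integral_const_mul] at h4
  have h5 := setIntegral_le_integral (s := (ball (0 : V) (4 * r))ᶜ) iH
    (Eventually.of_forall fun x => by positivity)
  have h6 := mul_le_mul_of_nonneg_left h5 hL0
  have h7 : L * ∫ x, |vv e q x| * (1 + ‖x‖)⁻¹ ^ (n + 2) ∂ν ≤
      cK n * (2 * r) * 2 ^ (n + 2) * ((1 + 2 * r) ^ (n + 2) *
        ∫ x, |vv e q x| * (1 + ‖x‖)⁻¹ ^ (n + 2) ∂ν) *
        ∫ x, |vv e q x| * (1 + ‖x‖)⁻¹ ^ (n + 2) ∂ν := by
    rw [hL]; gcongr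
  rw [Tf_eq]
  nlinarith

theorem exists_q (h : Up n C ν) (hl : Low n C 1 ν) (h0 : 0 ∈ ν.support) (hC : 1 ≤ C) (hr : 1 ≤ r)
    (he : ‖e‖ ≤ 1) (p : ℝ) : ∃ q : ℝ, |q| ≤ 2 * r ∧ ∫ x, gg r e q x ∂ν = 0 ∧
      ∫ x, vv e q x ^ 2 * (1 + ‖x‖)⁻¹ ^ (n + 3) ∂ν ≤
        (2 + 2 * (C * (1 + 2 * r) ^ (n + 3)) * (2 ^ (n + 2) * C)) *
          ∫ x, vv e p x ^ 2 * (1 + ‖x‖)⁻¹ ^ (n + 3) ∂ν := by
  have hr0 : 0 < r := by linarith
  have hC0 : 0 < C := by linarith
  have i1 : Integrable (fun x : V => ph r x ^ 2) ν :=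
    int_supp h ((continuous_ph r).pow 2) fun x hx => by rw [ph_zero hr0 hx]; ring
  have i2 : Integrable (gg r e 0) ν := int_gg h hr0
  set m := ∫ x : V, ph r x ^ 2 ∂ν with hm
  have hm1 : 1 ≤ C * m := by
    have a1 := hl.real_ball h h0 one_pos le_rfl
    have a2 : ∫ x in ball (0 : V) 1, ph r x ^ 2 ∂ν = ν.real (ball 0 1) := by
      rw [setIntegral_congr_fun measurableSet_ball (g := fun _ => (1 : ℝ)) fun x hx => by
        rw [mem_ball_zero_iff] at hx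
        simp only
        rw [ph_one hr0 (by linarith), one_pow]]
      simp
    have a3 := setIntegral_le_integral (s := ball (0 : V) 1) i1
      (Eventually.of_forall fun x => sq_nonneg _)
    rw [one_pow, div_le_iff₀ hC0] at a1
    nlinarith
  have hm0 : 0 < m := by
    by_contra hc
    nlinarith [not_lt.1 hc]
  have e1 : ∀ s : ℝ, ∫ x, gg r e s x ∂ν = ∫ x, gg r e 0 x ∂ν - s * m := by
    intro s
    rw [hm, ← integral_const_mul, ← integral_sub i2 (i1.const_mul s)]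
    refine integral_congr_ae (Eventually.of_forall fun x => ?_)
    simp only [gg, vv]
    ring
  set q := (∫ x, gg r e 0 x ∂ν) / m with hq
  have e2 : ∫ x, gg r e 0 x ∂ν = q * m := by rw [hq]; field_simp
  refine ⟨q, ?_, by rw [e1, e2, sub_self], ?_⟩
  · have a1 : |∫ x, gg r e 0 x ∂ν| ≤ 2 * r * m := by
      rw [hm, ← integral_const_mul]
      refine abs_integral_le_integral_abs.trans (integral_mono i2.abs (i1.const_mul _) fun x => ?_)
      change |gg r e 0 x| ≤ 2 * r * ph r x ^ 2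
      by_cases hx : ‖x‖ ≤ 2 * r
      · have b1 := abs_vv he 0 x
        rw [abs_zero, add_zero] at b1
        rw [gg, abs_mul, abs_of_nonneg (sq_nonneg _), mul_comm]
        exact mul_le_mul_of_nonneg_right (b1.trans hx) (sq_nonneg _)
      · rw [gg_zero hr0 (not_le.1 hx).le, abs_zero]
        positivity
    rw [e2, abs_mul, abs_of_pos hm0] at a1
    exact le_of_mul_le_mul_right a1 hm0
  · have iu := int_vw h hC0.le he p
    obtain ⟨i3, i4⟩ := int_dec h hC0.le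
    set E := ∫ x, vv e p x ^ 2 * (1 + ‖x‖)⁻¹ ^ (n + 3) ∂ν with hE
    have hE0 : 0 ≤ E := integral_nonneg fun x => by positivity
    have a1 : 2 * (q - p) * ∫ x, gg r e p x ∂ν ≤ (1 + 2 * r) ^ (n + 3) * E + (q - p) ^ 2 * m := by
      rw [hE, hm, ← integral_const_mul, ← integral_const_mul, ← integral_const_mul,
        ← integral_add (iu.const_mul _) (i1.const_mul _)]
      refine integral_mono ((int_gg h hr0).const_mul _) ((iu.const_mul _).add (i1.const_mul _))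
        fun x => ?_
      change 2 * (q - p) * gg r e p x ≤ (1 + 2 * r) ^ (n + 3) *
        (vv e p x ^ 2 * (1 + ‖x‖)⁻¹ ^ (n + 3)) + (q - p) ^ 2 * ph r x ^ 2
      by_cases hx : ‖x‖ ≤ 2 * r
      · have b1 := mul_le_mul_of_nonneg_left (one_le_wt hx (n + 3)) (sq_nonneg (vv e p x))
        have b2 := mul_le_mul_of_nonneg_left (ph_sq_le r x) (sq_nonneg (vv e p x))
        have b3 := mul_nonneg (sq_nonneg (ph r x)) (sq_nonneg (vv e p x - (q - p)))
        rw [gg]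
        nlinarith
      · rw [gg_zero hr0 (not_le.1 hx).le, mul_zero]
        positivity
    rw [e1, e2] at a1
    have a2 : (q - p) ^ 2 ≤ C * (1 + 2 * r) ^ (n + 3) * E := by
      have b1 : (q - p) ^ 2 * m ≤ (1 + 2 * r) ^ (n + 3) * E := by nlinarith
      have b2 := mul_le_mul_of_nonneg_left b1 hC0.le
      have b3 := mul_le_mul_of_nonneg_left hm1 (sq_nonneg (q - p))
      nlinarith
    have a3 : ∫ x, vv e q x ^ 2 * (1 + ‖x‖)⁻¹ ^ (n + 3) ∂ν ≤
        2 * E + 2 * (q - p) ^ 2 * ∫ x : V, (1 + ‖x‖)⁻¹ ^ (n + 1) ∂ν := by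
      rw [hE, ← integral_const_mul, ← integral_const_mul,
        ← integral_add (iu.const_mul _) (i3.const_mul _)]
      refine integral_mono (int_vw h hC0.le he q) ((iu.const_mul _).add (i3.const_mul _))
        fun x => ?_
      change vv e q x ^ 2 * (1 + ‖x‖)⁻¹ ^ (n + 3) ≤ 2 * (vv e p x ^ 2 * (1 + ‖x‖)⁻¹ ^ (n + 3)) +
        2 * (q - p) ^ 2 * (1 + ‖x‖)⁻¹ ^ (n + 1)
      have b1 : (1 + ‖x‖)⁻¹ ^ (n + 3) ≤ (1 + ‖x‖)⁻¹ ^ (n + 1) :=
        pow_le_pow_of_le_one (by positivity)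
          (inv_le_one_of_one_le₀ (by linarith [norm_nonneg x])) (by omega)
      have b2 : vv e q x ^ 2 ≤ 2 * vv e p x ^ 2 + 2 * (q - p) ^ 2 := by
        have : vv e q x = vv e p x - (q - p) := by unfold vv; ring
        rw [this]
        nlinarith [sq_nonneg (vv e p x + (q - p))]
      have b3 := mul_le_mul_of_nonneg_right b2 (by positivity : 0 ≤ (1 + ‖x‖)⁻¹ ^ (n + 3))
      have b4 := mul_le_mul_of_nonneg_left b1 (sq_nonneg (q - p))
      nlinarith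
    calc _ ≤ 2 * E + 2 * (C * (1 + 2 * r) ^ (n + 3) * E) * (2 ^ (n + 2) * C) := by
          refine a3.trans ?_
          gcongr
      _ = _ := by ring

end meas

end CaccX

open CaccX in
theorem cacc_pf : Cacc_stmt := by
  intro V _ _ _ _ _ n C hn hC ρ hρ
  obtain ⟨r, hr, hρr, hrA⟩ : ∃ r : ℝ, 1 ≤ r ∧ ρ ≤ r ∧ r ≤ ρ + 1 :=
    ⟨ρ + 1, by linarith, by linarith, le_rfl⟩
  have hr0 : 0 < r := by linarith
  have hC0 : 0 ≤ C := by linarith
  have hK := cK_pos n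
  obtain ⟨c₁, hc₁, hc₁0⟩ : ∃ c : ℝ, c = 2 + 2 * (C * (1 + 2 * r) ^ (n + 3)) * (2 ^ (n + 2) * C) ∧
    0 ≤ c := ⟨_, rfl, by positivity⟩
  obtain ⟨c₂, hc₂, hc₂0⟩ : ∃ c : ℝ, c = cK n * (2 * r) * 2 ^ (n + 2) * (1 + 2 * r) ^ (n + 2) ∧
    0 ≤ c := ⟨_, rfl, by positivity⟩
  obtain ⟨c₃, hc₃, hc₃0⟩ : ∃ c : ℝ, c = 2 ^ (n + 1) * C * (8 * r) * (1 + 4 * r) ^ (n + 3) ∧
    0 ≤ c := ⟨_, rfl, by positivity⟩
  obtain ⟨c₄, hc₄, hc₄0⟩ : ∃ c : ℝ, c = (c₁ + 2 ^ (n + 2) * C) / 2 ∧ 0 ≤ c :=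
    ⟨_, rfl, by positivity⟩
  refine ⟨4 * ((8 * r + 1) + c₂ * c₄ ^ 2 + c₃ * c₁), ?_⟩
  intro ν e p δ η A h hl h0 he hδ _ hη hA hg hE
  obtain ⟨q, hq, hm, hv⟩ := exists_q h hl h0 hC hr he p
  have hE' : ∫ x, vv e p x ^ 2 * (1 + ‖x‖)⁻¹ ^ (n + 3) ∂ν ≤ δ ^ 2 := by
    simp only [wt_unit] at hE
    exact hE
  have h1 : ∫ x, vv e q x ^ 2 * (1 + ‖x‖)⁻¹ ^ (n + 3) ∂ν ≤ c₁ * δ ^ 2 := by
    rw [← hc₁] at hv
    exact hv.trans (mul_le_mul_of_nonneg_left hE' hc₁0)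
  have h2 : ∫ x, |vv e q x| * (1 + ‖x‖)⁻¹ ^ (n + 2) ∂ν ≤ c₄ * δ := by
    refine (int_H h hC0 he q hδ).2.trans ?_
    have a1 : (∫ x, vv e q x ^ 2 * (1 + ‖x‖)⁻¹ ^ (n + 3) ∂ν) / δ ≤ c₁ * δ := by
      rw [div_le_iff₀ hδ]; linarith
    rw [hc₄]; linarith
  have h3 : (∫ x, |vv e q x| * (1 + ‖x‖)⁻¹ ^ (n + 2) ∂ν) ^ 2 ≤ (c₄ * δ) ^ 2 :=
    pow_le_pow_left₀ (integral_nonneg fun x => by positivity) h2 2
  have h8 : 0 < 8 * r + 1 := by linarith
  have h4 := hg _ (XX_lip hr he hq)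
    (fun x hx => by rw [XX_zero hr0 (by rw [sub_zero] at hx; linarith), smul_zero])
    (by
      unfold XX
      rw [integral_smul, integral_smul_const, hm, zero_smul, smul_zero])
  filter_upwards [h4, self_mem_nhdsWithin] with ε h5 hε
  rw [Tf_smul, one_pow, mul_one, abs_mul, abs_of_pos (inv_pos.2 h8), inv_mul_le_iff₀ h8] at h5
  have h6 := total h hn hC0 hr he hε hρr hm
  rw [← hc₂, ← hc₃] at h6
  have h7 := le_abs_self (Tf n ε ν (XX r e q))
  have a1 := mul_le_mul_of_nonneg_left h3 hc₂0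
  have a2 := mul_le_mul_of_nonneg_left h1 hc₃0
  have a3 : 0 ≤ (8 * r + 1) * δ ^ 2 := by positivity
  have a4 : 0 ≤ c₂ * c₄ ^ 2 * η := by positivity
  have a5 : 0 ≤ c₃ * c₁ * η := by positivity
  nlinarith

end Vale.Agent.P120
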