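import Vale.Agent.P120.Bas

/-! P120: the Carleson bound for bad nodes. -/

namespace Vale.Agent.P120.CarX

open MeasureTheory Metric Filter Module
open scoped Topology ENNReal NNReal RealInnerProductSpace

variable {V : Type} [NormedAddCommGroup V] [InnerProductSpace ℝ V] [FiniteDimensional ℝ V]

theorem exists_pack (R : ℝ) : ∃ N : ℕ, ∀ (z : V) (r : ℝ), 0 < r → ∀ s : Finset V,
    (∀ x ∈ s, ‖x - z‖ ≤ R * r) → (∀ x ∈ s, ∀ y ∈ s, x ≠ y → r ≤ dist x y) → s.card ≤ N := by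
  classical
  obtain ⟨t, -, htf, hcov⟩ :=
    finite_cover_balls_of_compact (isCompact_closedBall (0 : V) R) (e := 1 / 2) (by norm_num)
  refine ⟨htf.toFinset.card, fun z r hr s h1 h2 => ?_⟩
  have hc : ∀ x ∈ s, ∃ c ∈ t, r⁻¹ • (x - z) ∈ ball c (1 / 2) := by
    intro x hx
    have hm : r⁻¹ • (x - z) ∈ closedBall (0 : V) R := by
      rw [mem_closedBall_zero_iff, norm_smul, norm_inv, Real.norm_of_nonneg hr.le,
        inv_mul_le_iff₀ hr]
      linarith [h1 x hx]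
    simpa using hcov hm
  choose! c hct hc using hc
  refine Finset.card_le_card_of_injOn c (fun x hx => by simpa using hct x hx) ?_
  intro x hx y hy hxy
  by_contra hne
  have h3 := h2 x hx y hy hne
  have h4 := hc x hx
  have h5 := hc y hy
  rw [← hxy] at h5
  have h6 : dist (r⁻¹ • (x - z)) (r⁻¹ • (y - z)) < 1 := by
    have := dist_triangle_right (r⁻¹ • (x - z)) (r⁻¹ • (y - z)) (c x)
    rw [mem_ball] at h4 h5
    linarith
  rw [dist_eq_norm, ← smul_sub, sub_sub_sub_cancel_right, norm_smul, norm_inv,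
    Real.norm_of_nonneg hr.le, inv_mul_lt_iff₀ hr, ← dist_eq_norm] at h6
  linarith

/-- A mean zero Lipschitz field carried by a ball. -/
structure Fld [MeasurableSpace V] (ν : Measure V) (z : V) (ρ : ℝ) (X : V → V) : Prop where
  lip : LipschitzWith 1 X
  out : ∀ x, ρ ≤ ‖x - z‖ → X x = 0
  mean : ∫ x, X x ∂ν = 0

variable [MeasurableSpace V] [BorelSpace V] {n : ℕ} {C : ℝ} {ν : Measure V} {z z' : V}
  {ρ ρ' : ℝ} {X X' : V → V}

omit [FiniteDimensional ℝ V] [BorelSpace V] in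
theorem Fld.norm_le (h : Fld ν z ρ X) (hρ : 0 < ρ) (x : V) : ‖X x‖ ≤ 2 * ρ := by
  rcases subsingleton_or_nontrivial V with hV | hV
  · rw [Subsingleton.elim (X x) 0, norm_zero]; positivity
  by_cases hx : ρ ≤ ‖x - z‖
  · rw [h.out x hx, norm_zero]; positivity
  obtain ⟨u, hu⟩ := exists_norm_eq V hρ.le
  have h1 : X (z + u) = 0 := h.out _ (by simp [hu])
  have h2 := h.lip.dist_le_mul x (z + u)
  rw [h1, dist_zero_right, dist_eq_norm] at h2
  have h3 : ‖x - (z + u)‖ ≤ ‖x - z‖ + ‖u‖ := by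
    rw [← sub_sub]; exact norm_sub_le _ _
  push Not at hx
  simp only [NNReal.coe_one, one_mul] at h2
  linarith

omit [BorelSpace V] in
theorem Fld.hcs (h : Fld ν z ρ X) : HasCompactSupport X := by
  refine HasCompactSupport.intro (isCompact_closedBall z ρ) fun x hx => h.out x ?_
  rw [mem_closedBall, dist_eq_norm] at hx
  push Not at hx
  exact hx.le

theorem Fld.integrable (h : Fld ν z ρ X) (hu : Up n C ν) : Integrable X ν := by
  have := hu.locFin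
  exact h.lip.continuous.integrable_of_hasCompactSupport h.hcs

theorem Fld.l1 (h : Fld ν z ρ X) (hu : Up n C ν) (hC : 0 ≤ C) (hρ : 0 < ρ) :
    ∫ x, ‖X x‖ ∂ν ≤ 2 * C * ρ ^ (n + 1) := by
  have := hu.locFin
  have h1 : ∫ x, ‖X x‖ ∂ν = ∫ x in ball z ρ, ‖X x‖ ∂ν := by
    refine (setIntegral_eq_integral_of_forall_compl_eq_zero fun x hx => ?_).symm
    rw [mem_ball, dist_eq_norm] at hx
    push Not at hx
    rw [h.out x hx, norm_zero]
  have h2 : ‖∫ x in ball z ρ, ‖X x‖ ∂ν‖ ≤ 2 * ρ * ν.real (ball z ρ) :=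
    norm_setIntegral_le_of_norm_le_const measure_ball_lt_top fun x _ => by
      rw [norm_norm]; exact h.norm_le hρ x
  have h3 := hu.real_ball hC z hρ
  rw [h1]
  calc _ ≤ ‖∫ x in ball z ρ, ‖X x‖ ∂ν‖ := le_abs_self _
    _ ≤ 2 * ρ * (C * ρ ^ n) := h2.trans (by gcongr)
    _ = _ := by ring

theorem Fld.integrable_inner (h' : Fld ν z' ρ' X') (hu : Up n C ν) {Y : V → V}
    (hY : Continuous Y) : Integrable (fun x => ⟪Y x, X' x⟫) ν := by
  have := hu.locFin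
  refine (hY.inner h'.lip.continuous).integrable_of_hasCompactSupport ?_
  refine HasCompactSupport.intro (isCompact_closedBall z' ρ') fun x hx => ?_
  rw [mem_closedBall, dist_eq_norm] at hx
  push Not at hx
  rw [h'.out x hx.le, inner_zero_right]

theorem Fld.pair (h : Fld ν z ρ X) (h' : Fld ν z' ρ' X') (hu : Up n C ν) (hC : 0 ≤ C)
    (hρ : 0 < ρ') : |∫ x, ⟪X x, X' x⟫ ∂ν| ≤ 2 * C * ρ' ^ (n + 2) := by
  have hi := h'.integrable hu
  have h1 : ∫ x, ⟪X z', X' x⟫ ∂ν = 0 := by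
    rw [integral_inner hi, h'.mean, inner_zero_right]
  have h2 : ∫ x, ⟪X x, X' x⟫ ∂ν = ∫ x, ⟪X x - X z', X' x⟫ ∂ν := by
    simp only [inner_sub_left]
    rw [integral_sub (h'.integrable_inner hu h.lip.continuous)
      (h'.integrable_inner hu continuous_const), h1, sub_zero]
  rw [h2]
  have h3 : ∀ x, ‖⟪X x - X z', X' x⟫‖ ≤ ρ' * ‖X' x‖ := by
    intro x
    by_cases hx : ρ' ≤ ‖x - z'‖
    · simp [h'.out x hx]
    push Not at hx
    refine (norm_inner_le_norm _ _).trans ?_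
    gcongr
    have := h.lip.dist_le_mul x z'
    rw [dist_eq_norm, dist_eq_norm] at this
    simp only [NNReal.coe_one, one_mul] at this
    linarith
  have h4 := norm_integral_le_of_norm_le (hi.norm.const_mul ρ') (Eventually.of_forall h3)
  rw [integral_const_mul] at h4
  have h5 := h'.l1 hu hC hρ
  calc _ ≤ ρ' * ∫ x, ‖X' x‖ ∂ν := h4
    _ ≤ ρ' * (2 * C * ρ' ^ (n + 1)) := by gcongr
    _ = _ := by ring

omit [FiniteDimensional ℝ V] [BorelSpace V] in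
theorem Fld.pair_zero (h : Fld ν z ρ X) (h' : Fld ν z' ρ' X') (hz : ρ + ρ' ≤ ‖z - z'‖) :
    ∫ x, ⟪X x, X' x⟫ ∂ν = 0 := by
  have : ∀ x, ⟪X x, X' x⟫ = 0 := by
    intro x
    by_cases hx : ρ ≤ ‖x - z‖
    · simp [h.out x hx]
    by_cases hx' : ρ' ≤ ‖x - z'‖
    · simp [h'.out x hx']
    push Not at hx hx'
    have : ‖z - z'‖ ≤ ‖x - z‖ + ‖x - z'‖ := by
      have := dist_triangle_left z z' x
      simpa only [dist_eq_norm] using this
    linarith
  simp [this]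

theorem ev_of_not_good (hu : Up n C ν) (hn : 1 ≤ n) (hC : 1 ≤ C) {r A η : ℝ} (hr : 0 < r)
    (hA : 1 ≤ A) (hη : 0 < η) (h : ¬ Good n ν z r A η) : ∃ X, Fld ν z (A * r) X ∧
    ∀ᶠ ε in 𝓝[>] (0 : ℝ), η * r ^ (n + 1) / 2 ≤ |Tf n ε ν X| := by
  unfold Good at h
  push Not at h
  obtain ⟨X, h1, h2, h3, h4⟩ := h
  refine ⟨X, ⟨h1, h2, h3⟩, ?_⟩
  have hK := cK_pos n
  have hρ : 0 < A * r := by positivity
  set B : ℝ := cK n * C ^ 2 * (A * r) ^ n with hB
  have hBpos : 0 < B := by positivity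
  have he : 0 < η * r ^ (n + 1) / 2 / B := by positivity
  filter_upwards [Ioc_mem_nhdsGT he] with ε hε
  obtain ⟨ε', h5, h6⟩ := (h4.and_eventually (Ioc_mem_nhdsGT hε.1)).exists
  have h7 := hu.Tf_cauchy hn (by linarith) h1 hρ h2 h3 h6.1 h6.2
  have h8 : B * ε ≤ η * r ^ (n + 1) / 2 := by
    have := hε.2
    rw [le_div_iff₀ hBpos] at this
    linarith
  simp only [NNReal.coe_one, mul_one] at h7
  have h9 := abs_sub_abs_le_abs_sub (Tf n ε' ν X) (Tf n ε ν X)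
  linarith

theorem Fld.far (h : Fld ν z ρ X) (hu : Up n C ν) (hC : 0 ≤ C) (hρ : 0 < ρ) {ε L : ℝ}
    (hε : 0 < ε) (hL : 2 * ρ ≤ L) {f : V → ℝ} (hf : Continuous f) (h0 : ∀ x, 0 ≤ f x)
    (h1 : ∀ x, f x ≤ 1) (h2 : ∀ x, ‖x - z‖ < L → f x = 1) :
    |Tf n ε ν X - ∫ y, f y * Ti n ε ν X y ∂ν| ≤
      cK n * 2 ^ (n + 2) * C ^ 2 * ρ ^ (n + 2) * L⁻¹ := by
  have hi := h.integrable hu
  have hL0 : 0 < L := by linarith
  have hT := hu.integrable_Ti hC hε hi h.out h.mean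
  have hfT : Integrable (fun y => f y * Ti n ε ν X y) ν :=
    hT.bdd_mul (c := 1) hf.aestronglyMeasurable (Eventually.of_forall fun x => by
      rw [Real.norm_of_nonneg (h0 x)]; exact h1 x)
  rw [Tf_eq, ← integral_sub hT hfT]
  have h3 : ∫ y, (Ti n ε ν X y - f y * Ti n ε ν X y) ∂ν =
      ∫ y in (ball z L)ᶜ, (Ti n ε ν X y - f y * Ti n ε ν X y) ∂ν := by
    refine (setIntegral_eq_integral_of_forall_compl_eq_zero fun x hx => ?_).symm
    simp only [Set.mem_compl_iff, not_not, mem_ball, dist_eq_norm] at hx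
    rw [h2 x hx]; ring
  obtain ⟨h4, h5⟩ := hu.far hC z hL0 (a := 1) le_rfl
  have hK := cK_pos n
  have h6 := h.l1 hu hC hρ
  set M : ℝ := cK n * ρ * (2 * C * ρ ^ (n + 1)) with hM
  have h7 : ∀ y ∈ (ball z L)ᶜ, ‖Ti n ε ν X y - f y * Ti n ε ν X y‖ ≤ M * ‖y - z‖⁻¹ ^ (n + 1) := by
    intro y hy
    simp only [Set.mem_compl_iff, mem_ball, dist_eq_norm, not_lt] at hy
    have h8 := Ti_far (n := n) hε hi h.out h.mean (hL.trans hy)
    have h9 : Ti n ε ν X y - f y * Ti n ε ν X y = (1 - f y) * Ti n ε ν X y := by ring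
    rw [h9, Real.norm_eq_abs, abs_mul, abs_of_nonneg (by linarith [h1 y])]
    calc (1 - f y) * |Ti n ε ν X y| ≤ 1 * |Ti n ε ν X y| := by gcongr; linarith [h0 y]
      _ ≤ cK n * ρ * ‖y - z‖⁻¹ ^ (n + 1) * ∫ x, ‖X x‖ ∂ν := by rw [one_mul]; exact h8
      _ ≤ cK n * ρ * ‖y - z‖⁻¹ ^ (n + 1) * (2 * C * ρ ^ (n + 1)) := by gcongr
      _ = _ := by rw [hM]; ring
  have h8 := norm_integral_le_of_norm_le (h4.const_mul M)
    ((ae_restrict_iff' measurableSet_ball.compl).2 (Eventually.of_forall h7))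
  rw [integral_const_mul] at h8
  rw [h3]
  calc _ ≤ M * ∫ y in (ball z L)ᶜ, ‖y - z‖⁻¹ ^ (n + 1) ∂ν := h8
    _ ≤ M * (2 ^ (n + 1) * C * L⁻¹ ^ 1) := by gcongr
    _ = _ := by rw [hM]; ring

omit [InnerProductSpace ℝ V] [FiniteDimensional ℝ V] [MeasurableSpace V] [BorelSpace V] in
theorem row_le {θ A r₀ : ℝ} (hθ : 0 < θ) (hθ' : θ ≤ 1 / 2) (hr : 0 < r₀) {N : ℕ}
    (hN : ∀ (z : V) (r : ℝ), 0 < r → ∀ s : Finset V, (∀ x ∈ s, ‖x - z‖ ≤ 2 * A * r) →
      (∀ x ∈ s, ∀ y ∈ s, x ≠ y → r ≤ dist x y) → s.card ≤ N) (F : Finset (ℕ × V))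
    (hF : ∀ q ∈ F, ∀ q' ∈ F, q.1 = q'.1 → q ≠ q' → θ ^ q.1 * r₀ ≤ dist q.2 q'.2) (q' : ℕ × V)
    (b : ℕ × V → ℝ) {K : ℝ} (hK : 0 ≤ K) (h1 : ∀ q ∈ F, q'.1 < q.1 → b q = 0)
    (h2 : ∀ q ∈ F, 2 * A * (θ ^ q.1 * r₀) < ‖q.2 - q'.2‖ → b q = 0)
    (h3 : ∀ q ∈ F, q.1 ≤ q'.1 → b q ≤ K * θ ^ (q'.1 - q.1)) : ∑ q ∈ F, b q ≤ 2 * N * K := by
  classical
  set G := F.filter fun q => q.1 ≤ q'.1 ∧ ‖q.2 - q'.2‖ ≤ 2 * A * (θ ^ q.1 * r₀) with hG
  have e1 : ∑ q ∈ F, b q = ∑ q ∈ G, b q := by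
    refine (Finset.sum_filter_of_ne fun q hq hb => ?_).symm
    exact ⟨not_lt.1 fun h => hb (h1 q hq h), not_lt.1 fun h => hb (h2 q hq h)⟩
  have e2 : ∑ q ∈ G, b q = ∑ j ∈ Finset.range (q'.1 + 1), ∑ q ∈ G with q.1 = j, b q := by
    refine (Finset.sum_fiberwise_of_maps_to (fun q hq => ?_) _).symm
    have := (Finset.mem_filter.1 hq).2.1
    simp only [Finset.mem_range]; omega
  have e3 : ∀ j ∈ Finset.range (q'.1 + 1),
      ∑ q ∈ G with q.1 = j, b q ≤ N * K * (1 / 2) ^ (q'.1 - j) := by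
    intro j _
    have hc : (G.filter fun q => q.1 = j).card ≤ N := by
      have hinj : Set.InjOn Prod.snd ((G.filter fun q => q.1 = j : Finset (ℕ × V)) :
          Set (ℕ × V)) := by
        intro q hq p hp h
        have h4 := (Finset.mem_filter.1 hq).2
        have h5 := (Finset.mem_filter.1 hp).2
        exact Prod.ext (h4.trans h5.symm) h
      rw [← Finset.card_image_of_injOn hinj]
      refine hN q'.2 (θ ^ j * r₀) (by positivity) _ ?_ ?_
      · intro x hx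
        obtain ⟨q, hq, rfl⟩ := Finset.mem_image.1 hx
        obtain ⟨h4, h5⟩ := Finset.mem_filter.1 hq
        rw [← h5]
        exact (Finset.mem_filter.1 h4).2.2
      · intro x hx y hy hxy
        obtain ⟨q, hq, rfl⟩ := Finset.mem_image.1 hx
        obtain ⟨p, hp, rfl⟩ := Finset.mem_image.1 hy
        obtain ⟨h4, h5⟩ := Finset.mem_filter.1 hq
        obtain ⟨h6, h7⟩ := Finset.mem_filter.1 hp
        rw [← h5]
        exact hF q (Finset.mem_filter.1 h4).1 p (Finset.mem_filter.1 h6).1 (h5.trans h7.symm)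
          fun h => hxy (by rw [h])
    have h4 : ∀ q ∈ G.filter fun q => q.1 = j, b q ≤ K * (1 / 2) ^ (q'.1 - j) := by
      intro q hq
      obtain ⟨h4, h5⟩ := Finset.mem_filter.1 hq
      obtain ⟨h6, h7⟩ := Finset.mem_filter.1 h4
      refine (h3 q h6 h7.1).trans ?_
      rw [h5]; gcongr
    refine (Finset.sum_le_card_nsmul _ _ _ h4).trans ?_
    rw [nsmul_eq_mul, mul_assoc]
    gcongr
  rw [e1, e2]
  refine (Finset.sum_le_sum e3).trans ?_
  rw [← Finset.mul_sum, Finset.sum_flip fun k => (1 / 2 : ℝ) ^ k]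
  have := sum_geometric_two_le (q'.1 + 1)
  have h0 : (0 : ℝ) ≤ N * K := by positivity
  nlinarith

theorem gram (hu : Up n C ν) (hC : 0 ≤ C) {θ A r₀ : ℝ} (hθ : 0 < θ) (hθ' : θ ≤ 1 / 2)
    (hA : 1 ≤ A) (hr : 0 < r₀) {N : ℕ}
    (hN : ∀ (z : V) (r : ℝ), 0 < r → ∀ s : Finset V, (∀ x ∈ s, ‖x - z‖ ≤ 2 * A * r) →
      (∀ x ∈ s, ∀ y ∈ s, x ≠ y → r ≤ dist x y) → s.card ≤ N) (F : Finset (ℕ × V))
    (hF : ∀ q ∈ F, ∀ q' ∈ F, q.1 = q'.1 → q ≠ q' → θ ^ q.1 * r₀ ≤ dist q.2 q'.2)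
    (Y : ℕ × V → V → V) (hY : ∀ q ∈ F, Fld ν q.2 (A * (θ ^ q.1 * r₀)) (Y q)) (c : ℕ × V → ℝ)
    (hc : ∀ q ∈ F, |c q| ≤ (θ ^ q.1 * r₀)⁻¹) :
    ∫ x, ‖∑ q ∈ F, c q • Y q x‖ ^ 2 ∂ν ≤
      8 * N * C * A ^ (n + 2) * ∑ q ∈ F, (θ ^ q.1 * r₀) ^ n := by
  classical
  set a : ℕ × V → ℕ × V → ℝ := fun q q' => c q * c q' * ∫ x, ⟪Y q x, Y q' x⟫ ∂ν with ha
  have hsym : ∀ q q', a q q' = a q' q := by
    intro q q'
    simp only [ha, real_inner_comm (Y q _), mul_comm (c q)]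
  have e1 : ∫ x, ‖∑ q ∈ F, c q • Y q x‖ ^ 2 ∂ν = ∑ q ∈ F, ∑ q' ∈ F, a q q' := by
    have : ∀ x, ‖∑ q ∈ F, c q • Y q x‖ ^ 2 =
        ∑ q ∈ F, ∑ q' ∈ F, c q * c q' * ⟪Y q x, Y q' x⟫ := by
      intro x
      rw [← real_inner_self_eq_norm_sq, sum_inner]
      refine Finset.sum_congr rfl fun q _ => ?_
      rw [inner_sum]
      refine Finset.sum_congr rfl fun q' _ => ?_
      rw [real_inner_smul_left, real_inner_smul_right]; ring
    simp only [this]
    have hi : ∀ q ∈ F, ∀ q' ∈ F, Integrable (fun x => c q * c q' * ⟪Y q x, Y q' x⟫) ν :=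
      fun q hq q' hq' => ((hY q' hq').integrable_inner hu (hY q hq).lip.continuous).const_mul _
    rw [integral_finsetSum _ fun q hq => integrable_finsetSum _ (hi q hq)]
    refine Finset.sum_congr rfl fun q hq => ?_
    rw [integral_finsetSum _ (hi q hq)]
    refine Finset.sum_congr rfl fun q' _ => ?_
    rw [integral_const_mul]
  set b : ℕ × V → ℕ × V → ℝ := fun q' q => if q.1 ≤ q'.1 then |a q q'| else 0 with hb
  have e2 : ∀ q q', a q q' ≤ b q' q + b q q' := by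
    intro q q'
    have h1 := le_abs_self (a q q')
    have h2 := abs_nonneg (a q q')
    simp only [hb]
    rw [hsym q' q]
    split_ifs with h3 h4 h4
    · linarith
    · linarith
    · linarith
    · omega
  have e3 : ∀ q' ∈ F, ∑ q ∈ F, b q' q ≤ 2 * N * (2 * C * A ^ (n + 2) * (θ ^ q'.1 * r₀) ^ n) := by
    intro q' hq'
    refine row_le hθ hθ' hr hN F hF q' _ (by positivity) ?_ ?_ ?_
    · intro q _ h
      simp only [hb]
      rw [if_neg (by omega)]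
    · intro q hq h
      simp only [hb]
      split_ifs with h1
      · have h2 : θ ^ q'.1 ≤ θ ^ q.1 := pow_le_pow_of_le_one hθ.le (by linarith) h1
        have h3 : A * (θ ^ q'.1 * r₀) ≤ A * (θ ^ q.1 * r₀) := by gcongr
        simp only [ha]
        rw [(hY q hq).pair_zero (hY q' hq') (by linarith)]
        simp
      · rfl
    · intro q hq h
      simp only [hb]
      rw [if_pos h]
      simp only [ha, abs_mul]
      have h1 := (hY q hq).pair (hY q' hq') hu hC (by positivity)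
      obtain ⟨i, hi⟩ := Nat.exists_eq_add_of_le h
      have h2 : q'.1 - q.1 = i := by omega
      calc _ ≤ (θ ^ q.1 * r₀)⁻¹ * (θ ^ q'.1 * r₀)⁻¹ * (2 * C * (A * (θ ^ q'.1 * r₀)) ^ (n + 2)) := by
            gcongr
            · exact hc q hq
            · exact hc q' hq'
        _ = _ := by
            rw [h2, hi, pow_add θ]
            field_simp
            ring
  rw [e1]
  calc ∑ q ∈ F, ∑ q' ∈ F, a q q' ≤ ∑ q ∈ F, ∑ q' ∈ F, (b q' q + b q q') :=
        Finset.sum_le_sum fun q _ => Finset.sum_le_sum fun q' _ => e2 q q'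
    _ = 2 * ∑ q' ∈ F, ∑ q ∈ F, b q' q := by
        simp only [Finset.sum_add_distrib]
        rw [Finset.sum_comm]; ring
    _ ≤ 2 * ∑ q' ∈ F, 2 * N * (2 * C * A ^ (n + 2) * (θ ^ q'.1 * r₀) ^ n) := by
        gcongr with q' hq'
        exact e3 q' hq'
    _ = _ := by
        rw [Finset.mul_sum, Finset.mul_sum]
        exact Finset.sum_congr rfl fun q _ => by ring

theorem bd_sq (hb : BD n C ν) {ε : ℝ} (hε : 0 < ε) {f : V → ℝ} (hf : Continuous f)
    (hs : HasCompactSupport f) (hi : Integrable f ν) :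
    Integrable (fun x => ‖Rz n ε ν f x‖ ^ 2) ν ∧
    ∫ x, ‖Rz n ε ν f x‖ ^ 2 ∂ν ≤ C ^ 2 * ∫ y, f y ^ 2 ∂ν := by
  have h1 := hb ε hε f hf hs
  have hc : Continuous fun x => ‖Rz n ε ν f x‖ ^ 2 := (continuous_Rz hε hi).norm.pow 2
  have h2 : ∫⁻ x, ENNReal.ofReal (‖Rz n ε ν f x‖ ^ 2) ∂ν = ∫⁻ x, ‖Rz n ε ν f x‖ₑ ^ 2 ∂ν := by
    refine lintegral_congr fun x => ?_
    rw [ENNReal.ofReal_pow (norm_nonneg _), ofReal_norm]
  have h0 : 0 ≤ᵐ[ν] fun x => ‖Rz n ε ν f x‖ ^ 2 := Eventually.of_forall fun x => by positivity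
  refine ⟨⟨hc.aestronglyMeasurable, ?_⟩, ?_⟩
  · rw [hasFiniteIntegral_iff_ofReal h0, h2]
    exact h1.trans_lt ENNReal.ofReal_lt_top
  · rw [integral_eq_lintegral_of_nonneg_ae h0 hc.aestronglyMeasurable, h2]
    exact ENNReal.toReal_le_of_le_ofReal
      (mul_nonneg (sq_nonneg _) (integral_nonneg fun y => sq_nonneg _)) h1

end Vale.Agent.P120.CarX

namespace Vale.Agent.P120

open MeasureTheory Metric Filter Module CarX
open scoped Topology ENNReal NNReal RealInnerProductSpace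

theorem car_pf : Car_stmt := by
  intro V _ _ _ _ _ n C hn hC θ A η hθ hθ' hA hη
  classical
  obtain ⟨N, hN⟩ := exists_pack (V := V) (2 * A)
  have hK := cK_pos n
  have hC0 : 0 ≤ C := by linarith
  set m : ℝ := 2 * A + 4 * (cK n * 2 ^ (n + 2) * C ^ 2 * A ^ (n + 2)) / η with hm
  have hm0 : 0 < m := by positivity
  set c : ℝ := 8 * N * C * A ^ (n + 2) + 1 with hc
  have hc0 : 0 < c := by positivity
  set t : ℝ := 4 * c / η with ht
  have ht0 : 0 < t := by positivity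
  refine ⟨4 * t * (C ^ 2 * (C * (m + 3) ^ n)) / η, fun ν x₀ r₀ hr hu hb F h1 h2 => ?_⟩
  have := hu.locFin
  have h3 : ∀ q ∈ F, ∃ X, Fld ν q.2 (A * (θ ^ q.1 * r₀)) X ∧
      ∀ᶠ ε in 𝓝[>] (0 : ℝ), η * (θ ^ q.1 * r₀) ^ (n + 1) / 2 ≤ |Tf n ε ν X| :=
    fun q hq => ev_of_not_good hu hn hC (by positivity) hA hη (h1 q hq).2
  choose! Y hY hE using h3
  obtain ⟨ε, hε, hε0⟩ :=
    (((eventually_all_finset F).2 hE).and (self_mem_nhdsWithin (s := Set.Ioi (0 : ℝ)))).exists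
  have hε0 : 0 < ε := hε0
  let f : ContDiffBump x₀ := ⟨(m + 2) * r₀, (m + 3) * r₀, by positivity, by nlinarith⟩
  have hfi : Integrable f ν := f.continuous.integrable_of_hasCompactSupport f.hasCompactSupport
  obtain ⟨hR1, hR2⟩ := bd_sq hb hε0 f.continuous f.hasCompactSupport hfi
  have hf2 : ∫ y, f y ^ 2 ∂ν ≤ C * (m + 3) ^ n * r₀ ^ n := by
    have e1 : ∫ y, f y ^ 2 ∂ν = ∫ y in ball x₀ ((m + 3) * r₀), f y ^ 2 ∂ν := by
      refine (setIntegral_eq_integral_of_forall_compl_eq_zero fun x hx => ?_).symm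
      rw [f.zero_of_le_dist (not_lt.1 hx)]; ring
    have e2 : ‖∫ y in ball x₀ ((m + 3) * r₀), f y ^ 2 ∂ν‖ ≤ 1 * ν.real (ball x₀ ((m + 3) * r₀)) :=
      norm_setIntegral_le_of_norm_le_const measure_ball_lt_top fun x _ => by
        rw [Real.norm_of_nonneg (sq_nonneg _)]
        exact pow_le_one₀ f.nonneg f.le_one
    have e3 := hu.real_ball hC0 x₀ (r := (m + 3) * r₀) (by positivity)
    rw [e1, mul_assoc, ← mul_pow]
    exact (le_abs_self _).trans (e2.trans (by rw [one_mul]; exact e3))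
  set I : ℕ × V → ℝ := fun q => ∫ x, ⟪Rz n ε ν f x, Y q x⟫ ∂ν with hI
  have hIq : ∀ q ∈ F, η * (θ ^ q.1 * r₀) ^ (n + 1) / 4 ≤ |I q| := by
    intro q hq
    have hθq : θ ^ q.1 ≤ 1 := pow_le_one₀ hθ.le (by linarith)
    have hθ0 : 0 < θ ^ q.1 := by positivity
    have hL : 2 * (A * (θ ^ q.1 * r₀)) ≤ m * r₀ := by
      have e1 : 2 * A ≤ m := by rw [hm]; exact le_add_of_nonneg_right (by positivity)
      calc 2 * (A * (θ ^ q.1 * r₀)) = 2 * A * r₀ * θ ^ q.1 := by ring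
        _ ≤ m * r₀ * 1 := by gcongr
        _ = _ := mul_one _
    have e1 := (hY q hq).far hu hC0 (by positivity) hε0 hL f.continuous (fun x => f.nonneg)
      (fun x => f.le_one) fun x hx => f.one_of_mem_closedBall (by
        have e2 := dist_triangle x q.2 x₀
        have e3 := (h1 q hq).1
        rw [dist_eq_norm x q.2] at e2
        show dist x x₀ ≤ (m + 2) * r₀
        linarith)
    rw [hu.integral_mul_Ti hε0 ((hY q hq).integrable hu) hfi] at e1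
    have e2 : cK n * 2 ^ (n + 2) * C ^ 2 * (A * (θ ^ q.1 * r₀)) ^ (n + 2) * (m * r₀)⁻¹ ≤
        η * (θ ^ q.1 * r₀) ^ (n + 1) / 4 := by
      have e3 : 4 * (cK n * 2 ^ (n + 2) * C ^ 2 * A ^ (n + 2)) ≤ η * m := by
        rw [hm, mul_add, mul_div_cancel₀ _ hη.ne']
        exact le_add_of_nonneg_left (by positivity)
      rw [← div_eq_mul_inv, div_le_div_iff₀ (by positivity) (by norm_num)]
      calc _ = 4 * (cK n * 2 ^ (n + 2) * C ^ 2 * A ^ (n + 2)) * θ ^ q.1 *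
            ((θ ^ q.1 * r₀) ^ (n + 1) * r₀) := by ring
        _ ≤ η * m * 1 * ((θ ^ q.1 * r₀) ^ (n + 1) * r₀) := by gcongr
        _ = _ := by ring
    have e3 := hε q hq
    have e4 := abs_sub_abs_le_abs_sub (Tf n ε ν (Y q)) (I q)
    linarith
  set k : ℕ × V → ℝ := fun q => if 0 ≤ I q then (θ ^ q.1 * r₀)⁻¹ else -(θ ^ q.1 * r₀)⁻¹ with hk
  have hk1 : ∀ q ∈ F, |k q| ≤ (θ ^ q.1 * r₀)⁻¹ := by
    intro q _
    have e0 : 0 < (θ ^ q.1 * r₀)⁻¹ := by positivity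
    simp only [hk]
    split_ifs
    · rw [abs_of_pos e0]
    · rw [abs_neg, abs_of_pos e0]
  have hk2 : ∀ q ∈ F, η / 4 * (θ ^ q.1 * r₀) ^ n ≤ k q * I q := by
    intro q hq
    have e0 : 0 < θ ^ q.1 * r₀ := by positivity
    have e1 : k q * I q = (θ ^ q.1 * r₀)⁻¹ * |I q| := by
      simp only [hk]
      split_ifs with h
      · rw [abs_of_nonneg h]
      · rw [abs_of_neg (not_le.1 h)]; ring
    rw [e1, le_inv_mul_iff₀ e0]
    refine le_trans (le_of_eq ?_) (hIq q hq)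
    ring
  set S : ℝ := ∑ q ∈ F, (θ ^ q.1 * r₀) ^ n with hS
  have hS0 : 0 ≤ S := Finset.sum_nonneg fun q _ => by positivity
  have hG := gram hu hC0 hθ hθ' hA hr hN F h2 Y hY k hk1
  have hRc := continuous_Rz (n := n) hε0 hfi
  have hii : ∀ q ∈ F, Integrable (fun x => k q * ⟪Rz n ε ν f x, Y q x⟫) ν :=
    fun q hq => ((hY q hq).integrable_inner hu hRc).const_mul _
  have e1 : η / 4 * S ≤ ∫ x, ∑ q ∈ F, k q * ⟪Rz n ε ν f x, Y q x⟫ ∂ν := by
    rw [integral_finsetSum _ hii, hS, Finset.mul_sum]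
    refine Finset.sum_le_sum fun q hq => ?_
    rw [integral_const_mul]
    exact hk2 q hq
  have hGi : Integrable (fun x => ‖∑ q ∈ F, k q • Y q x‖ ^ 2) ν := by
    have e2 : Continuous fun x => ∑ q ∈ F, k q • Y q x :=
      continuous_finsetSum _ fun q hq => (hY q hq).lip.continuous.const_smul _
    have e3 : HasCompactSupport fun x => ∑ q ∈ F, k q • Y q x := by
      refine HasCompactSupport.intro
        (F.isCompact_biUnion fun q _ => isCompact_closedBall q.2 (A * (θ ^ q.1 * r₀))) ?_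
      intro x hx
      refine Finset.sum_eq_zero fun q hq => ?_
      rw [(hY q hq).out x, smul_zero]
      by_contra hlt
      exact hx (Set.mem_biUnion hq (by rw [mem_closedBall, dist_eq_norm]; exact (not_le.1 hlt).le))
    have e4 : HasCompactSupport fun x => ‖∑ q ∈ F, k q • Y q x‖ ^ 2 :=
      e3.comp_left (g := fun v : V => ‖v‖ ^ 2) (by simp)
    have e5 : Continuous fun x => ‖∑ q ∈ F, k q • Y q x‖ ^ 2 := e2.norm.pow 2
    exact e5.integrable_of_hasCompactSupport e4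
  have e2 : ∫ x, ∑ q ∈ F, k q * ⟪Rz n ε ν f x, Y q x⟫ ∂ν ≤
      ∫ x, (t / 2 * ‖Rz n ε ν f x‖ ^ 2 + 1 / (2 * t) * ‖∑ q ∈ F, k q • Y q x‖ ^ 2) ∂ν := by
    refine integral_mono (integrable_finsetSum _ hii) ((hR1.const_mul _).add (hGi.const_mul _))
      fun x => ?_
    have e3 : ∑ q ∈ F, k q * ⟪Rz n ε ν f x, Y q x⟫ = ⟪Rz n ε ν f x, ∑ q ∈ F, k q • Y q x⟫ := by
      rw [inner_sum]
      exact Finset.sum_congr rfl fun q _ => (real_inner_smul_right _ _ _).symm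
    simp only [e3]
    refine (real_inner_le_norm _ _).trans ?_
    generalize ‖Rz n ε ν f x‖ = u
    generalize ‖∑ q ∈ F, k q • Y q x‖ = v
    have e4 : t / 2 * u ^ 2 + 1 / (2 * t) * v ^ 2 - u * v = (t * u - v) ^ 2 / (2 * t) := by
      field_simp
      ring
    have e5 : 0 ≤ (t * u - v) ^ 2 / (2 * t) := by positivity
    linarith
  rw [integral_add (hR1.const_mul _) (hGi.const_mul _), integral_const_mul,
    integral_const_mul] at e2
  have e3 : 1 / (2 * t) * ∫ x, ‖∑ q ∈ F, k q • Y q x‖ ^ 2 ∂ν ≤ η / 8 * S := by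
    calc _ ≤ 1 / (2 * t) * (c * S) := by
          gcongr
          refine hG.trans ?_
          gcongr
          rw [hc]; linarith
      _ = _ := by rw [ht]; field_simp; ring
  have e4 : t / 2 * ∫ x, ‖Rz n ε ν f x‖ ^ 2 ∂ν ≤ t / 2 * (C ^ 2 * (C * (m + 3) ^ n * r₀ ^ n)) := by
    gcongr
    exact hR2.trans (by gcongr)
  have e5 : S = (∑ q ∈ F, (θ ^ q.1) ^ n) * r₀ ^ n := by
    rw [hS, Finset.sum_mul]
    exact Finset.sum_congr rfl fun q _ => mul_pow _ _ _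
  have e6 : η * (∑ q ∈ F, (θ ^ q.1) ^ n) * r₀ ^ n ≤
      4 * t * (C ^ 2 * (C * (m + 3) ^ n)) * r₀ ^ n := by
    rw [mul_assoc η, ← e5]
    linarith
  rw [le_div_iff₀ hη, mul_comm]
  exact le_of_mul_le_mul_right e6 (by positivity)

end Vale.Agent.P120
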