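import Vale.Agent.P120.BasK

/-! P120: classification of limits carried by a plane. -/

namespace Vale.Agent.P120

open MeasureTheory Metric Filter Module
open scoped Topology ENNReal NNReal RealInnerProductSpace

namespace ClsX

variable {V : Type} [NormedAddCommGroup V] [InnerProductSpace ℝ V] [FiniteDimensional ℝ V]
  (D : Submodule ℝ V)

/-- A cutoff equal to one on `D`. -/
noncomputable def ch (x : V) : ℝ := max 0 (1 - ‖perp D x‖)

theorem ch_coe (w : D) : ch D (w : V) = 1 := by
  have h : perp D (w : V) = 0 := (perp_eq_zero D).2 w.2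
  simp [ch, h]

theorem ch_nonneg (x : V) : 0 ≤ ch D x := le_max_left _ _

theorem ch_le (x : V) : ch D x ≤ 1 :=
  max_le zero_le_one (by linarith [norm_nonneg (perp D x)])

theorem continuous_ch : Continuous (ch D) :=
  continuous_const.max (continuous_const.sub (continuous_perp D).norm)

theorem ch_lip (x y : V) : |ch D x - ch D y| ≤ ‖x - y‖ := by
  have h1 : |ch D x - ch D y| ≤ |(1 - ‖perp D x‖) - (1 - ‖perp D y‖)| := by
    unfold ch
    rw [max_comm 0, max_comm 0]
    exact abs_max_sub_max_le_abs _ _ _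
  have h2 : |‖perp D y‖ - ‖perp D x‖| ≤ ‖perp D y - perp D x‖ := abs_norm_sub_norm_le _ _
  have h3 : ‖perp D y - perp D x‖ ≤ ‖x - y‖ := by
    rw [← perp_sub, norm_sub_rev x y]
    exact norm_perp_le D _
  have h4 : (1 - ‖perp D x‖) - (1 - ‖perp D y‖) = ‖perp D y‖ - ‖perp D x‖ := by ring
  rw [h4] at h1
  linarith

theorem pr_coe (w : D) : D.orthogonalProjectionOnto (w : V) = w :=
  Submodule.orthogonalProjectionOnto_mem_subspace_eq_self w

theorem pr_lip (x y : V) :
    ‖D.orthogonalProjectionOnto x - D.orthogonalProjectionOnto y‖ ≤ ‖x - y‖ := by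
  rw [← map_sub]
  exact D.norm_orthogonalProjectionOnto_apply_le _

theorem norm_le_add (x : V) : ‖x‖ ≤ ‖D.orthogonalProjectionOnto x‖ + ‖perp D x‖ := by
  have h : x = (D.orthogonalProjectionOnto x : V) + perp D x := by
    unfold perp
    rw [Submodule.starProjection_apply]
    abel
  calc ‖x‖ = ‖(D.orthogonalProjectionOnto x : V) + perp D x‖ := by rw [← h]
    _ ≤ _ := norm_add_le _ _

section ext
variable {E : Type} [NormedAddCommGroup E] [NormedSpace ℝ E]

/-- Extension of a function on `D` to the whole space. -/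
noncomputable def ext (F : D → E) (x : V) : E := ch D x • F (D.orthogonalProjectionOnto x)

theorem ext_coe (F : D → E) (w : D) : ext D F w = F w := by
  simp only [ext, ch_coe, pr_coe, one_smul]

theorem continuous_ext {F : D → E} (h : Continuous F) : Continuous (ext D F) :=
  (continuous_ch D).smul (h.comp D.orthogonalProjectionOnto.continuous)

theorem ext_supp {F : D → E} (h : HasCompactSupport F) : HasCompactSupport (ext D F) := by
  obtain ⟨R, hR⟩ := h.isCompact.isBounded.subset_closedBall 0
  refine HasCompactSupport.intro (isCompact_closedBall (0 : V) (R + 1)) fun x hx => ?_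
  have hx' : R + 1 < ‖x‖ := by simpa using hx
  have h1 := norm_le_add D x
  by_cases h2 : 1 ≤ ‖perp D x‖
  · have h3 : ch D x = 0 := max_eq_left (by linarith)
    simp [ext, h3]
  · have h3 : D.orthogonalProjectionOnto x ∉ tsupport F := fun h4 => by
      have h5 := hR h4
      rw [mem_closedBall_zero_iff] at h5
      linarith [not_le.1 h2]
    simp [ext, image_eq_zero_of_notMem_tsupport h3]

theorem ext_lip {F : D → E} {K : ℝ≥0} (hK : LipschitzWith K F) (h : HasCompactSupport F) :
    ∃ K' : ℝ≥0, LipschitzWith K' (ext D F) := by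
  obtain ⟨M, hM⟩ := h.exists_bound_of_continuous hK.continuous
  have hM0 : 0 ≤ M := (norm_nonneg _).trans (hM 0)
  refine ⟨⟨M, hM0⟩ + K, LipschitzWith.of_dist_le_mul fun x y => ?_⟩
  rw [dist_eq_norm, dist_eq_norm]
  have e : ext D F x - ext D F y = (ch D x - ch D y) • F (D.orthogonalProjectionOnto x) +
      ch D y • (F (D.orthogonalProjectionOnto x) - F (D.orthogonalProjectionOnto y)) := by
    simp only [ext, sub_smul, smul_sub]
    abel
  have h1 : ‖(ch D x - ch D y) • F (D.orthogonalProjectionOnto x)‖ ≤ ‖x - y‖ * M := by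
    rw [norm_smul, Real.norm_eq_abs]
    exact mul_le_mul (ch_lip D x y) (hM _) (norm_nonneg _) (norm_nonneg _)
  have h2 : ‖F (D.orthogonalProjectionOnto x) - F (D.orthogonalProjectionOnto y)‖ ≤
      K * ‖x - y‖ := by
    have h3 := hK.dist_le_mul (D.orthogonalProjectionOnto x) (D.orthogonalProjectionOnto y)
    rw [dist_eq_norm, dist_eq_norm] at h3
    exact h3.trans (mul_le_mul_of_nonneg_left (pr_lip D x y) K.2)
  have h3 : ‖ch D y • (F (D.orthogonalProjectionOnto x) - F (D.orthogonalProjectionOnto y))‖ ≤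
      1 * (K * ‖x - y‖) := by
    rw [norm_smul, Real.norm_eq_abs, abs_of_nonneg (ch_nonneg D y)]
    exact mul_le_mul (ch_le D y) h2 (norm_nonneg _) zero_le_one
  rw [e]
  refine (norm_add_le _ _).trans ?_
  have h4 : ((⟨M, hM0⟩ + K : ℝ≥0) : ℝ) = M + K := rfl
  rw [h4]
  linarith

end ext

omit [FiniteDimensional ℝ V] in
theorem kr_coe (n : ℕ) (ε : ℝ) (x y : D) : kr n ε ((x : V) - y) = kr n ε (x - y) := rfl

omit [FiniteDimensional ℝ V] in
theorem pre_ball (w : D) (r : ℝ) : Subtype.val ⁻¹' ball (w : V) r = ball w r := rfl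

variable [MeasurableSpace V] [BorelSpace V]

theorem emb : MeasurableEmbedding (Subtype.val : D → V) :=
  MeasurableEmbedding.subtype_coe D.closed_of_finiteDimensional.measurableSet

variable {D} {n : ℕ} {C : ℝ} {τ : Measure D}

theorem map_ball (w : D) (r : ℝ) : τ.map Subtype.val (ball (w : V) r) = τ (ball w r) := by
  rw [(emb D).map_apply, pre_ball]

theorem up (h : Up n C (τ.map Subtype.val : Measure V)) : Up n C τ := fun w r hr => by
  rw [← map_ball]
  exact h w r hr

theorem low {R : ℝ} (h : Low n C R (τ.map Subtype.val : Measure V))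
    (hs : ∀ x ∈ D, x ∈ (τ.map Subtype.val : Measure V).support) : Low n C R τ :=
  fun w _ r hr hR => by
    rw [← map_ball]
    exact h w (hs w w.2) r hr hR

theorem supp (hs : ∀ x ∈ D, x ∈ (τ.map Subtype.val : Measure V).support) (w : D) :
    w ∈ τ.support := by
  rw [Measure.mem_support_iff_forall]
  intro U hU
  obtain ⟨r, hr, hb⟩ := Metric.mem_nhds_iff.1 hU
  have h1 := (Measure.mem_support_iff_forall _).1 (hs w w.2) _ (ball_mem_nhds (w : V) hr)
  rw [map_ball] at h1
  exact h1.trans_le (measure_mono hb)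

theorem rf (h : RF n (τ.map Subtype.val : Measure V)) : RF n τ := by
  intro X K hK hc hm
  have hK' : LipschitzWith (1 * K) fun w => (X w : V) :=
    D.subtypeₗᵢ.isometry.lipschitz.comp hK
  have hc' : HasCompactSupport fun w => (X w : V) :=
    hc.comp_left (g := (Subtype.val : D → V)) rfl
  obtain ⟨K', hl⟩ := ext_lip D hK' hc'
  have hm' : ∫ x, ext D (fun w => (X w : V)) x ∂(τ.map Subtype.val : Measure V) = 0 := by
    rw [(emb D).integral_map]
    simp only [ext_coe]
    have h1 := D.subtypeₗᵢ.integral_comp_comm (μ := τ) X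
    rw [hm, map_zero] at h1
    exact h1
  have e : ∀ ε, Tf n ε (τ.map Subtype.val : Measure V) (ext D fun w => (X w : V)) =
      Tf n ε τ X := fun ε => by
    unfold Tf
    simp only [(emb D).integral_map, ext_coe]
    rfl
  have h2 := h _ K' hl (ext_supp D hc') hm'
  simp only [e] at h2
  exact h2

theorem rz (ε : ℝ) (f : D → ℝ) (w : D) :
    Rz n ε (τ.map Subtype.val : Measure V) (ext D f) w = (Rz n ε τ f w : D) := by
  unfold Rz
  rw [(emb D).integral_map]
  simp only [ext_coe]
  exact D.subtypeₗᵢ.integral_comp_comm (μ := τ) fun y => (kr n ε (w - y) * f y) • (w - y)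

theorem bd (h : BD n C (τ.map Subtype.val : Measure V)) : BD n C τ := by
  intro ε hε f hf hc
  have h1 := h ε hε (ext D f) (continuous_ext D hf) (ext_supp D hc)
  rw [(emb D).lintegral_map, (emb D).integral_map] at h1
  simp only [rz, ext_coe] at h1
  exact h1

theorem eq_map {σ : Measure V} (hs : ∀ x ∈ σ.support, x ∈ D) :
    (σ.comap (Subtype.val : D → V)).map Subtype.val = σ := by
  rw [(emb D).map_comap, Subtype.range_coe]
  refine Measure.restrict_eq_self_of_ae_mem ?_
  filter_upwards [σ.support_mem_ae] with x hx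
  exact hs x hx

end ClsX

open ClsX in
theorem cls_pf (hF : Full_stmt) (h0 : Cls0_stmt) : Cls_stmt := by
  intro V _ _ _ _ _ n C hn hC σ D hcl hbd hz hD hs
  have hfull := hF V n C hn hC σ D hcl hz hD hs
  obtain ⟨τ, rfl⟩ : ∃ τ : Measure D, τ.map Subtype.val = σ := ⟨_, eq_map hs⟩
  obtain ⟨c, hc, e⟩ := h0 D n C hn hC hD τ
    ⟨up hcl.up, fun R => low (hcl.low R) hfull, rf hcl.rf⟩ (bd hbd) (supp hfull)
  refine ⟨c, hc, ?_⟩
  rw [e, Measure.map_smul]
  rfl

end Vale.Agent.P120
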