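import Vale.Agent.P120.Cls0A

/-! P120, Cls0: the limit of the transform on gradients is the half Laplacian. -/

namespace Vale.Agent.P120.Cls0X

open MeasureTheory Metric Filter Module
open scoped Topology ENNReal NNReal RealInnerProductSpace

variable {V : Type} [NormedAddCommGroup V] [InnerProductSpace ℝ V] {n : ℕ} {ψ : V → ℝ} {L : ℝ≥0}
  {ρ S : ℝ}

/-- The symmetrised radial derivative. -/
noncomputable def qq (ψ : V → ℝ) (y : V) (t : ℝ) (z : V) : ℝ :=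
  fderiv ℝ ψ (y + t • z) z - fderiv ℝ ψ (y - t • z) z

theorem qq_le (hL : LipschitzWith L (fderiv ℝ ψ)) (y z : V) {t : ℝ} (h0 : 0 ≤ t) (h2 : t ≤ 2) :
    |qq ψ y t z| ≤ 4 * L * ‖z‖ ^ 2 := by
  have h1 := hL.dist_le_mul (y + t • z) (y - t • z)
  have e : y + t • z - (y - t • z) = (2 * t) • z := by rw [mul_smul, two_smul]; abel
  rw [dist_eq_norm, dist_eq_norm, e, norm_smul, Real.norm_eq_abs,
    abs_of_nonneg (by linarith)] at h1
  have h3 := (fderiv ℝ ψ (y + t • z) - fderiv ℝ ψ (y - t • z)).le_opNorm z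
  rw [ContinuousLinearMap.sub_apply, Real.norm_eq_abs] at h3
  calc _ ≤ _ := h3
    _ ≤ (L * (2 * t * ‖z‖)) * ‖z‖ := by gcongr
    _ ≤ (L * (2 * 2 * ‖z‖)) * ‖z‖ := by gcongr
    _ = _ := by ring

theorem qq_zero (h0 : ∀ x, ρ ≤ ‖x‖ → fderiv ℝ ψ x = 0) {y z : V} {t : ℝ} (ht : 1 / 2 ≤ t)
    (hz : 2 * (‖y‖ + ρ) ≤ ‖z‖) : qq ψ y t z = 0 := by
  have h1 : ‖t • z‖ = t * ‖z‖ := by rw [norm_smul, Real.norm_eq_abs, abs_of_nonneg (by linarith)]
  have h2 : 1 / 2 * ‖z‖ ≤ t * ‖z‖ := by gcongr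
  have h3 : ‖t • z‖ ≤ ‖y + t • z‖ + ‖y‖ := by
    simpa using norm_sub_le (y + t • z) y
  have h4 : ‖t • z‖ ≤ ‖y‖ + ‖y - t • z‖ := by
    simpa using norm_sub_le y (y - t • z)
  rw [qq, h0 _ (by linarith), h0 _ (by linarith)]
  simp

theorem hasDerivAt_qq (hd : Differentiable ℝ ψ) (y z : V) (t : ℝ) :
    HasDerivAt (fun t : ℝ => 2 * ψ y - ψ (y + t • z) - ψ (y - t • z)) (-qq ψ y t z) t := by
  have h1 : HasDerivAt (fun t : ℝ => y + t • z) z t := by
    simpa using ((hasDerivAt_id t).smul_const z).const_add y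
  have h2 : HasDerivAt (fun t : ℝ => y - t • z) (-z) t := by
    simpa using ((hasDerivAt_id t).smul_const z).const_sub y
  have h3 := (hd (y + t • z)).hasFDerivAt.comp_hasDerivAt t h1
  have h4 := (hd (y - t • z)).hasFDerivAt.comp_hasDerivAt t h2
  have h5 := (h3.const_sub (2 * ψ y)).sub h4
  refine h5.congr_deriv ?_
  rw [map_neg, qq]
  ring

theorem second_le (hd : Differentiable ℝ ψ) (hL : LipschitzWith L (fderiv ℝ ψ)) (y z : V) :
    |2 * ψ y - ψ (y + z) - ψ (y - z)| ≤ 4 * L * ‖z‖ ^ 2 := by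
  have h := norm_image_sub_le_of_norm_deriv_le_segment_01'
    (f := fun t : ℝ => 2 * ψ y - ψ (y + t • z) - ψ (y - t • z)) (f' := fun t => -qq ψ y t z)
    (C := 4 * L * ‖z‖ ^ 2) (fun t _ => (hasDerivAt_qq hd y z t).hasDerivWithinAt)
    (fun t ht => by
      rw [norm_neg, Real.norm_eq_abs]
      exact qq_le hL y z ht.1 (by linarith [ht.2]))
  simp only [one_smul, zero_smul, add_zero, sub_zero, Real.norm_eq_abs] at h
  have e : 2 * ψ y - ψ y - ψ y = 0 := by ring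
  rwa [e, sub_zero] at h

theorem inv_mul_sq (hn : 1 ≤ n) {a : ℝ} (ha : 0 ≤ a) : a⁻¹ ^ (n + 1) * a ^ 2 ≤ a⁻¹ ^ (n - 1) := by
  rcases ha.eq_or_lt with h | h
  · rw [← h]
    simp
  · obtain ⟨m, rfl⟩ : ∃ m, n = m + 1 := ⟨n - 1, by omega⟩
    refine le_of_eq ?_
    rw [Nat.add_sub_cancel, pow_succ, pow_succ]
    field_simp

theorem continuous_qq (hL : LipschitzWith L (fderiv ℝ ψ)) (y : V) (t : ℝ) :
    Continuous (qq ψ y t) := by
  have := hL.continuous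
  unfold qq
  fun_prop

variable [FiniteDimensional ℝ V] [MeasurableSpace V] [BorelSpace V]

/-- The dominating function near the origin. -/
noncomputable def bd (n : ℕ) (R : ℝ) (z : V) : ℝ :=
  (ball (0 : V) R).indicator (fun z => ‖z - 0‖⁻¹ ^ (n - 1)) z

theorem bd_int (hV : finrank ℝ V = n) (hn : 1 ≤ n) {R : ℝ} (hR : 0 < R) :
    Integrable (bd n R : V → ℝ) ∧ ∫ z : V, bd n R z ≤ 2 ^ (n + 1) * om V * R := by
  obtain ⟨h1, h2⟩ := (up_vol hV).near hn om_pos.le (0 : V) hR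
  refine ⟨h1.integrable_indicator measurableSet_ball, ?_⟩
  unfold bd
  rwa [integral_indicator measurableSet_ball]

omit [FiniteDimensional ℝ V] [MeasurableSpace V] [BorelSpace V] in
theorem mul_qq_le (hL : LipschitzWith L (fderiv ℝ ψ)) (h0 : ∀ x, ρ ≤ ‖x‖ → fderiv ℝ ψ x = 0)
    {y z : V} {t k R : ℝ} (ht : 1 / 2 ≤ t) (ht2 : t ≤ 2) (hk0 : 0 ≤ k)
    (hk : k * ‖z‖ ^ 2 ≤ ‖z‖⁻¹ ^ (n - 1)) (hR : 2 * (‖y‖ + ρ) ≤ R) :
    ‖k * qq ψ y t z‖ ≤ 4 * L * bd n R z := by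
  unfold bd
  by_cases hz : z ∈ ball (0 : V) R
  · rw [Set.indicator_of_mem hz, sub_zero, Real.norm_eq_abs, abs_mul, abs_of_nonneg hk0]
    calc _ ≤ k * (4 * L * ‖z‖ ^ 2) := by gcongr; exact qq_le hL y z (by linarith) ht2
      _ = 4 * L * (k * ‖z‖ ^ 2) := by ring
      _ ≤ _ := by gcongr
  · rw [Set.indicator_of_notMem hz, qq_zero h0 ht (hR.trans (by simpa using hz))]
    simp

theorem integrable_L0 (hV : finrank ℝ V = n) (hn : 1 ≤ n) (hd : Differentiable ℝ ψ)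
    (hL : LipschitzWith L (fderiv ℝ ψ)) (hS : ∀ x, |ψ x| ≤ S) (y : V) :
    Integrable fun z : V => ‖z‖⁻¹ ^ (n + 1) * (2 * ψ y - ψ (y + z) - ψ (y - z)) := by
  obtain ⟨h1, -⟩ := (up_vol hV).far om_pos.le (0 : V) one_pos (a := 1) le_rfl
  have hI : Integrable fun z : V => 4 * L * bd n 1 z +
      (ball (0 : V) 1)ᶜ.indicator (fun z => 4 * S * ‖z - 0‖⁻¹ ^ (n + 1)) z :=
    ((bd_int hV hn one_pos).1.const_mul _).add
      (IntegrableOn.integrable_indicator (h1.const_mul _) measurableSet_ball.compl)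
  have hc := hd.continuous
  refine hI.mono' (Measurable.aestronglyMeasurable (by fun_prop)) (Eventually.of_forall fun z => ?_)
  rw [Real.norm_eq_abs, abs_mul, abs_of_nonneg (by positivity)]
  unfold bd
  by_cases hz : z ∈ ball (0 : V) 1
  · rw [Set.indicator_of_mem hz, Set.indicator_of_notMem (by simpa using hz), sub_zero, add_zero]
    calc _ ≤ ‖z‖⁻¹ ^ (n + 1) * (4 * L * ‖z‖ ^ 2) := by gcongr; exact second_le hd hL y z
      _ = 4 * L * (‖z‖⁻¹ ^ (n + 1) * ‖z‖ ^ 2) := by ring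
      _ ≤ _ := by gcongr; exact inv_mul_sq hn (norm_nonneg z)
  · rw [Set.indicator_of_notMem hz, Set.indicator_of_mem hz, sub_zero, mul_zero, zero_add,
      mul_comm]
    gcongr
    have h2 := abs_le.1 (hS y)
    have h3 := abs_le.1 (hS (y + z))
    have h4 := abs_le.1 (hS (y - z))
    rw [abs_le]
    constructor <;> linarith

theorem scale_L0 (hV : finrank ℝ V = n) (ψ : V → ℝ) (y : V) {t : ℝ} (ht : 0 < t) :
    ∫ z : V, ‖z‖⁻¹ ^ (n + 1) * (2 * ψ y - ψ (y + t • z) - ψ (y - t • z)) = t * L0 n ψ y := by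
  have h := Measure.integral_comp_smul (volume : Measure V)
    (fun z : V => ‖z‖⁻¹ ^ (n + 1) * (2 * ψ y - ψ (y + z) - ψ (y - z))) t
  rw [hV, abs_of_pos (by positivity), smul_eq_mul] at h
  have e : ∀ z : V, ‖z‖⁻¹ ^ (n + 1) * (2 * ψ y - ψ (y + t • z) - ψ (y - t • z)) =
      t ^ (n + 1) * (‖t • z‖⁻¹ ^ (n + 1) * (2 * ψ y - ψ (y + t • z) - ψ (y - t • z))) := fun z => by
    rw [norm_smul, Real.norm_eq_abs, abs_of_pos ht, mul_inv, mul_pow, ← mul_assoc, ← mul_assoc,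
      ← mul_pow t, mul_inv_cancel₀ ht.ne', one_pow, one_mul]
  simp only [e]
  rw [integral_const_mul, h, L0, pow_succ]
  field_simp

/-- The scaling identity. -/
theorem int_qq (hV : finrank ℝ V = n) (hn : 1 ≤ n) (hd : Differentiable ℝ ψ)
    (hL : LipschitzWith L (fderiv ℝ ψ)) (hS : ∀ x, |ψ x| ≤ S) (hρ : 0 < ρ)
    (h0 : ∀ x, ρ ≤ ‖x‖ → fderiv ℝ ψ x = 0) (y : V) :
    ∫ z : V, ‖z‖⁻¹ ^ (n + 1) * qq ψ y 1 z = -L0 n ψ y := by
  have hc := hd.continuous
  have hq := continuous_qq hL y 1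
  have hR : 0 < 2 * (‖y‖ + ρ) := by positivity
  obtain ⟨-, h⟩ := hasDerivAt_integral_of_dominated_loc_of_deriv_le (μ := (volume : Measure V))
    (F := fun (t : ℝ) (z : V) => ‖z‖⁻¹ ^ (n + 1) * (2 * ψ y - ψ (y + t • z) - ψ (y - t • z)))
    (F' := fun (t : ℝ) (z : V) => -(‖z‖⁻¹ ^ (n + 1) * qq ψ y t z)) (x₀ := 1)
    (s := Set.Icc (1 / 2) 2) (bound := fun z => 4 * L * bd n (2 * (‖y‖ + ρ)) z)
    (Icc_mem_nhds (by norm_num) (by norm_num))
    (Eventually.of_forall fun t => Measurable.aestronglyMeasurable (by fun_prop))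
    (by simpa using integrable_L0 hV hn hd hL hS y)
    (Measurable.aestronglyMeasurable (by fun_prop))
    (Eventually.of_forall fun z t ht => by
      rw [norm_neg]
      exact mul_qq_le hL h0 ht.1 ht.2 (by positivity) (inv_mul_sq hn (norm_nonneg z)) le_rfl)
    ((bd_int hV hn hR).1.const_mul _)
    (Eventually.of_forall fun z t _ => by
      refine ((hasDerivAt_qq hd y z t).const_mul (‖z‖⁻¹ ^ (n + 1))).congr_deriv ?_
      ring)
  have h2 : HasDerivAt (fun t : ℝ => t * L0 n ψ y) (L0 n ψ y) 1 := by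
    simpa using (hasDerivAt_id (1 : ℝ)).mul_const (L0 n ψ y)
  have h3 := h2.congr_of_eventuallyEq (f₁ := fun t : ℝ => ∫ z : V,
    ‖z‖⁻¹ ^ (n + 1) * (2 * ψ y - ψ (y + t • z) - ψ (y - t • z))) (by
      filter_upwards [lt_mem_nhds one_pos] with t ht using scale_L0 hV ψ y ht)
  have h4 := h.unique h3
  rw [integral_neg] at h4
  linarith

/-- The inner integral for a gradient field. -/
noncomputable def II (n : ℕ) (ε : ℝ) (ψ : V → ℝ) (y : V) : ℝ :=
  ∫ x, kr n ε (x - y) * fderiv ℝ ψ x (x - y)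

theorem II_eq (hL : LipschitzWith L (fderiv ℝ ψ)) (h0 : ∀ x, ρ ≤ ‖x‖ → fderiv ℝ ψ x = 0)
    {ε : ℝ} (hε : 0 < ε) (y : V) : II n ε ψ y = 1 / 2 * ∫ z, kr n ε z * qq ψ y 1 z := by
  have hc := hL.continuous
  have hk : Continuous (kr n ε : V → ℝ) := continuous_kr n hε
  have hi : Integrable fun z : V => kr n ε z * fderiv ℝ ψ (y + z) z := by
    refine Continuous.integrable_of_hasCompactSupport (by fun_prop) ?_
    refine HasCompactSupport.intro (isCompact_closedBall (0 : V) (‖y‖ + ρ)) fun z hz => ?_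
    have h1 : ‖y‖ + ρ < ‖z‖ := by simpa using hz
    have h3 : ‖z‖ ≤ ‖y + z‖ + ‖y‖ := by simpa using norm_sub_le (y + z) y
    rw [h0 _ (by linarith)]
    simp
  have e : ∀ z : V, kr n ε (-z) * fderiv ℝ ψ (y + -z) (-z) =
      -(kr n ε z * fderiv ℝ ψ (y - z) z) := fun z => by
    rw [kr_neg, map_neg, ← sub_eq_add_neg, mul_neg]
  have hj : Integrable fun z : V => kr n ε z * fderiv ℝ ψ (y - z) z := by
    have h1 := hi.comp_neg.neg
    refine h1.congr (Eventually.of_forall fun z => ?_)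
    simp only [Pi.neg_apply, e, neg_neg]
  have h1 : II n ε ψ y = ∫ z : V, kr n ε z * fderiv ℝ ψ (y + z) z := by
    rw [II, ← integral_add_left_eq_self _ y]
    simp only [add_sub_cancel_left]
  have h2 : ∫ z : V, kr n ε z * fderiv ℝ ψ (y + z) z =
      -∫ z : V, kr n ε z * fderiv ℝ ψ (y - z) z := by
    rw [← integral_neg_eq_self, ← integral_neg]
    simp only [e]
  simp only [qq, one_smul, mul_sub]
  rw [integral_sub hi hj, h1]
  linarith

theorem II_le (hV : finrank ℝ V = n) (hn : 1 ≤ n) (hL : LipschitzWith L (fderiv ℝ ψ))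
    (hρ : 0 < ρ) (h0 : ∀ x, ρ ≤ ‖x‖ → fderiv ℝ ψ x = 0) {ε : ℝ} (hε : 0 < ε) {y : V}
    (hy : ‖y‖ ≤ 2 * ρ) : |II n ε ψ y| ≤ 2 * L * (2 ^ (n + 1) * om V * (6 * ρ)) := by
  obtain ⟨h1, h2⟩ := bd_int hV hn (R := 6 * ρ) (by linarith)
  have h3 := norm_integral_le_of_norm_le (f := fun z => kr n ε z * qq ψ y 1 z)
    (h1.const_mul (4 * L)) (Eventually.of_forall fun z =>
      mul_qq_le hL h0 (by norm_num) (by norm_num) (kr_nonneg n ε z) (kr_mul_sq_le hn ε z)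
        (by linarith))
  rw [integral_const_mul, Real.norm_eq_abs] at h3
  have h4 : 4 * (L : ℝ) * ∫ z : V, bd n (6 * ρ) z ≤ 4 * L * (2 ^ (n + 1) * om V * (6 * ρ)) := by
    gcongr
  rw [II_eq hL h0 hε, abs_mul, abs_of_pos (by norm_num : (0 : ℝ) < 1 / 2)]
  linarith

theorem tendsto_II (hV : finrank ℝ V = n) (hn : 1 ≤ n) (hd : Differentiable ℝ ψ)
    (hL : LipschitzWith L (fderiv ℝ ψ)) (hS : ∀ x, |ψ x| ≤ S) (hρ : 0 < ρ)
    (h0 : ∀ x, ρ ≤ ‖x‖ → fderiv ℝ ψ x = 0) (y : V) :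
    Tendsto (fun ε => II n ε ψ y) (𝓝[>] 0) (𝓝 (1 / 2 * -L0 n ψ y)) := by
  have hq := continuous_qq hL y 1
  have hR : 0 < 2 * (‖y‖ + ρ) := by positivity
  have h : Tendsto (fun ε => ∫ z, kr n ε z * qq ψ y 1 z) (𝓝[>] 0)
      (𝓝 (∫ z : V, ‖z‖⁻¹ ^ (n + 1) * qq ψ y 1 z)) := by
    refine tendsto_integral_filter_of_dominated_convergence
      (fun z => 4 * L * bd n (2 * (‖y‖ + ρ)) z) ?_ ?_ ((bd_int hV hn hR).1.const_mul _) ?_
    · filter_upwards [self_mem_nhdsWithin] with ε hε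
      exact ((continuous_kr n hε).mul hq).aestronglyMeasurable
    · exact Eventually.of_forall fun ε => Eventually.of_forall fun z =>
        mul_qq_le hL h0 (by norm_num) (by norm_num) (kr_nonneg n ε z) (kr_mul_sq_le hn ε z) le_rfl
    · refine Eventually.of_forall fun z => ?_
      by_cases hz : z = 0
      · simp [hz, qq]
      · exact (tendsto_kr hz).mul_const _
  rw [int_qq hV hn hd hL hS hρ h0] at h
  refine (h.const_mul (1 / 2)).congr' ?_
  filter_upwards [self_mem_nhdsWithin] with ε hε using (II_eq hL h0 hε y).symm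

end Vale.Agent.P120.Cls0X
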