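import Vale.Agent.P120.Cls0B
import Vale.Agent.P120.Cls0C

/-! P120, Cls0: classification in full dimension. -/

namespace Vale.Agent.P120

open MeasureTheory Metric Filter Module
open scoped Topology ENNReal NNReal RealInnerProductSpace

namespace Cls0X

variable {V : Type} [NormedAddCommGroup V] [InnerProductSpace ℝ V] [FiniteDimensional ℝ V]
  [MeasurableSpace V] [BorelSpace V] {n : ℕ} {C : ℝ} {σ : Measure V} {ψ : V → ℝ} {L : ℝ≥0}
  {ρ S : ℝ}

/-- The gradient. -/
noncomputable def gr (ψ : V → ℝ) (x : V) : V :=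
  haveI : CompleteSpace V := FiniteDimensional.complete ℝ V
  (InnerProductSpace.toDual ℝ V).symm (fderiv ℝ ψ x)

omit [MeasurableSpace V] [BorelSpace V] in
theorem inner_gr (ψ : V → ℝ) (x v : V) : ⟪v, gr ψ x⟫ = fderiv ℝ ψ x v := by
  haveI : CompleteSpace V := FiniteDimensional.complete ℝ V
  rw [real_inner_comm, gr, InnerProductSpace.toDual_symm_apply]

omit [MeasurableSpace V] [BorelSpace V] in
theorem continuous_gr (hL : LipschitzWith L (fderiv ℝ ψ)) : Continuous (gr ψ) := by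
  haveI : CompleteSpace V := FiniteDimensional.complete ℝ V
  exact (InnerProductSpace.toDual ℝ V).symm.continuous.comp hL.continuous

omit [MeasurableSpace V] [BorelSpace V] in
theorem gr_zero (h0 : ∀ x, ρ ≤ ‖x‖ → fderiv ℝ ψ x = 0) {x : V} (hx : ρ ≤ ‖x‖) : gr ψ x = 0 := by
  rw [gr, h0 x hx, map_zero]

omit [MeasurableSpace V] [BorelSpace V] in
theorem cs_gr (h0 : ∀ x, ρ ≤ ‖x‖ → fderiv ℝ ψ x = 0) : HasCompactSupport (gr ψ) :=
  HasCompactSupport.intro (isCompact_closedBall (0 : V) ρ) fun x hx =>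
    gr_zero h0 (le_of_lt (by simpa using hx))

theorem integral_gr (hd : Differentiable ℝ ψ) (hs : HasCompactSupport ψ)
    (hL : LipschitzWith L (fderiv ℝ ψ)) (h0 : ∀ x, ρ ≤ ‖x‖ → fderiv ℝ ψ x = 0) :
    ∫ x, gr ψ x = 0 := by
  haveI : CompleteSpace V := FiniteDimensional.complete ℝ V
  have hi : Integrable (gr ψ) := (continuous_gr hL).integrable_of_hasCompactSupport (cs_gr h0)
  refine ext_inner_left ℝ fun v => ?_
  rw [← integral_inner hi, inner_zero_right]
  have h1 : Integrable fun x => fderiv ℝ ψ x v := by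
    simpa only [inner_gr] using hi.const_inner (𝕜 := ℝ) v
  have h2 : Integrable ψ := hd.continuous.integrable_of_hasCompactSupport hs
  have h := integral_mul_fderiv_eq_neg_fderiv_mul_of_integrable (μ := (volume : Measure V))
    (f := fun _ : V => (1 : ℝ)) (g := ψ) (v := v) (by simp) (by simpa using h1) (by simpa using h2)
    (fun _ _ => differentiableAt_const _) (fun x _ => hd x)
  simpa [inner_gr] using h

/-- The density is annihilated by the half Laplacian. -/
theorem harm (hV : finrank ℝ V = n) (hn : 1 ≤ n) (hC : 0 ≤ C) (hu : Up n C σ) (hb : BD n C σ)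
    (hr : RF n σ) (hs : ∀ x, x ∈ σ.support) {h : V → ℝ} {a : ℝ} (ha : 0 < a) (hm : Measurable h)
    (hh : ∀ x, a ≤ h x) (hσ : σ = volume.withDensity fun x => ENNReal.ofReal (h x))
    (hd : Differentiable ℝ ψ) (hc : HasCompactSupport ψ) (hL : LipschitzWith L (fderiv ℝ ψ))
    (hS : ∀ x, |ψ x| ≤ S) (hρ : 0 < ρ) (h0 : ∀ x, ρ ≤ ‖x‖ → fderiv ℝ ψ x = 0) :
    ∫ w, h w * L0 n ψ w = 0 := by
  haveI := hu.locFin
  have hpos : ∀ x, 0 < h x := fun x => ha.trans_le (hh x)
  have hint : ∀ {E : Type} [NormedAddCommGroup E] [NormedSpace ℝ E] (g : V → E),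
      ∫ x, g x ∂σ = ∫ x, h x • g x := fun g => by
    rw [hσ]
    exact integral_dens hm (fun x => (hpos x).le) g
  set X : V → V := fun x => (h x)⁻¹ • gr ψ x with hX
  have hgc := continuous_gr hL
  have hXm : AEStronglyMeasurable X σ := (hm.inv.smul hgc.measurable).aestronglyMeasurable
  have hXle : ∀ x, ‖X x‖ ≤ a⁻¹ * ‖gr ψ x‖ := fun x => by
    rw [hX, norm_smul, Real.norm_eq_abs, abs_of_pos (inv_pos.2 (hpos x))]
    gcongr
    exact hh x
  have hXp : ∀ p, MemLp X p σ := fun p =>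
    (hgc.memLp_of_hasCompactSupport (cs_gr h0)).of_le_mul hXm (Eventually.of_forall hXle)
  have hXi : Integrable X σ := memLp_one_iff_integrable.1 (hXp 1)
  have hX0 : ∀ x, ρ ≤ ‖x‖ → X x = 0 := fun x hx => by simp only [hX, gr_zero h0 hx, smul_zero]
  have hXm0 : ∫ x, X x ∂σ = 0 := by
    rw [hint, ← integral_gr hd hc hL h0]
    simp only [hX, smul_smul, mul_inv_cancel₀ (hpos _).ne', one_smul]
  have hTi : ∀ ε y, Ti n ε σ X y = II n ε ψ y := fun ε y => by
    rw [Ti, hint, II]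
    refine integral_congr_ae (Eventually.of_forall fun x => ?_)
    simp only [hX, inner_smul_right, inner_gr, smul_eq_mul]
    have := (hpos x).ne'
    field_simp
  have h1 := rf_l2 hu hb hr hC hs (hXp 2) hXi hρ hX0 hXm0
  obtain ⟨hi, -⟩ := hu.far hC (0 : V) (s := 2 * ρ) (by linarith) (a := 1) le_rfl
  set A : ℝ := 2 * L * (2 ^ (n + 1) * om V * (6 * ρ)) with hA
  set B : ℝ := cK n * ρ * ∫ x, ‖X x‖ ∂σ with hB
  have hI : Integrable (fun y => (ball (0 : V) (2 * ρ)).indicator (fun _ => A) y +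
      (ball (0 : V) (2 * ρ))ᶜ.indicator (fun y => B * ‖y - 0‖⁻¹ ^ (n + 1)) y) σ :=
    ((integrableOn_const measure_ball_lt_top.ne).integrable_indicator measurableSet_ball).add
      (IntegrableOn.integrable_indicator (hi.const_mul B) measurableSet_ball.compl)
  have h2 : Tendsto (fun ε => ∫ y, Ti n ε σ X y ∂σ) (𝓝[>] 0)
      (𝓝 (∫ y, 1 / 2 * -L0 n ψ y ∂σ)) := by
    refine tendsto_integral_filter_of_dominated_convergence _ ?_ ?_ hI ?_
    · filter_upwards [self_mem_nhdsWithin] with ε hε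
      exact (continuous_Ti hε hXi).aestronglyMeasurable
    · filter_upwards [self_mem_nhdsWithin] with ε hε
      refine Eventually.of_forall fun y => ?_
      rw [Real.norm_eq_abs]
      by_cases hy : y ∈ ball (0 : V) (2 * ρ)
      · rw [Set.indicator_of_mem hy, Set.indicator_of_notMem (by simpa using hy), add_zero, hTi]
        exact II_le hV hn hL hρ h0 hε (le_of_lt (by simpa using hy))
      · rw [Set.indicator_of_notMem hy, Set.indicator_of_mem hy, zero_add]
        refine (Ti_far (n := n) hε hXi (z := 0) (ρ := ρ) (by simpa using hX0) hXm0 (y := y)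
          (by simpa using hy)).trans (le_of_eq ?_)
        rw [hB]
        ring
    · refine Eventually.of_forall fun y => ?_
      simp only [hTi]
      exact tendsto_II hV hn hd hL hS hρ h0 y
  have h3 := tendsto_nhds_unique h1 h2
  rw [hint] at h3
  have e : ∀ w, h w • (1 / 2 * -L0 n ψ w) = -(1 / 2) * (h w * L0 n ψ w) := fun w => by
    rw [smul_eq_mul]
    ring
  simp only [e] at h3
  rw [integral_const_mul] at h3
  linarith

omit [MeasurableSpace V] [BorelSpace V] in
theorem test_data (hψ : ContDiff ℝ (⊤ : ℕ∞) ψ) (hc : HasCompactSupport ψ) :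
    ∃ (L : ℝ≥0) (S ρ : ℝ), LipschitzWith L (fderiv ℝ ψ) ∧ (∀ x, |ψ x| ≤ S) ∧ 0 < ρ ∧
    ∀ x, ρ ≤ ‖x‖ → fderiv ℝ ψ x = 0 := by
  have h1 : ContDiff ℝ 1 (fderiv ℝ ψ) :=
    hψ.fderiv_right (m := 1) (by
      change ((2 : ℕ∞) : WithTop ℕ∞) ≤ _
      exact WithTop.coe_le_coe.2 le_top)
  obtain ⟨L, hL⟩ := h1.lipschitzWith_of_hasCompactSupport (hc.fderiv ℝ) one_ne_zero
  obtain ⟨S, hS⟩ := hc.exists_bound_of_continuous hψ.continuous
  obtain ⟨R, hR, hR'⟩ := (hc.fderiv ℝ).exists_pos_le_norm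
  exact ⟨L, S, R, hL, hS, hR, hR'⟩

end Cls0X

open Cls0X in
theorem cls0_pf (hL : Liou_stmt) : Cls0_stmt := by
  intro V _ _ _ _ _ n C hn hC hV σ hcl hb hs
  obtain ⟨h, a, b, ha, hm, hh, hσ⟩ := density hV hC hcl.up hcl.low hs
  have hi : Integrable fun w : V => h w ^ 2 * (1 + ‖w‖)⁻¹ ^ (n + 3) := by
    refine (up_vol hV).integrable om_pos.le (Measurable.aestronglyMeasurable (by fun_prop))
      (N := b ^ 2) fun w => ?_
    have h1 : 0 ≤ h w := ha.le.trans (hh w).1
    have h2 : (1 + ‖w‖)⁻¹ ≤ 1 := inv_le_one_of_one_le₀ (by linarith [norm_nonneg w])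
    rw [Real.norm_eq_abs, abs_of_nonneg (by positivity)]
    have h3 : (1 + ‖w‖)⁻¹ ^ (n + 3) ≤ (1 + ‖w‖)⁻¹ ^ (n + 1) :=
      pow_le_pow_of_le_one (by positivity) h2 (by omega)
    have h4 := (hh w).2
    gcongr
  obtain ⟨c, B, he⟩ := hL V n hV hn h hi hm.aestronglyMeasurable fun ψ hψ hc _ => by
    obtain ⟨L, S, ρ, h1, h2, h3, h4⟩ := test_data hψ hc
    exact harm hV hn (by linarith) hcl.up hb hcl.rf hs ha hm (fun x => (hh x).1) hσ
      (hψ.differentiable (by simp)) hc h1 h2 h3 h4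
  obtain ⟨h1, h2⟩ := const_of_affine B hh he
  refine ⟨c, ha.trans_le h1, ?_⟩
  rw [hσ, ← withDensity_const]
  refine withDensity_congr_ae ?_
  filter_upwards [h2] with x hx
  rw [hx]

end Vale.Agent.P120
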