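import Vale.Agent.P120.Stmts

/-! P120: dimension comparison. -/

namespace Vale.Agent.P120

open MeasureTheory Metric Filter Module Set
open scoped Topology ENNReal NNReal RealInnerProductSpace

namespace DimX

theorem pow_cmp {a b s₀ : ℝ} {i j : ℕ} (ha : 0 < a) (hs₀ : 0 < s₀)
    (h : ∀ s, 0 < s → s ≤ s₀ → a * s ^ i ≤ b * s ^ j) : j ≤ i := by
  by_contra hij
  push Not at hij
  obtain ⟨k, rfl⟩ := Nat.exists_eq_add_of_lt hij
  have hb : 0 < |b| + 1 := by positivity
  set s := min s₀ (min 1 (a / (2 * (|b| + 1)))) with hs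
  have hs0 : 0 < s := lt_min hs₀ (lt_min one_pos (by positivity))
  have hs1 : s ≤ 1 := (min_le_right _ _).trans (min_le_left _ _)
  have hs2 : s ≤ a / (2 * (|b| + 1)) := (min_le_right _ _).trans (min_le_right _ _)
  have h1 := h s hs0 (min_le_left _ _)
  have hp : 0 < s ^ i := pow_pos hs0 i
  have h2 : a ≤ b * s ^ (k + 1) := by
    have h3 : b * s ^ (i + k + 1) = (b * s ^ (k + 1)) * s ^ i := by ring
    rw [h3] at h1
    exact le_of_mul_le_mul_right h1 hp
  have h4 : s ^ (k + 1) ≤ s := by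
    rw [pow_succ]
    exact mul_le_of_le_one_left hs0.le (pow_le_one₀ hs0.le hs1)
  have h5 : b * s ^ (k + 1) ≤ (|b| + 1) * s :=
    mul_le_mul (by linarith [le_abs_self b]) h4 (by positivity) hb.le
  have h6 : (|b| + 1) * s ≤ a / 2 := by
    rw [le_div_iff₀ (by positivity)] at hs2
    linarith
  linarith

theorem pow_cmp' {a b : ℝ≥0∞} {s₀ : ℝ} {i j : ℕ} (ha : a ≠ 0) (hb : b ≠ ∞) (hs₀ : 0 < s₀)
    (h : ∀ s, 0 < s → s ≤ s₀ → a * ENNReal.ofReal (s ^ i) ≤ b * ENNReal.ofReal (s ^ j)) :
    j ≤ i := by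
  have hat : a ≠ ∞ := by
    intro h0
    have h1 := h s₀ hs₀ le_rfl
    rw [h0, ENNReal.top_mul (by simpa using pow_pos hs₀ i)] at h1
    exact (ENNReal.mul_ne_top hb ENNReal.ofReal_ne_top) (top_le_iff.1 h1)
  refine pow_cmp (a := a.toReal) (b := b.toReal) (ENNReal.toReal_pos ha hat) hs₀ fun s hs hs' => ?_
  have h1 := ENNReal.toReal_mono (ENNReal.mul_ne_top hb ENNReal.ofReal_ne_top) (h s hs hs')
  rwa [ENNReal.toReal_mul, ENNReal.toReal_mul, ENNReal.toReal_ofReal (pow_pos hs i).le,
    ENNReal.toReal_ofReal (pow_pos hs j).le] at h1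

variable {V : Type} [NormedAddCommGroup V] [InnerProductSpace ℝ V] [FiniteDimensional ℝ V]
  [MeasurableSpace V] [BorelSpace V] {n : ℕ} {C : ℝ} {ν : Measure V}

omit [InnerProductSpace ℝ V] [FiniteDimensional ℝ V] [BorelSpace V] in
theorem locFin (h : Up n C ν) : IsLocallyFiniteMeasure ν :=
  ⟨fun x => ⟨ball x 1, ball_mem_nhds x one_pos,
    (h x 1 one_pos).trans_lt ENNReal.ofReal_lt_top⟩⟩

theorem swap (h : Up n C ν) (D : Submodule ℝ V) {A : Set (V × D)} (hA : IsOpen A) :
    ∫⁻ x, (volume : Measure D) (Prod.mk x ⁻¹' A) ∂ν =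
      ∫⁻ w, ν ((fun x => (x, w)) ⁻¹' A) ∂(volume : Measure D) := by
  have := locFin h
  rw [← Measure.prod_apply hA.measurableSet, Measure.prod_apply_symm hA.measurableSet]

theorem part1 (hC : 1 ≤ C) {R : ℝ} {p : V} {D : Submodule ℝ V} (hR : 0 < R) (hu : Up n C ν)
    (hl : Low n C R ν) (hne : ν.support.Nonempty) (hD : ∀ x ∈ ν.support, x - p ∈ D) :
    n ≤ finrank ℝ D := by
  obtain ⟨x₀, hx₀⟩ := hne
  set w₀ : D := ⟨x₀ - p, hD x₀ hx₀⟩ with hw₀
  have hω : (volume : Measure D) (ball 0 1) ≠ 0 := (measure_ball_pos _ _ one_pos).ne'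
  have hB : ν (ball x₀ R) ≠ 0 := by
    have h1 := hl x₀ hx₀ R hR le_rfl
    have h2 : 0 < ENNReal.ofReal (R ^ n / C) := by
      rw [ENNReal.ofReal_pos]; positivity
    exact (h2.trans_le h1).ne'
  refine pow_cmp' (a := ν (ball x₀ R) * (volume : Measure D) (ball 0 1))
    (b := (volume : Measure D) (ball w₀ (R + 1)) * ENNReal.ofReal C) (mul_ne_zero hB hω)
    (ENNReal.mul_ne_top measure_ball_lt_top.ne ENNReal.ofReal_ne_top) one_pos fun s hs hs1 => ?_
  set A : Set (V × D) := {z | dist z.1 x₀ < R ∧ dist z.1 (p + z.2) < s} with hA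
  have hAo : IsOpen A :=
    IsOpen.inter (s := {z : V × D | dist z.1 x₀ < R}) (t := {z : V × D | dist z.1 (p + z.2) < s})
      (isOpen_lt (by fun_prop) continuous_const) (isOpen_lt (by fun_prop) continuous_const)
  have hsw := swap hu D hAo
  have h1 : ν (ball x₀ R) * (volume : Measure D) (ball 0 1) * ENNReal.ofReal (s ^ finrank ℝ D) ≤
      ∫⁻ x, (volume : Measure D) (Prod.mk x ⁻¹' A) ∂ν := by
    have h2 : ∀ᵐ x ∂ν, (ball x₀ R).indicator
        (fun _ => ENNReal.ofReal (s ^ finrank ℝ D) * (volume : Measure D) (ball 0 1)) x ≤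
        (volume : Measure D) (Prod.mk x ⁻¹' A) := by
      filter_upwards [ν.support_mem_ae] with x hx
      by_cases hxb : x ∈ ball x₀ R
      · rw [indicator_of_mem hxb,
          ← Measure.addHaar_ball_of_pos volume (⟨x - p, hD x hx⟩ : D) hs]
        refine measure_mono fun w hw => ⟨hxb, ?_⟩
        rw [mem_ball, Subtype.dist_eq, dist_eq_norm] at hw
        show dist x (p + (w : V)) < s
        rw [dist_comm, dist_eq_norm]
        have h3 : p + (w : V) - x = (w : V) - (x - p) := by abel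
        rwa [h3]
      · rw [indicator_of_notMem hxb]; exact zero_le
    refine le_trans (le_of_eq ?_) (lintegral_mono_ae h2)
    rw [lintegral_indicator_const measurableSet_ball]
    ring
  have h2 : ∫⁻ w, ν ((fun x => (x, w)) ⁻¹' A) ∂(volume : Measure D) ≤
      (volume : Measure D) (ball w₀ (R + 1)) * ENNReal.ofReal C * ENNReal.ofReal (s ^ n) := by
    have h3 : ∀ w : D, ν ((fun x => (x, w)) ⁻¹' A) ≤
        (ball w₀ (R + 1)).indicator (fun _ => ENNReal.ofReal (C * s ^ n)) w := by
      intro w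
      by_cases hw : w ∈ ball w₀ (R + 1)
      · rw [indicator_of_mem hw]
        exact (measure_mono fun x hx => hx.2).trans (hu (p + w) s hs)
      · have h4 : (fun x => (x, w)) ⁻¹' A = ∅ := by
          refine eq_empty_of_forall_notMem fun x hx => hw ?_
          obtain ⟨hx1, hx2⟩ := hx
          simp only at hx1 hx2
          rw [mem_ball, Subtype.dist_eq]
          have h5 : dist (w : V) (x₀ - p) = dist (p + w) x₀ := by
            rw [dist_eq_norm, dist_eq_norm]; congr 1; abel
          show dist (w : V) (x₀ - p) < R + 1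
          rw [h5]
          have h6 := dist_triangle_left (p + (w : V)) x₀ x
          linarith
        rw [h4, measure_empty]; exact zero_le
    refine (lintegral_mono h3).trans (le_of_eq ?_)
    rw [lintegral_indicator_const measurableSet_ball,
      ENNReal.ofReal_mul (zero_le_one.trans hC)]
    ring
  exact h1.trans (hsw.le.trans h2)

theorem part2 (hC : 1 ≤ C) {R : ℝ} {p : V} {D : Submodule ℝ V} (hR : 0 < R) (hu : Up n C ν)
    (hl : Low n C R ν) {r : ℝ} (hr : 0 < r) (hD : ∀ w ∈ D, ‖w‖ < r → p + w ∈ ν.support) :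
    finrank ℝ D ≤ n := by
  have hC0 : 0 < C := one_pos.trans_le hC
  have hω : (volume : Measure D) (ball 0 r) ≠ 0 := (measure_ball_pos _ _ hr).ne'
  refine pow_cmp' (a := (volume : Measure D) (ball 0 r) * ENNReal.ofReal C⁻¹)
    (b := ν (ball p (2 * r)) * (volume : Measure D) (ball 0 1) *
      ENNReal.ofReal (2 ^ finrank ℝ D))
    (mul_ne_zero hω (by simpa using hC0))
    (ENNReal.mul_ne_top (ENNReal.mul_ne_top
      ((hu p (2 * r) (by positivity)).trans_lt ENNReal.ofReal_lt_top).ne measure_ball_lt_top.ne)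
      ENNReal.ofReal_ne_top) (lt_min hR hr) fun s hs hs1 => ?_
  have hsR : s ≤ R := hs1.trans (min_le_left _ _)
  have hsr : s ≤ r := hs1.trans (min_le_right _ _)
  set A : Set (V × D) := {z | dist z.2 0 < r ∧ dist z.1 (p + z.2) < s} with hA
  have hAo : IsOpen A :=
    IsOpen.inter (s := {z : V × D | dist z.2 0 < r}) (t := {z : V × D | dist z.1 (p + z.2) < s})
      (isOpen_lt (by fun_prop) continuous_const) (isOpen_lt (by fun_prop) continuous_const)
  have hsw := swap hu D hAo
  have h1 : (volume : Measure D) (ball 0 r) * ENNReal.ofReal C⁻¹ * ENNReal.ofReal (s ^ n) ≤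
      ∫⁻ w, ν ((fun x => (x, w)) ⁻¹' A) ∂(volume : Measure D) := by
    have h2 : ∀ w : D, (ball (0 : D) r).indicator (fun _ => ENNReal.ofReal (s ^ n / C)) w ≤
        ν ((fun x => (x, w)) ⁻¹' A) := by
      intro w
      by_cases hw : w ∈ ball (0 : D) r
      · rw [indicator_of_mem hw]
        have h3 : ‖(w : V)‖ < r := by simpa using hw
        exact (hl _ (hD w w.2 h3) s hs hsR).trans (measure_mono fun x hx => ⟨hw, hx⟩)
      · rw [indicator_of_notMem hw]; exact zero_le
    refine le_trans (le_of_eq ?_) (lintegral_mono h2)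
    rw [lintegral_indicator_const measurableSet_ball, div_eq_mul_inv,
      ENNReal.ofReal_mul (pow_pos hs n).le]
    ring
  have h2 : ∫⁻ x, (volume : Measure D) (Prod.mk x ⁻¹' A) ∂ν ≤
      ν (ball p (2 * r)) * (volume : Measure D) (ball 0 1) * ENNReal.ofReal (2 ^ finrank ℝ D) *
        ENNReal.ofReal (s ^ finrank ℝ D) := by
    have h3 : ∀ x : V, (volume : Measure D) (Prod.mk x ⁻¹' A) ≤ (ball p (2 * r)).indicator
        (fun _ => ENNReal.ofReal ((2 * s) ^ finrank ℝ D) * (volume : Measure D) (ball 0 1)) x := by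
      intro x
      rcases (Prod.mk x ⁻¹' A).eq_empty_or_nonempty with h4 | ⟨w₁, hw₁, hw₂⟩
      · rw [h4, measure_empty]; exact zero_le
      simp only at hw₁ hw₂
      have hx : x ∈ ball p (2 * r) := by
        have h5 : dist (p + (w₁ : V)) p < r := by simpa using hw₁
        have h6 := dist_triangle x (p + (w₁ : V)) p
        rw [mem_ball]; linarith
      rw [indicator_of_mem hx, ← Measure.addHaar_ball_of_pos volume w₁ (by positivity : 0 < 2 * s)]
      refine measure_mono fun w hw => ?_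
      have h7 : dist x (p + (w : V)) < s := hw.2
      have h8 := dist_triangle_left (p + (w : V)) (p + (w₁ : V)) x
      rw [dist_add_left] at h8
      rw [mem_ball, Subtype.dist_eq]
      linarith
    refine (lintegral_mono h3).trans (le_of_eq ?_)
    rw [lintegral_indicator_const measurableSet_ball, mul_pow,
      ENNReal.ofReal_mul (by positivity)]
    ring
  exact h1.trans (hsw.symm.le.trans h2)

end DimX

theorem dim_pf : Dim_stmt := by
  intro V _ _ _ _ _ n C _ hC ν R p D hR hu hl
  exact ⟨fun hne hD => DimX.part1 hC hR hu hl hne hD,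
    fun r hr hD => DimX.part2 hC hR hu hl hr hD⟩

end Vale.Agent.P120
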