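import Vale.Agent.P120.Bas

/-! P120: descent of the dimension, `Full` and `Por`. -/

namespace Vale.Agent.P120

open MeasureTheory Metric Filter Module
open scoped Topology ENNReal NNReal RealInnerProductSpace

namespace DownX

variable {V : Type} [NormedAddCommGroup V] [InnerProductSpace ℝ V] [FiniteDimensional ℝ V]
  [MeasurableSpace V] [BorelSpace V] {n : ℕ} {C : ℝ}

omit [FiniteDimensional ℝ V] [MeasurableSpace V] [BorelSpace V] in
theorem sim_inv (y : V) {s : ℝ} (hs : 0 < s) (x : V) :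
    sim (LinearIsometryEquiv.refl ℝ V) y s (y + s • x) = x := by
  simp [sim, smul_smul, inv_mul_cancel₀ hs.ne']

omit [FiniteDimensional ℝ V] [MeasurableSpace V] [BorelSpace V] in
theorem sim_self (y : V) (s : ℝ) : sim (LinearIsometryEquiv.refl ℝ V) y s y = 0 := by
  simp [sim]

omit [FiniteDimensional ℝ V] [MeasurableSpace V] [BorelSpace V] in
theorem dist_aff (y : V) {s : ℝ} (hs : 0 < s) (a b : V) :
    dist (y + s • a) (y + s • b) = s * dist a b := by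
  rw [dist_add_left, dist_smul₀, Real.norm_eq_abs, abs_of_pos hs]

omit [FiniteDimensional ℝ V] [MeasurableSpace V] [BorelSpace V] in
theorem map_refl (D : Submodule ℝ V) :
    D.map ((LinearIsometryEquiv.refl ℝ V).toLinearEquiv : V →ₗ[ℝ] V) = D := by
  ext x
  simp

theorem hyper_le : (hyperfilter ℕ : Filter ℕ) ≤ atTop := by
  rw [← Nat.cofinite_eq_atTop]
  exact hyperfilter_le_cofinite

theorem tend_A : Tendsto (fun k : ℕ => (k : ℝ) + 1) (hyperfilter ℕ) atTop :=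
  (tendsto_atTop_add_const_right _ 1 tendsto_natCast_atTop_atTop).mono_left hyper_le

theorem tend_eta : Tendsto (fun k : ℕ => 1 / ((k : ℝ) + 1)) (hyperfilter ℕ) (𝓝 0) :=
  tendsto_one_div_add_atTop_nhds_zero_nat.mono_left hyper_le

/-- The limit of a sequence of increasingly good measures. -/
theorem pack (hL : Lim_stmt) (hP : LimP_stmt) (hQ : LimQ_stmt) (hn : 1 ≤ n) (hC : 1 ≤ C)
    (U : Ultrafilter ℕ) (ν : ℕ → Measure V) (A η : ℕ → ℝ) (hA : Tendsto A U atTop)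
    (hη : Tendsto η U (𝓝 0)) (h1 : ∀ k, Up n C (ν k)) (h2 : ∀ k, Low n C (A k) (ν k))
    (h3 : ∀ k, 0 ∈ (ν k).support) (h4 : ∀ k, Good n (ν k) 0 1 (A k) (η k)) :
    ∃ σ, Cl n C σ ∧ 0 ∈ σ.support ∧ Lim U ν σ := by
  obtain ⟨σ, hu, hl⟩ := hL V n C hn hC U ν h1
  have h5 := (hP V n C hn hC U ν σ h1 hu hl).2.2
  have h6 : (0 : V) ∈ σ.support :=
    (h5 A 1 one_pos (hA.eventually_ge_atTop 1) h2).2 (fun _ => 0) 0 (Eventually.of_forall h3)
      tendsto_const_nhds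
  refine ⟨σ, ⟨hu, fun R => ?_, ?_⟩, h6, hl⟩
  · exact (h5 A (max R 1) (by positivity) (hA.eventually_ge_atTop _) h2).1.mono (le_max_left _ _)
  · refine (hQ V n C hn hC U ν σ h1 hu hl).2 ?_ A η hA hη h4
    rintro rfl
    simp at h6

/-- Blow-up at the point of the support nearest to a point of the plane outside the support. -/
theorem down (hL : Lim_stmt) (hP : LimP_stmt) (hQ : LimQ_stmt) (hR : Resc_stmt) (hD : Red_stmt)
    (hn : 1 ≤ n) (hC : 1 ≤ C) {ν : Measure V} (hν : Cl n C ν) {p z y₀ : V} {D : Submodule ℝ V}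
    (hs : ∀ x ∈ ν.support, x - p ∈ D) (hz : z - p ∈ D) (hz' : z ∉ ν.support)
    (hy : y₀ ∈ ν.support) :
    ∃ q ∈ ν.support, dist z q ≤ dist z y₀ ∧ ∃ (σ : Measure V) (D' : Submodule ℝ V),
      Lim (hyperfilter ℕ)
        (fun k => resc n (LinearIsometryEquiv.refl ℝ V) q (1 / ((k : ℝ) + 1)) ν) σ ∧
      Cl n C σ ∧ 0 ∈ σ.support ∧ finrank ℝ D' < finrank ℝ D ∧ ∀ x ∈ σ.support, x ∈ D' := by
  have : ProperSpace V := FiniteDimensional.proper_real V
  obtain ⟨q, hq, hq'⟩ := (Measure.isClosed_support (μ := ν)).exists_infDist_eq_dist ⟨y₀, hy⟩ z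
  have hmin : ∀ y ∈ ν.support, dist z q ≤ dist z y := fun y h => hq' ▸ infDist_le_dist_of_mem h
  refine ⟨q, hq, hmin y₀ hy, ?_⟩
  have hk : ∀ k : ℕ, (0 : ℝ) < 1 / ((k : ℝ) + 1) := fun k => by positivity
  have hr := fun k : ℕ => (hR V n C hn hC).1 (LinearIsometryEquiv.refl ℝ V) q _ ν (hk k)
  obtain ⟨σ, h1, h2, h3⟩ := pack hL hP hQ hn hC (hyperfilter ℕ)
    (fun k => resc n (LinearIsometryEquiv.refl ℝ V) q (1 / ((k : ℝ) + 1)) ν) _ _ tend_A tend_eta
    (fun k => (hr k).1 hν.up)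
    (fun k => by
      have := (hr k).2.1 1 (hν.low 1)
      rwa [one_div_one_div] at this)
    (fun k => by
      have := ((hr k).2.2.2.1 q).2 hq
      rwa [sim_self] at this)
    (fun k => by
      have := (hr k).2.2.2.2.1 q _ _ _ (hν.rf.good q ((k : ℝ) + 1) (hk k) (hk k))
      rwa [sim_self, div_self (hk k).ne'] at this)
  have hne : q - z ≠ 0 := fun h => hz' (sub_eq_zero.1 h ▸ hq)
  have hR0 : 0 < ‖q - z‖ := norm_pos_iff.2 hne
  set e : V := ‖q - z‖⁻¹ • (q - z) with he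
  have he1 : ‖e‖ = 1 := by
    rw [he, norm_smul, norm_inv, norm_norm, inv_mul_cancel₀ hR0.ne']
  have heD : e ∈ D := by
    refine D.smul_mem _ ?_
    have := D.sub_mem (hs q hq) hz
    rwa [sub_sub_sub_cancel_right] at this
  have h4 := hD V n C hn hC ν hν q hq e ‖q - z‖ he1 hR0 (fun y hy => by
    have h5 := hmin y hy
    rw [dist_comm z q, dist_comm z y, dist_eq_norm, dist_eq_norm] at h5
    have h6 : ‖y - z‖ ^ 2 = ‖y - q‖ ^ 2 + 2 * ⟪y - q, q - z⟫ + ‖q - z‖ ^ 2 := by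
      rw [← norm_add_sq_real, sub_add_sub_cancel]
    have h7 : ‖q - z‖ * ⟪y - q, e⟫ = ⟪y - q, q - z⟫ := by
      rw [he, real_inner_smul_right, ← mul_assoc, mul_inv_cancel₀ hR0.ne', one_mul]
    have h8 := pow_le_pow_left₀ hR0.le h5 2
    rw [mul_assoc, h7]
    linarith) (hyperfilter ℕ) _ hk tend_eta σ h1.up h3
  refine ⟨σ, D ⊓ (ℝ ∙ e)ᗮ, h3, h1, h2, ?_, fun x hx => ⟨?_, ?_⟩⟩
  · refine Submodule.finrank_lt_finrank_of_lt (lt_of_le_of_ne inf_le_left fun h5 => ?_)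
    have h6 : e ∈ D ⊓ (ℝ ∙ e)ᗮ := h5.symm ▸ heD
    have h7 := Submodule.mem_orthogonal_singleton_iff_inner_left.1 h6.2
    rw [real_inner_self_eq_norm_sq, he1] at h7
    norm_num at h7
  · have h5 := (hP V n C hn hC _ _ σ (fun k => (hr k).1 hν.up) h1.up h3).2.1 x hx
    have h6 : x ∈ closure (D : Set V) := by
      refine Metric.mem_closure_iff.2 fun ε hε => ?_
      obtain ⟨k, x', h7, h8⟩ := (h5 ε hε).exists
      refine ⟨x', ?_, by rwa [dist_comm]⟩
      rw [← sim_inv q (hk k) x', (hr k).2.2.2.1] at h7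
      have h9 := D.sub_mem (hs _ h7) (hs q hq)
      rw [sub_sub_sub_cancel_right, add_sub_cancel_left] at h9
      exact (D.smul_mem_iff (hk k).ne').1 h9
    rwa [D.closed_of_finiteDimensional.closure_eq] at h6
  · exact Submodule.mem_orthogonal_singleton_iff_inner_left.2 (h4 x hx)

/-- Small excess passes from the limit to the sequence. -/
theorem pull (hP : LimP_stmt) (hn : 1 ≤ n) (hC : 1 ≤ C) {U : Ultrafilter ℕ} {ν : ℕ → Measure V}
    {σ : Measure V} (h1 : ∀ k, Up n C (ν k)) (h2 : Up n C σ) (h3 : Lim U ν σ) {y p x : V}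
    {s δ : ℝ} {D : Submodule ℝ V} (hs : 0 < s) (hδ : 0 < δ) (hx : x ∈ σ.support)
    (hxy : dist x y < s) (h : ExcD n σ y s (δ / 2) D p) :
    ∀ᶠ k in U, (∃ x' ∈ (ν k).support, dist x' y < s) ∧ ExcD n (ν k) y s δ D p := by
  obtain ⟨h4, h5, -⟩ := hP V n C hn hC U ν σ h1 h2 h3
  obtain ⟨N, hN⟩ := sq_mul_wt_le (n := n) y p hs
  have hc : Continuous fun x => ‖perp D (x - p)‖ ^ 2 * wt n y s x :=
    (((continuous_perp D).comp (continuous_id.sub continuous_const)).norm.pow 2).mul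
      (continuous_wt n y hs)
  have h6 := h4 (fun _ x => ‖perp D (x - p)‖ ^ 2 * wt n y s x) _ N
    (Eventually.of_forall fun _ => ⟨hc, fun x => by
      have h7 := (wt_pos n y hs x).le
      rw [abs_of_nonneg (by positivity)]
      refine le_trans (mul_le_mul_of_nonneg_right ?_ h7) (hN x)
      exact pow_le_pow_left₀ (norm_nonneg _) (norm_perp_le D _) 2⟩) hc
    (fun R ε hε => Eventually.of_forall fun _ x _ => by simpa using hε.le)
  have h7 : ∫ x, ‖perp D (x - p)‖ ^ 2 * wt n y s x ∂σ < δ ^ 2 * s ^ (n + 2) :=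
    lt_of_le_of_lt h (mul_lt_mul_of_pos_right (by nlinarith) (by positivity))
  filter_upwards [h6.eventually_lt_const h7, h5 x hx (s - dist x y) (by linarith)] with k h8 h9
  obtain ⟨x', h10, h11⟩ := h9
  exact ⟨⟨x', h10, by linarith [dist_triangle x' x y]⟩, h8.le⟩

/-- Flat balls are dense. -/
def PP (n : ℕ) (σ : Measure V) : Prop :=
  ∀ δ : ℝ, 0 < δ → ∀ y₀ ∈ σ.support, ∀ r₀ : ℝ, 0 < r₀ → ∃ (y : V) (s : ℝ) (D : Submodule ℝ V)
    (p : V), 0 < s ∧ s < r₀ ∧ dist y y₀ < r₀ ∧ (∃ x ∈ σ.support, dist x y < s) ∧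
      finrank ℝ D = n ∧ ExcD n σ y s δ D p

theorem pp_low (hV : n ≤ finrank ℝ V) {σ : Measure V} {D : Submodule ℝ V} {p : V}
    (hD : finrank ℝ D ≤ n) (hs : ∀ x ∈ σ.support, x - p ∈ D) : PP n σ := by
  intro δ hδ y₀ hy r₀ hr
  obtain ⟨D', h1, h2⟩ := exists_ge_rank D hD hV
  refine ⟨y₀, r₀ / 2, D', p, by positivity, by linarith, by simpa using hr,
    ⟨y₀, hy, by simpa using hr⟩, h2, ?_⟩
  unfold ExcD
  rw [integral_eq_zero_of_ae]
  · positivity
  · filter_upwards [Measure.support_mem_ae (μ := σ)] with x hx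
    simp [(perp_eq_zero D').2 (h1 (hs x hx))]

theorem pp_all (hL : Lim_stmt) (hP : LimP_stmt) (hQ : LimQ_stmt) (hR : Resc_stmt)
    (hM : Dim_stmt) (hD : Red_stmt) (hn : 1 ≤ n) (hC : 1 ≤ C) (hV : n ≤ finrank ℝ V) (m : ℕ) :
    ∀ (σ : Measure V) (D : Submodule ℝ V) (p : V), Cl n C σ → finrank ℝ D ≤ m →
      (∀ x ∈ σ.support, x - p ∈ D) → PP n σ := by
  induction m with
  | zero => exact fun σ D p _ h1 h2 => pp_low hV (by omega) h2
  | succ m ih =>
    intro σ D p hσ h1 h2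
    rcases le_or_gt (finrank ℝ D) n with h3 | h3
    · exact pp_low hV h3 h2
    intro δ hδ y₀ hy r₀ hr
    obtain ⟨w, hw, hw1, hw2⟩ : ∃ w ∈ D, ‖w‖ < r₀ / 4 ∧ y₀ + w ∉ σ.support := by
      by_contra hc
      push Not at hc
      have := (hM V n C hn hC σ 1 y₀ D one_pos hσ.up (hσ.low 1)).2 (r₀ / 4) (by positivity) hc
      omega
    obtain ⟨q, hq, hq1, τ, D', h4, h5, h6, h7, h8⟩ := down hL hP hQ hR hD hn hC hσ h2
      (z := y₀ + w) (by rw [add_sub_right_comm]; exact D.add_mem (h2 y₀ hy) hw) hw2 hy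
    obtain ⟨y, s, D₁, p₁, k1, k2, k3, ⟨x, k4, k5⟩, k6, k7⟩ :=
      ih τ D' 0 h5 (by omega) (by simpa using h8) (δ / 2) (by positivity) 0 h6 1 one_pos
    have hk : ∀ k : ℕ, (0 : ℝ) < 1 / ((k : ℝ) + 1) := fun k => by positivity
    have hr' := fun k : ℕ => (hR V n C hn hC).1 (LinearIsometryEquiv.refl ℝ V) q _ σ (hk k)
    obtain ⟨k, ⟨⟨x', l1, l2⟩, l3⟩, l4⟩ :=
      ((pull hP hn hC (fun k => (hr' k).1 hσ.up) h5.up h4 k1 hδ k4 k5 k7).and
        (tend_eta.eventually_lt_const (half_pos hr))).exists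
    have ht := hk k
    have hr2 := hr' k
    generalize 1 / ((k : ℝ) + 1) = t at ht hr2 l1 l3 l4
    have hd : dist (y₀ + w) y₀ < r₀ / 4 := by simpa using hw1
    refine ⟨q + t • y, t * s, D₁, q + t • p₁, by positivity, by nlinarith, ?_,
      ⟨q + t • x', ?_, ?_⟩, k6, ?_⟩
    · have e1 : dist (q + t • y) q = t * dist y 0 := by
        have := dist_aff q ht y 0
        rwa [smul_zero, add_zero] at this
      have e2 := dist_triangle (q + t • y) q y₀
      have e3 := dist_triangle_left q y₀ (y₀ + w)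
      nlinarith
    · rw [← hr2.2.2.2.1, sim_inv q ht]
      exact l1
    · rw [dist_aff q ht]
      exact mul_lt_mul_of_pos_left l2 ht
    · rw [hr2.2.2.2.2.2.1 _ _ _ _ _ (by positivity), sim_inv q ht, sim_inv q ht, map_refl,
        mul_div_cancel_left₀ _ ht.ne']
      exact l3

end DownX

open DownX

theorem full_pf (hL : Lim_stmt) (hP : LimP_stmt) (hQ : LimQ_stmt) (hR : Resc_stmt)
    (hM : Dim_stmt) (hD : Red_stmt) : Full_stmt := by
  intro V _ _ _ _ _ n C hn hC σ D hσ h0 hrk hs x hx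
  by_contra hx'
  obtain ⟨q, -, -, τ, D', -, h1, h2, h3, h4⟩ := down hL hP hQ hR hD hn hC hσ (p := 0) (D := D)
    (by simpa using hs) (by simpa using hx) hx' h0
  have := (hM V n C hn hC τ 1 0 D' one_pos h1.up (h1.low 1)).1 ⟨0, h2⟩ (by simpa using h4)
  omega

theorem por_pf (hL : Lim_stmt) (hP : LimP_stmt) (hQ : LimQ_stmt) (hR : Resc_stmt)
    (hM : Dim_stmt) (hD : Red_stmt) : Por_stmt := by
  intro V _ _ _ _ _ n C hn hC hV θ δ hθ hθ1 hδ
  by_contra hc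
  push Not at hc
  choose ν y s h1 h2 h3 h4 h5 h6 using fun k : ℕ => hc k ((k : ℝ) + 1) (1 / ((k : ℝ) + 1))
    (by simp) (by positivity)
  have hr := fun k : ℕ => (hR V n C hn hC).1 (LinearIsometryEquiv.refl ℝ V) (y k) _ (ν k) (h1 k)
  obtain ⟨σ, g1, g2, g3⟩ := pack hL hP hQ hn hC (hyperfilter ℕ)
    (fun k => resc n (LinearIsometryEquiv.refl ℝ V) (y k) (s k) (ν k)) _ _ tend_A tend_eta
    (fun k => (hr k).1 (h2 k))
    (fun k => by
      have := (hr k).2.1 _ (h3 k)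
      rwa [mul_div_cancel_right₀ _ (h1 k).ne'] at this)
    (fun k => by
      have := ((hr k).2.2.2.1 _).2 (h4 k)
      rwa [sim_self] at this)
    (fun k => by
      have := (hr k).2.2.2.2.1 _ _ _ _ (h5 k)
      rwa [sim_self, div_self (h1 k).ne'] at this)
  have hK : (0 : ℝ) < 2 ^ (n + 3) * θ⁻¹ ^ (n + 2) := by positivity
  obtain ⟨y₁, s₁, D₁, p₁, k1, k2, k3, ⟨x, k4, k5⟩, k6, k7⟩ :=
    pp_all hL hP hQ hR hM hD hn hC hV _ σ ⊤ 0 g1 le_rfl (fun _ _ => Submodule.mem_top)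
      (δ / (2 ^ (n + 3) * θ⁻¹ ^ (n + 2)) / 2) (by positivity) 0 g2 (1 / 30) (by norm_num)
  obtain ⟨i, hi1, hi2⟩ := exists_nat_pow_near_of_lt_one k1 (by linarith) hθ hθ1
  obtain ⟨k, ⟨⟨x', l1, l2⟩, l3⟩, l4⟩ :=
    ((pull hP hn hC (fun k => (hr k).1 (h2 k)) g1.up g3 k1 (by positivity) k4 k5 k7).and
      (hyper_le (eventually_ge_atTop (i + 1)))).exists
  have ht := h1 k
  obtain ⟨y', m1, m2⟩ := h6 k (i + 1) (by omega) l4 (y k + s k • x')
    (by rw [← (hr k).2.2.2.1, sim_inv _ ht]; exact l1)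
    (by
      have e1 := dist_aff (y k) ht x' 0
      rw [smul_zero, add_zero] at e1
      have e2 := dist_triangle x' y₁ 0
      rw [e1]
      nlinarith)
  refine m2 ?_
  rw [(hr k).2.2.2.2.2.2.1 _ _ _ (by positivity), mul_div_cancel_right₀ _ ht.ne']
  refine ⟨D₁, p₁, k6, ?_⟩
  obtain ⟨y₂, rfl⟩ : ∃ y₂, y' = y k + s k • y₂ :=
    ⟨(s k)⁻¹ • (y' - y k), by simp [smul_smul, mul_inv_cancel₀ ht.ne']⟩
  rw [dist_aff _ ht, mul_comm] at m1
  have m3 := le_of_mul_le_mul_right m1 ht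
  rw [sim_inv _ ht]
  have m4 := l3.move ((hr k).1 (h2 k)) (by linarith) k1 hθ (t := θ ^ (i + 1)) (y' := y₂)
    (by rw [pow_succ']; exact mul_le_mul_of_nonneg_left hi2 hθ.le) hi1.le
    (by
      rw [← dist_eq_norm]
      linarith [dist_triangle y₂ x' y₁])
  rwa [mul_div_cancel₀ _ hK.ne'] at m4

end Vale.Agent.P120
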