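import Vale.Agent.P120.BasK

/-! P120: basic lemmas (statements frozen). -/

namespace Vale.Agent.P120

open MeasureTheory Metric Filter Module
open scoped Topology ENNReal NNReal RealInnerProductSpace

set_option linter.unusedSectionVars false

section meas
variable {V : Type} [NormedAddCommGroup V] [InnerProductSpace ℝ V] [FiniteDimensional ℝ V]
  [MeasurableSpace V] [BorelSpace V] {n : ℕ} {C : ℝ} {ν : Measure V}

theorem Up.locFin (h : Up n C ν) : IsLocallyFiniteMeasure ν :=   ⟨fun x => ⟨ball x 1, ball_mem_nhds x one_pos, (h x 1 one_pos).trans_lt ENNReal.ofReal_lt_top⟩⟩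

theorem Up.noAtoms (h : Up n C ν) (hn : 1 ≤ n) : NullSingletonClass ν := by
  refine ⟨fun x => le_antisymm ?_ (zero_le)⟩
  have h1 : Tendsto (fun r : ℝ => ENNReal.ofReal (C * r ^ n)) (𝓝[>] 0) (𝓝 0) := by
    have : Tendsto (fun r : ℝ => C * r ^ n) (𝓝 0) (𝓝 (C * 0 ^ n)) :=
      (continuous_const.mul (continuous_pow n)).tendsto 0
    rw [zero_pow (by omega), mul_zero] at this
    simpa using (ENNReal.tendsto_ofReal this).mono_left nhdsWithin_le_nhds
  refine ge_of_tendsto h1 (eventually_nhdsWithin_of_forall fun r hr => ?_)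
  exact (measure_mono (Set.singleton_subset_iff.2 (mem_ball_self hr))).trans (h x r hr)

theorem Up.real_ball (h : Up n C ν) (hC : 0 ≤ C) (x : V) {r : ℝ} (hr : 0 < r) :
    ν.real (ball x r) ≤ C * r ^ n :=   ENNReal.toReal_le_of_le_ofReal (by positivity) (h x r hr)

theorem Low.real_ball {R : ℝ} (h : Low n C R ν) (hu : Up n C ν) {x : V} (hx : x ∈ ν.support)
    {r : ℝ} (hr : 0 < r) (hR : r ≤ R) : r ^ n / C ≤ ν.real (ball x r) :=   (ENNReal.ofReal_le_iff_le_toReal ((hu x r hr).trans_lt ENNReal.ofReal_lt_top).ne).1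
    (h x hx r hr hR)

theorem Low.mono {R R' : ℝ} (h : Low n C R ν) (hR : R' ≤ R) : Low n C R' ν :=
  fun x hx r hr h' => h x hx r hr (h'.trans hR)

theorem exists_mem_support {s : Set V} (h : ν s ≠ 0) : ∃ x ∈ s, x ∈ ν.support := by
  by_contra hc
  push Not at hc
  exact h (measure_mono_null (fun x hx => hc x hx) Measure.measure_compl_support)

/-- A continuous nonnegative function with zero integral vanishes on the support. -/
theorem eq_zero_of_integral {f : V → ℝ} (hc : Continuous f) (h0 : ∀ x, 0 ≤ f x)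
    (hi : Integrable f ν) (h : ∫ x, f x ∂ν = 0) {x : V} (hx : x ∈ ν.support) : f x = 0 := by
  by_contra hne
  have h1 := (integral_eq_zero_iff_of_nonneg h0 hi).1 h
  have h2 : {y | f y ≠ 0} ∈ 𝓝 x := (isOpen_ne_fun hc continuous_const).mem_nhds hne
  exact ((Measure.mem_support_iff_forall x).1 hx _ h2).ne' h1

omit [InnerProductSpace ℝ V] [FiniteDimensional ℝ V] [BorelSpace V] in
theorem int_of_cover {f : V → ℝ} (hf : Measurable f) (h0 : ∀ y, 0 ≤ f y) {S : Set V}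
    (A : ℕ → Set V) (hS : S ⊆ ⋃ j, A j) (b : ℕ → ℝ) (m : ℕ → ℝ) {M : ℝ} (hM : 0 ≤ M)
    (hA : ∀ j, MeasurableSet (A j)) (hb : ∀ j, ∀ y ∈ A j, f y ≤ b j) (hb0 : ∀ j, 0 ≤ b j)
    (hm : ∀ j, ν (A j) ≤ ENNReal.ofReal (m j)) (h : ∀ j, b j * m j ≤ M * (1 / 2) ^ j) :
    IntegrableOn f S ν ∧ ∫ y in S, f y ∂ν ≤ 2 * M := by
  have h1 : ∫⁻ y in S, ENNReal.ofReal (f y) ∂ν ≤ ENNReal.ofReal (2 * M) := by
    refine (lintegral_mono_set hS).trans ((lintegral_iUnion_le _ _).trans ?_)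
    have h2 : ∀ j, ∫⁻ y in A j, ENNReal.ofReal (f y) ∂ν ≤ ENNReal.ofReal (M * (1 / 2) ^ j) := by
      intro j
      refine (setLIntegral_mono' (g := fun _ => ENNReal.ofReal (b j)) (hA j)
        fun y hy => ENNReal.ofReal_le_ofReal (hb j y hy)).trans ?_
      rw [setLIntegral_const]
      refine (mul_le_mul_right (hm j) _).trans ?_
      rw [← ENNReal.ofReal_mul (hb0 j)]
      exact ENNReal.ofReal_le_ofReal (h j)
    refine (ENNReal.tsum_le_tsum h2).trans (le_of_eq ?_)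
    rw [← ENNReal.ofReal_tsum_of_nonneg (fun j => by positivity)
      (summable_geometric_two.mul_left M), tsum_mul_left, tsum_geometric_two, mul_comm]
  have h3 : IntegrableOn f S ν := ⟨hf.aestronglyMeasurable, by
    rw [hasFiniteIntegral_iff_ofReal (ae_of_all _ h0)]
    exact h1.trans_lt ENNReal.ofReal_lt_top⟩
  refine ⟨h3, ?_⟩
  rw [integral_eq_lintegral_of_nonneg_ae (ae_of_all _ h0) hf.aestronglyMeasurable]
  exact ENNReal.toReal_le_of_le_ofReal (by positivity) h1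

theorem Up.far (h : Up n C ν) (hC : 0 ≤ C) (x : V) {s : ℝ} (hs : 0 < s) {a : ℕ} (ha : 1 ≤ a) :
    IntegrableOn (fun y => ‖y - x‖⁻¹ ^ (n + a)) (ball x s)ᶜ ν ∧
    ∫ y in (ball x s)ᶜ, ‖y - x‖⁻¹ ^ (n + a) ∂ν ≤ 2 ^ (n + 1) * C * s⁻¹ ^ a := by
  have := int_of_cover (ν := ν) (f := fun y => ‖y - x‖⁻¹ ^ (n + a)) (by fun_prop)
    (fun y => by positivity) (S := (ball x s)ᶜ)
    (fun j => ball x (2 ^ (j + 1) * s) \ ball x (2 ^ j * s)) (fun y hy => by
      have h1 : 1 ≤ ‖y - x‖ / s := by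
        rw [le_div_iff₀ hs]; simpa [dist_eq_norm] using hy
      obtain ⟨j, h2, h3⟩ := exists_nat_pow_near h1 one_lt_two
      refine Set.mem_iUnion.2 ⟨j, ?_, ?_⟩
      · rw [mem_ball, dist_eq_norm]; rwa [div_lt_iff₀ hs] at h3
      · rw [mem_ball, dist_eq_norm, not_lt]; rwa [le_div_iff₀ hs] at h2)
    (fun j => (2 ^ j * s)⁻¹ ^ (n + a)) (fun j => C * (2 ^ (j + 1) * s) ^ n)
    (M := 2 ^ n * C * s⁻¹ ^ a) (by positivity)
    (fun j => measurableSet_ball.diff measurableSet_ball) (fun j y hy => by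
      have h2 := hy.2
      rw [mem_ball, dist_eq_norm, not_lt] at h2
      gcongr) (fun j => by positivity)
    (fun j => (measure_mono Set.sdiff_subset).trans (h x _ (by positivity))) (fun j => by
      have h1 : ((2 : ℝ) ^ j)⁻¹ ^ a ≤ (1 / 2) ^ j := by
        rw [one_div, inv_pow 2 j]
        exact pow_le_of_le_one (by positivity) (inv_le_one_of_one_le₀ (one_le_pow₀ one_le_two))
          (by omega)
      calc _ = 2 ^ n * C * s⁻¹ ^ a * ((2 : ℝ) ^ j)⁻¹ ^ a := by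
            rw [pow_add, pow_succ, mul_inv]
            simp only [mul_pow, inv_pow]
            field_simp
        _ ≤ _ := by gcongr)
  refine ⟨this.1, this.2.trans (le_of_eq (by ring))⟩

theorem Up.near (h : Up n C ν) (hn : 1 ≤ n) (hC : 0 ≤ C) (x : V) {s : ℝ} (hs : 0 < s) :
    IntegrableOn (fun y => ‖y - x‖⁻¹ ^ (n - 1)) (ball x s) ν ∧
    ∫ y in ball x s, ‖y - x‖⁻¹ ^ (n - 1) ∂ν ≤ 2 ^ (n + 1) * C * s := by
  have := h.noAtoms hn
  obtain ⟨m, rfl⟩ := Nat.exists_eq_add_of_le' hn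
  have h1 := int_of_cover (ν := ν) (f := fun y => ‖y - x‖⁻¹ ^ m) (by fun_prop)
    (fun y => by positivity) (S := ball x s \ {x})
    (fun j => ball x (s / 2 ^ j) \ ball x (s / 2 ^ (j + 1))) (fun y hy => by
      have h1 : 0 < ‖y - x‖ := norm_pos_iff.2 (sub_ne_zero.2 hy.2)
      have h2 : ∃ j : ℕ, s / 2 ^ (j + 1) ≤ ‖y - x‖ := by
        obtain ⟨j, hj⟩ := pow_unbounded_of_one_lt (s / ‖y - x‖) one_lt_two
        refine ⟨j, ?_⟩
        rw [div_lt_iff₀ h1] at hj
        rw [div_le_iff₀ (by positivity), pow_succ]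
        nlinarith [pow_pos (two_pos : (0 : ℝ) < 2) j]
      classical
      refine Set.mem_iUnion.2 ⟨Nat.find h2, ?_, ?_⟩
      · rw [mem_ball, dist_eq_norm]
        rcases h3 : Nat.find h2 with _ | j
        · simpa [dist_eq_norm] using hy.1
        · exact not_le.1 (Nat.find_min h2 (by omega))
      · rw [mem_ball, dist_eq_norm, not_lt]; exact Nat.find_spec h2)
    (fun j => (s / 2 ^ (j + 1))⁻¹ ^ m) (fun j => C * (s / 2 ^ j) ^ (m + 1))
    (M := 2 ^ m * C * s) (by positivity)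
    (fun j => measurableSet_ball.diff measurableSet_ball) (fun j y hy => by
      have h2 := hy.2
      rw [mem_ball, dist_eq_norm, not_lt] at h2
      gcongr) (fun j => by positivity)
    (fun j => (measure_mono Set.sdiff_subset).trans (h x _ (by positivity))) (fun j => by
      apply le_of_eq
      simp only [pow_succ, inv_div, div_pow, mul_pow, one_pow]
      field_simp)
  have h2 : ν.restrict (ball x s \ {x}) = ν.restrict (ball x s) :=
    Measure.restrict_congr_set (sdiff_null_ae_eq_self (measure_singleton x))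
  rw [IntegrableOn, h2] at h1
  rw [Nat.add_sub_cancel]
  refine ⟨h1.1, h1.2.trans ?_⟩
  have : (0 : ℝ) ≤ 2 ^ m * C * s := by positivity
  calc _ ≤ 4 * (2 ^ m * C * s) := by linarith
    _ = _ := by ring

theorem Up.dec (h : Up n C ν) (hC : 0 ≤ C) (x : V) {s : ℝ} (hs : 0 < s) {a : ℕ} (ha : 1 ≤ a) :
    Integrable (fun y => (1 + ‖y - x‖ / s)⁻¹ ^ (n + a)) ν ∧
    ∫ y, (1 + ‖y - x‖ / s)⁻¹ ^ (n + a) ∂ν ≤ 2 ^ (n + 2) * C * s ^ n := by
  have := h.locFin
  obtain ⟨h1, h2⟩ := h.far hC x hs ha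
  have hc : Continuous fun y : V => (1 + ‖y - x‖ / s)⁻¹ ^ (n + a) :=
    (Continuous.inv₀ (by fun_prop) fun y => by positivity).pow _
  have hb : ∀ y : V, (1 + ‖y - x‖ / s)⁻¹ ^ (n + a) ≤ 1 := fun y =>
    pow_le_one₀ (by positivity) (inv_le_one_of_one_le₀ (by
      have : 0 ≤ ‖y - x‖ / s := by positivity
      linarith))
  have h3 : IntegrableOn (fun y => (1 + ‖y - x‖ / s)⁻¹ ^ (n + a)) (ball x s) ν :=
    (hc.continuousOn.integrableOn_compact (isCompact_closedBall x s)).mono_set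
      ball_subset_closedBall
  have h4 : ∀ y ∈ (ball x s)ᶜ, (1 + ‖y - x‖ / s)⁻¹ ^ (n + a) ≤
      s ^ (n + a) * ‖y - x‖⁻¹ ^ (n + a) := fun y hy => by
    have h5 : s ≤ ‖y - x‖ := by simpa [dist_eq_norm] using hy
    have h6 : 0 < ‖y - x‖ := hs.trans_le h5
    rw [← mul_pow, ← div_eq_mul_inv, ← inv_div ‖y - x‖ s]
    gcongr; linarith
  have h5 : IntegrableOn (fun y => (1 + ‖y - x‖ / s)⁻¹ ^ (n + a)) (ball x s)ᶜ ν :=
    Integrable.mono' (h1.const_mul (s ^ (n + a))) hc.aestronglyMeasurable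
      ((ae_restrict_iff' measurableSet_ball.compl).2 (ae_of_all _ fun y hy => by
        rw [Real.norm_of_nonneg (by positivity)]; exact h4 y hy))
  have h6 : Integrable (fun y => (1 + ‖y - x‖ / s)⁻¹ ^ (n + a)) ν := by
    rw [← integrableOn_univ, ← Set.union_compl_self (ball x s)]; exact h3.union h5
  refine ⟨h6, ?_⟩
  rw [← integral_add_compl (measurableSet_ball (x := x) (ε := s)) h6]
  have h7 : ∫ y in ball x s, (1 + ‖y - x‖ / s)⁻¹ ^ (n + a) ∂ν ≤ C * s ^ n := by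
    refine (setIntegral_mono_on h3 (integrableOn_const measure_ball_lt_top.ne)
      measurableSet_ball fun y _ => hb y).trans ?_
    simpa using h.real_ball hC x hs
  have h8 : ∫ y in (ball x s)ᶜ, (1 + ‖y - x‖ / s)⁻¹ ^ (n + a) ∂ν ≤ 2 ^ (n + 1) * C * s ^ n := by
    refine (setIntegral_mono_on h5 (h1.const_mul _) measurableSet_ball.compl h4).trans ?_
    rw [integral_const_mul]
    refine (mul_le_mul_of_nonneg_left h2 (by positivity)).trans (le_of_eq ?_)
    rw [pow_add, inv_pow]; field_simp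
  have h9 : (1 : ℝ) ≤ 2 ^ (n + 1) := one_le_pow₀ one_le_two
  have h10 : 0 ≤ C * s ^ n := by positivity
  rw [pow_succ 2 (n + 1)]
  nlinarith

theorem Up.dec_tail (h : Up n C ν) (hC : 0 ≤ C) {R : ℝ} (hR : 0 < R) {a : ℕ} (ha : 1 ≤ a) :
    ∫ y in (ball 0 R)ᶜ, (1 + ‖y‖)⁻¹ ^ (n + a) ∂ν ≤ 2 ^ (n + 1) * C * R⁻¹ ^ a := by
  obtain ⟨h1, h2⟩ := h.far hC 0 hR ha
  refine le_trans (setIntegral_mono_on ?_ h1 measurableSet_ball.compl fun y hy => ?_) h2
  · simpa using (h.dec hC 0 one_pos ha).1.integrableOn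
  · have h5 : R ≤ ‖y‖ := by simpa using hy
    have h6 : 0 < ‖y‖ := hR.trans_le h5
    rw [sub_zero]; gcongr; linarith

/-- Functions with decay are integrable. -/
theorem Up.integrable (h : Up n C ν) (hC : 0 ≤ C) {E : Type} [NormedAddCommGroup E] {g : V → E}
    (hg : AEStronglyMeasurable g ν) {N : ℝ} (hN : ∀ x, ‖g x‖ ≤ N * (1 + ‖x‖)⁻¹ ^ (n + 1)) :
    Integrable g ν := by
  refine Integrable.mono' (((h.dec hC 0 one_pos le_rfl).1).const_mul N) hg (ae_of_all _ fun x => ?_)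
  simpa using hN x

theorem Up.diff (h : Up n C ν) (hn : 1 ≤ n) (hC : 0 ≤ C) (x : V) {ε ε' : ℝ} (h0 : 0 < ε')
    (hε : ε' ≤ ε) : Integrable (fun y => (kr n ε' (x - y) - kr n ε (x - y)) * ‖x - y‖ ^ 2) ν ∧
    ∫ y, (kr n ε' (x - y) - kr n ε (x - y)) * ‖x - y‖ ^ 2 ∂ν ≤ cK n * C * ε := by
  have hε0 := h0.trans_le hε
  obtain ⟨h1, h2⟩ := h.near hn hC x hε0
  obtain ⟨h3, h4⟩ := h.far hC x hε0 le_rfl
  have hc : Continuous fun y : V => (kr n ε' (x - y) - kr n ε (x - y)) * ‖x - y‖ ^ 2 :=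
    (((continuous_kr n h0).comp (by fun_prop)).sub
      ((continuous_kr n hε0).comp (by fun_prop))).mul (by fun_prop)
  have hp : ∀ y : V, 0 ≤ (kr n ε' (x - y) - kr n ε (x - y)) * ‖x - y‖ ^ 2 := fun y =>
    mul_nonneg (sub_nonneg.2 (kr_anti h0 hε _)) (by positivity)
  have b1 : ∀ y : V, (kr n ε' (x - y) - kr n ε (x - y)) * ‖x - y‖ ^ 2 ≤ ‖y - x‖⁻¹ ^ (n - 1) :=
    fun y => by
      rw [norm_sub_rev y x]
      refine le_trans ?_ (kr_mul_sq_le hn ε' (x - y))
      exact mul_le_mul_of_nonneg_right (sub_le_self _ (kr_nonneg _ _ _)) (by positivity)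
  have b2 : ∀ y ∈ (ball x ε)ᶜ, (kr n ε' (x - y) - kr n ε (x - y)) * ‖x - y‖ ^ 2 ≤
      (n + 1) * ε ^ 2 * ‖y - x‖⁻¹ ^ (n + 1) := fun y hy => by
    have h5 : ε ≤ ‖y - x‖ := by simpa [dist_eq_norm] using hy
    rw [norm_sub_rev y x] at h5 ⊢
    have h6 : 0 < ‖x - y‖ := hε0.trans_le h5
    refine (mul_le_mul_of_nonneg_right (kr_sub_le h0 hε (norm_pos_iff.1 h6))
      (by positivity)).trans (le_of_eq ?_)
    simp only [pow_succ]; field_simp
  have i1 : IntegrableOn (fun y => (kr n ε' (x - y) - kr n ε (x - y)) * ‖x - y‖ ^ 2)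
      (ball x ε) ν := Integrable.mono' h1 hc.aestronglyMeasurable (ae_of_all _ fun y => by
    rw [Real.norm_of_nonneg (hp y)]; exact b1 y)
  have i2 : IntegrableOn (fun y => (kr n ε' (x - y) - kr n ε (x - y)) * ‖x - y‖ ^ 2)
      (ball x ε)ᶜ ν := Integrable.mono' (h3.const_mul _) hc.aestronglyMeasurable
    ((ae_restrict_iff' measurableSet_ball.compl).2 (ae_of_all _ fun y hy => by
      rw [Real.norm_of_nonneg (hp y)]; exact b2 y hy))
  have i3 : Integrable (fun y => (kr n ε' (x - y) - kr n ε (x - y)) * ‖x - y‖ ^ 2) ν := by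
    rw [← integrableOn_univ, ← Set.union_compl_self (ball x ε)]; exact i1.union i2
  refine ⟨i3, ?_⟩
  rw [← integral_add_compl (measurableSet_ball (x := x) (ε := ε)) i3]
  have h7 := (setIntegral_mono_on i1 h1 measurableSet_ball fun y _ => b1 y).trans h2
  have h8 := setIntegral_mono_on i2 (h3.const_mul _) measurableSet_ball.compl b2
  rw [integral_const_mul] at h8
  have h9 := h8.trans (mul_le_mul_of_nonneg_left h4 (by positivity))
  have h10 : ((n : ℝ) + 1) * ε ^ 2 * (2 ^ (n + 1) * C * ε⁻¹ ^ 1) =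
      (n + 1) * (2 ^ (n + 1) * C * ε) := by field_simp
  have h11 : (0 : ℝ) ≤ (n + 2) * (2 ^ (n + 1) * C * ε) := by positivity
  have h12 : cK n * C * ε = 2 * ((n + 2) * (2 ^ (n + 1) * C * ε)) := by unfold cK; ring
  linarith

theorem sq_mul_wt_le (y p : V) {s : ℝ} (hs : 0 < s) : ∃ N : ℝ, ∀ x,
    ‖x - p‖ ^ 2 * wt n y s x ≤ N * (1 + ‖x‖)⁻¹ ^ (n + 1) := by
  set a := 1 + ‖y‖ + s with ha
  have hy := norm_nonneg y
  have ha0 : 0 < a := by positivity
  refine ⟨(1 + ‖p‖) ^ 2 * a ^ (n + 3), fun x => ?_⟩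
  have hx := norm_nonneg x
  have h1 : ‖x - p‖ ≤ (1 + ‖p‖) * (1 + ‖x‖) := by
    nlinarith [norm_sub_le x p, norm_nonneg p, mul_nonneg hx (norm_nonneg p)]
  have h2 : 1 + ‖x‖ ≤ a * (1 + ‖x - y‖ / s) := by
    have h3 : ‖x‖ ≤ ‖y‖ + ‖x - y‖ := by simpa [add_comm] using norm_add_le (x - y) y
    have h4 : 0 ≤ ‖x - y‖ / s := by positivity
    have h5 : s * (‖x - y‖ / s) = ‖x - y‖ := by field_simp
    nlinarith [mul_nonneg hy h4]
  have h3 : (1 + ‖x - y‖ / s)⁻¹ ≤ a * (1 + ‖x‖)⁻¹ := by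
    rw [← div_eq_mul_inv, inv_eq_one_div, div_le_div_iff₀ (by positivity) (by positivity)]
    linarith
  calc _ ≤ ((1 + ‖p‖) * (1 + ‖x‖)) ^ 2 * (a * (1 + ‖x‖)⁻¹) ^ (n + 3) := by
        unfold wt; gcongr
    _ = _ := by simp only [mul_pow, pow_succ]; field_simp

theorem Up.integrable_exc (h : Up n C ν) (hC : 0 ≤ C) (D : Submodule ℝ V) (y p : V) {s : ℝ}
    (hs : 0 < s) : Integrable (fun x => ‖perp D (x - p)‖ ^ 2 * wt n y s x) ν := by
  obtain ⟨N, hN⟩ := sq_mul_wt_le (n := n) y p hs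
  refine h.integrable hC (((((continuous_perp D).comp (by fun_prop)).norm.pow 2).mul
    (continuous_wt n y hs)).aestronglyMeasurable) (N := N) fun x => le_trans ?_ (hN x)
  have := (wt_pos n y hs x).le
  rw [Real.norm_of_nonneg (by positivity)]
  gcongr; exact norm_perp_le D _

theorem ExcD.mono {y p : V} {s δ δ' : ℝ} {D : Submodule ℝ V} (h : ExcD n ν y s δ D p)
    (hs : 0 < s) (h0 : 0 ≤ δ) (hδ : δ ≤ δ') : ExcD n ν y s δ' D p :=   le_trans h (by gcongr)

theorem Exc.mono {y : V} {s δ δ' : ℝ} (h : Exc n ν y s δ) (hs : 0 < s) (h0 : 0 ≤ δ)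
    (hδ : δ ≤ δ') : Exc n ν y s δ' := by
  obtain ⟨D, p, h1, h2⟩ := h
  exact ⟨D, p, h1, h2.mono hs h0 hδ⟩

theorem ExcD.move {y y' p : V} {s t θ δ : ℝ} {D : Submodule ℝ V} (h : ExcD n ν y s δ D p)
    (hu : Up n C ν) (hC : 0 ≤ C) (hs : 0 < s) (hθ : 0 < θ) (h1 : θ * s ≤ t) (h2 : t ≤ s)
    (hy : ‖y' - y‖ ≤ 3 * s) : ExcD n ν y' t (2 ^ (n + 3) * θ⁻¹ ^ (n + 2) * δ) D p := by
  have ht : 0 < t := (mul_pos hθ hs).trans_le h1
  have hθ1 : θ ≤ 1 := by nlinarith
  have hw : ∀ x, wt n y' t x ≤ 4 ^ (n + 3) * wt n y s x := fun x => by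
    have h3 : ‖x - y‖ ≤ ‖x - y'‖ + ‖y' - y‖ := norm_sub_le_norm_sub_add_norm_sub _ _ _
    have h4 : ‖x - y'‖ / s ≤ ‖x - y'‖ / t := by gcongr
    have h5 : ‖x - y‖ / s ≤ ‖x - y'‖ / s + 3 := by
      rw [div_add' _ _ _ hs.ne']; gcongr; linarith
    have h6 : 0 ≤ ‖x - y'‖ / t := by positivity
    unfold wt
    rw [← mul_pow]
    gcongr
    rw [← div_eq_mul_inv, inv_eq_one_div, div_le_div_iff₀ (by positivity) (by positivity)]
    linarith
  have h3 : ∫ x, ‖perp D (x - p)‖ ^ 2 * wt n y' t x ∂ν ≤ 4 ^ (n + 3) * (δ ^ 2 * s ^ (n + 2)) := by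
    refine le_trans (integral_mono (hu.integrable_exc hC D y' p ht)
      ((hu.integrable_exc hC D y p hs).const_mul (4 ^ (n + 3))) fun x => ?_) ?_
    · exact (mul_le_mul_of_nonneg_left (hw x) (by positivity)).trans (le_of_eq (by ring))
    · rw [integral_const_mul]; exact mul_le_mul_of_nonneg_left h (by positivity)
  refine h3.trans ?_
  have h4 : s ≤ θ⁻¹ * t := by rw [inv_mul_eq_div, le_div_iff₀ hθ]; linarith
  have h5 : (1 : ℝ) ≤ θ⁻¹ ^ (n + 2) := one_le_pow₀ (one_le_inv₀ hθ |>.2 hθ1)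
  have h6 : s ^ (n + 2) ≤ θ⁻¹ ^ (n + 2) * θ⁻¹ ^ (n + 2) * t ^ (n + 2) :=
    calc _ ≤ (θ⁻¹ * t) ^ (n + 2) := by gcongr
      _ = 1 * θ⁻¹ ^ (n + 2) * t ^ (n + 2) := by rw [mul_pow, one_mul]
      _ ≤ _ := by gcongr
  calc _ ≤ 4 ^ (n + 3) * (δ ^ 2 * (θ⁻¹ ^ (n + 2) * θ⁻¹ ^ (n + 2) * t ^ (n + 2))) := by gcongr
    _ = _ := by rw [show (4 : ℝ) = 2 * 2 by norm_num, mul_pow]; ring

theorem Good.mono {y : V} {s A A' η η' : ℝ} (h : Good n ν y s A η) (hs : 0 < s) (hA : A' ≤ A)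
    (hη : η ≤ η') : Good n ν y s A' η' := fun X h1 h2 h3 =>
  (h X h1 (fun x hx => h2 x ((mul_le_mul_of_nonneg_right hA hs.le).trans hx)) h3).mono
    fun _ h4 => h4.trans (by gcongr)

theorem RF.good (h : RF n ν) (y : V) {s η : ℝ} (A : ℝ) (hs : 0 < s) (hη : 0 < η) :
    Good n ν y s A η := fun X h1 h2 h3 => by
  have h4 : HasCompactSupport X := HasCompactSupport.intro (isCompact_closedBall y (A * s))
    fun x hx => h2 x (by rw [mem_closedBall, dist_eq_norm, not_le] at hx; exact hx.le)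
  have h5 := (h X 1 h1 h4 h3).abs
  rw [abs_zero] at h5
  exact (h5.eventually (ge_mem_nhds (by positivity : 0 < η * s ^ (n + 1))))

/-- The inner integral of `Tf`. -/
noncomputable def Ti (n : ℕ) (ε : ℝ) (ν : Measure V) (X : V → V) (y : V) : ℝ :=
  ∫ x, kr n ε (x - y) * ⟪x - y, X x⟫ ∂ν

theorem Tf_eq (n : ℕ) (ε : ℝ) (ν : Measure V) (X : V → V) :
    Tf n ε ν X = ∫ y, Ti n ε ν X y ∂ν := rfl

variable {ε : ℝ} {X : V → V}

theorem Ti_eq (y : V) :
    Ti n ε ν X y = ∫ x, ⟪kr n ε (x - y) • (x - y), X x⟫ ∂ν := by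
  simp only [Ti, real_inner_smul_left]

theorem norm_Kr_le (hε : 0 < ε) (z : V) : ‖kr n ε z • z‖ ≤ ε⁻¹ ^ n := by
  rw [norm_smul, Real.norm_of_nonneg (kr_nonneg _ _ _)]; exact kr_mul_norm_le_eps hε z

theorem integrable_inner {g : V → V} (hg : Continuous g) {M : ℝ} (hM : ∀ x, ‖g x‖ ≤ M)
    (hX : Integrable X ν) : Integrable (fun x => ⟪g x, X x⟫) ν :=
  Integrable.mono' (hX.norm.const_mul M) (hg.aestronglyMeasurable.inner hX.1)
    (ae_of_all _ fun x => (norm_inner_le_norm _ _).trans (by gcongr; exact hM x))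

theorem continuous_Kr (hε : 0 < ε) : Continuous fun z : V => kr n ε z • z :=
  (continuous_kr n hε).smul continuous_id

theorem integrable_Ti_aux' (hε : 0 < ε) (hX : Integrable X ν) (y : V) :
    Integrable (fun x => ⟪kr n ε (x - y) • (x - y), X x⟫) ν :=
  integrable_inner ((continuous_Kr (n := n) hε).comp (continuous_sub_right y))
    (fun _ => norm_Kr_le hε _) hX

theorem integrable_Ti_aux (hε : 0 < ε) (hX : Integrable X ν) (y : V) :
    Integrable (fun x => kr n ε (x - y) * ⟪x - y, X x⟫) ν := by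
  simpa only [real_inner_smul_left] using integrable_Ti_aux' hε hX y

theorem abs_integral_inner_le {g : V → V} {M : ℝ} (hX : Integrable X ν)
    (hM : ∀ x, X x ≠ 0 → ‖g x‖ ≤ M) : |∫ x, ⟪g x, X x⟫ ∂ν| ≤ M * ∫ x, ‖X x‖ ∂ν := by
  rw [← integral_const_mul]
  refine norm_integral_le_of_norm_le (f := fun x => ⟪g x, X x⟫) (hX.norm.const_mul M)
    (ae_of_all _ fun x => ?_)
  by_cases h : X x = 0
  · simp [h]
  · exact (norm_inner_le_norm _ _).trans (by gcongr; exact hM x h)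

theorem Ti_lip (hε : 0 < ε) (hX : Integrable X ν) (y y' : V) :
    |Ti n ε ν X y - Ti n ε ν X y'| ≤ cK n * ‖y - y'‖ * ε⁻¹ ^ (n + 1) * ∫ x, ‖X x‖ ∂ν := by
  have h := integrable_Ti_aux' (n := n) hε hX
  rw [Ti_eq, Ti_eq, ← integral_sub (h y) (h y')]
  simp only [← inner_sub_left]
  refine abs_integral_inner_le hX fun x _ => (Kr_lip hε _ _).trans (le_of_eq ?_)
  rw [sub_sub_sub_cancel_left, norm_sub_rev]

theorem continuous_Ti (hε : 0 < ε) (hX : Integrable X ν) : Continuous (Ti n ε ν X) := by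
  refine (LipschitzWith.of_dist_le' (K := cK n * ε⁻¹ ^ (n + 1) * ∫ x, ‖X x‖ ∂ν)
    fun y y' => ?_).continuous
  rw [Real.dist_eq, dist_eq_norm]
  exact (Ti_lip hε hX y y').trans (le_of_eq (by ring))

theorem Ti_le (hε : 0 < ε) (hX : Integrable X ν) (y : V) :
    |Ti n ε ν X y| ≤ ε⁻¹ ^ n * ∫ x, ‖X x‖ ∂ν := by
  rw [Ti_eq]; exact abs_integral_inner_le hX fun x _ => norm_Kr_le hε _

theorem Ti_far (hε : 0 < ε) (hX : Integrable X ν) {z : V} {ρ : ℝ}
    (h0 : ∀ x, ρ ≤ ‖x - z‖ → X x = 0) (hm : ∫ x, X x ∂ν = 0) {y : V} (hy : 2 * ρ ≤ ‖y - z‖) :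
    |Ti n ε ν X y| ≤ cK n * ρ * ‖y - z‖⁻¹ ^ (n + 1) * ∫ x, ‖X x‖ ∂ν := by
  have h := integrable_Ti_aux' (n := n) hε hX y
  have h1 : ∫ x, ⟪kr n ε (z - y) • (z - y), X x⟫ ∂ν = 0 := by
    rw [integral_inner hX, hm, inner_zero_right]
  rw [Ti_eq, ← sub_zero (∫ x, ⟪kr n ε (x - y) • (x - y), X x⟫ ∂ν), ← h1,
    ← integral_sub h (hX.const_inner _)]
  simp only [← inner_sub_left]
  refine abs_integral_inner_le hX fun x hx => ?_
  have h2 : ‖x - z‖ < ρ := by by_contra h3; exact hx (h0 x (not_lt.1 h3))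
  have h3 : ‖z - y - (x - y)‖ = ‖x - z‖ := by rw [sub_sub_sub_cancel_right, norm_sub_rev]
  rw [norm_sub_rev, norm_sub_rev y z]
  refine (Kr_lip_far hε (by rw [h3, norm_sub_rev z y]; linarith)).trans ?_
  have := cK_pos n
  rw [h3]; gcongr

theorem Ti_dec (hε : 0 < ε) {z : V} {ρ : ℝ} : ∃ N : ℝ, 0 ≤ N ∧ ∀ (ν : Measure V) (X : V → V),
    Integrable X ν → (∀ x, ρ ≤ ‖x - z‖ → X x = 0) → ∫ x, X x ∂ν = 0 → ∀ y,
    |Ti n ε ν X y| ≤ (N * ∫ x, ‖X x‖ ∂ν) * (1 + ‖y‖)⁻¹ ^ (n + 1) := by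
  set a := 1 + ‖z‖ + (2 * |ρ| + 1) with ha
  have hz := norm_nonneg z
  have hρ := abs_nonneg ρ
  have hc := cK_pos n
  refine ⟨(ε⁻¹ ^ n + cK n * |ρ|) * a ^ (n + 1), by positivity, fun ν X hX h0 hm y => ?_⟩
  have hI : 0 ≤ ∫ x, ‖X x‖ ∂ν := integral_nonneg fun _ => norm_nonneg _
  have hy := norm_nonneg y
  have h3 : ‖y‖ ≤ ‖z‖ + ‖y - z‖ := by simpa [add_comm] using norm_add_le (y - z) z
  by_cases h : 2 * |ρ| + 1 ≤ ‖y - z‖
  · refine (Ti_far hε hX h0 hm (by linarith [le_abs_self ρ])).trans ?_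
    have h4 : ‖y - z‖⁻¹ ≤ a * (1 + ‖y‖)⁻¹ := by
      rw [← div_eq_mul_inv, inv_eq_one_div, div_le_div_iff₀ (by linarith) (by positivity)]
      nlinarith
    calc _ ≤ (ε⁻¹ ^ n + cK n * |ρ|) * (a * (1 + ‖y‖)⁻¹) ^ (n + 1) * ∫ x, ‖X x‖ ∂ν := by
          gcongr
          have : 0 ≤ ε⁻¹ ^ n := by positivity
          nlinarith [le_abs_self ρ]
      _ = _ := by rw [mul_pow]; ring
  · refine (Ti_le hε hX y).trans ?_
    have h4 : 1 ≤ a * (1 + ‖y‖)⁻¹ := by
      rw [← div_eq_mul_inv, le_div_iff₀ (by positivity)]; linarith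
    calc _ ≤ (ε⁻¹ ^ n + cK n * |ρ|) * (a * (1 + ‖y‖)⁻¹) ^ (n + 1) * ∫ x, ‖X x‖ ∂ν := by
          gcongr
          have : 0 ≤ cK n * |ρ| := by positivity
          exact (le_add_of_nonneg_right this).trans (le_mul_of_one_le_right (by positivity)
            (one_le_pow₀ h4))
      _ = _ := by rw [mul_pow]; ring

theorem Up.integrable_Ti (h : Up n C ν) (hC : 0 ≤ C) (hε : 0 < ε) (hX : Integrable X ν) {z : V}
    {ρ : ℝ} (h0 : ∀ x, ρ ≤ ‖x - z‖ → X x = 0) (hm : ∫ x, X x ∂ν = 0) :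
    Integrable (Ti n ε ν X) ν := by
  obtain ⟨N, -, hN⟩ := Ti_dec (V := V) (n := n) hε (z := z) (ρ := ρ)
  exact h.integrable hC (continuous_Ti hε hX).aestronglyMeasurable (hN ν X hX h0 hm)

theorem continuous_Rz (hε : 0 < ε) {f : V → ℝ} (hf : Integrable f ν) :
    Continuous (Rz n ε ν f) := by
  refine continuous_of_dominated (bound := fun y => ε⁻¹ ^ n * ‖f y‖) (fun x => ?_)
    (fun x => ae_of_all _ fun y => ?_) (hf.norm.const_mul _) (ae_of_all _ fun y => ?_)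
  · exact (((continuous_kr n hε).comp (by fun_prop)).aestronglyMeasurable.mul hf.1).smul
      (by fun_prop)
  · rw [mul_comm (kr _ _ _), mul_smul, norm_smul, mul_comm]
    gcongr; exact norm_Kr_le hε _
  · exact (((continuous_kr n hε).comp (by fun_prop)).mul continuous_const).smul (by fun_prop)

theorem Up.integral_mul_Ti (h : Up n C ν) (hε : 0 < ε) (hX : Integrable X ν) {f : V → ℝ}
    (hf : Integrable f ν) : ∫ y, f y * Ti n ε ν X y ∂ν = ∫ x, ⟪Rz n ε ν f x, X x⟫ ∂ν := by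
  have := h.locFin
  have hm : AEStronglyMeasurable (fun p : V × V => kr n ε (p.2 - p.1) • (p.2 - p.1)) (ν.prod ν) :=
    ((continuous_Kr hε).comp (by fun_prop)).aestronglyMeasurable
  have hi : Integrable (Function.uncurry fun y x =>
      f y * ⟪kr n ε (x - y) • (x - y), X x⟫) (ν.prod ν) := by
    refine Integrable.mono' ((hf.norm.mul_prod hX.norm).const_mul (ε⁻¹ ^ n))
      (hf.1.comp_fst.mul (hm.inner hX.1.comp_snd)) (ae_of_all _ fun p => ?_)
    simp only [Function.uncurry]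
    rw [norm_mul, mul_left_comm]
    gcongr
    exact (norm_inner_le_norm _ _).trans (by gcongr; exact norm_Kr_le hε _)
  simp only [Ti_eq, ← integral_const_mul]
  rw [integral_integral_swap hi]
  refine integral_congr_ae (ae_of_all _ fun x => ?_)
  have h2 : Integrable (fun y => (kr n ε (x - y) * f y) • (x - y)) ν := by
    refine Integrable.mono' (hf.norm.const_mul (ε⁻¹ ^ n))
      ((((continuous_kr n hε).comp (by fun_prop)).aestronglyMeasurable.mul hf.1).smul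
        (by fun_prop)) (ae_of_all _ fun y => ?_)
    rw [mul_comm (kr _ _ _), mul_smul, norm_smul, mul_comm]
    gcongr; exact norm_Kr_le hε _
  simp only [Rz]
  rw [real_inner_comm, ← integral_inner h2]
  refine integral_congr_ae (ae_of_all _ fun y => ?_)
  simp only [real_inner_smul_right, real_inner_comm (X x)]
  ring

theorem Tf_smul (c : ℝ) : Tf n ε ν (fun x => c • X x) = c * Tf n ε ν X := by
  simp only [Tf, real_inner_smul_right, ← integral_const_mul]
  congr 1; funext y; congr 1; funext x; ring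

/-- Lipschitz fields with bounded support are integrable. -/
theorem Up.integrable_of_supp (h : Up n C ν) {E : Type} [NormedAddCommGroup E] {g : V → E}
    (hg : Continuous g) {z : V} {ρ : ℝ} (h0 : ∀ x, ρ ≤ ‖x - z‖ → g x = 0) : Integrable g ν := by
  have := h.locFin
  exact hg.integrable_of_hasCompactSupport (HasCompactSupport.intro (isCompact_closedBall z ρ)
    fun x hx => h0 x (by rw [mem_closedBall, dist_eq_norm, not_le] at hx; exact hx.le))

/-- Integrability on the product from a uniform bound of the sections. -/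
theorem Up.integrable_prod (h : Up n C ν) {F : V × V → ℝ} (hF : AEStronglyMeasurable F (ν.prod ν))
    {g : V → ℝ} (hg : Integrable g ν) {q : V → V → ℝ} {M : ℝ} (hq : ∀ x, Integrable (q x) ν)
    (hM : ∀ x, ∫ y, q x y ∂ν ≤ M) (h0 : ∀ x, 0 ≤ g x) (hb : ∀ x y, |F (y, x)| ≤ g x * q x y) :
    Integrable F (ν.prod ν) ∧ ∫ p, |F p| ∂ν.prod ν ≤ M * ∫ x, g x ∂ν := by
  have := h.locFin
  have h1 : ∀ x, ∫ y, ‖F (y, x)‖ ∂ν ≤ M * g x := fun x => by
    refine (integral_mono_of_nonneg (ae_of_all _ fun y => norm_nonneg _) ((hq x).const_mul (g x))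
      (ae_of_all _ fun y => hb x y)).trans ?_
    rw [integral_const_mul, mul_comm M]
    exact mul_le_mul_of_nonneg_left (hM x) (h0 x)
  have h2 : Integrable F (ν.prod ν) := by
    refine (integrable_prod_iff' hF).2 ⟨hF.prodMk_right.mono fun x hx => Integrable.mono'
      ((hq x).const_mul (g x)) hx (ae_of_all _ fun y => hb x y), ?_⟩
    refine Integrable.mono' (hg.const_mul M) hF.prod_swap.norm.integral_prod_right'
      (ae_of_all _ fun x => ?_)
    rw [Real.norm_of_nonneg (integral_nonneg fun _ => norm_nonneg _)]; exact h1 x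
  refine ⟨h2, ?_⟩
  rw [integral_prod_symm _ h2.abs, ← integral_const_mul]
  exact integral_mono_of_nonneg (ae_of_all _ fun x => integral_nonneg fun _ => abs_nonneg _)
    (hg.const_mul M) (ae_of_all _ h1)

theorem Up.Tf_cauchy (h : Up n C ν) (hn : 1 ≤ n) (hC : 0 ≤ C) {K : ℝ≥0} (hK : LipschitzWith K X)
    {z : V} {ρ : ℝ} (hρ : 0 < ρ) (h0 : ∀ x, ρ ≤ ‖x - z‖ → X x = 0) (hm : ∫ x, X x ∂ν = 0)
    {ε' : ℝ} (h1 : 0 < ε') (h2 : ε' ≤ ε) :
    |Tf n ε' ν X - Tf n ε ν X| ≤ cK n * C ^ 2 * K * ρ ^ n * ε := by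
  have := h.locFin
  have hε := h1.trans_le h2
  have hX := h.integrable_of_supp hK.continuous h0
  set q : V → ℝ := fun z => kr n ε' z - kr n ε z with hq
  have hqc : Continuous q := (continuous_kr n h1).sub (continuous_kr n hε)
  have hq0 : ∀ z, 0 ≤ q z := fun z => sub_nonneg.2 (kr_anti h1 h2 z)
  have hd := fun x => h.diff hn hC x h1 h2
  have hF := (h.integrable_prod (F := fun p => q (p.2 - p.1) * ⟪p.2 - p.1, X p.2⟫)
    (Continuous.aestronglyMeasurable (by have := hK.continuous; fun_prop)) hX.norm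
    (q := fun x y => (2 / ε') ^ (n + 1) * (1 + ‖y - x‖ / ε')⁻¹ ^ (n + 1) +
      q (x - y) * ‖x - y‖ ^ 2)
    (M := (2 / ε') ^ (n + 1) * (2 ^ (n + 2) * C * ε' ^ n) + cK n * C * ε)
    (fun x => ((h.dec hC x h1 le_rfl).1.const_mul _).add (hd x).1) (fun x => by
      rw [integral_add ((h.dec hC x h1 le_rfl).1.const_mul _) (hd x).1, integral_const_mul]
      exact add_le_add (mul_le_mul_of_nonneg_left (h.dec hC x h1 le_rfl).2 (by positivity))
        (hd x).2) (fun x => norm_nonneg _) (fun x y => by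
      have a1 := kr_le_dec (n := n) h1 (x - y)
      rw [norm_sub_rev] at a1
      have a2 : q (x - y) ≤ kr n ε' (x - y) := sub_le_self _ (kr_nonneg _ _ _)
      have a3 := hq0 (x - y)
      have a4 : q (x - y) * ‖x - y‖ ≤ q (x - y) * (1 + ‖x - y‖ ^ 2) :=
        mul_le_mul_of_nonneg_left (by nlinarith [sq_nonneg (‖x - y‖ - 1)]) a3
      rw [abs_mul, abs_of_nonneg a3]
      calc _ ≤ q (x - y) * (‖x - y‖ * ‖X x‖) := by gcongr; exact abs_real_inner_le_norm _ _
        _ = ‖X x‖ * (q (x - y) * ‖x - y‖) := by ring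
        _ ≤ _ := by gcongr; linarith)).1
  obtain ⟨hG, hG'⟩ := h.integrable_prod
    (F := fun p => (ball z ρ).indicator 1 p.2 * (q (p.2 - p.1) * ‖p.2 - p.1‖ ^ 2))
    (((measurable_one.indicator measurableSet_ball).comp measurable_snd).aestronglyMeasurable.mul
      (Continuous.aestronglyMeasurable (by fun_prop)))
    (g := (ball z ρ).indicator 1) ((integrable_indicator_iff measurableSet_ball).2
      (integrableOn_const measure_ball_lt_top.ne)) (fun x => (hd x).1) (fun x => (hd x).2)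
    (fun x => Set.indicator_nonneg (fun _ _ => zero_le_one) x) (fun x y =>
      (abs_of_nonneg (mul_nonneg (Set.indicator_nonneg (fun _ _ => zero_le_one) x)
        (mul_nonneg (hq0 _) (by positivity)))).le)
  have e1 : Tf n ε' ν X - Tf n ε ν X = ∫ p, q (p.2 - p.1) * ⟪p.2 - p.1, X p.2⟫ ∂ν.prod ν := by
    rw [Tf_eq, Tf_eq, ← integral_sub (h.integrable_Ti hC h1 hX h0 hm)
      (h.integrable_Ti hC hε hX h0 hm), integral_prod _ hF]
    congr 1; funext y
    rw [Ti, Ti, ← integral_sub (integrable_Ti_aux h1 hX y) (integrable_Ti_aux hε hX y)]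
    simp only [hq, sub_mul]
  have e2 := integral_prod_swap (μ := ν) (ν := ν)
    fun p : V × V => q (p.2 - p.1) * ⟪p.2 - p.1, X p.2⟫
  have e3 := integral_prod_swap (μ := ν) (ν := ν)
    fun p : V × V => |(ball z ρ).indicator 1 p.2 * (q (p.2 - p.1) * ‖p.2 - p.1‖ ^ 2)|
  have e4 := norm_integral_le_of_norm_le ((hG.abs.add hG.swap.abs).const_mul K)
    (f := fun p : V × V => q (p.2 - p.1) * ⟪p.2 - p.1, X p.2⟫ +
      q (p.1 - p.2) * ⟪p.1 - p.2, X p.1⟫) (ae_of_all _ fun p => by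
    obtain ⟨y, x⟩ := p
    have a1 : q (y - x) = q (x - y) := by simp only [hq, kr_sub_comm n _ x y]
    have a2 : ⟪y - x, X y⟫ = -⟪x - y, X y⟫ := by rw [← neg_sub, inner_neg_left]
    have a3 := hq0 (x - y)
    have a4 : 0 ≤ q (x - y) * ‖x - y‖ ^ 2 := by positivity
    have a5 : |q (x - y) * ⟪x - y, X x - X y⟫| ≤ K * (q (x - y) * ‖x - y‖ ^ 2) := by
      rw [abs_mul, abs_of_nonneg a3]
      have := hK.dist_le_mul x y
      rw [dist_eq_norm, dist_eq_norm] at this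
      calc _ ≤ q (x - y) * (‖x - y‖ * (K * ‖x - y‖)) := by
            gcongr; exact (abs_real_inner_le_norm _ _).trans (by gcongr)
        _ = _ := by ring
    simp only [Pi.add_apply, Function.comp, Prod.swap, a1, a2, norm_sub_rev y x, Real.norm_eq_abs]
    rw [mul_neg, ← sub_eq_add_neg, ← mul_sub, ← inner_sub_right]
    by_cases hx : x ∈ ball z ρ
    · refine a5.trans (mul_le_mul_of_nonneg_left ?_ K.2)
      rw [Set.indicator_of_mem hx, Pi.one_apply, one_mul, abs_of_nonneg a4]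
      exact le_add_of_nonneg_right (abs_nonneg _)
    by_cases hy : y ∈ ball z ρ
    · refine a5.trans (mul_le_mul_of_nonneg_left ?_ K.2)
      rw [Set.indicator_of_mem hy, Pi.one_apply, one_mul, abs_of_nonneg a4]
      exact le_add_of_nonneg_left (abs_nonneg _)
    rw [mem_ball, dist_eq_norm, not_lt] at hx hy
    rw [h0 x hx, h0 y hy]; simp; positivity)
  have hF' : Integrable (fun p : V × V => q (p.1 - p.2) * ⟪p.1 - p.2, X p.1⟫) (ν.prod ν) := hF.swap
  rw [integral_add hF hF', integral_const_mul, integral_add' hG.abs hG.swap.abs] at e4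
  have e5 : ∫ x, (ball z ρ).indicator (1 : V → ℝ) x ∂ν ≤ C * ρ ^ n := by
    rw [integral_indicator_one measurableSet_ball]; exact h.real_ball hC z hρ
  have e6 := hG'.trans (mul_le_mul_of_nonneg_left e5 (by have := cK_pos n; positivity))
  simp only [Function.comp, Prod.fst_swap, Prod.snd_swap] at e2 e3 e4
  rw [e2, e3, ← e1, ← two_mul, ← two_mul, Real.norm_eq_abs, abs_mul, abs_two] at e4
  have e7 := mul_le_mul_of_nonneg_left e6 K.2
  simp only [NNReal.val_eq_coe] at e7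
  linarith

end meas

end Vale.Agent.P120
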