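import Vale.Agent.P120.Stmts
import Vale.Agent.P120.Bas

/-! P120: from discrete Lipschitz pieces to a Lipschitz image. -/

namespace Vale.Agent.P120

open MeasureTheory Metric Filter Module
open scoped Topology ENNReal NNReal RealInnerProductSpace

namespace FinX

theorem ulim {X : Type} [PseudoMetricSpace X] [ProperSpace X] (U : Ultrafilter ℕ) (a : ℕ → X)
    (x : X) (R : ℝ) (h : ∀ k, dist (a k) x ≤ R) :
    ∃ y, dist y x ≤ R ∧ Tendsto a U (𝓝 y) := by
  obtain ⟨y, hy, hl⟩ := (isCompact_closedBall x R).ultrafilter_le_nhds (U.map a) (by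
    rw [Ultrafilter.coe_map, le_principal_iff, mem_map]
    exact Eventually.of_forall h)
  exact ⟨y, hy, hl⟩

theorem extend {V W : Type} [NormedAddCommGroup V] [NormedSpace ℝ V] [FiniteDimensional ℝ V]
    [PseudoMetricSpace W] (G : Finset V) (f : V → W) (M' : ℝ)
    (h : ∀ ω ∈ G, ∀ ω' ∈ G, dist ω ω' ≤ M' * dist (f ω) (f ω')) :
    ∃ g : W → V, LipschitzWith (lipschitzExtensionConstant V * M'.toNNReal) g ∧
      ∀ ω ∈ G, g (f ω) = ω := by
  have h1 : ∀ ω ∈ G, Function.invFunOn f (G : Set V) (f ω) = ω := by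
    intro ω hω
    have e : ∃ a ∈ (G : Set V), f a = f ω := ⟨ω, hω, rfl⟩
    have e1 := Function.invFunOn_mem e
    have e2 := Function.invFunOn_eq e
    have e3 := h _ e1 ω hω
    rw [e2, dist_self, mul_zero] at e3
    exact dist_le_zero.1 e3
  have h2 : LipschitzOnWith M'.toNNReal (Function.invFunOn f (G : Set V)) (f '' G) := by
    refine LipschitzOnWith.of_dist_le_mul ?_
    rintro _ ⟨ω, hω, rfl⟩ _ ⟨ω', hω', rfl⟩
    rw [h1 ω hω, h1 ω' hω']
    refine (h ω hω ω' hω').trans (mul_le_mul_of_nonneg_right ?_ dist_nonneg)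
    exact Real.le_coe_toNNReal M'
  obtain ⟨g, hg, he⟩ := h2.extend_finite_dimension
  exact ⟨g, hg, fun ω hω => by rw [← he ⟨ω, hω, rfl⟩, h1 ω hω]⟩

variable {V : Type} [NormedAddCommGroup V] [InnerProductSpace ℝ V] [FiniteDimensional ℝ V]
  [MeasurableSpace V] [BorelSpace V] {n : ℕ} {C : ℝ}

omit [InnerProductSpace ℝ V] [FiniteDimensional ℝ V] in
theorem mass {μ : Measure V} {r₀ ρ c : ℝ} (hC : 1 ≤ C) (hl : Low n C r₀ μ) (G : Finset V)
    (hρ : 0 < ρ) (hρr : ρ ≤ r₀) (hG : ∀ ω ∈ G, ω ∈ μ.support)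
    (hs : ∀ ω ∈ G, ∀ ω' ∈ G, ω ≠ ω' → ρ ≤ dist ω ω') (hc : c ≤ G.card * ρ ^ n) {S : Set V}
    (hS : ∀ ω ∈ G, ball ω (ρ / 2) ⊆ S) : ENNReal.ofReal (c / (2 ^ n * C)) ≤ μ S := by
  have h1 : μ (⋃ ω ∈ G, ball ω (ρ / 2)) = ∑ ω ∈ G, μ (ball ω (ρ / 2)) := by
    refine measure_biUnion_finset (fun ω hω ω' hω' hne => ?_) fun _ _ => measurableSet_ball
    exact ball_disjoint_ball (by linarith [hs ω hω ω' hω' hne])
  have h2 : μ (⋃ ω ∈ G, ball ω (ρ / 2)) ≤ μ S := measure_mono (Set.iUnion₂_subset hS)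
  refine le_trans ?_ (h1 ▸ h2)
  have h3 : ∑ _ω ∈ G, ENNReal.ofReal ((ρ / 2) ^ n / C) ≤ ∑ ω ∈ G, μ (ball ω (ρ / 2)) :=
    Finset.sum_le_sum fun ω hω => hl ω (hG ω hω) _ (by positivity) (by linarith)
  refine le_trans ?_ h3
  rw [← ENNReal.ofReal_sum_of_nonneg (fun _ _ => by positivity), Finset.sum_const, nsmul_eq_mul]
  refine ENNReal.ofReal_le_ofReal ?_
  have e : (G.card : ℝ) * ((ρ / 2) ^ n / C) = G.card * ρ ^ n / (2 ^ n * C) := by
    rw [div_pow]
    field_simp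
  rw [e]
  exact div_le_div_of_nonneg_right hc (by positivity)

end FinX

open FinX in
theorem fin_pf : Fin_stmt := by
  intro V _ _ _ _ _ n C hn hC c M' hc
  obtain ⟨M, hM⟩ : ∃ M : ℝ≥0, M = lipschitzExtensionConstant V * M'.toNNReal := ⟨_, rfl⟩
  refine ⟨c / (2 ^ n * C), M, by positivity, fun μ x₀ r₀ r hr₀ hr hu hl H => ?_⟩
  have hlf := hu.locFin
  choose G ρ f h0 h1 h2 h3 h4 h5 using fun k : ℕ => H (r₀ / (k + 1)) (by positivity)
  choose g hg hgf using fun k => extend (G k) (f k) M' (h4 k)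
  rw [← hM] at hg
  have hne : ∀ k, (G k).Nonempty := fun k => by
    rw [Finset.nonempty_iff_ne_empty]
    intro he
    have := h5 k
    rw [he] at this
    simp only [Finset.card_empty, Nat.cast_zero, zero_mul] at this
    have : 0 < c * r₀ ^ n := by positivity
    linarith
  have hb : ∀ p k, dist (g k p) x₀ ≤ M * (‖p‖ + 2 * r₀) + 2 * r₀ := fun p k => by
    obtain ⟨ω, hω⟩ := hne k
    obtain ⟨-, a2, a3⟩ := h2 k ω hω
    have a4 := (hg k).dist_le_mul p (f k ω)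
    rw [hgf k ω hω] at a4
    have a5 : dist p (f k ω) ≤ ‖p‖ + 2 * r₀ := by
      rw [dist_eq_norm]
      linarith [norm_sub_le p (f k ω)]
    have a6 := mul_le_mul_of_nonneg_left a5 M.2
    simp only [NNReal.val_eq_coe] at a6
    linarith [dist_triangle (g k p) ω x₀]
  let U : Ultrafilter ℕ := hyperfilter ℕ
  have hU : (U : Filter ℕ) ≤ atTop := Nat.hyperfilter_le_atTop
  choose g₀ hg1 hg₀ using fun p => ulim U (fun k => g k p) x₀ _ (hb p)
  have hL : LipschitzWith M g₀ := LipschitzWith.of_dist_le_mul fun p q =>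
    le_of_tendsto' ((hg₀ p).dist (hg₀ q)) fun k => (hg k).dist_le_mul p q
  obtain ⟨K, hK⟩ : ∃ K, K = g₀ '' closedBall 0 (2 * r₀) := ⟨_, rfl⟩
  have hKc : IsCompact K := hK ▸ (isCompact_closedBall _ _).image hL.continuous
  have hρ : Tendsto ρ U (𝓝 0) := by
    refine squeeze_zero (fun k => (h0 k).le) h1 (Tendsto.mono_left ?_ hU)
    have := tendsto_one_div_add_atTop_nhds_zero_nat (𝕜 := ℝ).const_mul r₀
    simpa [div_eq_mul_inv] using this
  have near : ∀ δ : ℝ, 0 < δ → ∀ᶠ k in U, ∀ ω ∈ G k, ∃ y ∈ K, dist ω y < δ := by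
    intro δ hδ
    by_contra hcon
    rw [← Ultrafilter.eventually_not] at hcon
    have ex : ∀ k, ∃ ω ∈ G k, (¬ ∀ ω ∈ G k, ∃ y ∈ K, dist ω y < δ) →
        ∀ y ∈ K, δ ≤ dist ω y := fun k => by
      by_cases hk : ∀ ω ∈ G k, ∃ y ∈ K, dist ω y < δ
      · obtain ⟨ω, hω⟩ := hne k
        exact ⟨ω, hω, fun h => absurd hk h⟩
      · push Not at hk
        obtain ⟨ω, hω, h⟩ := hk
        exact ⟨ω, hω, fun _ => h⟩
    choose ω hω hω' using ex
    obtain ⟨p, hp, hpl⟩ := ulim U (fun k => f k (ω k)) 0 (2 * r₀) fun k => by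
      rw [dist_zero_right]
      exact (h2 k _ (hω k)).2.2
    have t1 : Tendsto (fun k => M * dist (f k (ω k)) p + dist (g k p) (g₀ p)) U (𝓝 0) := by
      have a1 := (tendsto_iff_dist_tendsto_zero.1 hpl).const_mul (M : ℝ)
      have a2 := tendsto_iff_dist_tendsto_zero.1 (hg₀ p)
      simpa using a1.add a2
    obtain ⟨k, hk1, hk2⟩ := (hcon.and (t1.eventually (gt_mem_nhds hδ))).exists
    have a1 := hω' k hk1 (g₀ p) (hK ▸ ⟨p, hp, rfl⟩)
    have a2 := (hg k).dist_le_mul (f k (ω k)) p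
    rw [hgf k _ (hω k)] at a2
    linarith [dist_triangle (ω k) (g k p) (g₀ p)]
  have low : ∀ δ : ℝ, 0 < δ → ENNReal.ofReal (c * r₀ ^ n / (2 ^ n * C))
      ≤ μ.restrict (ball x₀ r) (cthickening δ K) := by
    intro δ hδ
    obtain ⟨k, hk1, hk2⟩ := ((near (δ / 2) (by positivity)).and
      (hρ.eventually (gt_mem_nhds hδ))).exists
    have hρr : ρ k ≤ r₀ := (h1 k).trans (div_le_self hr₀.le (by linarith [k.cast_nonneg (α := ℝ)]))
    rw [Measure.restrict_apply' measurableSet_ball]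
    refine mass hC hl (G k) (h0 k) hρr (fun ω hω => (h2 k ω hω).1) (h3 k) (h5 k)
      fun ω hω z hz => ⟨?_, ?_⟩
    · obtain ⟨y, hy, hd⟩ := hk1 ω hω
      refine mem_cthickening_of_dist_le z y δ K hy ?_
      rw [mem_ball] at hz
      linarith [dist_triangle z ω y]
    · rw [mem_ball] at hz ⊢
      linarith [dist_triangle z ω x₀, (h2 k ω hω).2.1]
  have lim := (tendsto_measure_cthickening_of_isCompact (μ := μ.restrict (ball x₀ r)) hKc).mono_left
    (nhdsWithin_le_nhds (s := Set.Ioi 0))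
  have fin := ge_of_tendsto lim (eventually_mem_nhdsWithin.mono fun δ hδ => low δ hδ)
  refine ⟨fun p => g₀ p, hL.comp (LipschitzWith.subtype_val _) |>.weaken (by simp), ?_⟩
  rw [Measure.restrict_apply' measurableSet_ball] at fin
  have e : c / (2 ^ n * C) * r₀ ^ n = c * r₀ ^ n / (2 ^ n * C) := by ring
  rw [e]
  refine fin.trans (measure_mono fun z hz => ⟨hz.2, ?_⟩)
  obtain ⟨p, hp, rfl⟩ : z ∈ g₀ '' closedBall 0 (2 * r₀) := hK ▸ hz.1
  refine ⟨⟨p, ?_⟩, rfl⟩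
  rw [mem_closedBall] at hp
  rw [mem_ball]
  linarith

end Vale.Agent.P120
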