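import Vale.Agent.P120.Bas

/-! P120: vague limits along an ultrafilter. -/

namespace Vale.Agent.P120

open MeasureTheory Metric Filter Module
open scoped Topology ENNReal NNReal RealInnerProductSpace CompactlySupported

namespace LimX

variable {V : Type} [NormedAddCommGroup V] [InnerProductSpace ℝ V] [FiniteDimensional ℝ V]
  [MeasurableSpace V] [BorelSpace V] {n : ℕ} {C : ℝ}

theorem bump (x : V) {r' r : ℝ} (h : r' < r) : ∃ f : V → ℝ, Continuous f ∧ HasCompactSupport f ∧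
    (∀ y, 0 ≤ f y ∧ f y ≤ 1) ∧ (∀ y ∈ closedBall x r', f y = 1) ∧ ∀ y, y ∉ ball x r → f y = 0 := by
  obtain ⟨f, h1, h2, h3, h4⟩ := exists_continuous_one_zero_of_isCompact (isCompact_closedBall x r')
    isOpen_ball.isClosed_compl (Set.disjoint_compl_right_iff_subset.2 (closedBall_subset_ball h))
  exact ⟨f, f.continuous, h3, h4, h1, h2⟩

theorem fin_ball {ν : Measure V} (h : Up n C ν) (x : V) (r : ℝ) : ν (ball x r) ≠ ∞ := by
  have := h.locFin
  exact measure_ball_lt_top.ne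

theorem intc {ν : Measure V} (h : Up n C ν) {f : V → ℝ} (hf : Continuous f)
    (hc : HasCompactSupport f) : Integrable f ν := by
  have := h.locFin
  exact hf.integrable_of_hasCompactSupport hc

theorem intc2 {ν : Measure V} (h : Up n C ν) {χ g : V → ℝ} (hχ : Continuous χ)
    (hc : HasCompactSupport χ) (hg : Continuous g) : Integrable (fun x => χ x * g x) ν :=
  intc h (hχ.mul hg) hc.mul_right

theorem le_int {ν : Measure V} {f : V → ℝ} (hi : Integrable f ν) (h0 : ∀ y, 0 ≤ f y) {s : Set V}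
    (hs : MeasurableSet s) (h1 : ∀ y ∈ s, f y = 1) : ν.real s ≤ ∫ y, f y ∂ν := by
  have h2 : ∫ y in s, f y ∂ν = ν.real s := by
    rw [setIntegral_congr_fun hs (g := fun _ => (1 : ℝ)) h1]
    simp
  exact h2 ▸ setIntegral_le_integral hi (Eventually.of_forall h0)

theorem int_le {ν : Measure V} {f : V → ℝ} {s : Set V} (hs : ν s ≠ ∞) {M : ℝ}
    (h0 : ∀ y, y ∉ s → f y = 0) (h1 : ∀ y ∈ s, |f y| ≤ M) : |∫ y, f y ∂ν| ≤ M * ν.real s := by
  rw [← setIntegral_eq_integral_of_forall_compl_eq_zero h0]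
  exact norm_setIntegral_le_of_norm_le_const (f := f) hs.lt_top fun y hy => h1 y hy

theorem exists_lim (hC : 0 ≤ C) (U : Ultrafilter ℕ) {ν : ℕ → Measure V} (h : ∀ k, Up n C (ν k))
    (f : C_c(V, ℝ)) : ∃ l : ℝ, Tendsto (fun k => ∫ x, f x ∂ν k) U (𝓝 l) := by
  obtain ⟨M, hM⟩ := f.continuous.bounded_above_of_compact_support f.hasCompactSupport
  obtain ⟨r, hr, hs⟩ := f.hasCompactSupport.isCompact.isBounded.subset_ball_lt 0 0
  have h1 : ∀ k, |∫ x, f x ∂ν k| ≤ M * (C * r ^ n) := fun k =>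
    (int_le (fin_ball (h k) 0 r) (fun y hy => image_eq_zero_of_notMem_tsupport fun h2 => hy (hs h2))
      fun y _ => hM y).trans (mul_le_mul_of_nonneg_left ((h k).real_ball hC 0 hr)
        ((norm_nonneg _).trans (hM 0)))
  obtain ⟨l, -, hl⟩ := isCompact_Icc.ultrafilter_le_nhds' (U.map fun k => ∫ x, f x ∂ν k)
    (Ultrafilter.mem_map.2 (Filter.univ_mem' fun k => abs_le.1 (h1 k)))
  exact ⟨l, hl⟩

theorem tail {ν : Measure V} (h : Up n C ν) (hC : 0 ≤ C) {g χ : V → ℝ} {N R : ℝ} (hR : 0 < R)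
    (hg : Continuous g) (hN : ∀ x, |g x| ≤ N * (1 + ‖x‖)⁻¹ ^ (n + 1)) (hχ : Continuous χ)
    (hc : HasCompactSupport χ) (h0 : ∀ y, 0 ≤ χ y ∧ χ y ≤ 1) (h1 : ∀ y ∈ closedBall 0 R, χ y = 1) :
    |∫ x, g x ∂ν - ∫ x, χ x * g x ∂ν| ≤ N * (2 ^ (n + 1) * C * R⁻¹) := by
  have hN0 : 0 ≤ N := by simpa using (abs_nonneg _).trans (hN 0)
  have h2 : Integrable g ν := h.integrable hC hg.aestronglyMeasurable hN
  have h3 : Integrable (fun y : V => (1 + ‖y‖)⁻¹ ^ (n + 1)) ν := by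
    simpa using (h.dec hC 0 one_pos le_rfl).1
  rw [← integral_sub h2 (intc2 h hχ hc hg),
    ← setIntegral_eq_integral_of_forall_compl_eq_zero (s := (ball 0 R)ᶜ)
      (f := fun y => g y - χ y * g y) fun y hy => by
      rw [h1 y (ball_subset_closedBall (not_not.1 hy)), one_mul, sub_self]]
  refine (norm_integral_le_of_norm_le (f := fun y => g y - χ y * g y)
    (h3.const_mul N).integrableOn (Eventually.of_forall fun y => ?_)).trans ?_
  · rw [show g y - χ y * g y = (1 - χ y) * g y by ring, norm_mul, Real.norm_eq_abs,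
      Real.norm_eq_abs, abs_of_nonneg (by linarith [(h0 y).2])]
    exact (mul_le_of_le_one_left (abs_nonneg _) (by linarith [(h0 y).1])).trans (hN y)
  · rw [integral_const_mul]
    exact mul_le_mul_of_nonneg_left (by simpa using h.dec_tail hC hR (a := 1) le_rfl) hN0

variable {U : Ultrafilter ℕ} {ν : ℕ → Measure V} {σ : Measure V}

theorem part1 (hC : 0 ≤ C) (h : ∀ k, Up n C (ν k)) (hσ : Up n C σ) (hL : Lim U ν σ)
    {g : ℕ → V → ℝ} {g₀ : V → ℝ} {N : ℝ}
    (hg : ∀ᶠ k in U, Continuous (g k) ∧ ∀ x, |g k x| ≤ N * (1 + ‖x‖)⁻¹ ^ (n + 1))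
    (h0 : Continuous g₀) (hU : LU U g g₀) :
    Tendsto (fun k => ∫ x, g k x ∂ν k) U (𝓝 (∫ x, g₀ x ∂σ)) := by
  have hN : ∀ x, |g₀ x| ≤ N * (1 + ‖x‖)⁻¹ ^ (n + 1) := fun x =>
    le_of_forall_pos_le_add fun ε hε => by
      obtain ⟨k, h1, h2⟩ := (hg.and (hU ‖x‖ ε hε)).exists
      have h3 := abs_sub_abs_le_abs_sub (g₀ x) (g k x)
      rw [abs_sub_comm] at h3
      linarith [h1.2 x, h2 x le_rfl]
  refine Metric.tendsto_nhds.2 fun ε hε => ?_
  have h1 : Tendsto (fun R : ℝ => N * (2 ^ (n + 1) * C * R⁻¹)) atTop (𝓝 0) := by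
    simpa using (tendsto_inv_atTop_zero.const_mul (2 ^ (n + 1) * C)).const_mul N
  obtain ⟨R, hR1, hR⟩ := ((h1.eventually (gt_mem_nhds (show 0 < ε / 4 by positivity))).and
    (eventually_gt_atTop 0)).exists
  obtain ⟨χ, c1, c2, c3, c4, c5⟩ := bump (0 : V) (lt_add_one R)
  have hB : 0 < C * (R + 1) ^ n + 1 := by positivity
  filter_upwards [hg, hU (R + 1) (ε / 4 / (C * (R + 1) ^ n + 1)) (by positivity),
    Metric.tendsto_nhds.1 (hL (fun x => χ x * g₀ x) (c1.mul h0) c2.mul_right) (ε / 4)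
      (by positivity)] with k k1 k2 k3
  have a1 := abs_le.1 ((tail (h k) hC hR k1.1 k1.2 c1 c2 c3 c4).trans hR1.le)
  have a2 := abs_le.1 ((tail hσ hC hR h0 hN c1 c2 c3 c4).trans hR1.le)
  have a3 : |∫ x, χ x * g k x ∂ν k - ∫ x, χ x * g₀ x ∂ν k| ≤ ε / 4 := by
    rw [← integral_sub (intc2 (h k) c1 c2 k1.1) (intc2 (h k) c1 c2 h0)]
    refine (int_le (fin_ball (h k) 0 (R + 1)) (M := ε / 4 / (C * (R + 1) ^ n + 1))
      (fun y hy => by simp [c5 y hy]) fun y hy => ?_).trans ?_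
    · rw [← mul_sub, abs_mul, abs_of_nonneg (c3 y).1]
      exact (mul_le_of_le_one_left (abs_nonneg _) (c3 y).2).trans
        (k2 y (mem_ball_zero_iff.1 hy).le)
    · rw [div_mul_eq_mul_div, div_le_iff₀ hB]
      have := (h k).real_ball hC 0 (show 0 < R + 1 by linarith)
      gcongr
      linarith
  rw [Real.dist_eq] at k3 ⊢
  have a4 := abs_lt.1 k3
  have a5 := abs_le.1 a3
  exact abs_lt.2 ⟨by linarith, by linarith⟩

theorem part2 (h : ∀ k, Up n C (ν k)) (hσ : Up n C σ) (hL : Lim U ν σ) {x : V}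
    (hx : x ∈ σ.support) {ε : ℝ} (hε : 0 < ε) :
    ∀ᶠ k in U, ∃ x' ∈ (ν k).support, dist x' x < ε := by
  obtain ⟨f, c1, c2, c3, c4, c5⟩ := bump x (half_lt_self hε)
  have h1 : 0 < σ.real (ball x (ε / 2)) := ENNReal.toReal_pos
    ((σ.mem_support_iff_forall x).1 hx _ (ball_mem_nhds x (half_pos hε))).ne' (fin_ball hσ _ _)
  have h2 := h1.trans_le (le_int (intc hσ c1 c2) (fun y => (c3 y).1) measurableSet_ball
    fun y hy => c4 y (ball_subset_closedBall hy))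
  filter_upwards [(hL f c1 c2).eventually (lt_mem_nhds h2)] with k hk
  have h3 := hk.trans_le ((le_abs_self _).trans (int_le (fin_ball (h k) x ε) (M := 1) c5
    fun y _ => (abs_of_nonneg (c3 y).1).trans_le (c3 y).2))
  obtain ⟨y, h4, h5⟩ := exists_mem_support (ν := ν k) (s := ball x ε) fun h4 => by
    simp [Measure.real, h4] at h3
  exact ⟨y, h5, h4⟩

theorem low (hC : 0 < C) (h : ∀ k, Up n C (ν k)) (hσ : Up n C σ) (hL : Lim U ν σ) {R : ℕ → ℝ}
    {R₀ : ℝ} (hR : ∀ᶠ k in U, R₀ ≤ R k) (hl : ∀ k, Low n C (R k) (ν k)) {x : V}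
    (hx : ∀ ε : ℝ, 0 < ε → ∀ᶠ k in U, ∃ x' ∈ (ν k).support, dist x' x < ε) {r : ℝ} (hr : 0 < r)
    (hr' : r ≤ R₀) : ENNReal.ofReal (r ^ n / C) ≤ σ (ball x r) := by
  rw [ENNReal.ofReal_le_iff_le_toReal (fin_ball hσ _ _)]
  have h1 : Tendsto (fun e : ℝ => (r - 2 * e) ^ n / C) (𝓝[>] 0) (𝓝 (r ^ n / C)) := by
    have h2 : Continuous fun e : ℝ => (r - 2 * e) ^ n / C := by fun_prop
    simpa using (h2.tendsto 0).mono_left nhdsWithin_le_nhds
  refine le_of_tendsto h1 ?_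
  filter_upwards [Ioo_mem_nhdsGT (half_pos hr)] with e he
  obtain ⟨f, c1, c2, c3, c4, c5⟩ := bump x (sub_lt_self r he.1)
  refine le_trans (ge_of_tendsto (hL f c1 c2) ?_) ((le_abs_self _).trans
    ((int_le (fin_ball hσ x r) (M := 1) c5
      fun y _ => (abs_of_nonneg (c3 y).1).trans_le (c3 y).2).trans_eq (one_mul _)))
  filter_upwards [hR, hx e he.1] with k k1 ⟨y, k2, k3⟩
  refine ((hl k).real_ball (h k) k2 (by linarith [he.2]) (by linarith [he.1])).trans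
    (le_int (intc (h k) c1 c2) (fun y => (c3 y).1) measurableSet_ball fun z hz => c4 z ?_)
  rw [mem_ball] at hz
  rw [mem_closedBall]
  linarith [dist_triangle z y x]

end LimX

theorem lim_pf : Lim_stmt := by
  intro V _ _ _ _ _ n C _ hC U ν h
  have hC0 : 0 ≤ C := by linarith
  choose l hl using LimX.exists_lim hC0 U h
  have hi : ∀ (f : C_c(V, ℝ)) k, Integrable f (ν k) := fun f k =>
    LimX.intc (h k) f.continuous f.hasCompactSupport
  let L : C_c(V, ℝ) →ₗ[ℝ] ℝ :=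
    { toFun := l
      map_add' := fun f g => tendsto_nhds_unique (hl (f + g)) (((hl f).add (hl g)).congr fun k =>
        (integral_add (hi f k) (hi g k)).symm)
      map_smul' := fun c f => tendsto_nhds_unique (hl (c • f)) (((hl f).const_mul c).congr fun k =>
        (integral_const_mul c _).symm) }
  let Λ : C_c(V, ℝ) →ₚ[ℝ] ℝ := PositiveLinearMap.mk₀ L fun f hf =>
    ge_of_tendsto' (hl f) fun k => integral_nonneg fun x => hf x
  have hL : Lim U ν (RealRMK.rieszMeasure Λ) := fun f h1 h2 => by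
    have h3 := RealRMK.integral_rieszMeasure Λ ⟨⟨f, h1⟩, h2⟩
    exact (show ∫ x, f x ∂(RealRMK.rieszMeasure Λ) = l ⟨⟨f, h1⟩, h2⟩ from h3) ▸ hl ⟨⟨f, h1⟩, h2⟩
  refine ⟨_, fun x r hr => ?_, hL⟩
  rw [isOpen_ball.measure_eq_iSup_isCompact]
  refine iSup_le fun K => iSup_le fun h1 => iSup_le fun h2 => ?_
  obtain ⟨r', h3, h4⟩ := exists_lt_subset_ball h2.isClosed h1
  obtain ⟨f, c1, c2, c3, c4, c5⟩ := LimX.bump x h3
  refine (RealRMK.rieszMeasure_le_of_eq_one Λ (f := ⟨⟨f, c1⟩, c2⟩) (fun y => (c3 y).1) h2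
    fun y hy => c4 y (ball_subset_closedBall (h4 hy))).trans (ENNReal.ofReal_le_ofReal ?_)
  refine le_of_tendsto' (hl ⟨⟨f, c1⟩, c2⟩) fun k => ?_
  exact (le_abs_self _).trans (((LimX.int_le (LimX.fin_ball (h k) x r) (M := 1) c5
    fun y _ => (abs_of_nonneg (c3 y).1).trans_le (c3 y).2).trans_eq (one_mul _)).trans
      ((h k).real_ball hC0 x hr))

theorem limP_pf : LimP_stmt := by
  intro V _ _ _ _ _ n C _ hC U ν σ h hσ hL
  have hC0 : 0 < C := by linarith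
  refine ⟨fun g g₀ N hg h0 hU => LimX.part1 hC0.le h hσ hL hg h0 hU,
    fun x hx ε hε => LimX.part2 h hσ hL hx hε, fun R R₀ h0 hR hl =>
    ⟨fun x hx r hr hr' => LimX.low hC0 h hσ hL hR hl
      (fun ε hε => LimX.part2 h hσ hL hx hε) hr hr', fun x x₀ h1 h2 => ?_⟩⟩
  refine (σ.mem_support_iff_forall x₀).2 fun s hs => ?_
  obtain ⟨r, hr, h3⟩ := Metric.mem_nhds_iff.1 hs
  have h4 : 0 < min r R₀ := lt_min hr h0
  refine lt_of_lt_of_le (ENNReal.ofReal_pos.2 (by positivity)) ((LimX.low hC0 h hσ hL hR hl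
    (fun ε hε => ?_) h4 (min_le_right _ _)).trans
      (measure_mono ((ball_subset_ball (min_le_left _ _)).trans h3)))
  filter_upwards [h1, Metric.tendsto_nhds.1 h2 ε hε] with k k1 k2 using ⟨x k, k1, k2⟩

end Vale.Agent.P120
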