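import Vale.Agent.P120.Bas

/-! P120: boundedness and the reflectionless property pass to vague limits. -/

namespace Vale.Agent.P120

open MeasureTheory Metric Filter Module
open scoped Topology ENNReal NNReal RealInnerProductSpace

namespace LimQX

variable {V : Type} [NormedAddCommGroup V] [InnerProductSpace ℝ V] [FiniteDimensional ℝ V]
  [MeasurableSpace V] [BorelSpace V] {n : ℕ} {C : ℝ} {U : Ultrafilter ℕ} {ν : ℕ → Measure V}
  {σ μ : Measure V}

theorem intg (h : Up n C μ) {E : Type} [NormedAddCommGroup E] {F : V → E} (hc : Continuous F)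
    (hs : HasCompactSupport F) : Integrable F μ := by
  have := h.locFin
  exact hc.integrable_of_hasCompactSupport hs

/-- Vague convergence for vector valued functions. -/
theorem lim_vec (hν : ∀ k, Up n C (ν k)) (hσ : Up n C σ) (hl : Lim U ν σ) {F : V → V}
    (hc : Continuous F) (hs : HasCompactSupport F) :
    Tendsto (fun k => ∫ x, F x ∂ν k) U (𝓝 (∫ x, F x ∂σ)) := by
  let b := stdOrthonormalBasis ℝ V
  have h1 : ∀ μ : Measure V, Up n C μ →
      ∫ x, F x ∂μ = ∑ i, (∫ x, ⟪b i, F x⟫ ∂μ) • b i := fun μ hμ => by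
    simp only [integral_inner (intg hμ hc hs)]
    exact (b.sum_repr' _).symm
  rw [h1 σ hσ, funext fun k => h1 (ν k) (hν k)]
  refine tendsto_finsetSum _ fun i _ => Tendsto.smul_const ?_ _
  exact hl _ (continuous_const.inner hc) (hs.comp_left (g := fun v => ⟪b i, v⟫) (by simp))

omit [FiniteDimensional ℝ V] [MeasurableSpace V] [BorelSpace V] in
theorem rz_cont {ε : ℝ} (hε : 0 < ε) {f : V → ℝ} (hc : Continuous f) (x : V) :
    Continuous fun y => (kr n ε (x - y) * f y) • (x - y) :=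
  (((continuous_kr n hε).comp (continuous_const.sub continuous_id)).mul hc).smul
    (continuous_const.sub continuous_id)

omit [FiniteDimensional ℝ V] [MeasurableSpace V] [BorelSpace V] in
theorem rz_supp (ε : ℝ) {f : V → ℝ} (hs : HasCompactSupport f) (x : V) :
    HasCompactSupport fun y => (kr n ε (x - y) * f y) • (x - y) :=
  hs.mono fun y hy h0 => hy (by simp [h0])

theorem rz_le (h : Up n C μ) {ε : ℝ} (hε : 0 < ε) {f : V → ℝ} (hc : Continuous f)
    (hs : HasCompactSupport f) (x : V) : ‖Rz n ε μ f x‖ ≤ ε⁻¹ ^ n * ∫ y, ‖f y‖ ∂μ := by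
  rw [← integral_const_mul]
  refine norm_integral_le_of_norm_le ((intg h hc hs).norm.const_mul _)
    (Eventually.of_forall fun y => ?_)
  rw [norm_smul, norm_mul, Real.norm_of_nonneg (kr_nonneg _ _ _), mul_right_comm]
  exact mul_le_mul_of_nonneg_right (kr_mul_norm_le_eps hε _) (norm_nonneg _)

theorem rz_lip (h : Up n C μ) {ε : ℝ} (hε : 0 < ε) {f : V → ℝ} (hc : Continuous f)
    (hs : HasCompactSupport f) (x x' : V) : ‖Rz n ε μ f x - Rz n ε μ f x'‖ ≤
      cK n * ‖x - x'‖ * ε⁻¹ ^ (n + 1) * ∫ y, ‖f y‖ ∂μ := by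
  unfold Rz
  rw [← integral_const_mul, ← integral_sub (intg h (rz_cont hε hc x) (rz_supp ε hs x))
    (intg h (rz_cont hε hc x') (rz_supp ε hs x'))]
  refine norm_integral_le_of_norm_le ((intg h hc hs).norm.const_mul _)
    (Eventually.of_forall fun y => ?_)
  have h1 := Kr_lip (n := n) hε (x - y) (x' - y)
  rw [sub_sub_sub_cancel_right] at h1
  rw [mul_comm _ (f y), mul_comm _ (f y), mul_smul, mul_smul, ← smul_sub, norm_smul, mul_comm]
  exact mul_le_mul_of_nonneg_right h1 (norm_nonneg _)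

/-- The weights used to exhaust the space. -/
noncomputable def ch (n m : ℕ) (x : V) : ℝ := (1 + ‖x‖ / (m + 1))⁻¹ ^ (n + 1)

omit [InnerProductSpace ℝ V] [FiniteDimensional ℝ V] [MeasurableSpace V] [BorelSpace V] in
theorem ch_facts (n m : ℕ) : Continuous (ch n m : V → ℝ) ∧ ∀ x : V, 0 ≤ ch n m x ∧ ch n m x ≤ 1 ∧
    ch n m x ≤ ((m : ℝ) + 1) ^ (n + 1) * (1 + ‖x‖)⁻¹ ^ (n + 1) := by
  have h0 : ∀ x : V, 0 ≤ ‖x‖ / ((m : ℝ) + 1) := fun x => by positivity
  refine ⟨?_, fun x => ⟨by unfold ch; positivity, ?_, ?_⟩⟩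
  · exact ((continuous_const.add (continuous_norm.div_const _)).inv₀
      fun x => (add_pos_of_pos_of_nonneg one_pos (h0 x)).ne').pow _
  · exact pow_le_one₀ (by positivity) (inv_le_one_of_one_le₀ (by linarith [h0 x]))
  · rw [← mul_pow]
    refine pow_le_pow_left₀ (by positivity) ?_ _
    have hm : (0 : ℝ) ≤ m := by positivity
    have h1 : (1 + ‖x‖ / ((m : ℝ) + 1))⁻¹ = ((m : ℝ) + 1) * ((m : ℝ) + 1 + ‖x‖)⁻¹ := by
      field_simp
    rw [h1]
    exact mul_le_mul_of_nonneg_left (inv_anti₀ (by positivity) (by linarith)) (by positivity)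

omit [InnerProductSpace ℝ V] [FiniteDimensional ℝ V] [MeasurableSpace V] [BorelSpace V] in
theorem ch_lim (n : ℕ) (x : V) : Tendsto (fun m => ch n m x) atTop (𝓝 1) := by
  have h1 : Tendsto (fun m : ℕ => ‖x‖ / ((m : ℝ) + 1)) atTop (𝓝 0) :=
    tendsto_const_nhds.div_atTop (tendsto_atTop_add_const_right _ _ tendsto_natCast_atTop_atTop)
  have h2 := ((h1.const_add 1).inv₀ (by norm_num)).pow (n + 1)
  simpa [ch] using h2

omit [InnerProductSpace ℝ V] [FiniteDimensional ℝ V] [MeasurableSpace V] [BorelSpace V] in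
theorem lu_sq {h : ℕ → V → ℝ} {h₀ χ : V → ℝ} {B : ℝ} (hB : 0 < B) (hl : LU U h h₀)
    (h1 : ∀ᶠ k in U, ∀ x, |h k x| ≤ B) (h2 : ∀ x, |h₀ x| ≤ B) (h3 : ∀ x, |χ x| ≤ 1) :
    LU U (fun k x => χ x * h k x ^ 2) fun x => χ x * h₀ x ^ 2 := by
  intro R ε hε
  filter_upwards [hl R (ε / (2 * B)) (by positivity), h1] with k hk hk' x hx
  rw [← mul_sub, sq_sub_sq, abs_mul, abs_mul]
  have h4 : |h k x + h₀ x| ≤ 2 * B := (abs_add_le _ _).trans (by linarith [hk' x, h2 x])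
  refine (mul_le_of_le_one_left (by positivity) (h3 x)).trans
    ((mul_le_mul h4 (hk x hx) (abs_nonneg _) (by positivity)).trans (le_of_eq ?_))
  field_simp

theorem bd (hP : LimP_stmt) (hn : 1 ≤ n) (hC : 1 ≤ C) (hν : ∀ k, Up n C (ν k)) (hσ : Up n C σ)
    (hl : Lim U ν σ) (hb : ∀ k, BD n C (ν k)) : BD n C σ := by
  intro ε hε f hc hs
  have hC0 : 0 ≤ C := by linarith
  obtain ⟨M, hM⟩ : ∃ M, M = ∫ y, ‖f y‖ ∂σ + 1 := ⟨_, rfl⟩
  have hM0 : 0 < M := by
    have : 0 ≤ ∫ y, ‖f y‖ ∂σ := integral_nonneg fun _ => norm_nonneg _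
    linarith
  have hM1 : ∀ᶠ k in U, ∫ y, ‖f y‖ ∂ν k ≤ M :=
    (hl _ hc.norm hs.norm).eventually (eventually_le_nhds (by linarith))
  have hB : ∀ μ : Measure V, Up n C μ → ∫ y, ‖f y‖ ∂μ ≤ M → ∀ x,
      |‖Rz n ε μ f x‖| ≤ ε⁻¹ ^ n * M := fun μ hμ h x => by
    rw [abs_norm]
    exact (rz_le hμ hε hc hs x).trans (mul_le_mul_of_nonneg_left h (by positivity))
  have hlu : LU U (fun k x => ‖Rz n ε (ν k) f x‖) fun x => ‖Rz n ε σ f x‖ := by
    refine lu_of_lip (fun R => ⟨cK n * ε⁻¹ ^ (n + 1) * M, ?_⟩) fun x =>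
      (lim_vec hν hσ hl (rz_cont hε hc x) (rz_supp ε hs x)).norm
    filter_upwards [hM1] with k hk x y _ _
    have := cK_pos n
    refine (abs_norm_sub_norm_le _ _).trans ((rz_lip (hν k) hε hc hs x y).trans
      ((mul_le_mul_of_nonneg_left hk (by positivity)).trans (le_of_eq (by ring))))
  have hcont : ∀ μ : Measure V, Up n C μ → ∀ m,
      Continuous fun x => ch n m x * ‖Rz n ε μ f x‖ ^ 2 := fun μ hμ m =>
    (ch_facts n m).1.mul ((continuous_Rz hε (intg hμ hc hs)).norm.pow 2)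
  have hdec : ∀ μ : Measure V, Up n C μ → ∀ (m : ℕ) (M : ℝ), (∀ x, |‖Rz n ε μ f x‖| ≤ M) → ∀ x,
      |ch n m x * ‖Rz n ε μ f x‖ ^ 2| ≤
        (M ^ 2 * ((m : ℝ) + 1) ^ (n + 1)) * (1 + ‖x‖)⁻¹ ^ (n + 1) := fun μ hμ m M h x => by
    obtain ⟨h1, -, h3⟩ := (ch_facts n m).2 x
    rw [abs_mul, abs_of_nonneg h1, abs_pow, mul_comm, mul_assoc]
    exact mul_le_mul (pow_le_pow_left₀ (abs_nonneg _) (h x) 2) h3 h1 (by positivity)
  have hof : ∀ μ : Measure V, Up n C μ → ∀ m,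
      ENNReal.ofReal (∫ x, ch n m x * ‖Rz n ε μ f x‖ ^ 2 ∂μ) =
        ∫⁻ x, ENNReal.ofReal (ch n m x * ‖Rz n ε μ f x‖ ^ 2) ∂μ := fun μ hμ m =>
    ofReal_integral_eq_lintegral_ofReal
      (hμ.integrable hC0 (hcont μ hμ m).aestronglyMeasurable
        (hdec μ hμ m _ fun x => by rw [abs_norm]; exact rz_le hμ hε hc hs x))
      (Eventually.of_forall fun x => mul_nonneg ((ch_facts n m).2 x).1 (by positivity))
  have hsq : ∀ v : V, ‖v‖ₑ ^ 2 = ENNReal.ofReal (‖v‖ ^ 2) := fun v => by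
    rw [ENNReal.ofReal_pow (norm_nonneg _), ofReal_norm]
  have key : ∀ m, ∫ x, ch n m x * ‖Rz n ε σ f x‖ ^ 2 ∂σ ≤ C ^ 2 * ∫ y, f y ^ 2 ∂σ := fun m => by
    have h1 := (hP V n C hn hC U ν σ hν hσ hl).1 _ _ ((ε⁻¹ ^ n * M) ^ 2 * ((m : ℝ) + 1) ^ (n + 1))
      (hM1.mono fun k hk => ⟨hcont _ (hν k) m, hdec _ (hν k) m _ (hB _ (hν k) hk)⟩)
      (hcont σ hσ m) (lu_sq (by positivity) hlu (hM1.mono fun k hk => hB _ (hν k) hk)
        (hB σ hσ (by linarith)) fun x => by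
          rw [abs_of_nonneg ((ch_facts n m).2 x).1]; exact ((ch_facts n m).2 x).2.1)
    have h2 := (hl (fun y => f y ^ 2) (hc.pow 2)
      (hs.comp_left (g := fun t : ℝ => t ^ 2) (by simp))).const_mul (C ^ 2)
    refine le_of_tendsto_of_tendsto' h1 h2 fun k => ?_
    rw [← ENNReal.ofReal_le_ofReal_iff
      (mul_nonneg (by positivity) (integral_nonneg fun _ => by positivity)), hof _ (hν k)]
    refine le_trans (lintegral_mono fun x => ?_) (hb k ε hε f hc hs)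
    rw [hsq]
    exact ENNReal.ofReal_le_ofReal (mul_le_of_le_one_left (by positivity) ((ch_facts n m).2 x).2.1)
  have h3 : ∀ x, ‖Rz n ε σ f x‖ₑ ^ 2 =
      liminf (fun m => ENNReal.ofReal (ch n m x * ‖Rz n ε σ f x‖ ^ 2)) atTop := fun x => by
    have h4 := ENNReal.tendsto_ofReal ((ch_lim n x).mul_const (‖Rz n ε σ f x‖ ^ 2))
    rw [h4.liminf_eq, one_mul, hsq]
  simp only [h3]
  refine (lintegral_liminf_le fun m => (hcont σ hσ m).measurable.ennreal_ofReal).trans ?_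
  refine liminf_le_of_frequently_le' (Frequently.of_forall fun m => ?_)
  rw [← hof σ hσ]
  exact ENNReal.ofReal_le_ofReal (key m)

omit [InnerProductSpace ℝ V] [MeasurableSpace V] [BorelSpace V] [FiniteDimensional ℝ V] in
theorem supp_of [ProperSpace V] {E : Type} [Zero E] {F : V → E} {ρ : ℝ}
    (h : ∀ x, ρ ≤ ‖x - 0‖ → F x = 0) : HasCompactSupport F :=
  HasCompactSupport.intro (isCompact_closedBall 0 ρ) fun x hx => h x (by
    rw [mem_closedBall, dist_eq_norm, not_le] at hx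
    exact hx.le)

theorem bump (hσ : Up n C σ) (h0 : σ ≠ 0) : ∃ (φ : V → ℝ) (ρ : ℝ), LipschitzWith 1 φ ∧
    (∀ x, ρ ≤ ‖x - 0‖ → φ x = 0) ∧ ∫ x, φ x ∂σ ≠ 0 := by
  obtain ⟨x₀, -, hx⟩ := exists_mem_support (ν := σ) (s := Set.univ)
    (Measure.measure_univ_ne_zero.2 h0)
  have h1 : LipschitzWith 1 fun x : V => max (1 - dist x x₀) 0 := by
    refine LipschitzWith.max_const (LipschitzWith.of_dist_le_mul fun x y => ?_) 0
    rw [Real.dist_eq, sub_sub_sub_cancel_left, NNReal.coe_one, one_mul, dist_comm x y]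
    exact abs_dist_sub_le y x x₀
  have h2 : ∀ x : V, ‖x₀‖ + 1 ≤ ‖x - 0‖ → max (1 - dist x x₀) 0 = 0 := fun x hx => by
    rw [sub_zero] at hx
    have := norm_sub_norm_le x x₀
    rw [dist_eq_norm]
    exact max_eq_right (by linarith)
  refine ⟨_, _, h1, h2, fun h => ?_⟩
  have := eq_zero_of_integral h1.continuous (fun x => le_max_right _ _)
    (intg hσ h1.continuous (supp_of h2)) h hx
  simp at this

omit [FiniteDimensional ℝ V] [MeasurableSpace V] [BorelSpace V] in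
theorem lip_sub {X : V → V} {K : ℝ≥0} (hX : LipschitzWith K X) {φ : V → ℝ}
    (hφ : LipschitzWith 1 φ) {c : V} (hc : ‖c‖ ≤ 1) :
    LipschitzWith (K + 1) fun x => X x - φ x • c := by
  refine hX.sub (LipschitzWith.of_dist_le_mul fun x y => ?_)
  rw [dist_eq_norm, ← sub_smul, norm_smul, ← dist_eq_norm]
  exact (mul_le_of_le_one_right dist_nonneg hc).trans (hφ.dist_le_mul x y)

theorem tf_le (h : Up n C μ) (hn : 1 ≤ n) (hC : 0 ≤ C) {A η ρ ε : ℝ} (hg : Good n μ 0 1 A η)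
    {X : V → V} {K : ℝ≥0} (hK : 0 < K) (hX : LipschitzWith K X) (hρ : 0 < ρ) (hA : ρ ≤ A)
    (h0 : ∀ x, ρ ≤ ‖x - 0‖ → X x = 0) (hm : ∫ x, X x ∂μ = 0) (hε : 0 < ε) :
    |Tf n ε μ X| ≤ K * η + cK n * C ^ 2 * K * ρ ^ n * ε := by
  have hK' : (0 : ℝ) < K := hK
  have h1 := hg (fun x => (K : ℝ)⁻¹ • X x) (LipschitzWith.of_dist_le_mul fun x y => by
      rw [dist_smul₀, Real.norm_of_nonneg (by positivity), inv_mul_le_iff₀ hK', NNReal.coe_one,
        one_mul]
      exact hX.dist_le_mul x y)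
    (fun x hx => by rw [h0 x (by linarith), smul_zero])
    (by rw [integral_smul, hm, smul_zero])
  obtain ⟨ε', h2, h3⟩ := (h1.and (Ioc_mem_nhdsGT hε)).exists
  rw [Tf_smul, one_pow, mul_one, abs_mul, abs_of_pos (by positivity), inv_mul_le_iff₀ hK'] at h2
  have h4 := h.Tf_cauchy hn hC hX hρ h0 hm h3.1 h3.2
  have h5 := abs_sub_abs_le_abs_sub (Tf n ε μ X) (Tf n ε' μ X)
  rw [abs_sub_comm] at h5
  linarith

theorem ti_sub (h : Up n C μ) {ε : ℝ} (hε : 0 < ε) {X : V → V} (hX : Integrable X μ) {φ : V → ℝ}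
    (hc : Continuous φ) (hs : HasCompactSupport φ) (c y : V) :
    Ti n ε μ (fun x => X x - φ x • c) y = Ti n ε μ X y + ⟪c, Rz n ε μ φ y⟫ := by
  have h1 := intg h (rz_cont (n := n) hε hc y) (rz_supp ε hs y)
  unfold Ti Rz
  rw [← integral_inner h1, ← integral_add (integrable_Ti_aux hε hX y) (h1.const_inner c)]
  congr 1
  funext x
  rw [inner_sub_right, inner_smul_right, inner_smul_right, kr_sub_comm n ε y x,
    real_inner_comm (y - x) c, ← neg_sub x y, inner_neg_left]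
  ring

theorem rf (hP : LimP_stmt) (hn : 1 ≤ n) (hC : 1 ≤ C) (hν : ∀ k, Up n C (ν k)) (hσ : Up n C σ)
    (hl : Lim U ν σ) (h0 : σ ≠ 0) {A η : ℕ → ℝ} (hA : Tendsto A U atTop) (hη : Tendsto η U (𝓝 0))
    (hg : ∀ k, Good n (ν k) 0 1 (A k) (η k)) : RF n σ := by
  intro X K hX hs hm
  have hC0 : 0 ≤ C := by linarith
  obtain ⟨φ, ρ₁, hφ, hφ0, hφ1⟩ := bump hσ h0
  obtain ⟨ρ₂, hρ₂⟩ := hs.isCompact.isBounded.subset_ball 0
  obtain ⟨ρ, hρ, hX0, hφ2⟩ : ∃ ρ : ℝ, 0 < ρ ∧ (∀ x, ρ ≤ ‖x - 0‖ → X x = 0) ∧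
      ∀ x, ρ ≤ ‖x - 0‖ → φ x = 0 := by
    refine ⟨max 1 (max ρ₁ ρ₂), by positivity, fun x hx => ?_, fun x hx => hφ0 x
      (((le_max_left _ _).trans (le_max_right _ _)).trans hx)⟩
    by_contra h
    have h1 := hρ₂ (subset_tsupport _ h)
    rw [mem_ball, dist_eq_norm] at h1
    exact absurd (((le_max_right _ _).trans (le_max_right _ _)).trans hx) (not_le.2 h1)
  have hφs : HasCompactSupport φ := supp_of hφ2
  obtain ⟨c, hc⟩ : ∃ c : ℕ → V, c = fun k => (∫ x, φ x ∂ν k)⁻¹ • ∫ x, X x ∂ν k := ⟨_, rfl⟩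
  have l1 := hl φ hφ.continuous hφs
  have l2 : Tendsto c U (𝓝 0) := by
    have := (l1.inv₀ hφ1).smul (lim_vec hν hσ hl hX.continuous hs)
    rwa [hm, smul_zero, ← hc] at this
  obtain ⟨M, hM⟩ : ∃ M, M = ∫ x, ‖X x‖ + ‖φ x‖ ∂σ + 1 := ⟨_, rfl⟩
  have hYc : ∀ k, Continuous fun x => X x - φ x • c k := fun k =>
    hX.continuous.sub (hφ.continuous.smul continuous_const)
  have hY0 : ∀ k x, ρ ≤ ‖x - 0‖ → X x - φ x • c k = 0 := fun k x hx => by
    rw [hX0 x hx, hφ2 x hx, zero_smul, sub_zero]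
  have hYi : ∀ k, Integrable (fun x => X x - φ x • c k) (ν k) := fun k =>
    intg (hν k) (hYc k) (supp_of (hY0 k))
  have ev : ∀ᶠ k in U, ‖c k‖ ≤ 1 ∧ ρ ≤ A k ∧ ∫ x, X x - φ x • c k ∂ν k = 0 ∧
      ∫ x, ‖X x - φ x • c k‖ ∂ν k ≤ M := by
    have l3 := hl (fun x => ‖X x‖ + ‖φ x‖) (hX.continuous.norm.add hφ.continuous.norm)
      (hs.norm.add hφs.norm)
    filter_upwards [l2.norm.eventually (eventually_le_nhds (show ‖(0 : V)‖ < 1 by simp)),
      hA.eventually (eventually_ge_atTop ρ), l1.eventually (eventually_ne_nhds hφ1),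
      l3.eventually (eventually_le_nhds (show _ < M by linarith))] with k h1 h2 h3 h4
    have i1 := intg (hν k) hX.continuous hs
    have i2 := intg (hν k) hφ.continuous hφs
    refine ⟨h1, h2, ?_, le_trans (integral_mono (hYi k).norm (i1.norm.add i2.norm) fun x => ?_) h4⟩
    · rw [integral_sub i1 (i2.smul_const _), integral_smul_const, hc, smul_inv_smul₀ h3, sub_self]
    · refine (norm_sub_le _ _).trans (add_le_add le_rfl ?_)
      rw [norm_smul]
      exact mul_le_of_le_one_right (norm_nonneg _) h1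
  have key : ∀ ε, 0 < ε → |Tf n ε σ X| ≤ cK n * C ^ 2 * (K + 1 : ℝ≥0) * ρ ^ n * ε := by
    intro ε hε
    obtain ⟨N, hN0, hN⟩ := Ti_dec (n := n) (V := V) hε (z := 0) (ρ := ρ)
    have hlu : LU U (fun k => Ti n ε (ν k) fun x => X x - φ x • c k) (Ti n ε σ X) := by
      refine lu_of_lip (fun R => ⟨cK n * ε⁻¹ ^ (n + 1) * M, ?_⟩) fun y => ?_
      · filter_upwards [ev] with k hk x y _ _
        have := cK_pos n
        exact (Ti_lip hε (hYi k) x y).trans
          ((mul_le_mul_of_nonneg_left hk.2.2.2 (by positivity)).trans (le_of_eq (by ring)))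
      · simp only [fun k => ti_sub (hν k) hε (intg (hν k) hX.continuous hs) hφ.continuous hφs
          (c k) y]
        have h1 := hl (fun x => kr n ε (x - y) * ⟪x - y, X x⟫)
          (((continuous_kr n hε).comp (continuous_id.sub continuous_const)).mul
            ((continuous_id.sub continuous_const).inner hX.continuous))
          (hs.mono fun x hx h => hx (by simp [h]))
        have h2 := h1.add (l2.inner (𝕜 := ℝ)
          (lim_vec hν hσ hl (rz_cont (n := n) hε hφ.continuous y) (rz_supp ε hφs y)))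
        rw [inner_zero_left, add_zero] at h2
        exact h2
    have h1 := (hP V n C hn hC U ν σ hν hσ hl).1 _ _ (N * M)
      (ev.mono fun k hk => ⟨continuous_Ti hε (hYi k), fun y =>
        (hN _ _ (hYi k) (hY0 k) hk.2.2.1 y).trans (mul_le_mul_of_nonneg_right
          (mul_le_mul_of_nonneg_left hk.2.2.2 hN0) (by positivity))⟩)
      (continuous_Ti hε (intg hσ hX.continuous hs)) hlu
    have h2 := (hη.const_mul ((K + 1 : ℝ≥0) : ℝ)).add_const
      (cK n * C ^ 2 * (K + 1 : ℝ≥0) * ρ ^ n * ε)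
    rw [mul_zero, zero_add] at h2
    exact le_of_tendsto_of_tendsto h1.abs h2 (ev.mono fun k hk =>
      tf_le (hν k) hn hC0 (hg k) (by positivity) (lip_sub hX hφ hk.1) hρ hk.2.1 (hY0 k)
        hk.2.2.1 hε)
  have h3 : Tendsto (fun ε : ℝ => cK n * C ^ 2 * (K + 1 : ℝ≥0) * ρ ^ n * ε) (𝓝[>] 0) (𝓝 0) := by
    have := (tendsto_id (x := 𝓝 (0 : ℝ))).const_mul (cK n * C ^ 2 * (K + 1 : ℝ≥0) * ρ ^ n)
    rw [mul_zero] at this
    exact this.mono_left nhdsWithin_le_nhds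
  exact squeeze_zero_norm' (eventually_mem_nhdsWithin.mono fun ε hε => key ε hε) h3

end LimQX

theorem limQ_pf (h : LimP_stmt) : LimQ_stmt := fun _ _ _ _ _ _ _ _ hn hC _ _ _ hν hσ hl =>
  ⟨LimQX.bd h hn hC hν hσ hl, fun h0 _ _ hA hη hg => LimQX.rf h hn hC hν hσ hl h0 hA hη hg⟩

end Vale.Agent.P120
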