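import Vale.Agent.P120.LinC

/-! P120: the normalised heights converge strongly to an affine function. -/

namespace Vale.Agent.P120

open MeasureTheory Metric Filter Module
open scoped Topology ENNReal NNReal RealInnerProductSpace

namespace LinX

open LinCX

variable {V : Type} [NormedAddCommGroup V]

theorem cs_dec {g : V → ℝ} (hc : Continuous g) (hs : HasCompactSupport g) (a : ℕ) :
    ∃ N : ℝ, ∀ x, |g x| ≤ N * (1 + ‖x‖)⁻¹ ^ a := by
  have h1 : Continuous fun x => g x * (1 + ‖x‖) ^ a := by fun_prop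
  obtain ⟨N, hN⟩ := h1.bounded_above_of_compact_support hs.mul_right
  refine ⟨N, fun x => ?_⟩
  have h2 := hN x
  have h3 : 0 < (1 + ‖x‖) ^ a := by positivity
  rw [Real.norm_eq_abs, abs_mul, abs_of_pos h3] at h2
  rw [inv_pow, ← div_eq_mul_inv, le_div_iff₀ h3]
  exact h2

variable [InnerProductSpace ℝ V]

theorem inner_le {e : V} (he : ‖e‖ ≤ 1) (x : V) : |⟪x, e⟫| ≤ ‖x‖ :=
  (abs_real_inner_le_norm x e).trans (mul_le_of_le_one_right (norm_nonneg _) he)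

theorem v_dec (n : ℕ) {e : V} (he : ‖e‖ ≤ 1) (p δ : ℝ) (x : V) :
    ‖((⟪x, e⟫ - p) / δ) ^ 2 * wt n 0 1 x‖ ≤ ((1 + |p|) / δ) ^ 2 * (1 + ‖x‖)⁻¹ ^ (n + 1) := by
  have h0 : 0 < 1 + ‖x‖ := by positivity
  have h1 : |⟪x, e⟫ - p| ≤ (1 + |p|) * (1 + ‖x‖) := by
    have := abs_sub ⟪x, e⟫ p
    have := inner_le he x
    nlinarith [mul_nonneg (abs_nonneg p) (norm_nonneg x)]
  have h2 : (⟪x, e⟫ - p) ^ 2 ≤ ((1 + |p|) * (1 + ‖x‖)) ^ 2 := by
    rw [← sq_abs]
    gcongr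
  rw [wt_unit, Real.norm_of_nonneg (by positivity), div_pow]
  refine (mul_le_mul_of_nonneg_right (div_le_div_of_nonneg_right h2 (sq_nonneg δ))
    (by positivity)).trans (le_of_eq ?_)
  rw [show n + 3 = n + 1 + 2 by ring, pow_add _ (n + 1) 2]
  by_cases hδ : δ = 0
  · simp [hδ]
  · field_simp

variable [FiniteDimensional ℝ V] [MeasurableSpace V] [BorelSpace V] {n : ℕ} {C : ℝ} {ν : Measure V}

theorem bound (h : Up n C ν) (hC : 0 ≤ C) {v l : V → ℝ} (hv : Continuous v) (hl : Continuous l)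
    (hi : Integrable (fun x => v x ^ 2 * wt n 0 1 x) ν) (h1 : ∫ x, v x ^ 2 * wt n 0 1 x ∂ν ≤ 1)
    {ρ M : ℝ} (hρ : 0 < ρ) (hM : ∀ x, ‖x‖ ≤ ρ → |l x| ≤ M) :
    ∫ x in ball 0 ρ, (v x - l x) ^ 2 ∂ν ≤ 2 * (1 + ρ) ^ (n + 3) + C * ρ ^ n * (2 * M ^ 2) := by
  have i1 : IntegrableOn (fun x => 2 * (1 + ρ) ^ (n + 3) * (v x ^ 2 * wt n 0 1 x)) (ball 0 ρ) ν :=
    (hi.const_mul _).integrableOn
  have i2 : IntegrableOn (fun _ => 2 * M ^ 2) (ball 0 ρ) ν := intOn h continuous_const _ _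
  have h2 : ∫ x in ball 0 ρ, (v x - l x) ^ 2 ∂ν ≤ ∫ x in ball 0 ρ,
      (2 * (1 + ρ) ^ (n + 3) * (v x ^ 2 * wt n 0 1 x) + 2 * M ^ 2) ∂ν :=
    setIntegral_mono_on (intOn h (by fun_prop) _ _) (i1.add i2) measurableSet_ball fun x hx => by
      have a0 := (mem_ball_zero_iff.1 hx).le
      have a1 : l x ^ 2 ≤ M ^ 2 := by
        rw [← sq_abs]
        gcongr
        exact hM x a0
      have a2 : 1 ≤ (1 + ρ) ^ (n + 3) * wt n 0 1 x := by
        rw [wt_unit, ← mul_pow, ← div_eq_mul_inv]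
        exact one_le_pow₀ ((one_le_div (by positivity)).2 (by linarith))
      have a3 := mul_le_mul_of_nonneg_left a2 (sq_nonneg (v x))
      nlinarith [sq_nonneg (v x + l x)]
  rw [integral_add i1 i2, integral_const_mul] at h2
  have h3 : ∫ x in ball 0 ρ, v x ^ 2 * wt n 0 1 x ∂ν ≤ 1 :=
    (setIntegral_le_integral hi (Eventually.of_forall fun x =>
      mul_nonneg (sq_nonneg _) (wt_pos n 0 one_pos x).le)).trans h1
  have h4 := mul_le_mul_of_nonneg_left h3 (by positivity : 0 ≤ 2 * (1 + ρ) ^ (n + 3))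
  have h5 := const_le h hC 0 hρ (by positivity : 0 ≤ 2 * M ^ 2)
  linarith

theorem energy (h : Up n C ν) (hC : 0 ≤ C) {e : V} {f : V → ℝ} {δ L ρ s ε K : ℝ} (hρ : 0 < ρ)
    (hs : 0 < s) (hs1 : s ≤ 1) (hε : 0 < ε) (hεs : ε ≤ s) (hδ : 0 < δ) (hf : Continuous f)
    (hL : ∀ x y, (f x - f y) ^ 2 ≤ 2 * (⟪x - y, e⟫ ^ 2 / δ ^ 2) + 2 * (L * ‖x - y‖) ^ 2)
    (hK : ∫ x in ball 0 (ρ + 1), (∫ y in ball 0 (ρ + 1),
      kr n ε (x - y) * ⟪x - y, e⟫ ^ 2 ∂ν) ∂ν ≤ K * δ ^ 2) :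
    ∫ x in ball 0 ρ, (∫ y in ball x s, (f x - f y) ^ 2 ∂ν) ∂ν
      ≤ (2 ^ (n + 2) * K + C * ρ ^ n * (C * (2 * L ^ 2))) * s ^ (n + 1) := by
  have ck := continuous_kr (V := V) n hε
  have c1 : ∀ x : V, Continuous fun y => kr n ε (x - y) * ⟪x - y, e⟫ ^ 2 := fun x => by fun_prop
  have p1 : ∀ x y : V, 0 ≤ kr n ε (x - y) * ⟪x - y, e⟫ ^ 2 := fun x y =>
    mul_nonneg (kr_nonneg _ _ _) (sq_nonneg _)
  obtain ⟨a, ha⟩ : ∃ a, a = 2 * (2 * s) ^ (n + 1) / δ ^ 2 := ⟨_, rfl⟩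
  have ha0 : 0 ≤ a := by rw [ha]; positivity
  have iG : IntegrableOn (fun x => ∫ y in ball 0 (ρ + 1), kr n ε (x - y) * ⟪x - y, e⟫ ^ 2 ∂ν)
      (ball 0 (ρ + 1)) ν :=
    intG h (F := fun p => kr n ε (p.1 - p.2) * ⟪p.1 - p.2, e⟫ ^ 2) (by fun_prop) _
  have hsub : ball (0 : V) ρ ⊆ ball 0 (ρ + 1) := ball_subset_ball (by linarith)
  have i1 : IntegrableOn (fun x => a * ∫ y in ball 0 (ρ + 1),
      kr n ε (x - y) * ⟪x - y, e⟫ ^ 2 ∂ν) (ball 0 ρ) ν := (iG.mono_set hsub).const_mul a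
  have i2 : IntegrableOn (fun _ => C * s ^ n * (2 * L ^ 2 * s)) (ball 0 ρ) ν :=
    intOn h continuous_const _ _
  have h1 : ∫ x in ball 0 ρ, (∫ y in ball x s, (f x - f y) ^ 2 ∂ν) ∂ν ≤ ∫ x in ball 0 ρ,
      (a * ∫ y in ball 0 (ρ + 1), kr n ε (x - y) * ⟪x - y, e⟫ ^ 2 ∂ν
        + C * s ^ n * (2 * L ^ 2 * s)) ∂ν := by
    refine setIntegral_mono_on (intE h (F := fun p => (f p.1 - f p.2) ^ 2) (by fun_prop) ρ hs1)
      (i1.add i2) measurableSet_ball fun x hx => ?_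
    have j1 : IntegrableOn (fun y => a * (kr n ε (x - y) * ⟪x - y, e⟫ ^ 2)) (ball x s) ν :=
      (intOn h (c1 x) _ _).const_mul a
    have j2 : IntegrableOn (fun _ => 2 * L ^ 2 * s) (ball x s) ν := intOn h continuous_const _ _
    have b1 : ∫ y in ball x s, (f x - f y) ^ 2 ∂ν ≤ ∫ y in ball x s,
        (a * (kr n ε (x - y) * ⟪x - y, e⟫ ^ 2) + 2 * L ^ 2 * s) ∂ν :=
      setIntegral_mono_on (intOn h (by fun_prop) _ _) (j1.add j2) measurableSet_ball fun y hy => by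
        have a0 := (mem_ball_iff_norm'.1 hy).le
        have a1 := mul_le_mul_of_nonneg_left (mul_le_mul_of_nonneg_right
          (kr_ge (n := n) hε hεs a0) (sq_nonneg ⟪x - y, e⟫)) ha0
        have a2 : a * ((2 * s)⁻¹ ^ (n + 1) * ⟪x - y, e⟫ ^ 2) = 2 * (⟪x - y, e⟫ ^ 2 / δ ^ 2) := by
          rw [ha, inv_pow]
          field_simp
        have a3 : ‖x - y‖ ^ 2 ≤ s := by nlinarith [norm_nonneg (x - y)]
        have a4 := mul_le_mul_of_nonneg_left a3 (sq_nonneg L)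
        have a5 := hL x y
        rw [mul_pow] at a5
        linarith
    rw [integral_add j1 j2, integral_const_mul] at b1
    have b2 := mul_le_mul_of_nonneg_left (setIntegral_mono_set (intOn h (c1 x) 0 (ρ + 1))
      (Eventually.of_forall (p1 x)) (sub_ball hs1 hx).eventuallyLE) ha0
    have b3 := const_le h hC x hs (by positivity : 0 ≤ 2 * L ^ 2 * s)
    linarith
  rw [integral_add i1 i2, integral_const_mul] at h1
  have h2 := mul_le_mul_of_nonneg_left ((setIntegral_mono_set iG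
    (Eventually.of_forall fun x => integral_nonneg (p1 x)) hsub.eventuallyLE).trans hK) ha0
  have h3 := const_le h hC 0 hρ (by positivity : 0 ≤ C * s ^ n * (2 * L ^ 2 * s))
  have h4 : a * (K * δ ^ 2) = 2 ^ (n + 2) * K * s ^ (n + 1) := by
    rw [ha]
    field_simp
    ring
  refine (h1.trans (add_le_add (h2.trans_eq h4) h3)).trans (le_of_eq ?_)
  ring

theorem int_flat (D : Submodule ℝ V) {c : ℝ} (hc : 0 ≤ c) {g : V → ℝ} (hg : Continuous g) :
    ∫ x, g x ∂flat D c = c * ∫ w : D, g w := by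
  rw [flat, integral_smul_measure, ENNReal.toReal_ofReal hc, smul_eq_mul,
    integral_map continuous_subtype_val.aemeasurable hg.aestronglyMeasurable]

end LinX

open LinX LinCX in
theorem lin_pf (_hP : LimP_stmt) (hCa : Cacc_stmt) (hA : LinA_stmt) (hB : LinB_stmt)
    (hL : Liou_stmt) (hC' : LinC_stmt) : Lin_stmt := by
  intro V _ _ _ _ _ n C hn hC U ν D c e p δ A η h
  have hC0 : 0 ≤ C := by linarith
  have hv : ∀ k, Continuous (fun x : V => (⟪x, e⟫ - p k) / δ k) ∧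
      Integrable (fun x : V => ((⟪x, e⟫ - p k) / δ k) ^ 2 * wt n 0 1 x) (ν k) ∧
      ∫ x, ((⟪x, e⟫ - p k) / δ k) ^ 2 * wt n 0 1 x ∂ν k ≤ 1 := fun k => by
    have cw := continuous_wt n (0 : V) one_pos
    refine ⟨by fun_prop, (h.up k).integrable hC0 (Continuous.aestronglyMeasurable (by fun_prop))
      (v_dec n h.norm_le (p k) (δ k)), ?_⟩
    simp only [div_pow, div_mul_eq_mul_div]
    rw [integral_div, div_le_one (pow_pos (h.δ_pos k) 2)]
    exact h.exc k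
  obtain ⟨v₀, hR⟩ := hA V n C hn hC U ν _ D c h.up h.rank h.pos h.upl h.lim hv
  obtain ⟨b, B, hb⟩ := hL D n h.rank hn v₀ hR.2.1 hR.1 (hB V n C hn hC U ν D c e p δ A η h v₀ hR)
  refine ⟨b, B, ?_⟩
  have cl : Continuous fun x : V => b + B (D.orthogonalProjectionOnto x) := by fun_prop
  have bl : ∀ x : V, |B (D.orthogonalProjectionOnto x)| ≤ ‖B‖ * ‖x‖ := fun x =>
    (B.le_opNorm _).trans (mul_le_mul_of_nonneg_left
      (D.norm_orthogonalProjectionOnto_apply_le x) (norm_nonneg _))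
  refine hC' V n C hn hC U ν _ (fun k => ⟨h.up k, h.low k, (hv k).1.sub cl⟩)
    (fun g hg hs => ?_) (fun ρ => ?_) fun ρ => ?_
  · obtain ⟨N, hN⟩ := cs_dec hg hs (n + 2)
    have h1 := hR.2.2 (fun _ => g) g N (Eventually.of_forall fun _ => ⟨hg, hN⟩) hg
      fun R ε hε => Eventually.of_forall fun _ x _ => by simpa using hε.le
    have cg : Continuous fun x : V => g x * (b + B (D.orthogonalProjectionOnto x)) := hg.mul cl
    have h2 := h.lim _ cg hs.mul_right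
    have h3 : ∫ w : D, g w * v₀ w = ∫ w : D, g w * (b + B (D.orthogonalProjectionOnto w)) :=
      integral_congr_ae (hb.mono fun w hw => by
        simp only [hw, Submodule.orthogonalProjectionOnto_mem_subspace_eq_self])
    rw [int_flat D h.pos.le cg, ← h3] at h2
    have h4 := h1.sub h2
    rw [sub_self] at h4
    refine h4.congr fun k => ?_
    have i1 : Integrable (fun x => g x * ((⟪x, e⟫ - p k) / δ k)) (ν k) :=
      intg (h.up k) (hg.mul (hv k).1) hs.mul_right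
    rw [← integral_sub i1 (intg (h.up k) cg hs.mul_right)]
    simp only [mul_sub]
  · rcases le_or_gt ρ 0 with hρ | hρ
    · exact ⟨0, fun k => by simp [ball_eq_empty.2 hρ]⟩
    refine ⟨_, fun k => bound (h.up k) hC0 (hv k).1 cl (hv k).2.1 (hv k).2.2 hρ
      (M := |b| + ‖B‖ * ρ) fun x hx => (abs_add_le _ _).trans ?_⟩
    exact add_le_add le_rfl ((bl x).trans (mul_le_mul_of_nonneg_left hx (norm_nonneg _)))
  · rcases le_or_gt ρ 0 with hρ | hρ
    · exact ⟨0, fun s _ _ => Eventually.of_forall fun k => by simp [ball_eq_empty.2 hρ]⟩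
    obtain ⟨K, hK⟩ := hCa V n C hn hC (ρ + 1) (by linarith)
    refine ⟨2 ^ (n + 2) * (2 * |K|) + C * ρ ^ n * (C * (2 * ‖B‖ ^ 2)), fun s hs hs1 => ?_⟩
    filter_upwards [h.A_lim.eventually_ge_atTop (2 * (ρ + 1) + 2)] with k hk
    obtain ⟨ε, h1, h2⟩ := ((hK (ν k) e (p k) (δ k) (η k) (A k) (h.up k) (h.low k) (h.zero k)
      h.norm_le (h.δ_pos k) (h.δ_le k) (h.η_pos k) hk (h.good k) (h.exc k)).and
        (Ioc_mem_nhdsGT hs)).exists
    refine energy (h.up k) hC0 (e := e) hρ hs hs1 h2.1 h2.2 (h.δ_pos k) ((hv k).1.sub cl)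
      (fun x y => ?_) (h1.trans ?_)
    · have a1 : B (D.orthogonalProjectionOnto (x - y)) ^ 2 ≤ (‖B‖ * ‖x - y‖) ^ 2 := by
        rw [← sq_abs]
        gcongr
        exact bl _
      have a2 : (⟪x, e⟫ - p k) / δ k - (b + B (D.orthogonalProjectionOnto x))
          - ((⟪y, e⟫ - p k) / δ k - (b + B (D.orthogonalProjectionOnto y)))
          = ⟪x - y, e⟫ / δ k - B (D.orthogonalProjectionOnto (x - y)) := by
        rw [inner_sub_left, map_sub, map_sub]
        ring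
      rw [a2, ← div_pow]
      nlinarith [sq_nonneg (⟪x - y, e⟫ / δ k + B (D.orthogonalProjectionOnto (x - y)))]
    · have a1 := mul_le_mul (le_abs_self K) (add_le_add_right (h.η_le k) (δ k ^ 2))
        (add_nonneg (sq_nonneg _) (h.η_pos k)) (abs_nonneg K)
      linarith

end Vale.Agent.P120
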