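import Vale.Agent.P120.Bas

/-! P120: existence of the limit function. -/

namespace Vale.Agent.P120

open MeasureTheory Metric Filter Module
open scoped Topology ENNReal NNReal RealInnerProductSpace

namespace LinAX

/-- Riesz representation of a functional dominated by a Hilbert norm. -/
theorem riesz {S H : Type} [AddCommGroup S] [Module ℝ S] [NormedAddCommGroup H]
    [InnerProductSpace ℝ H] [CompleteSpace H] (T : S →ₗ[ℝ] H) (Λ : S →ₗ[ℝ] ℝ)
    (h : ∀ x, |Λ x| ≤ ‖T x‖) : ∃ u : H, ∀ x, Λ x = ⟪u, T x⟫ := by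
  obtain ⟨g, hg⟩ := T.rangeRestrict.exists_rightInverse_of_surjective
    (LinearMap.range_rangeRestrict T)
  have hg' : ∀ y : LinearMap.range T, T (g y) = y := fun y => by
    have := congrArg Subtype.val (LinearMap.congr_fun hg y)
    simpa using this
  let f : LinearMap.range T →L[ℝ] ℝ := (Λ.comp g).mkContinuous 1 fun y => by
    have := h (g y)
    rw [hg'] at this
    simpa using this
  obtain ⟨F, hF, -⟩ := exists_extension_norm_eq (LinearMap.range T) f
  refine ⟨(InnerProductSpace.toDual ℝ H).symm F, fun x => ?_⟩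
  rw [InnerProductSpace.toDual_symm_apply]
  have h1 := hF ⟨T x, LinearMap.mem_range_self T x⟩
  have h2 := h (g ⟨T x, LinearMap.mem_range_self T x⟩ - x)
  rw [map_sub T, hg', map_sub] at h2
  simp only [sub_self, norm_zero, abs_nonpos_iff] at h2
  have h3 : f ⟨T x, LinearMap.mem_range_self T x⟩ = Λ (g ⟨T x, LinearMap.mem_range_self T x⟩) :=
    rfl
  simp only at h1
  rw [h1, h3]
  linarith

theorem le_sqrt_of {a Q : ℝ} (h : ∀ t : ℝ, 0 < t → a ≤ t / 2 * Q + 1 / (2 * t)) : a ≤ √Q := by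
  rcases le_or_gt a 0 with ha | ha
  · exact ha.trans (Real.sqrt_nonneg _)
  apply Real.le_sqrt_of_sq_le
  have h1 := h a⁻¹ (inv_pos.2 ha)
  have h2 : 1 / (2 * a⁻¹) = a / 2 := by field_simp
  rw [h2] at h1
  have h3 : a * (a / 2) ≤ a * (a⁻¹ / 2 * Q) := mul_le_mul_of_nonneg_left (by linarith) ha.le
  have h4 : a * (a⁻¹ / 2 * Q) = Q / 2 := by field_simp
  nlinarith

variable {V : Type} [NormedAddCommGroup V] [InnerProductSpace ℝ V] [FiniteDimensional ℝ V]
  [MeasurableSpace V] [BorelSpace V] {n : ℕ} {C : ℝ}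

omit [InnerProductSpace ℝ V] [FiniteDimensional ℝ V] [MeasurableSpace V] [BorelSpace V] in
theorem sq_dec {g : V → ℝ} {N : ℝ} (hN : ∀ x, |g x| ≤ N * (1 + ‖x‖)⁻¹ ^ (n + 2)) (x : V) :
    |g x ^ 2 * (1 + ‖x‖) ^ (n + 3)| ≤ N ^ 2 * (1 + ‖x‖)⁻¹ ^ (n + 1) := by
  have h0 : 0 < 1 + ‖x‖ := by positivity
  rw [abs_of_nonneg (by positivity)]
  have h1 : g x ^ 2 ≤ (N * (1 + ‖x‖)⁻¹ ^ (n + 2)) ^ 2 := by
    rw [← sq_abs (g x)]
    exact pow_le_pow_left₀ (abs_nonneg _) (hN x) 2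
  calc g x ^ 2 * (1 + ‖x‖) ^ (n + 3)
      ≤ (N * (1 + ‖x‖)⁻¹ ^ (n + 2)) ^ 2 * (1 + ‖x‖) ^ (n + 3) := by gcongr
    _ = N ^ 2 * (1 + ‖x‖)⁻¹ ^ (n + 1) := by
      simp only [inv_pow]
      field_simp
      ring

theorem int_sq {ν : Measure V} (hu : Up n C ν) (hC : 0 ≤ C) {g : V → ℝ} {N : ℝ}
    (hg : Continuous g) (hN : ∀ x, |g x| ≤ N * (1 + ‖x‖)⁻¹ ^ (n + 2)) :
    Integrable (fun x => g x ^ 2 * (1 + ‖x‖) ^ (n + 3)) ν :=
  hu.integrable hC (N := N ^ 2) (Continuous.aestronglyMeasurable (by fun_prop))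
    fun x => by simpa only [Real.norm_eq_abs] using sq_dec hN x

theorem amgm {a b r t : ℝ} (hr : 0 < r) (ht : 0 < t) (m : ℕ) :
    |a * b| ≤ t / 2 * (a ^ 2 * r ^ m) + 1 / (2 * t) * (b ^ 2 * r⁻¹ ^ m) := by
  have h0 : 0 < t * r ^ m := by positivity
  have h1 : t / 2 * (a ^ 2 * r ^ m) + 1 / (2 * t) * (b ^ 2 * r⁻¹ ^ m) - |a * b| =
      (t * r ^ m * |a| - |b|) ^ 2 / (2 * (t * r ^ m)) := by
    rw [abs_mul, ← sq_abs a, ← sq_abs b, inv_pow]
    field_simp
    ring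
  have h2 : 0 ≤ (t * r ^ m * |a| - |b|) ^ 2 / (2 * (t * r ^ m)) := by positivity
  linarith

/-- The weighted Cauchy-Schwarz inequality. -/
theorem cs {ν : Measure V} (hu : Up n C ν) (hC : 0 ≤ C) {g v : V → ℝ} {N : ℝ}
    (hg : Continuous g) (hN : ∀ x, |g x| ≤ N * (1 + ‖x‖)⁻¹ ^ (n + 2)) (hv : Continuous v)
    (hi : Integrable (fun x => v x ^ 2 * wt n 0 1 x) ν) (h1 : ∫ x, v x ^ 2 * wt n 0 1 x ∂ν ≤ 1) :
    Integrable (fun x => g x * v x) ν ∧
      |∫ x, g x * v x ∂ν| ≤ √(∫ x, g x ^ 2 * (1 + ‖x‖) ^ (n + 3) ∂ν) := by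
  have hs := int_sq hu hC hg hN
  have hb : ∀ t : ℝ, 0 < t → ∀ x, |g x * v x| ≤ t / 2 * (g x ^ 2 * (1 + ‖x‖) ^ (n + 3)) +
      1 / (2 * t) * (v x ^ 2 * wt n 0 1 x) := fun t ht x => by
    rw [wt_unit]
    exact amgm (by positivity) ht _
  have hI : Integrable (fun x => g x * v x) ν :=
    Integrable.mono' ((hs.const_mul (1 / 2)).add (hi.const_mul (1 / (2 * 1))))
      (hg.mul hv).aestronglyMeasurable (Eventually.of_forall fun x => hb 1 one_pos x)
  refine ⟨hI, le_sqrt_of fun t ht => ?_⟩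
  calc |∫ x, g x * v x ∂ν| ≤ ∫ x, |g x * v x| ∂ν := abs_integral_le_integral_abs
    _ ≤ ∫ x, (t / 2 * (g x ^ 2 * (1 + ‖x‖) ^ (n + 3)) +
        1 / (2 * t) * (v x ^ 2 * wt n 0 1 x)) ∂ν :=
      integral_mono hI.abs ((hs.const_mul _).add (hi.const_mul _)) (hb t ht)
    _ = t / 2 * ∫ x, g x ^ 2 * (1 + ‖x‖) ^ (n + 3) ∂ν +
        1 / (2 * t) * ∫ x, v x ^ 2 * wt n 0 1 x ∂ν := by
      rw [integral_add (hs.const_mul _) (hi.const_mul _), integral_const_mul, integral_const_mul]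
    _ ≤ _ := by
      have : 1 / (2 * t) * ∫ x, v x ^ 2 * wt n 0 1 x ∂ν ≤ 1 / (2 * t) * 1 :=
        mul_le_mul_of_nonneg_left h1 (by positivity)
      linarith

theorem emb (D : Submodule ℝ V) : MeasurableEmbedding (Subtype.val : D → V) :=
  MeasurableEmbedding.subtype_coe D.closed_of_finiteDimensional.measurableSet

theorem integral_flat (D : Submodule ℝ V) {c : ℝ} (hc : 0 ≤ c) (F : V → ℝ) :
    ∫ x, F x ∂flat D c = c * ∫ w : D, F w := by
  rw [flat, integral_smul_measure, (emb D).integral_map, ENNReal.toReal_ofReal hc, smul_eq_mul]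

theorem integrable_flat (D : Submodule ℝ V) {c : ℝ} (hc : 0 < c) {F : V → ℝ}
    (h : Integrable F (flat D c)) : Integrable (fun w : D => F w) := by
  rw [flat, integrable_smul_measure (by simpa using hc) ENNReal.ofReal_ne_top,
    (emb D).integrable_map_iff] at h
  exact h

/-- Continuous functions with decay. -/
def Dec (V : Type) [NormedAddCommGroup V] (n : ℕ) : Submodule ℝ (V → ℝ) where
  carrier := {g | Continuous g ∧ ∃ N : ℝ, ∀ x, |g x| ≤ N * (1 + ‖x‖)⁻¹ ^ (n + 2)}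
  add_mem' := by
    rintro f g ⟨hf, M, hM⟩ ⟨hg, N, hN⟩
    refine ⟨hf.add hg, M + N, fun x => ?_⟩
    have := abs_add_le (f x) (g x)
    have h1 := hM x
    have h2 := hN x
    simp only [Pi.add_apply]
    linarith
  zero_mem' := ⟨continuous_const, 0, fun x => by simp⟩
  smul_mem' := by
    rintro a f ⟨hf, M, hM⟩
    refine ⟨hf.const_smul a, |a| * M, fun x => ?_⟩
    simp only [Pi.smul_apply, smul_eq_mul, abs_mul, mul_assoc]
    exact mul_le_mul_of_nonneg_left (hM x) (abs_nonneg _)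

theorem memLp {σ : Measure V} (hu : Up n C σ) (hC : 0 ≤ C) (g : Dec V n) :
    MemLp (fun x => g.1 x * √((1 + ‖x‖) ^ (n + 3))) 2 σ := by
  obtain ⟨hg, N, hN⟩ := g.2
  rw [memLp_two_iff_integrable_sq (Continuous.aestronglyMeasurable (by fun_prop))]
  refine (int_sq hu hC hg hN).congr (Eventually.of_forall fun x => ?_)
  simp only [mul_pow]
  rw [Real.sq_sqrt (by positivity)]

/-- The embedding into `L²`. -/
noncomputable def emb2 {σ : Measure V} (hu : Up n C σ) (hC : 0 ≤ C) :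
    Dec V n →ₗ[ℝ] Lp ℝ 2 σ where
  toFun g := (memLp hu hC g).toLp _
  map_add' f g := by
    rw [← MemLp.toLp_add]
    refine MemLp.toLp_congr _ _ (Eventually.of_forall fun x => ?_)
    simp only [Submodule.coe_add, Pi.add_apply]
    ring
  map_smul' a f := by
    rw [RingHom.id_apply, ← MemLp.toLp_const_smul]
    refine MemLp.toLp_congr _ _ (Eventually.of_forall fun x => ?_)
    simp only [Submodule.coe_smul, Pi.smul_apply, smul_eq_mul]
    ring

theorem inner_emb2 {σ : Measure V} (hu : Up n C σ) (hC : 0 ≤ C) (u : Lp ℝ 2 σ) (g : Dec V n) :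
    ⟪u, emb2 hu hC g⟫ = ∫ x, g.1 x * (u x * √((1 + ‖x‖) ^ (n + 3))) ∂σ := by
  rw [L2.inner_def]
  refine integral_congr_ae ?_
  filter_upwards [(memLp hu hC g).coeFn_toLp] with x hx
  have : (emb2 hu hC g) x = g.1 x * √((1 + ‖x‖) ^ (n + 3)) := hx
  rw [this]
  simp only [RCLike.inner_apply, conj_trivial]
  ring

theorem norm_emb2 {σ : Measure V} (hu : Up n C σ) (hC : 0 ≤ C) (g : Dec V n) :
    ‖emb2 hu hC g‖ = √(∫ x, g.1 x ^ 2 * (1 + ‖x‖) ^ (n + 3) ∂σ) := by
  rw [norm_eq_sqrt_real_inner, inner_emb2]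
  congr 1
  refine integral_congr_ae ?_
  filter_upwards [(memLp hu hC g).coeFn_toLp] with x hx
  have : (emb2 hu hC g) x = g.1 x * √((1 + ‖x‖) ^ (n + 3)) := hx
  rw [this, mul_assoc, Real.mul_self_sqrt (by positivity)]
  ring

theorem exists_lim {U : Ultrafilter ℕ} {a q : ℕ → ℝ} {Q : ℝ} (hq : Tendsto q U (𝓝 Q))
    (h : ∀ k, |a k| ≤ √(q k)) : ∃ L, Tendsto a U (𝓝 L) ∧ |L| ≤ √Q := by
  have h1 : Tendsto (fun k => √(q k)) U (𝓝 √Q) := hq.sqrt
  have h2 : ∀ᶠ k in U, a k ∈ Set.Icc (-(√Q + 1)) (√Q + 1) := by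
    filter_upwards [h1.eventually (gt_mem_nhds (lt_add_one _))] with k hk
    exact abs_le.1 ((h k).trans hk.le)
  obtain ⟨L, -, hL⟩ := isCompact_Icc.ultrafilter_le_nhds (U.map a)
    (by rw [Ultrafilter.coe_map, le_principal_iff]; exact h2)
  have hL' : Tendsto a U (𝓝 L) := hL
  exact ⟨L, hL', le_of_tendsto_of_tendsto' hL'.abs h1 h⟩

omit [InnerProductSpace ℝ V] [FiniteDimensional ℝ V] [MeasurableSpace V] [BorelSpace V] in
theorem lu_const (U : Ultrafilter ℕ) (g : V → ℝ) : LU U (fun _ => g) g :=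
  fun _ _ hε => Eventually.of_forall fun _ _ _ => by simpa using hε.le

omit [InnerProductSpace ℝ V] [FiniteDimensional ℝ V] [MeasurableSpace V] [BorelSpace V] in
theorem lu_bound {U : Ultrafilter ℕ} {g : ℕ → V → ℝ} {g₀ b : V → ℝ} (h : LU U g g₀)
    (hb : ∀ᶠ k in U, ∀ x, |g k x| ≤ b x) (x : V) : |g₀ x| ≤ b x := by
  refine le_of_forall_pos_le_add fun ε hε => ?_
  obtain ⟨k, h1, h2⟩ := ((h ‖x‖ ε hε).and hb).exists
  have h3 := h1 x le_rfl
  have h4 := h2 x
  have h5 := abs_sub_abs_le_abs_sub (g₀ x) (g k x)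
  rw [abs_sub_comm] at h5
  linarith

omit [InnerProductSpace ℝ V] [FiniteDimensional ℝ V] [MeasurableSpace V] [BorelSpace V] in
theorem lu_sq {U : Ultrafilter ℕ} {g : ℕ → V → ℝ} {g₀ : V → ℝ} (h : LU U g g₀) (m : ℕ) :
    LU U (fun k x => (g k x - g₀ x) ^ 2 * (1 + ‖x‖) ^ m) (fun _ => 0) := by
  intro R ε hε
  have h0 : 0 < (1 + |R|) ^ m := by positivity
  filter_upwards [h R √(ε / (1 + |R|) ^ m) (Real.sqrt_pos.2 (by positivity))] with k hk x hx
  have h1 : (g k x - g₀ x) ^ 2 ≤ ε / (1 + |R|) ^ m := by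
    rw [← sq_abs, ← Real.sq_sqrt (x := ε / (1 + |R|) ^ m) (by positivity)]
    exact pow_le_pow_left₀ (abs_nonneg _) (hk x hx) 2
  have h2 : (1 + ‖x‖) ^ m ≤ (1 + |R|) ^ m :=
    pow_le_pow_left₀ (by positivity) (by linarith [le_abs_self R]) m
  rw [sub_zero, abs_of_nonneg (by positivity)]
  calc (g k x - g₀ x) ^ 2 * (1 + ‖x‖) ^ m ≤ ε / (1 + |R|) ^ m * (1 + |R|) ^ m := by gcongr
    _ = ε := by field_simp

end LinAX

open LinAX in
theorem linA_pf (h : LimP_stmt) : LinA_stmt := by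
  intro V _ _ _ _ _ n C hn hC U ν v D c hup hD hc hσ hlim hv
  have hC0 : 0 ≤ C := by linarith
  have hP := (h V n C hn hC U ν (flat D c) hup hσ hlim).1
  have hex : ∀ g : Dec V n, ∃ L, Tendsto (fun k => ∫ x, g.1 x * v k x ∂ν k) U (𝓝 L) ∧
      |L| ≤ √(∫ x, g.1 x ^ 2 * (1 + ‖x‖) ^ (n + 3) ∂flat D c) := fun g => by
    obtain ⟨hg, N, hN⟩ := g.2
    have hg2 : Continuous fun x => g.1 x ^ 2 * (1 + ‖x‖) ^ (n + 3) := by fun_prop
    exact exists_lim (hP (fun _ x => g.1 x ^ 2 * (1 + ‖x‖) ^ (n + 3)) _ (N ^ 2)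
      (Eventually.of_forall fun _ => ⟨hg2, sq_dec hN⟩) hg2 (lu_const U _))
      fun k => (cs (hup k) hC0 hg hN (hv k).1 (hv k).2.1 (hv k).2.2).2
  choose L hL hL' using hex
  have hint : ∀ (g : Dec V n) k, Integrable (fun x => g.1 x * v k x) (ν k) := fun g k => by
    obtain ⟨hg, N, hN⟩ := g.2
    exact (cs (hup k) hC0 hg hN (hv k).1 (hv k).2.1 (hv k).2.2).1
  let Λ : Dec V n →ₗ[ℝ] ℝ :=
    { toFun := L
      map_add' := fun f g => by
        refine tendsto_nhds_unique (hL (f + g)) (((hL f).add (hL g)).congr fun k => ?_)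
        rw [← integral_add (hint f k) (hint g k)]
        refine integral_congr_ae (Eventually.of_forall fun x => ?_)
        simp only [Submodule.coe_add, Pi.add_apply]
        ring
      map_smul' := fun a f => by
        refine tendsto_nhds_unique (hL (a • f)) (((hL f).const_mul a).congr fun k => ?_)
        rw [← integral_const_mul]
        refine integral_congr_ae (Eventually.of_forall fun x => ?_)
        simp only [Submodule.coe_smul, Pi.smul_apply, smul_eq_mul]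
        ring }
  obtain ⟨u, hu⟩ := riesz (emb2 hσ hC0) Λ fun g => by
    rw [norm_emb2]
    exact hL' g
  refine ⟨fun w => u w * √((1 + ‖(w : V)‖) ^ (n + 3)), ?_, ?_, ?_⟩
  · refine AEStronglyMeasurable.mul ?_ (Continuous.aestronglyMeasurable (by fun_prop))
    exact ((Lp.stronglyMeasurable u).comp_measurable measurable_subtype_coe).aestronglyMeasurable
  · have h1 : Integrable (fun x => u x ^ 2) (flat D c) := (Lp.memLp u).integrable_sq
    refine (integrable_flat D hc h1).congr (Eventually.of_forall fun w => ?_)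
    have h0 : 0 < 1 + ‖(w : V)‖ := by positivity
    simp only [mul_pow, Submodule.coe_norm]
    rw [Real.sq_sqrt (by positivity), inv_pow]
    field_simp
  · intro g g₀ N hg hg₀ hlu
    have hb := lu_bound hlu (hg.mono fun k hk => hk.2)
    have hd : ∀ᶠ k in U, Continuous (fun x => g k x - g₀ x) ∧
        ∀ x, |g k x - g₀ x| ≤ (N + N) * (1 + ‖x‖)⁻¹ ^ (n + 2) := by
      filter_upwards [hg] with k hk
      refine ⟨hk.1.sub hg₀, fun x => ?_⟩
      have h1 := abs_sub (g k x) (g₀ x)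
      have h2 := hk.2 x
      have h3 := hb x
      linarith
    have h1 := hP (fun k x => (g k x - g₀ x) ^ 2 * (1 + ‖x‖) ^ (n + 3)) (fun _ => 0) ((N + N) ^ 2)
      (hd.mono fun k hk => ⟨(hk.1.pow 2).mul (by fun_prop), sq_dec hk.2⟩) continuous_const
      (lu_sq hlu _)
    have h2 : Tendsto (fun k => ∫ x, (g k x - g₀ x) * v k x ∂ν k) U (𝓝 0) := by
      have h3 := h1.sqrt
      rw [integral_zero, Real.sqrt_zero] at h3
      refine squeeze_zero_norm' ?_ h3
      filter_upwards [hd] with k hk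
      exact (cs (hup k) hC0 hk.1 hk.2 (hv k).1 (hv k).2.1 (hv k).2.2).2
    let G : Dec V n := ⟨g₀, hg₀, N, hb⟩
    have h4 : L G = c * ∫ w : D, g₀ w * (u w * √((1 + ‖(w : V)‖) ^ (n + 3))) := by
      have h5 : L G = _ := hu G
      rw [h5, inner_emb2, integral_flat D hc.le]
    have h6 := h2.add (hL G)
    rw [zero_add, h4] at h6
    refine h6.congr' ?_
    filter_upwards [hd] with k hk
    rw [← integral_add (cs (hup k) hC0 hk.1 hk.2 (hv k).1 (hv k).2.1 (hv k).2.2).1 (hint G k)]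
    refine integral_congr_ae (Eventually.of_forall fun x => ?_)
    simp only [G]
    ring

end Vale.Agent.P120
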