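import Vale.Agent.P120.LinBa

/-! P120: the half Laplacian as a limit of its regularisations. -/

namespace Vale.Agent.P120.LinBX

open MeasureTheory Metric Filter Module
open scoped Topology ENNReal NNReal RealInnerProductSpace

variable {W : Type} [NormedAddCommGroup W] [InnerProductSpace ℝ W] {n : ℕ} {s K ρ : ℝ}
  {ψ : W → ℝ}

theorem tst_of_smooth (hψ : ContDiff ℝ (⊤ : ℕ∞) ψ) (hc : HasCompactSupport ψ) : ∃ K ρ : ℝ,
    Tst K ρ ψ ∧ ∀ w z, |2 * ψ w - ψ (w + z) - ψ (w - z)| ≤ K * ‖z‖ ^ 2 := by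
  obtain ⟨K1, h1⟩ := hψ.lipschitzWith_of_hasCompactSupport hc (by simp)
  obtain ⟨K2, h2⟩ := hc.exists_bound_of_continuous hψ.continuous
  obtain ⟨R, -, h3⟩ := hc.exists_pos_le_norm
  have hd : ContDiff ℝ 1 (fderiv ℝ ψ) := hψ.fderiv_right (WithTop.coe_le_coe.2 (le_top : ((1 + 1 : ℕ∞)) ≤ ⊤))
  obtain ⟨K3, h4⟩ := hd.lipschitzWith_of_hasCompactSupport (hc.fderiv ℝ) one_ne_zero
  have k1 := K1.coe_nonneg
  have k2 := (norm_nonneg _).trans (h2 0)
  have k3 := K3.coe_nonneg
  refine ⟨K1 + K2 + 2 * K3, max R 1, ⟨fun x y => ?_, fun x => (h2 x).trans (by linarith),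
    fun x hx => h3 x ((le_max_left _ _).trans hx), le_max_right _ _⟩, fun w z => ?_⟩
  · have := h1.dist_le_mul x y
    rw [Real.dist_eq, dist_eq_norm] at this
    exact this.trans (mul_le_mul_of_nonneg_right (by linarith) (norm_nonneg _))
  · have hD : ∀ x, HasFDerivAt ψ (fderiv ℝ ψ x) x := fun x =>
      (hψ.differentiable (by simp) x).hasFDerivAt
    have h5 := (convex_closedBall (0 : W) ‖z‖).norm_image_sub_le_of_norm_hasFDerivWithin_le
      (𝕜 := ℝ) (f := fun y => ψ (w + y) + ψ (w - y))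
      (f' := fun y => fderiv ℝ ψ (w + y) - fderiv ℝ ψ (w - y)) (C := 2 * K3 * ‖z‖)
      (fun y _ => by
        have a1 := (hD (w + y)).comp y ((hasFDerivAt_id y).const_add w)
        have a2 := (hD (w - y)).comp y ((hasFDerivAt_id y).const_sub w)
        refine ((a1.add a2).congr_fderiv ?_).hasFDerivWithinAt
        ext v
        simp [sub_eq_add_neg])
      (fun y hy => by
        have a1 := h4.dist_le_mul (w + y) (w - y)
        rw [dist_eq_norm, dist_eq_norm, add_sub_sub_cancel, ← two_smul ℝ y, norm_smul,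
          Real.norm_two] at a1
        have a2 := mul_le_mul_of_nonneg_left (mem_closedBall_zero_iff.1 hy) k3
        linarith)
      (mem_closedBall_self (norm_nonneg z)) (mem_closedBall_zero_iff.2 le_rfl)
    simp only [add_zero, sub_zero, Real.norm_eq_abs] at h5
    rw [← abs_neg, show -(2 * ψ w - ψ (w + z) - ψ (w - z)) =
      ψ (w + z) + ψ (w - z) - (ψ w + ψ w) by ring]
    refine h5.trans ?_
    rw [mul_assoc, ← sq]
    exact mul_le_mul_of_nonneg_right (by linarith) (sq_nonneg _)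

variable [FiniteDimensional ℝ W] [MeasurableSpace W] [BorelSpace W]

theorem up_vol (h : finrank ℝ W = n) : ∃ C : ℝ, 0 ≤ C ∧ Up n C (volume : Measure W) := by
  refine ⟨(volume (ball (0 : W) 1)).toReal, ENNReal.toReal_nonneg, fun x r hr => le_of_eq ?_⟩
  rw [Measure.addHaar_ball_of_pos _ x hr, h, mul_comm _ (r ^ n), ENNReal.ofReal_mul (by positivity),
    ENNReal.ofReal_toReal measure_ball_lt_top.ne]

theorem two_gg {C : ℝ} (hs : 0 < s) (hu : Up n C (volume : Measure W)) (hC : 0 ≤ C) (h : Tst K ρ ψ)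
    (w : W) : 2 * gg n s volume ψ w = ∫ z, kr n s z * (2 * ψ w - ψ (w + z) - ψ (w - z)) := by
  have i0 := gg_int hs hu hC h w
  have e1 := integral_add_left_eq_self (μ := volume) (fun y => kr n s (w - y) * (ψ w - ψ y)) w
  have e2 := integral_sub_left_eq_self (fun y => kr n s (w - y) * (ψ w - ψ y)) volume w
  rw [two_mul, gg]
  nth_rewrite 1 [← e1]
  rw [← e2, ← integral_add (i0.comp_add_left w) (i0.comp_sub_left w)]
  refine integral_congr_ae (Eventually.of_forall fun z => ?_)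
  simp only [sub_add_cancel_left, sub_sub_cancel, kr_neg]
  ring

theorem lim_L0 (hW : finrank ℝ W = n) (hn : 1 ≤ n) (h : Tst K ρ ψ) (hm : ∫ w, ψ w = 0)
    (h2 : ∀ w z, |2 * ψ w - ψ (w + z) - ψ (w - z)| ≤ K * ‖z‖ ^ 2) {v : W → ℝ}
    (hv : AEStronglyMeasurable v volume)
    (hi : Integrable fun w => v w ^ 2 * (1 + ‖w‖)⁻¹ ^ (n + 3)) :
    Tendsto (fun s => ∫ w, v w * (2 * gg n s volume ψ w)) (𝓝[>] 0) (𝓝 (∫ w, v w * L0 n ψ w)) := by
  obtain ⟨C, hC, hu⟩ := up_vol hW
  have hK := h.nonneg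
  have hρ := h.one_le
  have hc := cK_pos n
  have := hu.noAtoms hn
  obtain ⟨H, hH⟩ : ∃ H : W → ℝ, H = fun z => K * (ball (0 : W) 1).indicator
      (fun z => ‖z - 0‖⁻¹ ^ (n - 1)) z + 4 * K * (ball (0 : W) 1)ᶜ.indicator
      (fun z => ‖z - 0‖⁻¹ ^ (n + 1)) z := ⟨_, rfl⟩
  have H1 : Integrable H := hH ▸
    (((hu.near hn hC 0 one_pos).1.integrable_indicator measurableSet_ball).const_mul K).add
      (((hu.far hC 0 one_pos le_rfl).1.integrable_indicator measurableSet_ball.compl).const_mul _)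
  have H2 : ∀ s w z, |kr n s z * (2 * ψ w - ψ (w + z) - ψ (w - z))| ≤ H z := fun s w z => by
    rw [abs_mul, abs_of_nonneg (kr_nonneg _ _ _), hH]
    by_cases hz : z ∈ ball (0 : W) 1
    · simp only [Set.indicator_of_mem hz, Set.indicator_of_notMem (Set.notMem_compl_iff.2 hz),
        sub_zero, mul_zero, add_zero]
      refine (mul_le_mul_of_nonneg_left (h2 w z) (kr_nonneg _ _ _)).trans ?_
      rw [mul_left_comm]
      exact mul_le_mul_of_nonneg_left (kr_mul_sq_le hn s z) hK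
    · simp only [Set.indicator_of_notMem hz, Set.indicator_of_mem (Set.mem_compl hz),
        sub_zero, mul_zero, zero_add]
      rw [mul_comm]
      refine mul_le_mul ?_ (kr_le_norm s fun h0 => hz (h0 ▸ mem_ball_self one_pos))
        (kr_nonneg _ _ _) (by positivity)
      rw [show 2 * ψ w - ψ (w + z) - ψ (w - z) = ψ w - ψ (w + z) + (ψ w - ψ (w - z)) by ring]
      exact (abs_add_le _ _).trans (by linarith [h.sub_le w (w + z), h.sub_le w (w - z)])
  have H0 : 0 ≤ ∫ z, H z := integral_nonneg fun z => (abs_nonneg _).trans (H2 1 0 z)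
  obtain ⟨N, hN⟩ : ∃ N : ℝ, ∀ s, 0 < s → ∀ w,
      |2 * gg n s volume ψ w| ≤ N * (1 + ‖w‖)⁻¹ ^ (n + 2) :=
    ⟨_, fun s hs => dec_of (g := fun w => 2 * gg n s volume ψ w) (R := 2 * ρ)
      (b := 2 * (cK n * ρ * (K * (C * ρ ^ n)))) (by linarith) H0 (by positivity)
      (fun w _ => by rw [two_gg hs hu hC h]; exact abs_int_le H1 (H2 s w))
      fun w hw => by
        rw [abs_mul, abs_two, mul_assoc 2]
        exact mul_le_mul_of_nonneg_left (gg_far hs hu hC h hm w hw) zero_le_two⟩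
  have hN0 : 0 ≤ N := by simpa using (abs_nonneg _).trans (hN 1 one_pos 0)
  refine tendsto_integral_filter_of_dominated_convergence
    (fun w => N * (v w ^ 2 * (1 + ‖w‖)⁻¹ ^ (n + 3) + (1 + ‖w‖)⁻¹ ^ (n + 1)))
    (eventually_mem_nhdsWithin.mono fun s hs =>
      hv.mul (continuous_const.mul (gg_cont hs hu hC h)).aestronglyMeasurable)
    (eventually_mem_nhdsWithin.mono fun s hs => Eventually.of_forall fun w => ?_)
    ((hi.add (dec1 hu hC le_rfl).1).const_mul N) (Eventually.of_forall fun w => ?_)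
  · rw [Real.norm_eq_abs, abs_mul]
    refine (mul_le_mul_of_nonneg_left (hN s hs w) (abs_nonneg _)).trans ?_
    rw [mul_left_comm]
    refine mul_le_mul_of_nonneg_left ?_ hN0
    have q0 : 0 ≤ (1 + ‖w‖)⁻¹ := by positivity
    generalize (1 + ‖w‖)⁻¹ = q at *
    have e : v w ^ 2 * q ^ (n + 3) + q ^ (n + 1) - |v w| * q ^ (n + 2) =
        q ^ (n + 1) * ((|v w| * q - 1) ^ 2 + |v w| * q) := by rw [← sq_abs (v w)]; ring
    have e2 : 0 ≤ q ^ (n + 1) * ((|v w| * q - 1) ^ 2 + |v w| * q) := by positivity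
    linarith
  · refine Tendsto.const_mul _ (Tendsto.congr' (eventually_mem_nhdsWithin.mono fun s hs =>
      (two_gg hs hu hC h w).symm) ?_)
    have c1 := h.cont
    refine tendsto_integral_filter_of_dominated_convergence H
      (eventually_mem_nhdsWithin.mono fun s hs =>
        ((continuous_kr n hs).mul (by fun_prop)).aestronglyMeasurable)
      (Eventually.of_forall fun s => Eventually.of_forall fun z => H2 s w z) H1
      ((Measure.ae_ne volume (0 : W)).mono fun z hz => (tendsto_kr hz).mul_const _)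

end Vale.Agent.P120.LinBX
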