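import Vale.Agent.P120.LinBb
import Vale.Agent.P120.LinBc

/-! P120: the limit equation. -/

namespace Vale.Agent.P120

open MeasureTheory Metric Filter Module
open scoped Topology ENNReal NNReal RealInnerProductSpace

namespace LinBX

variable {V : Type} [NormedAddCommGroup V] [InnerProductSpace ℝ V] {n : ℕ} {C s K ρ : ℝ}

omit [InnerProductSpace ℝ V] in
theorem bump_le (a b : V) : 0 ≤ max 0 (1 - ‖a‖) ∧ max 0 (1 - ‖a‖) ≤ 1 ∧
    |max 0 (1 - ‖a‖) - max 0 (1 - ‖b‖)| ≤ ‖a - b‖ := by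
  refine ⟨le_max_left _ _, max_le zero_le_one (by linarith [norm_nonneg a]), ?_⟩
  rw [max_comm 0, max_comm 0]
  refine (abs_max_sub_max_le_abs _ _ _).trans ?_
  rw [sub_sub_sub_cancel_left, abs_sub_comm]
  exact abs_norm_sub_norm_le a b

omit [InnerProductSpace ℝ V] in
theorem tst_bump : Tst 1 1 fun x : V => max 0 (1 - ‖x‖) :=
  ⟨fun x y => by rw [one_mul]; exact (bump_le x y).2.2,
    fun x => by rw [abs_of_nonneg (bump_le x x).1]; exact (bump_le x x).2.1,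
    fun x hx => max_eq_left (by linarith), le_rfl⟩

omit [InnerProductSpace ℝ V] in
theorem Tst.corr {Ψ : V → ℝ} (h : Tst K ρ Ψ) {a : ℝ} (ha : |a| ≤ 1) :
    Tst (K + 1) ρ fun x => Ψ x - a * max 0 (1 - ‖x‖) := by
  refine ⟨fun x y => ?_, fun x => (abs_sub _ _).trans (add_le_add (h.bdd x) ?_), fun x hx => ?_,
    h.one_le⟩
  · rw [show Ψ x - a * max 0 (1 - ‖x‖) - (Ψ y - a * max 0 (1 - ‖y‖)) =
      Ψ x - Ψ y - a * (max 0 (1 - ‖x‖) - max 0 (1 - ‖y‖)) by ring, add_mul, one_mul]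
    refine (abs_sub _ _).trans (add_le_add (h.lip x y) ?_)
    rw [abs_mul]
    exact (mul_le_of_le_one_left (abs_nonneg _) ha).trans (bump_le x y).2.2
  · rw [abs_mul]
    exact mul_le_one₀ ha (abs_nonneg _) (tst_bump.bdd x)
  · rw [h.supp x hx, tst_bump.supp x (h.one_le.trans hx), mul_zero, sub_zero]

variable [FiniteDimensional ℝ V]

theorem tst_ext {D : Submodule ℝ V} {ψ : D → ℝ} (h : Tst K ρ ψ) :
    ∃ Ψ : V → ℝ, Tst (2 * K) (ρ + 1) Ψ ∧ ∀ w : D, Ψ w = ψ w := by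
  have hK := h.nonneg
  refine ⟨fun x => max 0 (1 - ‖perp D x‖) * ψ (D.orthogonalProjectionOnto x),
    ⟨fun x y => ?_, fun x => ?_, fun x hx => ?_, by linarith [h.one_le]⟩, fun w => ?_⟩
  · obtain ⟨b1, b2, b3⟩ := bump_le (perp D x) (perp D y)
    have h1 := h.lip (D.orthogonalProjectionOnto x) (D.orthogonalProjectionOnto y)
    rw [← map_sub] at h1
    have h2 := h1.trans (mul_le_mul_of_nonneg_left
      (D.norm_orthogonalProjectionOnto_apply_le (x - y)) hK)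
    rw [← perp_sub] at b3
    have h3 := b3.trans (norm_perp_le D (x - y))
    have h4 := h.bdd (D.orthogonalProjectionOnto y)
    generalize max 0 (1 - ‖perp D x‖) = a at *
    generalize max 0 (1 - ‖perp D y‖) = b at *
    generalize ψ (D.orthogonalProjectionOnto x) = u at *
    generalize ψ (D.orthogonalProjectionOnto y) = v at *
    rw [show a * u - b * v = a * (u - v) + (a - b) * v by ring]
    refine (abs_add_le _ _).trans ?_
    rw [abs_mul, abs_mul, abs_of_nonneg b1]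
    have h5 := (mul_le_of_le_one_left (abs_nonneg (u - v)) b2).trans h2
    have h6 := mul_le_mul h3 h4 (abs_nonneg _) (norm_nonneg _)
    linarith
  · obtain ⟨b1, b2, -⟩ := bump_le (perp D x) (perp D x)
    rw [abs_mul, abs_of_nonneg b1]
    exact (mul_le_of_le_one_left (abs_nonneg _) b2).trans ((h.bdd _).trans (by linarith))
  · rcases le_total 1 ‖perp D x‖ with h1 | h1
    · rw [max_eq_left (by linarith), zero_mul]
    · have h2 := norm_add_le (perp D x) (D.starProjection x)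
      rw [show perp D x + D.starProjection x = x from sub_add_cancel _ _] at h2
      have h3 : ‖D.orthogonalProjectionOnto x‖ = ‖D.starProjection x‖ := rfl
      rw [h.supp _ (by linarith), mul_zero]
  · simp only
    rw [(perp_eq_zero D).2 w.2, Submodule.orthogonalProjectionOnto_mem_subspace_eq_self]
    simp

variable [MeasurableSpace V] [BorelSpace V]

theorem integral_flat (D : Submodule ℝ V) {c : ℝ} (hc : 0 ≤ c) (f : V → ℝ) :
    ∫ x, f x ∂flat D c = c * ∫ w : D, f w := by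
  rw [flat, integral_smul_measure, ENNReal.toReal_ofReal hc, smul_eq_mul]
  congr 1
  exact (MeasurableEmbedding.subtype_coe D.closed_of_finiteDimensional.measurableSet).integral_map f

theorem bump_ge {ν : Measure V} (hu : Up n C ν) (hl : Low n C 1 ν) (h0 : (0 : V) ∈ ν.support) :
    2⁻¹ * (2⁻¹ ^ n / C) ≤ ∫ x, max 0 (1 - ‖x‖) ∂ν := by
  have := hu.locFin
  have h1 := hl.real_ball hu h0 (r := 2⁻¹) (by norm_num) (by norm_num)
  refine (mul_le_mul_of_nonneg_left h1 (by norm_num)).trans (le_trans ?_ (setIntegral_le_integral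
    (s := ball 0 2⁻¹) (tst_bump.int hu) (Eventually.of_forall fun x => le_max_left _ _)))
  refine setIntegral_ge_of_const_le_real measurableSet_ball measure_ball_lt_top.ne
    (fun x hx => le_max_of_le_right ?_) (tst_bump.int hu).integrableOn
  have := mem_ball_zero_iff.1 hx
  linarith

theorem good_le {ν : Measure V} {Ψ : V → ℝ} {A η : ℝ} {e : V} (hg : Good n ν 0 1 A η)
    (h : Tst K ρ Ψ) (hK : 0 < K) (hm : ∫ x, Ψ x ∂ν = 0) (he : ‖e‖ ≤ 1) (hA : ρ ≤ A) :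
    ∀ᶠ ε in 𝓝[>] (0 : ℝ), |Tf n ε ν fun x => Ψ x • e| ≤ K * η := by
  refine (hg (fun x => K⁻¹ • Ψ x • e) (LipschitzWith.of_dist_le_mul fun x y => ?_) (fun x hx => ?_)
    (by rw [integral_smul, integral_smul_const, hm, zero_smul, smul_zero])).mono fun ε hε => ?_
  · rw [dist_eq_norm, dist_eq_norm, ← smul_sub, ← sub_smul, norm_smul, norm_smul, norm_inv,
      Real.norm_of_nonneg hK.le, NNReal.coe_one, one_mul, inv_mul_le_iff₀ hK]
    exact (mul_le_of_le_one_right (norm_nonneg _) he).trans (h.lip x y)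
  · rw [mul_one, sub_zero] at hx
    rw [h.supp x (hA.trans hx), zero_smul, smul_zero]
  · rwa [Tf_smul, abs_mul, abs_of_pos (inv_pos.2 hK), inv_mul_le_iff₀ hK, one_pow, mul_one] at hε

theorem est (hP : LimP_stmt) (hC : Cacc_stmt) (hn : 1 ≤ n) (h1 : 1 ≤ C) {U : Ultrafilter ℕ}
    {ν : ℕ → Measure V} {D : Submodule ℝ V} {c : ℝ} {e : V} {p δ A η : ℕ → ℝ}
    (S : Set1 n C U ν D c e p δ A η) {v₀ : D → ℝ}
    (hR : Rep n U ν (fun k x => (⟪x, e⟫ - p k) / δ k) D c v₀) {Ψ : V → ℝ} (h : Tst K ρ Ψ)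
    (hm : ∫ x, Ψ x ∂flat D c = 0) : ∃ b : ℝ, ∀ t : ℝ, 0 < t → t ≤ 1 →
      |c * ∫ w : D, gg n (t ^ 2) (flat D c) Ψ w * v₀ w| ≤ b * t := by
  have hC0 : 0 ≤ C := zero_le_one.trans h1
  have hK := h.nonneg
  have hρ := h.one_le
  obtain ⟨L1, -, -⟩ := hP V n C hn h1 U ν (flat D c) S.up S.upl S.lim
  obtain ⟨Kc, hKc⟩ := hC V n C hn h1 (2 * ρ) (by linarith)
  obtain ⟨c', hc'⟩ := tf_diff (V := V) (K := K + 1) hn hC0 (by linarith) hρ
  obtain ⟨a, ha⟩ : ∃ a : ℕ → ℝ, ∀ k, a k = (∫ x, Ψ x ∂ν k) / ∫ x, max 0 (1 - ‖x‖) ∂ν k :=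
    ⟨_, fun _ => rfl⟩
  have hm0 : (0 : ℝ) < 2⁻¹ * (2⁻¹ ^ n / C) := by positivity
  have hb := fun k => bump_ge (S.up k) (S.low k) (S.zero k)
  have a0 : Tendsto (fun k => |a k|) U (𝓝 0) := by
    have t1 := (S.lim Ψ h.cont h.hcs).abs.div_const (2⁻¹ * (2⁻¹ ^ n / C))
    rw [hm, abs_zero, zero_div] at t1
    refine squeeze_zero (fun k => abs_nonneg _) (fun k => ?_) t1
    rw [ha, abs_div, abs_of_pos (hm0.trans_le (hb k))]
    exact div_le_div_of_nonneg_left (abs_nonneg _) hm0 (hb k)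
  obtain ⟨Φ, hΦ⟩ : ∃ Φ : ℕ → V → ℝ, Φ = fun k x => Ψ x - a k * max 0 (1 - ‖x‖) := ⟨_, rfl⟩
  have p1 : ∀ᶠ k in U, Tst (K + 1) ρ (Φ k) :=
    (a0.eventually (ge_mem_nhds one_pos)).mono fun k hk => hΦ ▸ h.corr hk
  have p2 : ∀ k, ∫ x, Φ k x ∂ν k = 0 := fun k => by
    simp only [hΦ]
    rw [integral_sub (h.int (S.up k)) ((tst_bump.int (S.up k)).const_mul _), integral_const_mul, ha,
      div_mul_cancel₀ _ (hm0.trans_le (hb k)).ne', sub_self]
  refine ⟨c' + (K + 1) * (2 * |Kc|), fun t ht ht1 => ?_⟩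
  have hs : 0 < t ^ 2 := by positivity
  obtain ⟨N, hN⟩ := gg_dec (V := V) (K := K + 1) hs n hC0 (by linarith) hρ
  have l1 : ∀ x, Tendsto (fun k => gg n (t ^ 2) (ν k) (Φ k) x) U
      (𝓝 (gg n (t ^ 2) (flat D c) Ψ x)) := fun x => by
    obtain ⟨M, -, hM⟩ := Tst.ker_le (V := V) (K := K + 1) hs n (by linarith) (norm_nonneg x)
    have c1 : Continuous fun y => kr n (t ^ 2) (x - y) := (continuous_kr n hs).comp (by fun_prop)
    refine L1 (fun k y => kr n (t ^ 2) (x - y) * (Φ k x - Φ k y))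
      (fun y => kr n (t ^ 2) (x - y) * (Ψ x - Ψ y)) M (p1.mono fun k hk =>
        ⟨c1.mul (continuous_const.sub hk.cont), fun y => hM _ ρ hk x y le_rfl⟩)
      (c1.mul (continuous_const.sub h.cont)) fun R ε hε => ?_
    have t2 := a0.const_mul ((t ^ 2)⁻¹ ^ (n + 1) * 2)
    rw [mul_zero] at t2
    refine (t2.eventually (ge_mem_nhds hε)).mono fun k hk y _ => le_trans ?_ hk
    simp only [hΦ]
    rw [show kr n (t ^ 2) (x - y) * (Ψ x - a k * max 0 (1 - ‖x‖) - (Ψ y - a k * max 0 (1 - ‖y‖))) -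
      kr n (t ^ 2) (x - y) * (Ψ x - Ψ y) = kr n (t ^ 2) (x - y) *
        (max 0 (1 - ‖y‖) - max 0 (1 - ‖x‖)) * a k by ring, abs_mul, abs_mul,
      abs_of_nonneg (kr_nonneg _ _ _)]
    refine mul_le_mul_of_nonneg_right (mul_le_mul (kr_le_eps hs _) ?_ (abs_nonneg _)
      (by positivity)) (abs_nonneg _)
    simpa using tst_bump.sub_le y x
  have l2 := hR.2.2 (fun k => gg n (t ^ 2) (ν k) (Φ k)) (gg n (t ^ 2) (flat D c) Ψ) N
    (p1.mono fun k hk => ⟨gg_cont hs (S.up k) hC0 hk, hN _ _ (S.up k) hk (p2 k)⟩)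
    (gg_cont hs S.upl hC0 h) (lu_of_lip (fun R => by
      obtain ⟨L, hL⟩ := gg_lip (V := V) (K := K + 1) hs n hC0 (by linarith) (abs_nonneg R)
      exact ⟨L, p1.mono fun k hk x y hx hy => hL _ _ ρ (S.up k) hk x y (hx.trans (le_abs_self R))
        (hy.trans (le_abs_self R))⟩) l1)
  have l3 := (S.δ_lim.const_mul (K + 1)).add_const ((c' + (K + 1) * (2 * |Kc|)) * t)
  rw [mul_zero, zero_add] at l3
  refine le_of_tendsto_of_tendsto l2.abs l3 ?_
  filter_upwards [p1, S.A_lim.eventually_ge_atTop (2 * (2 * ρ) + 2)] with k hk hA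
  have hδ := S.δ_pos k
  obtain ⟨ε, ⟨⟨e1, e2⟩, e3⟩, e4⟩ := ((((good_le (S.good k) hk (by linarith) (p2 k) S.norm_le
    (by linarith)).and (hKc (ν k) e (p k) (δ k) (η k) (A k) (S.up k) (S.low k) (S.zero k) S.norm_le
      hδ (S.δ_le k) (S.η_pos k) hA (S.good k) (S.exc k))).and
    (eventually_mem_nhdsWithin (a := (0 : ℝ)) (s := Set.Ioi 0))).and
    (mem_nhdsWithin_of_mem_nhds (ge_mem_nhds hs))).exists
  have e5 := hc' (ν k) (Φ k) e (p k) (δ k) ε t (2 * |Kc|) (S.up k) hk (p2 k) S.norm_le hδ e3 e4 ht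
    ht1 (S.exc k) (e2.trans (by
      have b1 := S.η_le k
      have b2 := S.η_pos k
      calc Kc * (δ k ^ 2 + η k) ≤ |Kc| * (δ k ^ 2 + η k) :=
            mul_le_mul_of_nonneg_right (le_abs_self _) (by positivity)
        _ ≤ |Kc| * (δ k ^ 2 + δ k ^ 2) := by gcongr
        _ = _ := by ring))
  have e6 : ∫ x, gg n (t ^ 2) (ν k) (Φ k) x * ((⟪x, e⟫ - p k) / δ k) ∂ν k =
      Tf n (t ^ 2) (ν k) (fun x => Φ k x • e) / δ k := by
    rw [tf_eq hs (S.up k) hC0 hk (p2 k) e (p k), ← integral_div]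
    simp only [mul_div_assoc]
  have e7 := e1.trans (mul_le_mul_of_nonneg_left (S.η_le k) (by linarith))
  have e8 := abs_sub_abs_le_abs_sub (Tf n (t ^ 2) (ν k) fun x => Φ k x • e)
    (Tf n ε (ν k) fun x => Φ k x • e)
  rw [abs_sub_comm] at e8
  rw [e6, abs_div, abs_of_pos hδ, div_le_iff₀ hδ]
  nlinarith

end LinBX

open LinBX in
theorem linB_pf (hP : LimP_stmt) (hC : Cacc_stmt) : LinB_stmt := by
  intro V _ _ _ _ _ n C hn h1 U ν D c e p δ A η S v₀ hR ψ hψ hc hm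
  obtain ⟨K, ρ, h, h2⟩ := tst_of_smooth hψ hc
  obtain ⟨Ψ, hΨ, e1⟩ := tst_ext h
  have hc0 := S.pos
  obtain ⟨b, hb⟩ := est hP hC hn h1 S hR hΨ (by
    rw [integral_flat D hc0.le]
    simp only [e1, hm, mul_zero])
  have e2 : ∀ (s : ℝ) (w : D), gg n s (flat D c) Ψ w = c * gg n s volume ψ w := fun s w => by
    rw [gg, integral_flat D hc0.le, gg]
    simp only [e1]
    rfl
  refine tendsto_nhds_unique (lim_L0 S.rank hn h hm h2 hR.1 hR.2.1) ?_
  have t1 : Tendsto (fun s : ℝ => 2 / c ^ 2 * (b * √s)) (𝓝[>] 0) (𝓝 0) := by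
    have t2 : Tendsto (fun s : ℝ => 2 / c ^ 2 * (b * √s)) (𝓝 0) (𝓝 (2 / c ^ 2 * (b * √0))) :=
      Continuous.tendsto (by fun_prop) 0
    rw [Real.sqrt_zero, mul_zero, mul_zero] at t2
    exact t2.mono_left nhdsWithin_le_nhds
  refine squeeze_zero_norm' ?_ t1
  filter_upwards [eventually_mem_nhdsWithin (a := (0 : ℝ)) (s := Set.Ioi 0),
    mem_nhdsWithin_of_mem_nhds (ge_mem_nhds (zero_lt_one' ℝ))] with s hs hs1
  have h3 := hb √s (Real.sqrt_pos.2 hs) (Real.sqrt_le_one.2 hs1)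
  rw [Real.sq_sqrt hs.le] at h3
  have e3 : ∫ w, v₀ w * (2 * gg n s volume ψ w) =
      2 / c ^ 2 * (c * ∫ w : D, gg n s (flat D c) Ψ w * v₀ w) := by
    rw [← integral_const_mul, ← integral_const_mul]
    refine integral_congr_ae (Eventually.of_forall fun w => ?_)
    simp only [e2]
    field_simp
  rw [e3, Real.norm_eq_abs, abs_mul, abs_of_pos (by positivity)]
  exact mul_le_mul_of_nonneg_left h3 (by positivity)

end Vale.Agent.P120
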