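import Vale.Agent.P120.Bas

/-! P120: strong convergence from the energy bound. -/

namespace Vale.Agent.P120

open MeasureTheory Metric Filter Module
open scoped Topology ENNReal NNReal RealInnerProductSpace

namespace LinCX

variable {V : Type} [NormedAddCommGroup V]

/-- A tent function. -/
noncomputable def ze (s : ℝ) (z : V) : ℝ := max 0 (1 - ‖z‖ / s)

theorem ze_nonneg (s : ℝ) (z : V) : 0 ≤ ze s z := le_max_left _ _

theorem ze_le {s : ℝ} (hs : 0 < s) (z : V) : ze s z ≤ 1 :=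
  max_le zero_le_one (sub_le_self _ (by positivity))

theorem ze_zero {s : ℝ} (hs : 0 < s) {z : V} (h : s ≤ ‖z‖) : ze s z = 0 :=
  max_eq_left (sub_nonpos.2 ((one_le_div hs).2 h))

theorem ze_half {s : ℝ} (hs : 0 < s) {z : V} (h : ‖z‖ ≤ s / 2) : 1 / 2 ≤ ze s z := by
  have : ‖z‖ / s ≤ 1 / 2 := by rw [div_le_iff₀ hs]; linarith
  exact le_max_of_le_right (by linarith)

theorem ze_lip {s : ℝ} (hs : 0 < s) (z z' : V) : |ze s z - ze s z'| ≤ ‖z - z'‖ / s := by
  unfold ze
  rw [max_comm 0, max_comm 0]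
  refine (abs_max_sub_max_le_abs _ _ _).trans ?_
  rw [sub_sub_sub_cancel_left, ← sub_div, abs_div, abs_of_pos hs, abs_sub_comm]
  exact div_le_div_of_nonneg_right (abs_norm_sub_norm_le _ _) hs.le

theorem ze_cont (s : ℝ) (x : V) : Continuous fun y => ze s (x - y) := by
  unfold ze
  fun_prop

variable [InnerProductSpace ℝ V] [FiniteDimensional ℝ V]

theorem ze_supp {s : ℝ} (hs : 0 < s) (x : V) : HasCompactSupport fun y => ze s (x - y) :=
  HasCompactSupport.intro (isCompact_closedBall x s) fun y hy => ze_zero hs (by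
    rw [mem_closedBall_iff_norm', not_le] at hy
    exact hy.le)

variable [MeasurableSpace V] [BorelSpace V] {n : ℕ} {C : ℝ} {ν : Measure V}

theorem intOn (h : Up n C ν) {F : V → ℝ} (hF : Continuous F) (x : V) (R : ℝ) :
    IntegrableOn F (ball x R) ν := by
  have := h.locFin
  exact (hF.continuousOn.integrableOn_compact (isCompact_closedBall x R)).mono_set
    ball_subset_closedBall

theorem intg (h : Up n C ν) {F : V → ℝ} (hc : Continuous F) (hs : HasCompactSupport F) :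
    Integrable F ν := by
  have := h.locFin
  exact hc.integrable_of_hasCompactSupport hs

theorem intP (h : Up n C ν) {F : V × V → ℝ} (hF : Continuous F) (R : ℝ) :
    Integrable F ((ν.restrict (ball 0 R)).prod (ν.restrict (ball 0 R))) := by
  have := h.locFin
  rw [Measure.prod_restrict]
  exact (hF.continuousOn.integrableOn_compact
    ((isCompact_closedBall 0 R).prod (isCompact_closedBall 0 R))).mono_set
    (Set.prod_mono ball_subset_closedBall ball_subset_closedBall)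

theorem intG (h : Up n C ν) {F : V × V → ℝ} (hF : Continuous F) (R : ℝ) :
    IntegrableOn (fun x => ∫ y in ball 0 R, F (x, y) ∂ν) (ball 0 R) ν := by
  have := h.locFin
  exact (intP h hF R).integral_prod_left

omit [InnerProductSpace ℝ V] [FiniteDimensional ℝ V] [MeasurableSpace V] [BorelSpace V] in
theorem sub_ball {ρ s : ℝ} (hs : s ≤ 1) {x : V} (hx : x ∈ ball (0 : V) ρ) :
    ball x s ⊆ ball 0 (ρ + 1) :=
  ball_subset_ball' (by linarith [mem_ball.1 hx])

theorem intE (h : Up n C ν) {F : V × V → ℝ} (hF : Continuous F) (ρ : ℝ) {s : ℝ} (hs : s ≤ 1) :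
    IntegrableOn (fun x => ∫ y in ball x s, F (x, y) ∂ν) (ball 0 ρ) ν := by
  have := h.locFin
  have hS : MeasurableSet {p : V × V | dist p.2 p.1 < s} :=
    (isOpen_lt (by fun_prop) continuous_const).measurableSet
  have h1 : IntegrableOn _ (ball 0 (ρ + 1)) ν := ((intP h hF (ρ + 1)).indicator hS).integral_prod_left
  refine (h1.mono_set (ball_subset_ball (by linarith))).congr_fun (fun x hx => ?_)
    measurableSet_ball
  have h2 : (fun y => Set.indicator {p : V × V | dist p.2 p.1 < s} F (x, y))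
      = (ball x s).indicator fun y => F (x, y) := by
    ext y
    rfl
  simp only
  rw [h2, setIntegral_indicator measurableSet_ball, Set.inter_eq_right.2 (sub_ball hs hx)]

theorem const_le (h : Up n C ν) (hC : 0 ≤ C) (x : V) {R a : ℝ} (hR : 0 < R) (ha : 0 ≤ a) :
    ∫ _ in ball x R, a ∂ν ≤ C * R ^ n * a := by
  rw [setIntegral_const, smul_eq_mul]
  exact mul_le_mul_of_nonneg_right (h.real_ball hC x hR) ha

theorem lip (h : Up n C ν) (hC : 0 ≤ C) {f : V → ℝ} (hf : Continuous f) {s R N : ℝ} (hs : 0 < s)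
    (hs1 : s ≤ 1) (hN : ∫ y in ball 0 (|R| + 1), f y ^ 2 ∂ν ≤ N) {x x' : V} (hx : ‖x‖ ≤ R)
    (hx' : ‖x'‖ ≤ R) : |∫ y, ze s (x - y) * f y ∂ν - ∫ y, ze s (x' - y) * f y ∂ν|
      ≤ (C * (|R| + 1) ^ n + N) / s * ‖x - x'‖ := by
  have i1 : ∀ x : V, Integrable (fun y => ze s (x - y) * f y) ν := fun x =>
    intg h ((ze_cont s x).mul hf) (ze_supp hs x).mul_right
  have h0 : ∀ x : V, ‖x‖ ≤ R → ∀ y, y ∉ ball (0 : V) (|R| + 1) → ze s (x - y) = 0 :=
    fun x hx y hy => ze_zero hs (by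
      rw [mem_ball_zero_iff, not_lt] at hy
      have := norm_sub_norm_le y x
      rw [norm_sub_rev] at this
      linarith [le_abs_self R])
  have i2 : IntegrableOn (fun y => f y ^ 2) (ball 0 (|R| + 1)) ν := intOn h (hf.pow 2) _ _
  have i3 : IntegrableOn (fun _ => (1 : ℝ)) (ball 0 (|R| + 1)) ν := intOn h continuous_const _ _
  have h1 : ∫ y in ball 0 (|R| + 1), (1 + f y ^ 2) ∂ν ≤ C * (|R| + 1) ^ n + N := by
    rw [integral_add i3 i2]
    have := const_le h hC 0 (by positivity : 0 < |R| + 1) zero_le_one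
    linarith
  rw [← integral_sub (i1 x) (i1 x'), ← setIntegral_eq_integral_of_forall_compl_eq_zero
    (s := ball 0 (|R| + 1)) fun y hy => by rw [h0 x hx y hy, h0 x' hx' y hy, sub_self],
    ← Real.norm_eq_abs]
  refine le_trans (norm_integral_le_of_norm_le ((i3.add i2).const_mul (‖x - x'‖ / s))
    (Eventually.of_forall fun y => ?_)) ?_
  · rw [← sub_mul, Real.norm_eq_abs, abs_mul]
    have a1 := ze_lip hs (x - y) (x' - y)
    rw [sub_sub_sub_cancel_right] at a1
    refine mul_le_mul a1 ?_ (abs_nonneg _) (by positivity)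
    simp only [Pi.add_apply]
    nlinarith [sq_abs (f y), sq_nonneg (|f y| - 1)]
  · simp only [Pi.add_apply]
    rw [integral_const_mul]
    refine (mul_le_mul_of_nonneg_left h1 (by positivity)).trans (le_of_eq ?_)
    ring

theorem point (h : Up n C ν) (hl : Low n C 1 ν) {f : V → ℝ} (hf : Continuous f) {s τ : ℝ}
    (hs : 0 < s) (hs1 : s ≤ 1) {x : V} (hx : x ∈ ν.support)
    (hτ : |∫ y, ze s (x - y) * f y ∂ν| ≤ τ) :
    (s / 2) ^ n / C / 2 * f x ^ 2 ≤ ∫ y in ball x s, (f x - f y) ^ 2 ∂ν + τ * (1 + f x ^ 2) := by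
  have h0 : ∀ y, y ∉ ball x s → ze s (x - y) = 0 := fun y hy => ze_zero hs (by
    rwa [mem_ball_iff_norm', not_lt] at hy)
  have c1 := ze_cont s x
  have h1 : (s / 2) ^ n / C / 2 ≤ ∫ y in ball x s, ze s (x - y) ∂ν := by
    have a1 := hl.real_ball h hx (half_pos hs) (by linarith)
    have a2 : ∫ _ in ball x (s / 2), (1 / 2 : ℝ) ∂ν ≤ ∫ y in ball x (s / 2), ze s (x - y) ∂ν :=
      setIntegral_mono_on (intOn h continuous_const _ _) (intOn h c1 _ _) measurableSet_ball
        fun y hy => ze_half hs (mem_ball_iff_norm'.1 hy).le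
    have a3 : ∫ y in ball x (s / 2), ze s (x - y) ∂ν ≤ ∫ y in ball x s, ze s (x - y) ∂ν :=
      setIntegral_mono_set (intOn h c1 _ _) (Eventually.of_forall fun y => ze_nonneg _ _)
        (ball_subset_ball (by linarith)).eventuallyLE
    rw [setIntegral_const, smul_eq_mul] at a2
    linarith
  have i1 : IntegrableOn (fun y => (f x - f y) ^ 2) (ball x s) ν := intOn h (by fun_prop) _ _
  have i2 : IntegrableOn (fun y => 2 * f x * (ze s (x - y) * f y)) (ball x s) ν :=
    intOn h (by fun_prop) _ _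
  have h2 : ∫ y in ball x s, ze s (x - y) * f x ^ 2 ∂ν
      ≤ ∫ y in ball x s, ((f x - f y) ^ 2 + 2 * f x * (ze s (x - y) * f y)) ∂ν :=
    setIntegral_mono_on (intOn h (by fun_prop) _ _) (i1.add i2) measurableSet_ball fun y _ => by
      have a1 := mul_nonneg (sub_nonneg.2 (ze_le hs (x - y))) (sq_nonneg (f x - f y))
      have a2 := mul_nonneg (ze_nonneg s (x - y)) (sq_nonneg (f y))
      linarith
  rw [integral_add i1 i2, integral_const_mul, integral_mul_const,
    setIntegral_eq_integral_of_forall_compl_eq_zero (f := fun y => ze s (x - y) * f y)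
      fun y hy => by rw [h0 y hy, zero_mul]] at h2
  have h3 := mul_le_mul_of_nonneg_right h1 (sq_nonneg (f x))
  have h4 : 2 * f x * ∫ y, ze s (x - y) * f y ∂ν ≤ (1 + f x ^ 2) * τ := by
    refine (le_abs_self _).trans ?_
    rw [abs_mul]
    refine mul_le_mul ?_ hτ (abs_nonneg _) (by positivity)
    rw [abs_le]
    constructor <;> nlinarith [sq_nonneg (f x - 1), sq_nonneg (f x + 1)]
  linarith

end LinCX

open LinCX in
theorem linC_pf : LinC_stmt := by
  intro V _ _ _ _ _ n C hn hC U ν f hν hA hB hE ρ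
  have hC0 : 0 < C := by linarith
  rcases le_or_gt ρ 0 with hρ | hρ
  · simp only [ball_eq_empty.2 hρ, Measure.restrict_empty, integral_zero_measure]
    exact tendsto_const_nhds
  obtain ⟨N₁, hN₁⟩ := hB ρ
  obtain ⟨N₂, hN₂⟩ := hE ρ
  refine Metric.tendsto_nhds.2 fun ε hε => ?_
  obtain ⟨s, hs, hs1, hs2⟩ : ∃ s : ℝ, 0 < s ∧ s ≤ 1 ∧ 2 ^ (n + 1) * C * |N₂| * s ≤ ε / 4 := by
    have hp : 0 < 2 ^ (n + 1) * C * |N₂| + 1 := by positivity
    refine ⟨min 1 (ε / 4 / (2 ^ (n + 1) * C * |N₂| + 1)), by positivity, min_le_left _ _, ?_⟩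
    have a1 := (le_div_iff₀ hp).1 (min_le_right 1 (ε / 4 / (2 ^ (n + 1) * C * |N₂| + 1)))
    have a2 : 0 < min 1 (ε / 4 / (2 ^ (n + 1) * C * |N₂| + 1)) := by positivity
    linarith
  obtain ⟨m, hm⟩ : ∃ m, m = (s / 2) ^ n / C / 2 := ⟨_, rfl⟩
  have hm0 : 0 < m := by rw [hm]; positivity
  have hLU : LU U (fun k x => ∫ y, ze s (x - y) * f k y ∂ν k) fun _ => 0 := by
    refine lu_of_lip (fun R => ?_) fun x => hA _ (ze_cont s x) (ze_supp hs x)
    obtain ⟨N, hN⟩ := hB (|R| + 1)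
    exact ⟨_, Eventually.of_forall fun k x x' hx hx' =>
      lip (hν k).1 hC0.le (hν k).2.2 hs hs1 (hN k) hx hx'⟩
  have hp : 0 < C * ρ ^ n + |N₁| := by positivity
  obtain ⟨τ, hτ⟩ : ∃ τ, τ = m * (ε / 4) / (C * ρ ^ n + |N₁|) := ⟨_, rfl⟩
  have hτ0 : 0 < τ := by rw [hτ]; positivity
  filter_upwards [hLU ρ τ hτ0, hN₂ s hs hs1] with k h1 h2
  obtain ⟨hu, hl, hf⟩ := hν k
  have i1 : IntegrableOn (fun x => ∫ y in ball x s, (f k x - f k y) ^ 2 ∂ν k) (ball 0 ρ) (ν k) :=
    intE hu (F := fun p => (f k p.1 - f k p.2) ^ 2) (by fun_prop) ρ hs1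
  have i2 : IntegrableOn (fun x => f k x ^ 2) (ball 0 ρ) (ν k) := intOn hu (hf.pow 2) _ _
  have i3 : IntegrableOn (fun _ => (1 : ℝ)) (ball 0 ρ) (ν k) := intOn hu continuous_const _ _
  have i4 : IntegrableOn (fun x => τ * (1 + f k x ^ 2)) (ball 0 ρ) (ν k) :=
    intOn hu (by fun_prop) _ _
  have h3 : ∫ x in ball 0 ρ, m * f k x ^ 2 ∂ν k ≤ ∫ x in ball 0 ρ,
      (∫ y in ball x s, (f k x - f k y) ^ 2 ∂ν k + τ * (1 + f k x ^ 2)) ∂ν k := by
    refine setIntegral_mono_on_ae (i2.const_mul m) (i1.add i4) measurableSet_ball ?_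
    filter_upwards [(ν k).support_mem_ae] with x hx hb
    rw [hm]
    refine point hu hl hf hs hs1 hx ?_
    simpa only [sub_zero] using h1 x (mem_ball_zero_iff.1 hb).le
  rw [integral_add i1 i4, integral_const_mul, integral_const_mul, integral_add i3 i2] at h3
  have h4 := const_le hu hC0.le 0 hρ zero_le_one
  have h5 : τ * (∫ _ in ball 0 ρ, (1 : ℝ) ∂ν k + ∫ x in ball 0 ρ, f k x ^ 2 ∂ν k)
      ≤ m * (ε / 4) := by
    refine (mul_le_mul_of_nonneg_left (c := C * ρ ^ n + |N₁|)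
      (by linarith [hN₁ k, le_abs_self N₁]) hτ0.le).trans (le_of_eq ?_)
    rw [hτ, div_mul_cancel₀ _ hp.ne']
  have h6 : N₂ * s ^ (n + 1) ≤ m * (ε / 4) := by
    refine (mul_le_mul_of_nonneg_right (le_abs_self N₂) (by positivity)).trans
      (le_trans (le_of_eq ?_) (mul_le_mul_of_nonneg_left hs2 hm0.le))
    rw [hm, div_pow]
    field_simp
    ring
  have h7 : ∫ x in ball 0 ρ, f k x ^ 2 ∂ν k ≤ ε / 2 :=
    le_of_mul_le_mul_left (by linarith) hm0
  rw [Real.dist_eq, sub_zero, abs_of_nonneg (integral_nonneg fun x => sq_nonneg _)]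
  linarith

end Vale.Agent.P120
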