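import Vale.Agent.P120.LiouB

/-! P120, Liou: Liouville theorem for the half Laplacian. -/

namespace Vale.Agent.P120.LiouX

open MeasureTheory Filter Module Set Real
open scoped Topology RealInnerProductSpace

variable {W : Type} [NormedAddCommGroup W] [InnerProductSpace ℝ W] [FiniteDimensional ℝ W]
  [MeasurableSpace W] [BorelSpace W] {n : ℕ} {v : W → ℝ}

theorem int_v (hm : Measurable v) (hv : Integrable fun w => |v w| * rho n w) {f : W → ℝ}
    (hf : Measurable f) {C : ℝ} (h : ∀ x, |f x| ≤ C * rho n x) : Integrable fun w => v w * f w :=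
  (hv.const_mul C).mono' (hm.mul hf).aestronglyMeasurable (ae_of_all _ fun w => by
    rw [Real.norm_eq_abs, abs_mul, mul_left_comm]
    exact mul_le_mul_of_nonneg_left (h w) (abs_nonneg _))

theorem abs_int_v (hv : Integrable fun w => |v w| * rho n w) {f : W → ℝ}
    {C : ℝ} (h : ∀ x, |f x| ≤ C * rho n x) : |∫ w, v w * f w| ≤ C * ∫ w, |v w| * rho n w := by
  rw [← integral_const_mul]
  refine (abs_integral_le_integral_abs).trans (integral_mono_of_nonneg
    (ae_of_all _ fun z => abs_nonneg _) (hv.const_mul C) (ae_of_all _ fun w => ?_))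
  simp only
  rw [abs_mul, mul_left_comm]
  exact mul_le_mul_of_nonneg_left (h w) (abs_nonneg _)

theorem swap_v (hm : Measurable v) (hv : Integrable fun w => |v w| * rho n w) {g f : W → ℝ}
    (hg : Measurable g) (hf : Measurable f) (ig : Integrable fun y => |g y| * (1 + ‖y‖) ^ (n + 2))
    {C : ℝ} (hC : 0 ≤ C) (h : ∀ x, |f x| ≤ C * rho n x) :
    ∫ y, g y * ∫ w, v w * f (w - y) = ∫ w, v w * ∫ y, g y * f (w - y) := by
  simp only [← integral_const_mul]
  rw [integral_integral_swap (int_prod (by fun_prop) ig (hv.const_mul C) fun y w => ?_)]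
  · simp only [mul_left_comm]
  · rw [abs_mul, abs_mul]
    calc _ ≤ |g y| * (|v w| * (C * ((1 + ‖y‖) ^ (n + 2) * rho n w))) := by
          gcongr
          exact (h _).trans (mul_le_mul_of_nonneg_left (rho_sub n w y) hC)
      _ = _ := by ring

theorem key (hn : finrank ℝ W = n) (h1 : 1 ≤ n) (hm : Measurable v)
    (hv : Integrable fun w => |v w| * rho n w)
    (h : ∀ ψ : W → ℝ, Tst ψ → ∫ w, ψ w = 0 → ∫ w, v w * L0 n ψ w = 0) {χ : W → ℝ} (hχ : Tst χ)
    (a : W) : ∫ w, v w * dd χ w a = 0 := by
  obtain ⟨C, hC, hD⟩ := D_le hn hχ a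
  have hφ0 := hχ.integral_dd a
  have hφ := hχ.dd a
  obtain ⟨φ, hφe⟩ : ∃ φ : W → ℝ, φ = fun w => dd χ w a := ⟨_, rfl⟩
  have hφe' : ∀ w, dd χ w a = φ w := fun w => by rw [hφe]
  rw [← hφe] at hD hφ
  simp only [hφe'] at hD hφ0 ⊢
  clear hφe hφe'
  obtain ⟨C3, hC3, h3⟩ := hφ.le_rho n
  have φm : Measurable φ := hφ.cont.measurable
  have Pm : ∀ s, Measurable (P n s φ) := fun s =>
    (measurable_P (n := n) φm).comp (f := fun x : W => (s, x)) (by fun_prop)
  have hD1 : ∀ s, 0 < s → ∀ x, |φ x - P n s φ x| ≤ C * rho n x := fun s hs x =>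
    (hD s hs x).trans (mul_le_mul_of_nonneg_right
      (mul_le_of_le_one_right hC (min_le_right _ _)) (rho_pos n x).le)
  have hP : ∀ s, 0 < s → ∀ x, |P n s φ x| ≤ (C3 + C) * rho n x := fun s hs x => by
    have a1 := abs_le.1 (h3 x)
    have a2 := abs_le.1 (hD1 s hs x)
    rw [abs_le]
    constructor <;> linarith
  set F : ℝ → ℝ := fun t => ∫ w, v w * P n t φ w with hF
  set K : ℝ → W → ℝ := fun s x => (Ioi (0 : ℝ)).indicator (fun s => s ^ (-(3 / 2 : ℝ))) s *
    (φ x - P n s φ x) with hK
  have Km : Measurable (Function.uncurry K) :=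
    ((Measurable.indicator (by fun_prop) measurableSet_Ioi).comp measurable_fst).mul
      ((φm.comp measurable_snd).sub (measurable_P φm))
  have Kpos : ∀ s, 0 < s → ∀ x, K s x = s ^ (-(3 / 2 : ℝ)) * (φ x - P n s φ x) := fun s hs x => by
    simp only [hK, indicator_of_mem (mem_Ioi.2 hs)]
  have be0 : ∀ s, 0 ≤ C * |be s| := fun s => by positivity
  have Kle : ∀ s x, |K s x| ≤ C * |be s| * rho n x := fun s x => by
    by_cases hs : 0 < s
    · have hr : 0 ≤ s ^ (-(3 / 2 : ℝ)) := by positivity
      rw [Kpos s hs, abs_mul, abs_of_nonneg hr, be,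
        abs_of_nonneg (mul_nonneg hr (le_min hs.le zero_le_one))]
      refine (mul_le_mul_of_nonneg_left (hD s hs x) hr).trans (le_of_eq (by ring))
    · simp only [hK, indicator_of_notMem (fun h => hs (mem_Ioi.1 h)), zero_mul, abs_zero]
      exact mul_nonneg (be0 s) (rho_pos n x).le
  have ibe : Integrable (fun s => C * |be s|) (volume.restrict (Ioi 0)) :=
    integrable_be.abs.const_mul C
  set J : W → ℝ := fun x => ∫ s in Ioi (0 : ℝ), K s x with hJ
  have Jm : Measurable J := Km.stronglyMeasurable.integral_prod_left.measurable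
  have Jle : ∀ x, |J x| ≤ (∫ s in Ioi (0 : ℝ), C * |be s|) * rho n x := fun x => by
    rw [← integral_mul_const]
    exact (abs_integral_le_integral_abs).trans (integral_mono_of_nonneg
      (ae_of_all _ fun z => abs_nonneg _) (ibe.mul_const _) (ae_of_all _ fun s => Kle s x))
  have J0 : ∀ y, ∫ w, v w * J (w - y) = 0 := fun y => by
    have e : ∀ w, J (w - y) = (√π)⁻¹ ^ n * Gamma ((n + 1) / 2) / 2 *
        L0 n (fun w => φ (w - y)) w := fun w => by
      have e1 : L0 n (fun w => φ (w - y)) w = L0 n φ (w - y) := by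
        simp only [L0, sub_add_eq_add_sub, sub_right_comm w y]
      rw [e1, ← L0_eq hn h1 hφ]
      exact setIntegral_congr_fun measurableSet_Ioi fun s hs => Kpos s hs _
    simp only [e, mul_left_comm (v _)]
    rw [integral_const_mul, h _ (hφ.sub y) (by rw [integral_sub_right_eq_self, hφ0]), mul_zero]
  have PK : ∀ t s, 0 < t → 0 < s → ∀ w, P n t (K s) w =
      s ^ (-(3 / 2 : ℝ)) * (P n t φ w - P n (t + s) φ w) := fun t s ht hs w => by
    have i1 := int_G_mul hn ht (f := fun z => φ (w - z)) (by fun_prop)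
      fun z => (h3 _).trans (mul_le_of_le_one_right hC3 (rho_le_one n _))
    have i2 := int_G_mul hn ht (f := fun z => P n s φ (w - z)) ((Pm s).comp (by fun_prop))
      fun z => (hP s hs _).trans (mul_le_of_le_one_right (by positivity) (rho_le_one n _))
    rw [← P_P hn hφ ht hs, P, P, P, ← integral_sub i1 i2, ← integral_const_mul]
    refine integral_congr_ae (ae_of_all _ fun z => ?_)
    simp only [Kpos s hs]
    ring
  have FK : ∀ t s, 0 < t → 0 < s → ∫ w, v w * P n t (K s) w =
      s ^ (-(3 / 2 : ℝ)) * (F t - F (t + s)) := fun t s ht hs => by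
    simp only [PK t s ht hs, hF, mul_left_comm (v _), mul_sub (v _)]
    rw [integral_const_mul, integral_sub (int_v hm hv (Pm t) (hP t ht))
      (int_v hm hv (Pm _) (hP _ (by positivity)))]
  have main : ∀ t, 0 < t →
      IntegrableOn (fun s => s ^ (-(3 / 2 : ℝ)) * (F t - F (t + s))) (Ioi 0) ∧
      ∫ s in Ioi 0, s ^ (-(3 / 2 : ℝ)) * (F t - F (t + s)) = 0 := fun t ht => by
    obtain ⟨M, hM, hMP⟩ := P_rho hn ht
    obtain ⟨M', -, hM'⟩ := mom_int hn (n + 2) ht
    have hG := (continuous_G (W := W) n t).measurable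
    have s1 := swap_v hm hv hG Jm (by
      simpa only [abs_of_nonneg (G_nonneg n t _)] using (hM' t ht le_rfl).1)
      (integral_nonneg be0) Jle
    simp only [J0, mul_zero, integral_zero] at s1
    have s2 : ∀ w, ∫ y, G n t y * J (w - y) = ∫ s in Ioi (0 : ℝ), P n t (K s) w := fun w => by
      simp only [hJ, ← integral_const_mul]
      refine integral_integral_swap (int_prod ?_ (integrable_G hn ht) ibe fun y s => ?_)
      · exact (hG.comp measurable_fst).mul
          (Km.comp (f := fun p : W × ℝ => (p.2, w - p.1)) (by fun_prop))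
      · rw [abs_mul, abs_of_nonneg (G_nonneg _ _ _)]
        exact mul_le_mul_of_nonneg_left ((Kle _ _).trans
          (mul_le_of_le_one_right (be0 s) (rho_le_one n _))) (G_nonneg _ _ _)
    have PKm : Measurable fun p : W × ℝ => P n t (K p.2) p.1 := by
      have h1 : Measurable fun q : (W × ℝ) × W => G n t q.2 * K q.1.2 (q.1.1 - q.2) :=
        (hG.comp measurable_snd).mul
          (Km.comp (f := fun q : (W × ℝ) × W => (q.1.2, q.1.1 - q.2)) (by fun_prop))
      exact (h1.stronglyMeasurable.integral_prod_right' (ν := volume)).measurable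
    have i3 := int_prod (f := fun w s => v w * P n t (K s) w)
      ((hm.comp measurable_fst).mul PKm) (hv.const_mul M) ibe fun w s => by
        rw [abs_mul]
        refine (mul_le_mul_of_nonneg_left (hMP t ht le_rfl _ _ (be0 s) (Kle s) w)
          (abs_nonneg _)).trans (le_of_eq (by ring))
    have s3 := integral_integral_swap i3
    simp only [s2, ← integral_const_mul (v _)] at s1
    refine ⟨?_, ?_⟩
    · exact IntegrableOn.congr_fun i3.integral_prod_right (fun s hs => FK t s ht hs)
        measurableSet_Ioi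
    · refine Eq.trans ?_ (s1.trans s3).symm
      exact setIntegral_congr_fun measurableSet_Ioi fun s hs => (FK t s ht hs).symm
  have hL : ∀ T, 0 < T → ∃ C, ∀ t s, 0 < t → t ≤ T → 0 < s → |F t - F (t + s)| ≤ C * s := by
    intro T hT
    obtain ⟨M, hM, hMP⟩ := P_rho hn hT
    refine ⟨M * C * ∫ w, |v w| * rho n w, fun t s ht htT hs => ?_⟩
    have hr : 0 < s ^ (-(3 / 2 : ℝ)) := by positivity
    have a1 := abs_int_v hv (hMP t ht htT _ _ (be0 s) (Kle s))
    rw [FK t s ht hs, abs_mul, abs_of_pos hr, be,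
      abs_of_nonneg (mul_nonneg hr.le (le_min hs.le zero_le_one))] at a1
    have hI : 0 ≤ ∫ w, |v w| * rho n w :=
      integral_nonneg fun w => mul_nonneg (abs_nonneg _) (rho_pos n w).le
    refine le_of_mul_le_mul_left (a1.trans ?_) hr
    calc _ ≤ M * (C * (s ^ (-(3 / 2 : ℝ)) * s)) * ∫ w, |v w| * rho n w := by
          gcongr
          exact min_le_left _ _
      _ = _ := by ring
  have h0 : Tendsto F atTop (𝓝 0) := by
    have := tendsto_integral_filter_of_dominated_convergence (μ := volume) (l := atTop)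
      (F := fun t w => v w * P n t φ w) (f := fun _ => 0)
      (fun w => (C3 + C) * (|v w| * rho n w))
      (Eventually.of_forall fun t => (hm.mul (Pm t)).aestronglyMeasurable)
      (by
        filter_upwards [eventually_gt_atTop 0] with t ht
        refine ae_of_all _ fun w => ?_
        rw [Real.norm_eq_abs, abs_mul, mul_left_comm]
        exact mul_le_mul_of_nonneg_left (hP t ht w) (abs_nonneg _))
      (hv.const_mul _) (ae_of_all _ fun w => by
        have h2 : Tendsto (fun t => P n t φ w) atTop (𝓝 0) := by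
          refine squeeze_zero_norm' ?_ (by simpa using (tendsto_cs h1).mul_const (∫ y, |φ y|))
          filter_upwards [eventually_gt_atTop 0] with t ht
          exact P_le n hφ ht w
        simpa using h2.const_mul (v w))
    simpa using this
  have F0 : ∀ t, 0 < t → F t = 0 := fun t ht => by
    refine le_antisymm (max_principle hL h0 (fun t ht => (main t ht).1)
      (fun t ht => (main t ht).2) ht) ?_
    have e : ∀ t s : ℝ, s ^ (-(3 / 2 : ℝ)) * (-F t - -F (t + s)) =
        -(s ^ (-(3 / 2 : ℝ)) * (F t - F (t + s))) := fun t s => by ring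
    have := max_principle (F := fun t => -F t) (fun T hT => by
        obtain ⟨C, hC⟩ := hL T hT
        refine ⟨C, fun t s a b c => ?_⟩
        rw [neg_sub_neg, abs_sub_comm]
        exact hC t s a b c) (by simpa using h0.neg)
      (fun t ht => by simp only [e]; exact (main t ht).1.neg)
      (fun t ht => by simp only [e]; rw [integral_neg, (main t ht).2, neg_zero]) ht
    linarith
  have fin : ∀ s, 0 < s → |∫ w, v w * φ w| ≤ C * (∫ w, |v w| * rho n w) * s := fun s hs => by
    have a1 := abs_int_v hv (f := fun x => φ x - P n s φ x) (C := C * s) fun x =>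
      (hD s hs x).trans (mul_le_mul_of_nonneg_right
        (mul_le_mul_of_nonneg_left (min_le_left _ _) hC) (rho_pos n x).le)
    simp only [mul_sub] at a1
    rw [integral_sub (int_v hm hv φm h3) (int_v hm hv (Pm s) (hP s hs))] at a1
    have a2 : ∫ w, v w * P n s φ w = 0 := F0 s hs
    rw [a2, sub_zero] at a1
    linarith
  have lim : Tendsto (fun s : ℝ => C * (∫ w, |v w| * rho n w) * s) (𝓝[>] 0) (𝓝 0) := by
    have : Continuous fun s : ℝ => C * (∫ w, |v w| * rho n w) * s := by fun_prop
    simpa using (this.tendsto 0).mono_left nhdsWithin_le_nhds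
  exact abs_nonpos_iff.1 (ge_of_tendsto lim (eventually_nhdsWithin_of_forall fin))

omit [MeasurableSpace W] [BorelSpace W] [FiniteDimensional ℝ W] in
theorem jensen {f : W → ℝ} (hf : Continuous f) (h : ∀ y a, 2 * f y = f (y + a) + f (y - a)) :
    ∃ (b : ℝ) (B : W →L[ℝ] ℝ), f = fun w => b + B w := by
  have hadd : ∀ p q, f (p + q) - f 0 = (f p - f 0) + (f q - f 0) := fun p q => by
    have a1 := h ((1 / 2 : ℝ) • (p + q)) ((1 / 2 : ℝ) • (p + q))
    have a2 := h ((1 / 2 : ℝ) • (p + q)) ((1 / 2 : ℝ) • (p - q))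
    rw [show (1 / 2 : ℝ) • (p + q) + (1 / 2 : ℝ) • (p + q) = p + q by module, sub_self] at a1
    rw [show (1 / 2 : ℝ) • (p + q) + (1 / 2 : ℝ) • (p - q) = p by module,
      show (1 / 2 : ℝ) • (p + q) - (1 / 2 : ℝ) • (p - q) = q by module] at a2
    linarith
  refine ⟨f 0, (AddMonoidHom.mk' (fun w => f w - f 0) hadd).toRealLinearMap
    (hf.sub continuous_const), funext fun w => ?_⟩
  change f w = f 0 + (f w - f 0)
  ring

theorem affine (hm : Measurable v) (hv : Integrable fun w => |v w| * rho n w)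
    (h : ∀ χ : W → ℝ, Tst χ → ∀ a, ∫ w, v w * dd χ w a = 0) :
    ∃ (b : ℝ) (B : W →L[ℝ] ℝ), v =ᵐ[volume] fun w => b + B w := by
  set m : (W → ℝ) → W → ℝ := fun χ y => ∫ w, v w * χ (w - y) with hmd
  have iv : ∀ χ : W → ℝ, Tst χ → Integrable fun w => v w * χ w := fun χ hχ => by
    obtain ⟨C, -, hC⟩ := hχ.le_rho n
    exact int_v hm hv hχ.cont.measurable hC
  have mdd : ∀ χ : W → ℝ, Tst χ → ∀ y a, 2 * m χ y = m χ (y + a) + m χ (y - a) := by
    intro χ hχ y a
    have a1 := h _ (hχ.sub y) a
    simp only [dd, mul_sub, mul_left_comm _ (2 : ℝ)] at a1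
    rw [int3 (iv _ (hχ.sub y)) (iv _ ((hχ.sub y).add a)) (iv _ ((hχ.sub y).sub a))] at a1
    simp only [hmd, ← sub_sub, ← sub_add, sub_add_eq_add_sub, sub_right_comm _ y a]
    linarith
  have mc : ∀ χ : W → ℝ, Tst χ → Continuous (m χ) := fun χ hχ => by
    obtain ⟨C, hC0, hC⟩ := hχ.le_rho n
    have hc := hχ.cont
    refine continuous_iff_continuousAt.2 fun y0 => continuousAt_of_dominated
      (bound := fun w => C * (2 + ‖y0‖) ^ (n + 2) * (|v w| * rho n w))
      (Eventually.of_forall fun y => (iv _ (hχ.sub y)).aestronglyMeasurable) ?_ (hv.const_mul _)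
      (ae_of_all _ fun w => by fun_prop)
    filter_upwards [Metric.ball_mem_nhds y0 zero_lt_one] with y hy
    refine ae_of_all _ fun w => ?_
    have a1 : ‖y‖ ≤ ‖y - y0‖ + ‖y0‖ := by simpa using norm_add_le (y - y0) y0
    have a2 : ‖y - y0‖ < 1 := by simpa [dist_eq_norm] using hy
    have := (rho_pos n w).le
    rw [Real.norm_eq_abs, abs_mul]
    calc _ ≤ |v w| * (C * ((2 + ‖y0‖) ^ (n + 2) * rho n w)) := by
          gcongr
          refine (hC _).trans (mul_le_mul_of_nonneg_left ((rho_sub n w y).trans ?_) hC0)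
          exact mul_le_mul_of_nonneg_right (pow_le_pow_left₀ (by positivity) (by linarith) _) this
      _ = _ := by ring
  have sw : ∀ g f : W → ℝ, Tst g → Tst f →
      ∫ y, g y * m f y = ∫ w, v w * ∫ y, g y * f (w - y) := fun g f hg hf => by
    obtain ⟨C, hC0, hC⟩ := hf.le_rho n
    have hc := hg.cont
    exact swap_v hm hv hc.measurable hf.cont.measurable
      (Continuous.integrable_of_hasCompactSupport (by fun_prop) hg.cp.abs.mul_right) hC0 hC
  let b0 : ContDiffBump (0 : W) := ⟨1, 2, one_pos, one_lt_two⟩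
  have h0 : Tst (b0.normed volume) := ⟨b0.contDiff_normed, b0.hasCompactSupport_normed⟩
  obtain ⟨b, B, hB⟩ := jensen (mc _ h0) (mdd _ h0)
  refine ⟨b, B, ?_⟩
  rw [← hB]
  have hloc : LocallyIntegrable v := by
    refine (locallyIntegrable_iff).2 fun K hK => ?_
    have a1 : IntegrableOn (fun w => |v w| * rho n w * (1 + ‖w‖) ^ (n + 2)) K :=
      hv.integrableOn.mul_continuousOn (by fun_prop) hK
    refine a1.mono' hm.aestronglyMeasurable (ae_of_all _ fun w => ?_)
    rw [mul_assoc, mul_comm (rho n w)]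
    exact le_mul_of_one_le_right (abs_nonneg _) (one_le_mul_rho n le_rfl)
  refine ae_eq_of_integral_contDiff_smul_eq hloc (mc _ h0).locallyIntegrable fun g g1 g2 => ?_
  have hg : Tst g := ⟨g1, g2⟩
  simp only [smul_eq_mul]
  have e1 : ∀ w, ∫ y, g y * b0.normed volume (w - y) = ∫ y, b0.normed volume y * g (w - y) :=
    fun w => by
      rw [← integral_sub_left_eq_self _ volume w]
      simp only [sub_sub_cancel, mul_comm]
  have c0 := h0.cont
  have cg := mc g hg
  have i1 : Integrable fun y => b0.normed volume y * m g y :=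
    Continuous.integrable_of_hasCompactSupport (by fun_prop) h0.cp.mul_right
  have i2 : Integrable fun y => b0.normed volume y * m g (-y) :=
    Continuous.integrable_of_hasCompactSupport (by fun_prop) h0.cp.mul_right
  have e2 : ∫ y, b0.normed volume y * m g (-y) = ∫ y, b0.normed volume y * m g y := by
    rw [← integral_neg_eq_self]
    simp only [neg_neg, b0.normed_neg]
  have e3 : ∫ y, (b0.normed volume y * m g y + b0.normed volume y * m g (-y)) = 2 * m g 0 := by
    have e4 : ∀ y, b0.normed volume y * m g y + b0.normed volume y * m g (-y) =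
        b0.normed volume y * (2 * m g 0) := fun y => by
      rw [mdd g hg 0 y, zero_add, zero_sub, mul_add]
    simp only [e4]
    rw [integral_mul_const, b0.integral_normed, one_mul]
  rw [integral_add i1 i2, e2] at e3
  rw [sw g _ hg h0]
  simp only [e1]
  rw [← sw _ g h0 hg]
  have e5 : m g 0 = ∫ w, g w * v w := by simp only [hmd, sub_zero, mul_comm]
  linarith

end Vale.Agent.P120.LiouX

namespace Vale.Agent.P120

open MeasureTheory Module LiouX

theorem liou_pf : Liou_stmt := by
  intro W _ _ _ _ _ n hn h1 v hv hm h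
  have hae := hm.ae_eq_mk
  have hm' := hm.stronglyMeasurable_mk.measurable
  have i1 : Integrable fun w : W => (1 + ‖w‖)⁻¹ ^ (n + 1) := by
    have := integrable_one_add_norm (E := W) (μ := volume) (r := (n + 1 : ℕ)) (by
      rw [hn]; push_cast; linarith)
    refine this.congr (ae_of_all _ fun w => ?_)
    simp only
    rw [Real.rpow_neg (by positivity), Real.rpow_natCast, inv_pow]
  have i2 : Integrable fun w => |hm.mk v w| * rho n w := by
    refine (hv.add i1).mono' (hm'.abs.mul (continuous_rho n).measurable).aestronglyMeasurable ?_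
    filter_upwards [hae] with w hw
    rw [← hw, Real.norm_of_nonneg (mul_nonneg (abs_nonneg _) (rho_pos n w).le), rho, Pi.add_apply,
      ← sq_abs (v w)]
    have a1 : 0 ≤ (1 + ‖w‖)⁻¹ ^ (n + 1) := by positivity
    have a2 : 0 ≤ |v w| * (1 + ‖w‖)⁻¹ := by positivity
    have a3 := mul_nonneg a1 (sq_nonneg (|v w| * (1 + ‖w‖)⁻¹ - 1))
    have a4 := mul_nonneg a1 a2
    rw [show n + 3 = n + 1 + 1 + 1 by ring, show n + 2 = n + 1 + 1 by ring, pow_succ _ (n + 1 + 1),
      pow_succ _ (n + 1)]
    nlinarith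
  obtain ⟨b, B, hB⟩ := affine hm' i2 fun χ hχ a => key hn h1 hm' i2 (fun ψ hψ h0 => by
    rw [← h ψ hψ.sm hψ.cp h0]
    exact integral_congr_ae (hae.mono fun w hw => by simp only [hw])) hχ a
  exact ⟨b, B, hae.trans hB⟩

end Vale.Agent.P120
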