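import Vale.Agent.P120.Stmts
import Vale.Agent.P120.Bas

/-! P120: from the hypotheses of the problem to the internal ones. -/

namespace Vale.Agent.P120

open MeasureTheory Metric Filter Module
open scoped Topology ENNReal NNReal RealInnerProductSpace

namespace PreX

section gen
variable {V : Type} [NormedAddCommGroup V] [InnerProductSpace ℝ V] [FiniteDimensional ℝ V]
  [MeasurableSpace V] [BorelSpace V] {n : ℕ} {C : ℝ} {μ : Measure V}

omit [InnerProductSpace ℝ V] [FiniteDimensional ℝ V] [BorelSpace V] in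
theorem up_mono {C' : ℝ} (h : Up n C μ) (hC : C ≤ C') : Up n C' μ := fun x r hr =>
  (h x r hr).trans (ENNReal.ofReal_le_ofReal (by gcongr))

theorem exists_up (hC : 1 ≤ C) (h : ∀ x ∈ μ.support, ∀ r : ℝ, 0 < r →
    ENNReal.ofReal r ≤ ediam μ.support → μ (ball x r) ≤ ENNReal.ofReal (C * r ^ n))
    (hd : 0 < ediam μ.support) : ∃ C' : ℝ, C ≤ C' ∧ Up n C' μ := by
  have key : ∀ C' : ℝ, C * 2 ^ n ≤ C' → (∀ r : ℝ, 0 < r → ediam μ.support < ENNReal.ofReal (2 * r) →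
      μ Set.univ ≤ ENNReal.ofReal (C' * r ^ n)) → Up n C' μ := by
    intro C' h1 h2 x r hr
    by_cases h0 : μ (ball x r) = 0
    · rw [h0]
      exact zero_le
    obtain ⟨y, hy, hy'⟩ := exists_mem_support h0
    rcases le_or_gt (ENNReal.ofReal (2 * r)) (ediam μ.support) with c | c
    · have hs : ball x r ⊆ ball y (2 * r) := ball_subset_ball' (by
        rw [mem_ball, dist_comm] at hy
        linarith)
      refine (measure_mono hs).trans ((h y hy' _ (by positivity) c).trans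
        (ENNReal.ofReal_le_ofReal ?_))
      rw [mul_pow, ← mul_assoc]
      gcongr
    · exact (measure_mono (Set.subset_univ _)).trans (h2 r hr c)
  have h2n : (1 : ℝ) ≤ 2 ^ n := one_le_pow₀ (by norm_num)
  have hC2 : C ≤ C * 2 ^ n := le_mul_of_one_le_right (by linarith) h2n
  by_cases ht : ediam μ.support = ⊤
  · exact ⟨C * 2 ^ n, hC2, key _ le_rfl fun r _ hlt => absurd hlt (by simp [ht])⟩
  obtain ⟨d, hd'⟩ : ∃ d, d = (ediam μ.support).toReal := ⟨_, rfl⟩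
  have hd0 : 0 < d := hd' ▸ ENNReal.toReal_pos hd.ne' ht
  have hde : ENNReal.ofReal d = ediam μ.support := by rw [hd', ENNReal.ofReal_toReal ht]
  have hK : IsCompact μ.support := isCompact_of_isClosed_isBounded μ.isClosed_support
    (isBounded_iff_ediam_ne_top.2 ht)
  have hfin : μ μ.support < ∞ := hK.measure_lt_top_of_nhdsWithin fun x hx =>
    ⟨ball x d, mem_nhdsWithin_of_mem_nhds (ball_mem_nhds x hd0),
      (h x hx d hd0 hde.le).trans_lt ENNReal.ofReal_lt_top⟩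
  have huniv : μ Set.univ ≤ μ μ.support := by
    rw [← Set.union_compl_self μ.support]
    refine (measure_union_le _ _).trans ?_
    rw [Measure.measure_compl_support, add_zero]
  obtain ⟨m, hm⟩ : ∃ m, m = (μ μ.support).toReal := ⟨_, rfl⟩
  have hm0 : 0 ≤ m := hm ▸ ENNReal.toReal_nonneg
  have hme : ENNReal.ofReal m = μ μ.support := by rw [hm, ENNReal.ofReal_toReal hfin.ne]
  have hp : 0 ≤ m * (2 / d) ^ n := by positivity
  refine ⟨C * 2 ^ n + m * (2 / d) ^ n, by linarith, key _ (by linarith) fun r hr hlt => ?_⟩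
  rw [← hde, ENNReal.ofReal_lt_ofReal_iff (by positivity)] at hlt
  refine huniv.trans (hme ▸ ENNReal.ofReal_le_ofReal ?_)
  have h1 : 1 ≤ (2 / d * r) ^ n := one_le_pow₀ (by
    rw [div_mul_eq_mul_div, le_div_iff₀ hd0]
    linarith)
  have h2 : m ≤ m * (2 / d * r) ^ n := le_mul_of_one_le_right hm0 h1
  have h3 : 0 ≤ C * 2 ^ n * r ^ n := by positivity
  rw [mul_pow] at h2
  nlinarith

/-- the comparison kernel -/
noncomputable def q (n : ℕ) (ε : ℝ) (z : V) : ℝ :=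
  (n + 1) * 2 ^ (n + 1) * ε⁻¹ ^ n * (1 + ‖z‖ / ε)⁻¹ ^ (n + 1)

omit [InnerProductSpace ℝ V] [FiniteDimensional ℝ V] [MeasurableSpace V] [BorelSpace V] in
theorem q_nonneg {ε : ℝ} (hε : 0 < ε) (z : V) : 0 ≤ q n ε z := by
  unfold q
  positivity

omit [InnerProductSpace ℝ V] [FiniteDimensional ℝ V] [MeasurableSpace V] [BorelSpace V] in
theorem continuous_q {ε : ℝ} (hε : 0 < ε) : Continuous (q n ε : V → ℝ) := by
  unfold q
  refine continuous_const.mul (Continuous.pow (Continuous.inv₀ (by fun_prop) fun z => ?_) _)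
  positivity

omit [FiniteDimensional ℝ V] [MeasurableSpace V] [BorelSpace V] in
theorem ker_near {ε : ℝ} (hε : 0 < ε) {z : V} (hz : ‖z‖ ≤ ε) : ‖kr n ε z • z‖ ≤ q n ε z := by
  have h0 : kr n ε z * ‖z‖ ≤ ε⁻¹ ^ n := kr_mul_norm_le_eps hε z
  rw [norm_smul, Real.norm_of_nonneg (kr_nonneg _ _ _)]
  refine h0.trans ?_
  have h1 : 1 ≤ 2 * (1 + ‖z‖ / ε)⁻¹ := by
    rw [← div_eq_mul_inv, le_div_iff₀ (by positivity)]
    have := (div_le_one hε).2 hz
    linarith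
  have h2 : 1 ≤ (2 * (1 + ‖z‖ / ε)⁻¹) ^ (n + 1) := one_le_pow₀ h1
  have h3 : (1 : ℝ) ≤ n + 1 := by linarith [n.cast_nonneg (α := ℝ)]
  have h4 := one_le_mul_of_one_le_of_one_le h3 h2
  calc ε⁻¹ ^ n ≤ ε⁻¹ ^ n * ((n + 1) * (2 * (1 + ‖z‖ / ε)⁻¹) ^ (n + 1)) :=
        le_mul_of_one_le_right (by positivity) h4
    _ = q n ε z := by
        rw [q, mul_pow]
        ring

omit [FiniteDimensional ℝ V] [MeasurableSpace V] [BorelSpace V] in
theorem ker_far {ε : ℝ} (hε : 0 < ε) {z : V} (hz : ε < ‖z‖) :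
    ‖kr n ε z • z - (‖z‖ ^ (n + 1))⁻¹ • z‖ ≤ q n ε z := by
  have hz0 : 0 < ‖z‖ := hε.trans hz
  have hne : z ≠ 0 := norm_pos_iff.1 hz0
  have h1 : ‖z‖⁻¹ ^ (n + 1) - kr n ε z ≤ (n + 1) * ε ^ 2 * ‖z‖⁻¹ ^ (n + 3) := by
    refine le_of_tendsto ((tendsto_kr (n := n) hne).sub_const (kr n ε z)) ?_
    filter_upwards [Ioc_mem_nhdsGT hε] with e he
    exact kr_sub_le he.1 he.2 hne
  have h2 := kr_le_norm (n := n) ε hne
  rw [← sub_smul, norm_smul, ← inv_pow, Real.norm_eq_abs, abs_sub_comm,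
    abs_of_nonneg (sub_nonneg.2 h2)]
  have h3 : ‖z‖⁻¹ ≤ ε⁻¹ * (2 * (1 + ‖z‖ / ε)⁻¹) := by
    have e : ε⁻¹ * (2 * (1 + ‖z‖ / ε)⁻¹) = 2 / (ε + ‖z‖) := by field_simp
    rw [e, inv_eq_one_div, div_le_div_iff₀ hz0 (by positivity)]
    linarith
  have h4 : ε * ‖z‖⁻¹ ≤ 1 := by
    rw [← div_eq_mul_inv, div_le_one hz0]
    exact hz.le
  calc (‖z‖⁻¹ ^ (n + 1) - kr n ε z) * ‖z‖ ≤ (n + 1) * ε ^ 2 * ‖z‖⁻¹ ^ (n + 3) * ‖z‖ := by gcongr
    _ = (n + 1) * ε * ‖z‖⁻¹ ^ (n + 1) * (ε * ‖z‖⁻¹) * (‖z‖⁻¹ * ‖z‖) := by ring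
    _ = (n + 1) * ε * ‖z‖⁻¹ ^ (n + 1) * (ε * ‖z‖⁻¹) := by rw [inv_mul_cancel₀ hz0.ne', mul_one]
    _ ≤ (n + 1) * ε * (ε⁻¹ * (2 * (1 + ‖z‖ / ε)⁻¹)) ^ (n + 1) * 1 := by gcongr
    _ = q n ε z := by
        rw [q, mul_pow, mul_pow, pow_succ ε⁻¹]
        field_simp

theorem int_q (h : Up n C μ) (hC : 0 ≤ C) {ε : ℝ} (hε : 0 < ε) (x : V) :
    Integrable (fun y => q n ε (y - x)) μ ∧
    ∫ y, q n ε (y - x) ∂μ ≤ (n + 1) * 2 ^ (n + 1) * (2 ^ (n + 2) * C) := by
  obtain ⟨h1, h2⟩ := h.dec hC x hε (a := 1) le_rfl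
  refine ⟨h1.const_mul _, ?_⟩
  unfold q
  rw [integral_const_mul]
  refine (mul_le_mul_of_nonneg_left h2 (by positivity)).trans (le_of_eq ?_)
  rw [inv_pow]
  field_simp

omit [InnerProductSpace ℝ V] [FiniteDimensional ℝ V] [BorelSpace V] [NormedAddCommGroup V] in
theorem cs {w g : V → ℝ} {A : ℝ} (hA : 0 < A) (hw0 : ∀ y, 0 ≤ w y) (hw : Integrable w μ)
    (h1 : Integrable (fun y => w y * g y) μ) (h2 : Integrable (fun y => w y * g y ^ 2) μ)
    (hwA : ∫ y, w y ∂μ ≤ A) : (∫ y, w y * g y ∂μ) ^ 2 ≤ A * ∫ y, w y * g y ^ 2 ∂μ := by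
  obtain ⟨S, hS⟩ : ∃ S, S = ∫ y, w y * g y ∂μ := ⟨_, rfl⟩
  have h3 : 0 ≤ ∫ y, (w y * g y ^ 2 - 2 * (S / A) * (w y * g y) + (S / A) ^ 2 * w y) ∂μ :=
    integral_nonneg fun y => by
      have := mul_nonneg (hw0 y) (sq_nonneg (g y - S / A))
      simp only [Pi.zero_apply]
      nlinarith
  have h7 : Integrable (fun y => w y * g y ^ 2 - 2 * (S / A) * (w y * g y)) μ :=
    h2.sub (h1.const_mul _)
  rw [integral_add h7 (hw.const_mul _), integral_sub h2 (h1.const_mul _),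
    integral_const_mul, integral_const_mul, ← hS] at h3
  rw [← hS]
  have h4 := mul_le_mul_of_nonneg_left hwA (sq_nonneg (S / A))
  have h5 : 0 ≤ ∫ y, w y * g y ^ 2 ∂μ - 2 * (S / A) * S + (S / A) ^ 2 * A := by linarith
  have h6 := mul_nonneg hA.le h5
  have e : A * (∫ y, w y * g y ^ 2 ∂μ - 2 * (S / A) * S + (S / A) ^ 2 * A)
      = A * ∫ y, w y * g y ^ 2 ∂μ - S ^ 2 := by
    field_simp
    ring
  linarith

omit [InnerProductSpace ℝ V] [FiniteDimensional ℝ V] [BorelSpace V] [NormedAddCommGroup V] in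
theorem sq_eLp {E : Type} [NormedAddCommGroup E] (g : V → E) :
    eLpNorm g 2 μ ^ 2 = ∫⁻ x, ‖g x‖ₑ ^ 2 ∂μ := by
  have := eLpNorm_nnreal_pow_eq_lintegral (f := g) (μ := μ) (p := 2) two_ne_zero
  simpa using this

theorem two_ofReal (a : ℝ) : 2 * ENNReal.ofReal a = ENNReal.ofReal (2 * a) := by
  rw [ENNReal.ofReal_mul (by norm_num), ENNReal.ofReal_ofNat]

end gen

theorem bd {d n : ℕ} {μ : Measure (EuclideanSpace ℝ (Fin d))} {C : ℝ} (h : Up n C μ) (hC : 1 ≤ C)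
    (hR : RieszBounded n μ) : ∃ B : ℝ, ∀ C', B ≤ C' → BD n C' μ := by
  obtain ⟨R, hR⟩ := hR
  have hlf := h.locFin
  obtain ⟨A, hA⟩ : ∃ A : ℝ, A = (n + 1) * 2 ^ (n + 1) * (2 ^ (n + 2) * C) := ⟨_, rfl⟩
  have hA0 : 0 < A := by
    rw [hA]
    positivity
  refine ⟨2 * (|R| + A), fun C' hC' ε hε f hf hs => ?_⟩
  have hq := fun x => int_q h (by linarith) hε x
  rw [← hA] at hq
  have hf2 : MemLp f 2 μ := hf.memLp_of_hasCompactSupport hs
  have hf1 : Integrable f μ := hf.integrable_of_hasCompactSupport hs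
  have hfs : Integrable (fun y => f y ^ 2) μ := hf2.integrable_sq
  obtain ⟨b, hb⟩ := hf.bounded_above_of_compact_support hs
  obtain ⟨hi, hR2⟩ := hR f hf2 ε hε
  have hqc := continuous_q (V := EuclideanSpace ℝ (Fin d)) (n := n) hε
  obtain ⟨hF, hF'⟩ := h.integrable_prod (F := fun p => q n ε (p.1 - p.2) * |f p.2| ^ 2)
    (Continuous.aestronglyMeasurable (by fun_prop)) hfs (q := fun y x => q n ε (x - y))
    (fun y => (hq y).1) (fun y => (hq y).2) (fun y => sq_nonneg _) (fun y x => by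
      rw [abs_of_nonneg (mul_nonneg (q_nonneg hε _) (sq_nonneg _)), sq_abs, mul_comm])
  obtain ⟨T, hT⟩ : ∃ T : EuclideanSpace ℝ (Fin d) → ℝ,
      T = fun x => ∫ y, q n ε (x - y) * |f y| ^ 2 ∂μ := ⟨_, rfl⟩
  have hTi : Integrable T μ := hT ▸ hF.integral_prod_left
  have hT0 : ∀ x, 0 ≤ T x := fun x => by
    rw [hT]
    exact integral_nonneg fun y => mul_nonneg (q_nonneg hε _) (sq_nonneg _)
  have hTI : ∫ x, T x ∂μ ≤ A * ∫ y, f y ^ 2 ∂μ := by
    refine le_trans ?_ hF'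
    rw [hT, ← integral_prod _ hF]
    exact integral_mono hF hF.abs fun p => le_abs_self _
  have hpt : ∀ᵐ x ∂μ, ‖Rz n ε μ f x‖ₑ ^ 2
      ≤ 2 * ‖rieszTrunc n μ ε f x‖ₑ ^ 2 + ENNReal.ofReal (2 * A * T x) := by
    filter_upwards [hi] with x hx
    have hm : MeasurableSet {y : EuclideanSpace ℝ (Fin d) | ε < ‖x - y‖} :=
      (isOpen_lt continuous_const (by fun_prop)).measurableSet
    have hqx : Integrable (fun y => q n ε (x - y)) μ := by
      refine (hq x).1.congr (ae_of_all _ fun y => ?_)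
      simp only [q, norm_sub_rev y x]
    have hqx' : ∫ y, q n ε (x - y) ∂μ ≤ A := by
      refine le_trans (le_of_eq ?_) (hq x).2
      simp only [q, norm_sub_rev x]
    have i1 : Integrable (fun y => q n ε (x - y) * |f y|) μ :=
      hqx.mul_bdd (c := b) hf.abs.aestronglyMeasurable (ae_of_all _ fun y => by simpa using hb y)
    have i2 : Integrable (fun y => q n ε (x - y) * |f y| ^ 2) μ :=
      hqx.mul_bdd (c := b ^ 2) (hf.abs.pow 2).aestronglyMeasurable (ae_of_all _ fun y => by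
        rw [norm_pow, Real.norm_eq_abs, abs_abs]
        exact pow_le_pow_left₀ (abs_nonneg _) (hb y) 2)
    have i3 : Integrable (fun y => (kr n ε (x - y) * f y) • (x - y)) μ := by
      refine Integrable.mono' (hf1.norm.const_mul (ε⁻¹ ^ n))
        ((((continuous_kr n hε).comp (by fun_prop)).aestronglyMeasurable.mul hf1.1).smul
          (by fun_prop)) (ae_of_all _ fun y => ?_)
      rw [mul_comm (kr _ _ _), mul_smul, norm_smul, mul_comm]
      gcongr
      exact norm_Kr_le hε _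
    have e1 : ‖Rz n ε μ f x - rieszTrunc n μ ε f x‖ ≤ ∫ y, q n ε (x - y) * |f y| ∂μ := by
      rw [Rz, rieszTrunc, ← integral_indicator hm,
        ← integral_sub i3 ((integrable_indicator_iff hm).2 hx)]
      refine norm_integral_le_of_norm_le i1 (ae_of_all _ fun y => ?_)
      by_cases hy : ε < ‖x - y‖
      · rw [Set.indicator_of_mem (s := {y | ε < ‖x - y‖}) hy, mul_comm (kr _ _ _), mul_smul,
          ← smul_sub, norm_smul, mul_comm, Real.norm_eq_abs]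
        exact mul_le_mul_of_nonneg_right (ker_far hε hy) (abs_nonneg _)
      · rw [Set.indicator_of_notMem (s := {y | ε < ‖x - y‖}) hy, sub_zero, mul_comm (kr _ _ _),
          mul_smul, norm_smul, mul_comm, Real.norm_eq_abs]
        exact mul_le_mul_of_nonneg_right (ker_near hε (not_lt.1 hy)) (abs_nonneg _)
    have e2 := cs hA0 (fun y => q_nonneg hε (x - y)) hqx i1 i2 hqx'
    have e3 : ‖Rz n ε μ f x - rieszTrunc n μ ε f x‖ ^ 2 ≤ A * T x := by
      rw [hT]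
      exact (pow_le_pow_left₀ (norm_nonneg _) e1 2).trans e2
    have e4 : ‖Rz n ε μ f x‖ ^ 2 ≤ 2 * ‖rieszTrunc n μ ε f x‖ ^ 2 + 2 * A * T x := by
      have a1 := norm_le_insert' (Rz n ε μ f x) (rieszTrunc n μ ε f x)
      have a2 := pow_le_pow_left₀ (norm_nonneg _) a1 2
      nlinarith [sq_nonneg (‖rieszTrunc n μ ε f x‖ - ‖Rz n ε μ f x - rieszTrunc n μ ε f x‖)]
    have hAT : 0 ≤ 2 * A * T x := mul_nonneg (by positivity) (hT0 x)
    rw [← ofReal_norm, ← ofReal_norm, ← ENNReal.ofReal_pow (norm_nonneg _),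
      ← ENNReal.ofReal_pow (norm_nonneg _), two_ofReal, ← ENNReal.ofReal_add (by positivity) hAT]
    exact ENNReal.ofReal_le_ofReal e4
  have hI0 : 0 ≤ ∫ y, f y ^ 2 ∂μ := integral_nonneg fun y => sq_nonneg _
  have g1 : ∫⁻ x, ‖f x‖ₑ ^ 2 ∂μ = ENNReal.ofReal (∫ y, f y ^ 2 ∂μ) := by
    rw [ofReal_integral_eq_lintegral_ofReal hfs (ae_of_all _ fun y => sq_nonneg _)]
    refine lintegral_congr fun y => ?_
    rw [← ofReal_norm, ← ENNReal.ofReal_pow (norm_nonneg _), Real.norm_eq_abs, sq_abs]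
  have g2 : ∫⁻ x, ‖rieszTrunc n μ ε f x‖ₑ ^ 2 ∂μ ≤ ENNReal.ofReal (|R| ^ 2 * ∫ y, f y ^ 2 ∂μ) := by
    rw [← sq_eLp, ENNReal.ofReal_mul (by positivity), ← g1, ← sq_eLp,
      ENNReal.ofReal_pow (abs_nonneg _), ← mul_pow]
    refine pow_le_pow_left' (hR2.trans ?_) 2
    gcongr
    exact le_abs_self R
  have g3 : ∫⁻ x, ENNReal.ofReal (2 * A * T x) ∂μ
      ≤ ENNReal.ofReal (2 * A * (A * ∫ y, f y ^ 2 ∂μ)) := by
    rw [← ofReal_integral_eq_lintegral_ofReal (hTi.const_mul _)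
      (ae_of_all _ fun x => mul_nonneg (by positivity) (hT0 x)), integral_const_mul]
    exact ENNReal.ofReal_le_ofReal (by gcongr)
  refine (lintegral_mono_ae hpt).trans ?_
  rw [lintegral_add_right' _ (hTi.const_mul _).1.aemeasurable.ennreal_ofReal,
    lintegral_const_mul' _ _ (by simp)]
  refine (add_le_add (mul_le_mul_right g2 2) g3).trans ?_
  rw [two_ofReal, ← ENNReal.ofReal_add (by positivity) (by positivity)]
  refine ENNReal.ofReal_le_ofReal ?_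
  have a1 : (2 * (|R| + A)) ^ 2 ≤ C' ^ 2 := pow_le_pow_left₀ (by positivity) hC' 2
  have a2 : 2 * |R| ^ 2 + 2 * A * A ≤ C' ^ 2 := by nlinarith [abs_nonneg R]
  nlinarith [mul_le_mul_of_nonneg_right a2 hI0]

end PreX

open PreX in
theorem pre_pf : Pre_stmt := by
  intro d n μ C _ hAD hR hd
  obtain ⟨hC, hAD⟩ := hAD
  obtain ⟨C1, h1, hu⟩ := exists_up hC (fun x hx r hr h => (hAD x hx r hr h).2) hd
  obtain ⟨B, hB⟩ := bd hu (hC.trans h1) hR
  have h2 : C ≤ max C1 B := h1.trans (le_max_left _ _)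
  refine ⟨max C1 B, hC.trans h2, up_mono hu (le_max_left _ _), hB _ (le_max_right _ _),
    fun R hR x hx r hr hrR => ?_⟩
  refine le_trans (ENNReal.ofReal_le_ofReal ?_)
    (hAD x hx r hr ((ENNReal.ofReal_le_ofReal hrR).trans hR)).1
  rw [← div_eq_inv_mul]
  exact div_le_div_of_nonneg_left (by positivity) (by linarith) h2

end Vale.Agent.P120
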