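import Vale.Agent.P120.Bas

/-! P120: propagation of flatness. -/

namespace Vale.Agent.P120.PropX

open MeasureTheory Metric Filter Module
open scoped Topology ENNReal NNReal RealInnerProductSpace

variable {V : Type} [NormedAddCommGroup V] [InnerProductSpace ℝ V]

omit [InnerProductSpace ℝ V] in
theorem wt_le_one (n : ℕ) (y x : V) {θ : ℝ} (hθ : 0 < θ) : wt n y θ x ≤ 1 := by
  unfold wt
  refine pow_le_one₀ (by positivity) (inv_le_one_of_one_le₀ ?_)
  exact le_add_of_nonneg_right (by positivity)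

omit [InnerProductSpace ℝ V] in
theorem wt_out (n : ℕ) {y x : V} {θ : ℝ} (hθ : 0 < θ) (hy : ‖y‖ ≤ 1) (hx : 2 ≤ ‖x‖) :
    wt n y θ x ≤ (3 * θ) ^ (n + 3) * (1 + ‖x‖)⁻¹ ^ (n + 3) := by
  unfold wt
  rw [← mul_pow]
  refine pow_le_pow_left₀ (by positivity) ?_ _
  have h1 : ‖x‖ - ‖y‖ ≤ ‖x - y‖ := norm_sub_norm_le x y
  rw [← div_eq_mul_inv, le_div_iff₀ (by positivity), inv_mul_le_iff₀ (by positivity)]
  have h2 : (1 + ‖x - y‖ / θ) * (3 * θ) = 3 * θ + 3 * ‖x - y‖ := by field_simp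
  rw [h2]
  linarith

variable [FiniteDimensional ℝ V] [MeasurableSpace V] [BorelSpace V] {n : ℕ} {C : ℝ}

theorem est {ν : Measure V} (hu : Up n C ν) (hC : 0 ≤ C) {D : Submodule ℝ V}
    (hD : finrank ℝ D = n) {p y β : V} {L : D →L[ℝ] V} {δ θ ρ : ℝ} (hδ : 0 < δ) (hθ : 0 < θ)
    (hθ' : θ ≤ 3⁻¹ ^ (n + 5)) (hy : ‖y‖ ≤ 1) (hρ : 2 ≤ ρ)
    (hρ' : (‖β‖ + ‖L‖) ^ 2 * (2 ^ (n + 1) * C * ρ⁻¹) ≤ 1 / 2) (h1 : ExcD n ν 0 1 δ D p)
    (h2 : ∫ x in ball 0 ρ, ‖perp D (x - p) - δ • (β + L (D.orthogonalProjectionOnto x))‖ ^ 2 ∂ν ≤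
      δ ^ 2 * θ ^ (n + 2) / 2) : Exc n ν y θ δ := by
  have := hu.locFin
  set T : D →ₗ[ℝ] V := D.subtype + δ • (L : D →ₗ[ℝ] V) with hT
  obtain ⟨D', hD1, hD2⟩ := exists_ge_rank (LinearMap.range T) (n := n)
    (hD ▸ LinearMap.finrank_range_le T) (hD ▸ D.finrank_le)
  refine ⟨D', perp D p + δ • β, hD2, ?_⟩
  set u : V → V := fun x => perp D (x - p) - δ • (β + L (D.orthogonalProjectionOnto x)) with hu'
  have huc : Continuous u := by
    have := continuous_perp D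
    fun_prop
  have e1 : ∀ x, ‖perp D' (x - (perp D p + δ • β))‖ ≤ ‖u x‖ := by
    intro x
    refine (norm_perp_le_sub D' _ (hD1 ⟨D.orthogonalProjectionOnto x, rfl⟩)).trans (le_of_eq ?_)
    congr 1
    simp only [hu', hT, perp_sub, LinearMap.add_apply, LinearMap.smul_apply, Submodule.subtype_apply,
      Submodule.coe_orthogonalProjectionOnto_apply, ContinuousLinearMap.coe_coe, smul_add]
    unfold perp
    abel
  set M : ℝ := ‖β‖ + ‖L‖ with hM
  have e2 : ∀ x, ‖u x‖ ^ 2 ≤ 2 * ‖perp D (x - p)‖ ^ 2 + 2 * δ ^ 2 * M ^ 2 * (1 + ‖x‖) ^ 2 := by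
    intro x
    have e3 : ‖L (D.orthogonalProjectionOnto x)‖ ≤ ‖L‖ * ‖x‖ :=
      (L.le_opNorm _).trans (by gcongr; exact D.norm_orthogonalProjectionOnto_apply_le x)
    have e4 : ‖β + L (D.orthogonalProjectionOnto x)‖ ≤ M * (1 + ‖x‖) := by
      refine (norm_add_le _ _).trans ?_
      have e5 := mul_nonneg (norm_nonneg β) (norm_nonneg x)
      have e6 := norm_nonneg L
      rw [hM]; nlinarith
    have e5 : ‖u x‖ ≤ ‖perp D (x - p)‖ + δ * (M * (1 + ‖x‖)) := by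
      refine (norm_sub_le _ _).trans ?_
      rw [norm_smul, Real.norm_of_nonneg hδ.le]
      gcongr
    calc ‖u x‖ ^ 2 ≤ (‖perp D (x - p)‖ + δ * (M * (1 + ‖x‖))) ^ 2 := by gcongr
      _ ≤ _ := by nlinarith [sq_nonneg (‖perp D (x - p)‖ - δ * (M * (1 + ‖x‖)))]
  set g₁ : V → ℝ := (ball (0 : V) ρ).indicator fun x => ‖u x‖ ^ 2 with hg₁
  set g₂ : V → ℝ := fun x => ‖perp D (x - p)‖ ^ 2 * wt n 0 1 x with hg₂
  set g₃ : V → ℝ := (ball (0 : V) ρ)ᶜ.indicator fun x => (1 + ‖x‖)⁻¹ ^ (n + 1) with hg₃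
  have i1 : Integrable g₁ ν := by
    rw [hg₁, integrable_indicator_iff measurableSet_ball]
    exact ((huc.norm.pow 2).continuousOn.integrableOn_compact
      (isCompact_closedBall 0 ρ)).mono_set ball_subset_closedBall
  have i2 : Integrable g₂ ν := hu.integrable_exc hC D 0 p one_pos
  have i3 : Integrable g₃ ν := by
    refine Integrable.indicator ?_ measurableSet_ball.compl
    simpa using (hu.dec hC 0 one_pos (a := 1) le_rfl).1
  have j1 : ∫ x, g₁ x ∂ν ≤ δ ^ 2 * θ ^ (n + 2) / 2 := by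
    rw [hg₁, integral_indicator measurableSet_ball]; exact h2
  have j2 : ∫ x, g₂ x ∂ν ≤ δ ^ 2 := by simpa [ExcD] using h1
  have j3 : M ^ 2 * ∫ x, g₃ x ∂ν ≤ 1 / 2 := by
    rw [hg₃, integral_indicator measurableSet_ball.compl]
    refine le_trans ?_ hρ'
    have := hu.dec_tail hC (R := ρ) (by linarith) (a := 1) le_rfl
    rw [pow_one] at this
    gcongr
  set t : ℝ := (3 * θ) ^ (n + 3) with ht
  have ht0 : 0 < t := by positivity
  have e3 : ∀ x, ‖perp D' (x - (perp D p + δ • β))‖ ^ 2 * wt n y θ x ≤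
      g₁ x + (2 * t * g₂ x + 2 * t * δ ^ 2 * M ^ 2 * g₃ x) := by
    intro x
    have w0 := wt_pos n y hθ x
    have w1 := wt_pos n (0 : V) one_pos x
    have e4 : ‖perp D' (x - (perp D p + δ • β))‖ ^ 2 * wt n y θ x ≤ ‖u x‖ ^ 2 * wt n y θ x := by
      gcongr; exact e1 x
    refine e4.trans ?_
    by_cases hx : x ∈ ball (0 : V) ρ
    · have e5 : g₁ x = ‖u x‖ ^ 2 := Set.indicator_of_mem hx _
      have e6 : g₃ x = 0 := Set.indicator_of_notMem (by simpa using hx) _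
      have e7 : 0 ≤ g₂ x := by simp only [hg₂]; positivity
      have e8 : ‖u x‖ ^ 2 * wt n y θ x ≤ ‖u x‖ ^ 2 * 1 := by gcongr; exact wt_le_one n y x hθ
      rw [e5, e6]
      have : 0 ≤ 2 * t * g₂ x := by positivity
      linarith
    · have e5 : g₁ x = 0 := Set.indicator_of_notMem hx _
      have e6 : g₃ x = (1 + ‖x‖)⁻¹ ^ (n + 1) := Set.indicator_of_mem hx _
      have e7 : 2 ≤ ‖x‖ := by
        rw [mem_ball_zero_iff, not_lt] at hx
        linarith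
      rw [e5, e6, zero_add]
      simp only [hg₂, wt_unit]
      calc _ ≤ (2 * ‖perp D (x - p)‖ ^ 2 + 2 * δ ^ 2 * M ^ 2 * (1 + ‖x‖) ^ 2) *
            (t * (1 + ‖x‖)⁻¹ ^ (n + 3)) := by
            gcongr
            · exact e2 x
            · exact wt_out n hθ hy e7
        _ = _ := by
            have e8 : (1 + ‖x‖) ≠ 0 := by positivity
            have e9 : (1 + ‖x‖)⁻¹ ^ (n + 1) = (1 + ‖x‖) ^ 2 * (1 + ‖x‖)⁻¹ ^ (n + 3) := by
              rw [show n + 3 = 2 + (n + 1) by ring, pow_add _ 2, ← mul_assoc, ← mul_pow,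
                mul_inv_cancel₀ e8, one_pow, one_mul]
            rw [e9]
            ring
  unfold ExcD
  have i4 : Integrable (fun x => 2 * t * g₂ x + 2 * t * δ ^ 2 * M ^ 2 * g₃ x) ν :=
    (i2.const_mul _).add (i3.const_mul _)
  have i5 : Integrable (fun x => g₁ x + (2 * t * g₂ x + 2 * t * δ ^ 2 * M ^ 2 * g₃ x)) ν :=
    i1.add i4
  refine (integral_mono_of_nonneg (Eventually.of_forall fun x => ?_) i5
    (Eventually.of_forall e3)).trans ?_
  · have w0 := wt_pos n y hθ x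
    positivity
  rw [integral_add i1 i4, integral_add (i2.const_mul _) (i3.const_mul _), integral_const_mul,
    integral_const_mul]
  have e4 : 3 * t ≤ θ ^ (n + 2) / 3 := by
    have e5 : 3 ^ (n + 5) * θ ≤ 1 := by
      rw [inv_pow] at hθ'
      rw [← le_div_iff₀' (by positivity), one_div]; exact hθ'
    calc 3 * t = 3 ^ (n + 5) * θ * θ ^ (n + 2) / 3 := by rw [ht]; ring
      _ ≤ 1 * θ ^ (n + 2) / 3 := by gcongr
      _ = _ := by ring
  have e5 : 2 * t * ∫ x, g₂ x ∂ν ≤ 2 * t * δ ^ 2 := by gcongr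
  have e6 : 2 * t * δ ^ 2 * M ^ 2 * ∫ x, g₃ x ∂ν ≤ 2 * t * δ ^ 2 * (1 / 2) := by
    rw [mul_assoc _ (M ^ 2)]; gcongr
  have e7 : δ ^ 2 * (3 * t) ≤ δ ^ 2 * (θ ^ (n + 2) / 3) := by gcongr
  have e8 : 0 ≤ δ ^ 2 * θ ^ (n + 2) := by positivity
  linarith

/-- The vector valued form of the linearisation. -/
theorem lin_vec (hLin : Lin_stmt) (hn : 1 ≤ n) (hC : 1 ≤ C) {U : Ultrafilter ℕ}
    {ν : ℕ → Measure V} {D : Submodule ℝ V} {c : ℝ} {p : ℕ → V} {δ A η : ℕ → ℝ}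
    (h : Set1 n C U ν D c 0 (fun _ => 0) δ A η) (hE : ∀ k, ExcD n (ν k) 0 1 (δ k) D (p k)) :
    ∃ (β : V) (L : D →L[ℝ] V), ∀ ρ t : ℝ, 0 < t → ∀ᶠ k in U, ∫ x in ball 0 ρ,
      ‖perp D (x - p k) - δ k • (β + L (D.orthogonalProjectionOnto x))‖ ^ 2 ∂ν k ≤
      δ k ^ 2 * t := by
  set b := stdOrthonormalBasis ℝ V with hb
  have e0 : ∀ i x k, ⟪x, perp D (b i)⟫ - ⟪p k, perp D (b i)⟫ = ⟪perp D (x - p k), b i⟫ := by
    intro i x k
    rw [inner_perp, inner_sub_left]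
  have hS : ∀ i, Set1 n C U ν D c (perp D (b i)) (fun k => ⟪p k, perp D (b i)⟫) δ A η := by
    intro i
    refine ⟨h.up, h.low, h.zero, h.rank, h.pos, h.upl, h.lim,
      (norm_perp_le D _).trans (b.orthonormal.1 i).le, h.δ_pos, h.δ_le, h.η_pos, h.η_le, h.δ_lim,
      h.A_lim, h.good, fun k => ?_⟩
    have e1 : ∫ x, ‖perp D (x - p k)‖ ^ 2 * wt n 0 1 x ∂ν k ≤ δ k ^ 2 := by
      simpa [ExcD] using hE k
    refine (integral_mono_of_nonneg (Eventually.of_forall fun x => ?_)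
      ((h.up k).integrable_exc (by linarith) D 0 (p k) one_pos)
      (Eventually.of_forall fun x => ?_)).trans e1
    · have w0 := wt_pos n (0 : V) one_pos x
      positivity
    · have w0 := wt_pos n (0 : V) one_pos x
      simp only [e0]
      refine mul_le_mul_of_nonneg_right ?_ w0.le
      rw [← sq_abs]
      refine pow_le_pow_left₀ (abs_nonneg _) ((abs_real_inner_le_norm _ _).trans ?_) _
      rw [b.orthonormal.1 i, mul_one]
  choose β B hB using fun i => hLin V n C hn hC U ν D c _ _ δ A η (hS i)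
  refine ⟨∑ i, β i • b i, ∑ i, (B i).smulRight (b i), fun ρ t ht => ?_⟩
  have e1 := tendsto_finsetSum Finset.univ fun i _ => hB i ρ
  rw [Finset.sum_const_zero] at e1
  filter_upwards [e1.eventually (gt_mem_nhds ht)] with k hk
  have := (h.up k).locFin
  have hδ := h.δ_pos k
  have e2 : ∀ x, ‖perp D (x - p k) - δ k • (∑ i, β i • b i +
      (∑ i, (B i).smulRight (b i)) (D.orthogonalProjectionOnto x))‖ ^ 2 =
      δ k ^ 2 * ∑ i, ((⟪x, perp D (b i)⟫ - ⟪p k, perp D (b i)⟫) / δ k -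
        (β i + B i (D.orthogonalProjectionOnto x))) ^ 2 := by
    intro x
    rw [← b.sum_sq_inner_left, Finset.mul_sum]
    refine Finset.sum_congr rfl fun i _ => ?_
    rw [e0, inner_sub_left, real_inner_smul_left, inner_add_left, _root_.sum_apply]
    simp only [ContinuousLinearMap.smulRight_apply]
    rw [b.orthonormal.inner_left_fintype, b.orthonormal.inner_left_fintype]
    simp only [conj_trivial]
    field_simp
  simp only [e2]
  rw [integral_const_mul, integral_finsetSum]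
  · gcongr
  · intro i _
    refine ((Continuous.continuousOn ?_).integrableOn_compact
      (isCompact_closedBall 0 ρ)).mono_set ball_subset_closedBall
    fun_prop

theorem core (hLim : Lim_stmt) (hLimP : LimP_stmt) (hLimQ : LimQ_stmt) (hFlat : FlatLim_stmt)
    (hCls : Cls_stmt) (hLin : Lin_stmt) (hn : 1 ≤ n) (hC : 1 ≤ C) {θ : ℝ} (hθ : 0 < θ)
    (hθ' : θ ≤ 3⁻¹ ^ (n + 5)) {ν : ℕ → Measure V} {D : Submodule ℝ V} (hD : finrank ℝ D = n)
    {p y : ℕ → V} {δ : ℕ → ℝ} (hu : ∀ k, Up n C (ν k))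
    (hl : ∀ k : ℕ, Low n C ((k : ℝ) + 1) (ν k))
    (hb : ∀ k, BD n C (ν k)) (h0 : ∀ k, 0 ∈ (ν k).support)
    (hg : ∀ k : ℕ, Good n (ν k) 0 1 ((k : ℝ) + 1) (δ k ^ 2))
    (hE : ∀ k, ExcD n (ν k) 0 1 (δ k) D (p k)) (hδ : ∀ k, 0 < δ k)
    (hδ' : ∀ k, δ k ≤ 1 / ((k : ℝ) + 1)) (hy : ∀ k, ‖y k‖ ≤ 1) :
    ∃ k, Exc n (ν k) (y k) θ (δ k) := by
  set U := hyperfilter ℕ with hU
  obtain ⟨σ, hσ, hlim⟩ := hLim V n C hn hC U ν hu
  obtain ⟨-, -, hP⟩ := hLimP V n C hn hC U ν σ hu hσ hlim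
  obtain ⟨hQ1, hQ2⟩ := hLimQ V n C hn hC U ν σ hu hσ hlim
  have hA : Tendsto (fun k : ℕ => (k : ℝ) + 1) U atTop :=
    (tendsto_atTop_add_const_right _ _ tendsto_natCast_atTop_atTop).mono_left
      Nat.hyperfilter_le_atTop
  have hδ0 : Tendsto δ U (𝓝 0) :=
    squeeze_zero (fun k => (hδ k).le) hδ'
      (tendsto_one_div_add_atTop_nhds_zero_nat.mono_left Nat.hyperfilter_le_atTop)
  have hη0 : Tendsto (fun k => δ k ^ 2) U (𝓝 0) := by simpa using hδ0.pow 2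
  have hlow : ∀ R, Low n C R σ := fun R =>
    (hP _ (max R 1) (by positivity) (hA.eventually_ge_atTop _) hl).1.mono (le_max_left _ _)
  have hz : (0 : V) ∈ σ.support :=
    (hP _ 1 one_pos (hA.eventually_ge_atTop _) hl).2 (fun _ => 0) 0 (Eventually.of_forall h0)
      tendsto_const_nhds
  have hne : σ ≠ 0 := by
    rintro rfl
    simp at hz
  have hk1 : ∀ k : ℕ, (1 : ℝ) ≤ (k : ℝ) + 1 := fun k => le_add_of_nonneg_left (by positivity)
  have hl1 : ∀ k, Low n C 1 (ν k) := fun k => (hl k).mono (hk1 k)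
  obtain ⟨c, hc, rfl⟩ := hCls V n C hn hC σ D ⟨hσ, hlow, hQ2 hne _ _ hA hη0 hg⟩ (hQ1 hb) hz hD
    (hFlat V n C hn hC U ν σ D p δ (fun k => ⟨hu k, hl1 k, h0 k, hE k⟩) hσ hlim hδ0)
  have hS : Set1 n C U ν D c 0 (fun _ => 0) δ (fun k => (k : ℝ) + 1) fun k => δ k ^ 2 :=
    ⟨hu, hl1, h0, hD, hc, hσ, hlim, by simp, hδ,
      fun k => (hδ' k).trans (div_le_one_of_le₀ (hk1 k) (by positivity)), fun k => sq_nonneg _,
      fun k => le_rfl, hδ0, hA, hg, fun k => by simpa using sq_nonneg (δ k)⟩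
  obtain ⟨β, L, hL⟩ := lin_vec hLin hn hC hS hE
  set m : ℝ := (‖β‖ + ‖L‖) ^ 2 * (2 ^ (n + 1) * C) with hm
  have hm0 : 0 ≤ m := by positivity
  obtain ⟨k, hk⟩ := (hL (2 + 2 * m) (θ ^ (n + 2) / 2) (by positivity)).exists
  refine ⟨k, est (hu k) (by linarith) hD (hδ k) hθ hθ' (hy k) (ρ := 2 + 2 * m) (by linarith) ?_
    (hE k) (hk.trans (le_of_eq (by ring)))⟩
  rw [← mul_assoc, ← mul_assoc, mul_assoc _ _ C, ← hm, ← div_eq_mul_inv,
    div_le_iff₀ (by positivity)]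
  linarith

end Vale.Agent.P120.PropX

namespace Vale.Agent.P120

open MeasureTheory Metric Filter Module PropX
open scoped Topology ENNReal NNReal RealInnerProductSpace

theorem prop_pf (hLim : Lim_stmt) (hLimP : LimP_stmt) (hLimQ : LimQ_stmt) (hResc : Resc_stmt)
    (hFlat : FlatLim_stmt) (hCls : Cls_stmt) (hLin : Lin_stmt) : Prop_stmt := by
  intro V _ _ _ _ _ n C hn hC θ hθ hθ'
  by_contra hcon
  push Not at hcon
  have h1 : ∀ k : ℕ, ∃ δ : ℝ, 0 < δ ∧ δ ≤ 1 / ((k : ℝ) + 1) ∧ ∃ (ν : Measure V) (y : V) (s : ℝ),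
      0 < s ∧ Up n C ν ∧ Low n C (((k : ℝ) + 1) * s) ν ∧ BD n C ν ∧ y ∈ ν.support ∧
      Good n ν y s ((k : ℝ) + 1) (δ ^ 2) ∧ Exc n ν y s δ ∧
      ∃ y', dist y' y ≤ s ∧ ¬ Exc n ν y' (θ * s) δ := by
    intro k
    obtain ⟨δ, h1, h2, h3⟩ := hcon (1 / ((k : ℝ) + 1)) (by positivity)
    exact ⟨δ, h1, h2, h3 _ _ (le_add_of_nonneg_left (by positivity)) (by positivity)⟩
  choose δ hδ hδ' ν y s hs hu hl hb hy hg hE y' hy' hN using h1
  choose D p hD hE using hE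
  obtain ⟨hR, hO⟩ := hResc V n C hn hC
  choose O hO using fun k => hO (D k) (D 0) ((hD k).trans (hD 0).symm)
  have hR' := fun k => hR (O k) (y k) (s k) (ν k) (hs k)
  have e0 : ∀ k, sim (O k) (y k) (s k) (y k) = 0 := fun k => by simp [sim]
  obtain ⟨k, hk⟩ := core hLim hLimP hLimQ hFlat hCls hLin hn hC hθ hθ' (hD 0)
    (ν := fun k => resc n (O k) (y k) (s k) (ν k)) (p := fun k => sim (O k) (y k) (s k) (p k))
    (y := fun k => sim (O k) (y k) (s k) (y' k)) (δ := δ) (fun k => (hR' k).1 (hu k))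
    (fun k => by
      have := (hR' k).2.1 _ (hl k)
      rwa [mul_div_cancel_right₀ _ (hs k).ne'] at this)
    (fun k => (hR' k).2.2.1 (hb k))
    (fun k => by
      have := ((hR' k).2.2.2.1 (y k)).2 (hy k)
      rwa [e0] at this)
    (fun k => by
      have := (hR' k).2.2.2.2.1 _ _ _ _ (hg k)
      rwa [e0, div_self (hs k).ne'] at this)
    (fun k => by
      have := ((hR' k).2.2.2.2.2.1 _ _ _ _ _ (hs k)).1 (hE k)
      rwa [e0, div_self (hs k).ne', hO] at this)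
    hδ hδ'
    (fun k => by
      have := hy' k
      rw [dist_eq_norm] at this
      rw [sim, norm_smul, LinearIsometryEquiv.norm_map, norm_inv, Real.norm_of_nonneg (hs k).le,
        inv_mul_le_iff₀ (hs k), mul_one]
      exact this)
  refine hN k (((hR' k).2.2.2.2.2.2.1 (y' k) (θ * s k) (δ k) (mul_pos hθ (hs k))).2 ?_)
  rwa [mul_div_cancel_right₀ _ (hs k).ne']

end Vale.Agent.P120
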