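import Vale.Agent.P120.Bas

/-! P120: blow-up at a point touched by a ball in the complement. -/

namespace Vale.Agent.P120

open MeasureTheory Metric Filter Module
open scoped Topology ENNReal NNReal RealInnerProductSpace

namespace RedX

section ker
variable {V : Type} [NormedAddCommGroup V] [InnerProductSpace ℝ V] {n : ℕ} {ε : ℝ} {e : V}

/-- The component of the kernel along `e`. -/
noncomputable def ka (n : ℕ) (ε : ℝ) (e z : V) : ℝ := kr n ε z * ⟪z, e⟫

theorem ka_cont (hε : 0 < ε) : Continuous (ka n ε e) :=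
  (continuous_kr n hε).mul (continuous_id.inner continuous_const)

theorem ka_abs (he : ‖e‖ = 1) (z : V) : |ka n ε e z| ≤ kr n ε z * ‖z‖ := by
  rw [ka, abs_mul, abs_of_nonneg (kr_nonneg n ε z)]
  exact mul_le_mul_of_nonneg_left ((abs_real_inner_le_norm z e).trans_eq (by rw [he, mul_one]))
    (kr_nonneg n ε z)

theorem ka_le (hε : 0 < ε) (he : ‖e‖ = 1) (z : V) : |ka n ε e z| ≤ ε⁻¹ ^ n :=
  (ka_abs he z).trans (kr_mul_norm_le_eps hε z)

theorem ka_swap (x y : V) : ka n ε e (x - y) = -ka n ε e (y - x) := by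
  rw [ka, ka, kr_sub_comm, ← neg_sub y x, inner_neg_left, mul_neg]

theorem ka_far (hε : 0 < ε) (he : ‖e‖ = 1) {z z' : V} (h : 2 * ‖z - z'‖ ≤ ‖z‖) :
    |ka n ε e z - ka n ε e z'| ≤ cK n * ‖z - z'‖ * ‖z‖⁻¹ ^ (n + 1) := by
  refine le_trans ?_ (Kr_lip_far hε h)
  have := abs_real_inner_le_norm (kr n ε z • z - kr n ε z' • z') e
  rwa [he, mul_one, inner_sub_left, real_inner_smul_left, real_inner_smul_left] at this

end ker

variable {V : Type} [NormedAddCommGroup V] [InnerProductSpace ℝ V] [FiniteDimensional ℝ V]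
  [MeasurableSpace V] [BorelSpace V] {n : ℕ} {C ε r : ℝ} {ν : Measure V} {e q : V} {ψ : V → ℝ}

theorem sym (μ : Measure V) [IsFiniteMeasure μ] (hε : 0 < ε) (he : ‖e‖ = 1) (hψ : Continuous ψ)
    {M : ℝ} (hM : ∀ x, |ψ x| ≤ M) :
    2 * ∫ y, ∫ x, ka n ε e (x - y) * ψ x ∂μ ∂μ =
      ∫ y, ∫ x, (ka n ε e (x - y) * ψ x - ka n ε e (x - y) * ψ y) ∂μ ∂μ := by
  have hk : Continuous (ka n ε e) := ka_cont hε
  have h1 : Integrable (fun p : V × V => ka n ε e (p.2 - p.1) * ψ p.2) (μ.prod μ) :=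
    .of_bound (Continuous.aestronglyMeasurable (by fun_prop)) (ε⁻¹ ^ n * M)
      (Eventually.of_forall fun p => by
        rw [Real.norm_eq_abs, abs_mul]
        exact mul_le_mul (ka_le hε he _) (hM _) (abs_nonneg _) (by positivity))
  have h2 : Integrable (fun p : V × V => ka n ε e (p.2 - p.1) * ψ p.1) (μ.prod μ) :=
    .of_bound (Continuous.aestronglyMeasurable (by fun_prop)) (ε⁻¹ ^ n * M)
      (Eventually.of_forall fun p => by
        rw [Real.norm_eq_abs, abs_mul]
        exact mul_le_mul (ka_le hε he _) (hM _) (abs_nonneg _) (by positivity))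
  have h3 := integral_integral_swap (f := fun y x => ka n ε e (x - y) * ψ y) h2
  have h4 : ∫ x, ∫ y, ka n ε e (x - y) * ψ y ∂μ ∂μ =
      -∫ x, ∫ y, ka n ε e (y - x) * ψ y ∂μ ∂μ := by
    simp only [← integral_neg, ← neg_mul, ← ka_swap]
  rw [integral_integral_sub h1 h2, h3, h4]
  ring

/-- Normalised bump functions. -/
structure Bump (n : ℕ) (C : ℝ) (ν : Measure V) (q : V) (r : ℝ) (ψ : V → ℝ) : Prop where
  cont : Continuous ψ
  nonneg : ∀ x, 0 ≤ ψ x
  bdd : ∃ M, ∀ x, |ψ x| ≤ M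
  lip : ∀ x y, |ψ x - ψ y| ≤ C / r ^ (n + 1) * ‖x - y‖
  supp : ∀ x, 2 * r ≤ ‖x - q‖ → ψ x = 0
  int : Integrable ψ ν
  one : ∫ x, ψ x ∂ν = 1

theorem exists_bump (hC : 1 ≤ C) (h : Cl n C ν) (hq : q ∈ ν.support) (hr : 0 < r) :
    ∃ ψ, Bump n C ν q r ψ := by
  have := h.up.locFin
  have c0 : Continuous fun x : V => max (2 * r - ‖x - q‖) 0 := by fun_prop
  have s0 : ∀ x : V, 2 * r ≤ ‖x - q‖ → max (2 * r - ‖x - q‖) 0 = 0 := fun x hx =>
    max_eq_right (sub_nonpos.2 hx)
  have i0 : Integrable (fun x : V => max (2 * r - ‖x - q‖) 0) ν :=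
    c0.integrable_of_hasCompactSupport (.intro (isCompact_closedBall q (2 * r)) fun x hx =>
      s0 x (by rw [mem_closedBall, dist_eq_norm] at hx; exact (not_le.1 hx).le))
  have hm : r ^ (n + 1) / C ≤ ∫ x, max (2 * r - ‖x - q‖) 0 ∂ν := by
    have h1 : ∫ x, (ball q r).indicator (fun _ => r) x ∂ν ≤ ∫ x, max (2 * r - ‖x - q‖) 0 ∂ν := by
      refine integral_mono ((integrableOn_const measure_ball_lt_top.ne).integrable_indicator
        measurableSet_ball) i0 fun x => ?_
      by_cases hx : x ∈ ball q r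
      · rw [Set.indicator_of_mem hx]
        rw [mem_ball, dist_eq_norm] at hx
        exact le_max_of_le_left (by linarith)
      · rw [Set.indicator_of_notMem hx]
        exact le_max_right _ _
    rw [integral_indicator_const _ measurableSet_ball, smul_eq_mul] at h1
    refine le_trans ?_ h1
    rw [pow_succ, mul_div_right_comm]
    exact mul_le_mul_of_nonneg_right ((h.low r).real_ball h.up hq hr le_rfl) hr.le
  obtain ⟨m, hm'⟩ : ∃ m, m = ∫ x, max (2 * r - ‖x - q‖) 0 ∂ν := ⟨_, rfl⟩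
  rw [← hm'] at hm
  have hm0 : 0 < m := lt_of_lt_of_le (by positivity) hm
  refine ⟨fun x => m⁻¹ * max (2 * r - ‖x - q‖) 0, continuous_const.mul c0, fun x => by positivity,
    ⟨m⁻¹ * (2 * r), fun x => ?_⟩, fun x y => ?_, fun x hx => by simp only [s0 x hx, mul_zero],
    i0.const_mul _, by rw [integral_const_mul, ← hm', inv_mul_cancel₀ hm0.ne']⟩
  · rw [abs_of_nonneg (by positivity)]
    exact mul_le_mul_of_nonneg_left (max_le (sub_le_self _ (norm_nonneg _)) (by positivity))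
      (by positivity)
  · rw [← mul_sub, abs_mul, abs_of_pos (inv_pos.2 hm0)]
    refine mul_le_mul ?_ ((abs_max_sub_max_le_abs _ _ _).trans ?_) (abs_nonneg _) (by positivity)
    · rw [← inv_div]
      exact inv_anti₀ (by positivity) hm
    · rw [sub_sub_sub_cancel_left, abs_sub_comm]
      exact (abs_norm_sub_norm_le _ _).trans_eq (by rw [sub_sub_sub_cancel_right])

omit [FiniteDimensional ℝ V] in
theorem int_ka (hε : 0 < ε) (he : ‖e‖ = 1) (hψ : Integrable ψ ν) (y : V) :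
    Integrable (fun x => ka n ε e (x - y) * ψ x) ν :=
  hψ.bdd_mul (c := ε⁻¹ ^ n) ((ka_cont hε).comp (by fun_prop)).aestronglyMeasurable
    (Eventually.of_forall fun x => ka_le hε he _)

omit [FiniteDimensional ℝ V] [BorelSpace V] in
theorem Ti_eq (y : V) : Ti n ε ν (fun x => ψ x • e) y = ∫ x, ka n ε e (x - y) * ψ x ∂ν := by
  simp only [Ti, ka, real_inner_smul_right]
  congr 1
  funext x
  ring

theorem near (hn : 1 ≤ n) (hC : 0 ≤ C) (hu : Up n C ν) (hε : 0 < ε) (he : ‖e‖ = 1) (hr : 0 < r)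
    (hψ : Bump n C ν q r ψ) :
    |∫ y in ball q (4 * r), ∫ x, ka n ε e (x - y) * ψ x ∂ν ∂ν| ≤ 2 ^ (n + 1) * 8 * 4 ^ n * C ^ 3 := by
  have := hu.locFin
  have : IsFiniteMeasure (ν.restrict (ball q (4 * r))) := isFiniteMeasure_restrict.2
    measure_ball_lt_top.ne
  obtain ⟨M, hM⟩ := hψ.bdd
  have h1 : ∀ y, ∫ x, ka n ε e (x - y) * ψ x ∂ν =
      ∫ x in ball q (4 * r), ka n ε e (x - y) * ψ x ∂ν := fun y =>
    (setIntegral_eq_integral_of_forall_compl_eq_zero fun x hx => by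
      rw [mem_ball, dist_eq_norm, not_lt] at hx
      rw [hψ.supp x (by linarith), mul_zero]).symm
  have h2 : ∀ y ∈ ball q (4 * r),
      ‖∫ x in ball q (4 * r), (ka n ε e (x - y) * ψ x - ka n ε e (x - y) * ψ y) ∂ν‖ ≤
        C / r ^ (n + 1) * (2 ^ (n + 1) * C * (8 * r)) := by
    intro y hy
    obtain ⟨i1, i2⟩ := hu.near hn hC y (s := 8 * r) (by positivity)
    have hs : ball q (4 * r) ⊆ ball y (8 * r) := ball_subset_ball' (by
      rw [mem_ball] at hy; rw [dist_comm]; linarith)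
    refine (norm_integral_le_of_norm_le ((i1.mono_set hs).const_mul (C / r ^ (n + 1)))
      (Eventually.of_forall fun x => ?_)).trans ?_
    · rw [← mul_sub, Real.norm_eq_abs, abs_mul]
      refine (mul_le_mul (ka_abs he _) (hψ.lip x y) (abs_nonneg _)
        (mul_nonneg (kr_nonneg _ _ _) (norm_nonneg _))).trans ?_
      refine le_trans (le_of_eq (by ring)) (mul_le_mul_of_nonneg_left (kr_mul_sq_le hn ε (x - y))
        (by positivity))
    · rw [integral_const_mul]
      refine mul_le_mul_of_nonneg_left (le_trans ?_ i2) (by positivity)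
      exact setIntegral_mono_set i1 (Eventually.of_forall fun x => by positivity) hs.eventuallyLE
  have h3 := norm_setIntegral_le_of_norm_le_const (measure_ball_lt_top (μ := ν)) h2
  rw [← sym _ hε he hψ.cont hM, Real.norm_eq_abs, abs_mul, abs_two] at h3
  have h4 := h3.trans (mul_le_mul_of_nonneg_left (hu.real_ball hC q (r := 4 * r) (by positivity))
    (by positivity))
  have h5 : C / r ^ (n + 1) * (2 ^ (n + 1) * C * (8 * r)) * (C * (4 * r) ^ n) =
      2 ^ (n + 1) * 8 * 4 ^ n * C ^ 3 := by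
    rw [mul_pow, pow_succ r]
    field_simp
  simp only [h1]
  linarith [abs_nonneg (∫ y in ball q (4 * r), ∫ x in ball q (4 * r), ka n ε e (x - y) * ψ x ∂ν ∂ν)]

omit [FiniteDimensional ℝ V] in
theorem far (hε : 0 < ε) (he : ‖e‖ = 1) (hψ : Bump n C ν q r ψ) {y : V}
    (hy : y ∈ (ball q (4 * r))ᶜ) : ‖∫ x, ka n ε e (x - y) * ψ x ∂ν - ka n ε e (q - y)‖ ≤
      cK n * (2 * r) * ‖y - q‖⁻¹ ^ (n + 1) := by
  rw [Set.mem_compl_iff, mem_ball, dist_eq_norm, not_lt] at hy
  have hK := cK_pos n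
  have h1 : ∫ x, ka n ε e (x - y) * ψ x ∂ν - ka n ε e (q - y) =
      ∫ x, (ka n ε e (x - y) * ψ x - ka n ε e (q - y) * ψ x) ∂ν := by
    rw [integral_sub (int_ka hε he hψ.int y) (hψ.int.const_mul _), integral_const_mul, hψ.one,
      mul_one]
  rw [h1]
  refine (norm_integral_le_of_norm_le (hψ.int.const_mul (cK n * (2 * r) * ‖y - q‖⁻¹ ^ (n + 1)))
    (Eventually.of_forall fun x => ?_)).trans_eq (by rw [integral_const_mul, hψ.one, mul_one])
  rw [← sub_mul, Real.norm_eq_abs, abs_mul, abs_of_nonneg (hψ.nonneg x)]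
  rcases le_total (2 * r) ‖x - q‖ with hx | hx
  · rw [hψ.supp x hx, mul_zero, mul_zero]
  · refine mul_le_mul_of_nonneg_right ?_ (hψ.nonneg x)
    have e1 : ‖q - y - (x - y)‖ = ‖x - q‖ := by rw [sub_sub_sub_cancel_right, norm_sub_rev]
    have := ka_far (n := n) hε he (z := q - y) (z' := x - y)
      (by rw [e1, norm_sub_rev q]; linarith)
    rw [abs_sub_comm, e1, norm_sub_rev q] at this
    refine this.trans ?_
    gcongr

/-- The constant in the estimate of the averaged transform. -/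
noncomputable def c0 (n : ℕ) (C : ℝ) : ℝ := 2 ^ (n + 1) * 8 * 4 ^ n * C ^ 3 + cK n * 2 ^ n * C

theorem avg (hn : 1 ≤ n) (hC : 0 ≤ C) (hu : Up n C ν) (hε : 0 < ε) (he : ‖e‖ = 1) (hr : 0 < r)
    (hψ : Bump n C ν q r ψ) :
    Integrable (fun y => Ti n ε ν (fun x => ψ x • e) y -
      (ball q (4 * r))ᶜ.indicator (fun y => ka n ε e (q - y)) y) ν ∧
    |∫ y, (Ti n ε ν (fun x => ψ x • e) y -
      (ball q (4 * r))ᶜ.indicator (fun y => ka n ε e (q - y)) y) ∂ν| ≤ c0 n C := by
  classical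
  have := hu.locFin
  have hX : Integrable (fun x => ψ x • e) ν := hψ.int.smul_const e
  have hc : Continuous (Ti n ε ν fun x => ψ x • e) := continuous_Ti hε hX
  have hk : Continuous fun y => ka n ε e (q - y) := (ka_cont hε).comp (by fun_prop)
  obtain ⟨i1, i2⟩ := hu.far hC q (s := 4 * r) (by positivity) (a := 1) le_rfl
  have a1 : IntegrableOn (Ti n ε ν fun x => ψ x • e) (ball q (4 * r)) ν :=
    (hc.continuousOn.integrableOn_compact (isCompact_closedBall q (4 * r))).mono_set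
      ball_subset_closedBall
  have b2 : ∀ᵐ y ∂ν.restrict (ball q (4 * r))ᶜ, ‖Ti n ε ν (fun x => ψ x • e) y - ka n ε e (q - y)‖ ≤
      cK n * (2 * r) * ‖y - q‖⁻¹ ^ (n + 1) :=
    ae_restrict_of_forall_mem measurableSet_ball.compl fun y hy => by
      rw [Ti_eq]; exact far hε he hψ hy
  have a2 : IntegrableOn (fun y => Ti n ε ν (fun x => ψ x • e) y - ka n ε e (q - y))
      (ball q (4 * r))ᶜ ν := (i1.const_mul _).mono' (hc.sub hk).aestronglyMeasurable b2
  have e1 : (fun y => Ti n ε ν (fun x => ψ x • e) y -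
      (ball q (4 * r))ᶜ.indicator (fun y => ka n ε e (q - y)) y) =
      (ball q (4 * r)).piecewise (Ti n ε ν fun x => ψ x • e)
        fun y => Ti n ε ν (fun x => ψ x • e) y - ka n ε e (q - y) := by
    funext y
    by_cases hy : y ∈ ball q (4 * r) <;> simp [hy]
  rw [e1, integral_piecewise measurableSet_ball a1 a2]
  refine ⟨.piecewise measurableSet_ball a1 a2, (abs_add_le _ _).trans (add_le_add ?_ ?_)⟩
  · simp only [Ti_eq]
    exact near hn hC hu hε he hr hψ
  · refine (norm_integral_le_of_norm_le (i1.const_mul _) b2).trans ?_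
    rw [integral_const_mul]
    have := cK_pos n
    refine (mul_le_mul_of_nonneg_left i2 (by positivity)).trans_eq ?_
    rw [pow_succ]
    field_simp
    ring

theorem ann (hn : 1 ≤ n) (hC : 1 ≤ C) (h : Cl n C ν) (hq : q ∈ ν.support) (he : ‖e‖ = 1)
    (hr : 0 < r) (hr1 : r ≤ 1) : ∃ ε, 0 < ε ∧ ε < r ∧
    ∫ y in ball q 4 \ ball q (4 * r), ka n ε e (y - q) ∂ν ≤ 1 + 2 * c0 n C := by
  have := h.up.locFin
  obtain ⟨ψ, hψ⟩ := exists_bump hC h hq hr
  obtain ⟨φ, hφ⟩ := exists_bump hC h hq one_pos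
  have hX : LipschitzWith (C / r ^ (n + 1) + C / 1 ^ (n + 1)).toNNReal
      fun x => (ψ x - φ x) • e := LipschitzWith.of_dist_le' fun x y => by
    rw [dist_eq_norm, dist_eq_norm, ← sub_smul, norm_smul, he, mul_one, add_mul,
      sub_sub_sub_comm, Real.norm_eq_abs]
    exact (abs_sub _ _).trans (add_le_add (hψ.lip x y) (hφ.lip x y))
  have ht := h.rf _ _ hX (.intro (isCompact_closedBall q 2) fun x hx => by
      rw [mem_closedBall, dist_eq_norm, not_le] at hx
      rw [hψ.supp x (by linarith), hφ.supp x (by linarith), sub_self, zero_smul])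
    (by rw [integral_smul_const, integral_sub hψ.int hφ.int, hψ.one, hφ.one, sub_self, zero_smul])
  obtain ⟨ε, h1, h2, h3⟩ := ((ht.eventually (lt_mem_nhds (show (-1 : ℝ) < 0 by norm_num))).and
    (Ioo_mem_nhdsGT hr)).exists
  refine ⟨ε, h2, h3, ?_⟩
  obtain ⟨a1, b1⟩ := avg hn (by linarith) h.up h2 he hr hψ
  obtain ⟨a2, b2⟩ := avg hn (by linarith) h.up h2 he one_pos hφ
  have hk : Continuous fun y => ka n ε e (y - q) := (ka_cont h2).comp (by fun_prop)
  have hm : MeasurableSet (ball q 4 \ ball q (4 * r)) := measurableSet_ball.diff measurableSet_ball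
  have a3 : Integrable ((ball q 4 \ ball q (4 * r)).indicator fun y => ka n ε e (y - q)) ν :=
    ((hk.continuousOn.integrableOn_compact (isCompact_closedBall q 4)).mono_set
      (Set.sdiff_subset.trans ball_subset_closedBall)).integrable_indicator hm
  have e1 := integral_sub' (a1.sub a2) a3
  rw [integral_indicator hm, integral_sub' a1 a2] at e1
  have e3 : Tf n ε ν (fun x => (ψ x - φ x) • e) = _ := Eq.trans (by
    rw [Tf_eq]
    refine integral_congr_ae (Eventually.of_forall fun y => ?_)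
    have e2 : Ti n ε ν (fun x => (ψ x - φ x) • e) y =
        Ti n ε ν (fun x => ψ x • e) y - Ti n ε ν (fun x => φ x • e) y := by
      simp only [Ti_eq, mul_sub]
      exact integral_sub (int_ka h2 he hψ.int y) (int_ka h2 he hφ.int y)
    have hs : ball q (4 * r) ⊆ ball q 4 := ball_subset_ball (by linarith)
    simp only [e2, Pi.sub_apply, mul_one]
    by_cases y1 : y ∈ ball q (4 * r)
    · simp [y1, hs y1]
    · by_cases y2 : y ∈ ball q 4
      · simp only [Set.indicator_of_mem (Set.mem_compl y1),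
          Set.indicator_of_notMem (Set.notMem_compl_iff.2 y2),
          Set.indicator_of_mem (Set.mem_sdiff_of_mem y2 y1), ka_swap q y]
        ring
      · simp [y1, y2]) e1
  rw [e3] at h1
  linarith [(abs_le.1 b1).2, (abs_le.1 b2).1]

theorem intJ (hn : 1 ≤ n) (hC : 1 ≤ C) (h : Cl n C ν) (hq : q ∈ ν.support) (he : ‖e‖ = 1) {R : ℝ}
    (hR : 0 < R) (hs : ∀ y ∈ ν.support, 0 ≤ ‖y - q‖ ^ 2 + 2 * R * ⟪y - q, e⟫) :
    Integrable ((ball q 4).indicator fun y => ‖y - q‖⁻¹ ^ (n + 1) * |⟪y - q, e⟫|) ν := by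
  have := h.up.locFin
  have H : ∀ r : ℝ, ∃ ε, 0 < ε ∧ (0 < r → r ≤ 1 → ε < r ∧
      ∫ y in ball q 4 \ ball q (4 * r), ka n ε e (y - q) ∂ν ≤ 1 + 2 * c0 n C) := fun r => by
    by_cases hr : 0 < r ∧ r ≤ 1
    · obtain ⟨ε, h1, h2⟩ := ann hn hC h hq he hr.1 hr.2
      exact ⟨ε, h1, fun _ _ => h2⟩
    · exact ⟨1, one_pos, fun h1 h2 => absurd ⟨h1, h2⟩ hr⟩
  choose ε h0 hε using H
  have hev : ∀ᶠ r in 𝓝[>] (0 : ℝ), r ∈ Set.Ioc (0 : ℝ) 1 := Ioc_mem_nhdsGT one_pos
  have ht : Tendsto ε (𝓝[>] 0) (𝓝[>] 0) := tendsto_nhdsWithin_iff.2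
    ⟨tendsto_of_tendsto_of_tendsto_of_le_of_le' tendsto_const_nhds nhdsWithin_le_nhds
      (Eventually.of_forall fun r => (h0 r).le) (hev.mono fun r hr => (hε r hr.1 hr.2).1.le),
      Eventually.of_forall h0⟩
  have hk : ∀ r, Continuous fun y => ka n (ε r) e (y - q) := fun r =>
    (ka_cont (h0 r)).comp (by fun_prop)
  have hm : ∀ r, MeasurableSet (ball q 4 \ ball q (4 * r)) := fun r =>
    measurableSet_ball.diff measurableSet_ball
  have a3 : ∀ r, IntegrableOn (fun y => ka n (ε r) e (y - q)) (ball q 4 \ ball q (4 * r)) ν :=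
    fun r => ((hk r).continuousOn.integrableOn_compact (isCompact_closedBall q 4)).mono_set
      (Set.sdiff_subset.trans ball_subset_closedBall)
  obtain ⟨i1, i2⟩ := h.up.near hn (by linarith) q (s := 4) four_pos
  have key := Lp.eLpNorm_le_of_ae_tendsto (p := 1) (μ := ν) (u := 𝓝[>] (0 : ℝ))
    (f := fun r => (ball q 4 \ ball q (4 * r)).indicator fun y => |ka n (ε r) e (y - q)|)
    (g := (ball q 4).indicator fun y => ‖y - q‖⁻¹ ^ (n + 1) * |⟪y - q, e⟫|)
    (C := ENNReal.ofReal (1 + 2 * c0 n C + R⁻¹ * (2 ^ (n + 1) * C * 4)))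
    (hev.mono fun r hr => ?_) (fun r => (hk r).abs.aestronglyMeasurable.indicator (hm r))
    (Eventually.of_forall fun y => ?_)
  · refine memLp_one_iff_integrable.1 ⟨?_, key.trans_lt ENNReal.ofReal_lt_top⟩
    exact (Measurable.aestronglyMeasurable (by fun_prop)).indicator measurableSet_ball
  · rw [eLpNorm_indicator_eq_eLpNorm_restrict (hm r), eLpNorm_one_eq_lintegral_enorm,
      ← ofReal_integral_norm_eq_lintegral_enorm (a3 r).abs]
    refine ENNReal.ofReal_le_ofReal ?_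
    have i3 := i1.mono_set (Set.sdiff_subset (t := ball q (4 * r)))
    refine (integral_mono_ae (a3 r).abs.norm ((a3 r).add (i3.const_mul R⁻¹))
      (ae_restrict_of_ae ?_)).trans ?_
    · filter_upwards [ν.support_mem_ae] with y hy
      have h1 := hs y hy
      have h2 := kr_nonneg n (ε r) (y - q)
      have h3 : |⟪y - q, e⟫| ≤ ⟪y - q, e⟫ + R⁻¹ * ‖y - q‖ ^ 2 := by
        have h4 : 0 ≤ R⁻¹ * (‖y - q‖ ^ 2 + 2 * R * ⟪y - q, e⟫) := by positivity
        rw [mul_add, mul_assoc, mul_left_comm, inv_mul_cancel_left₀ hR.ne'] at h4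
        have h5 : 0 ≤ R⁻¹ * ‖y - q‖ ^ 2 := by positivity
        exact abs_le.2 ⟨by linarith, by linarith⟩
      have h4 := mul_le_mul_of_nonneg_left (kr_mul_sq_le hn (ε r) (y - q)) (inv_pos.2 hR).le
      rw [Real.norm_eq_abs, abs_abs, Pi.add_apply, ka, abs_mul, abs_of_nonneg h2]
      nlinarith [mul_le_mul_of_nonneg_left h3 h2]
    · rw [integral_add' (a3 r) (i3.const_mul R⁻¹), integral_const_mul]
      refine add_le_add (hε r hr.1 hr.2).2 (mul_le_mul_of_nonneg_left (le_trans ?_ i2)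
        (inv_pos.2 hR).le)
      exact setIntegral_mono_set i1 (Eventually.of_forall fun x => by positivity)
        Set.sdiff_subset.eventuallyLE
  · by_cases hy : y = q
    · simp [hy, ka, Set.indicator]
    have hy' := sub_ne_zero.2 hy
    by_cases y2 : y ∈ ball q 4
    · rw [Set.indicator_of_mem y2]
      refine ((((tendsto_kr hy').comp ht).mul_const _).congr' ?_)
      filter_upwards [Ioo_mem_nhdsGT (div_pos (norm_pos_iff.2 hy') four_pos)] with r hr
      rw [Set.indicator_of_mem (Set.mem_sdiff_of_mem y2 ?_), ka, abs_mul,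
        abs_of_nonneg (kr_nonneg _ _ _), Function.comp_apply]
      rw [mem_ball, dist_eq_norm, not_lt]
      linarith [hr.2]
    · simp [y2]

omit [FiniteDimensional ℝ V] in
theorem lim0 {b : ℝ} (hb : 0 < b) {β : V → ℝ} (hc : Continuous β) (h0 : ∀ y, 0 ≤ β y)
    (h1 : ∀ y, β y ≤ 1) (hs : ∀ y, b < ‖y‖ → β y = 0)
    (hJ : Integrable ((ball q 4).indicator fun y => ‖y - q‖⁻¹ ^ (n + 1) * |⟪y - q, e⟫|) ν) :
    Tendsto (fun s : ℝ => ∫ x, s⁻¹ ^ n * (β (s⁻¹ • (x - q)) * |⟪s⁻¹ • (x - q), e⟫|) ∂ν) (𝓝[>] 0)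
      (𝓝 0) := by
  have hz : ∀ (s : ℝ) (x : V), 0 < s → s * b < ‖x - q‖ → β (s⁻¹ • (x - q)) = 0 := by
    intro s x h2 h3
    refine hs _ ?_
    rwa [norm_smul, Real.norm_of_nonneg (inv_pos.2 h2).le, lt_inv_mul_iff₀ h2]
  have := tendsto_integral_filter_of_dominated_convergence (μ := ν) (l := 𝓝[>] (0 : ℝ))
    (F := fun s x => s⁻¹ ^ n * (β (s⁻¹ • (x - q)) * |⟪s⁻¹ • (x - q), e⟫|)) (f := fun _ => 0) _
    (Eventually.of_forall fun s => Continuous.aestronglyMeasurable (by fun_prop)) ?_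
    (hJ.const_mul (b ^ (n + 1))) (Eventually.of_forall fun x => ?_)
  · simpa using this
  · filter_upwards [Ioo_mem_nhdsGT (div_pos four_pos hb)] with s hs'
    refine Eventually.of_forall fun x => ?_
    have s0 := hs'.1
    have s1 := (lt_div_iff₀ hb).1 hs'.2
    rcases lt_or_ge (s * b) ‖x - q‖ with hx | hx
    · rw [hz s x s0 hx, zero_mul, mul_zero, norm_zero]
      exact mul_nonneg (by positivity) (Set.indicator_nonneg (fun _ _ => by positivity) x)
    · rw [Set.indicator_of_mem (by rw [mem_ball, dist_eq_norm]; linarith)]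
      rcases eq_or_ne (x - q) 0 with hx0 | hx0
      · simp [hx0]
      have h2 := norm_pos_iff.2 hx0
      have h3 : s⁻¹ ≤ b * ‖x - q‖⁻¹ := by
        rw [← div_eq_mul_inv, le_div_iff₀ h2, inv_mul_le_iff₀ s0]
        exact hx
      have h4 := h0 (s⁻¹ • (x - q))
      rw [Real.norm_of_nonneg (by positivity), real_inner_smul_left, abs_mul,
        abs_of_pos (inv_pos.2 s0), ← mul_assoc (b ^ (n + 1)), ← mul_pow]
      calc _ ≤ s⁻¹ ^ n * (1 * (s⁻¹ * |⟪x - q, e⟫|)) := by gcongr; exact h1 _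
        _ = s⁻¹ ^ (n + 1) * |⟪x - q, e⟫| := by ring
        _ ≤ _ := by gcongr
  · rcases eq_or_ne (x - q) 0 with hx0 | hx0
    · simp [hx0]
    refine tendsto_const_nhds.congr' ?_
    filter_upwards [Ioo_mem_nhdsGT (div_pos (norm_pos_iff.2 hx0) hb)] with s hs'
    rw [hz s x hs'.1 ((lt_div_iff₀ hb).1 hs'.2), zero_mul, mul_zero]

end RedX

theorem red_pf (h : Resc_stmt) : Red_stmt := by
  intro V _ _ _ _ _ n C hn hC ν hν q hq e R he hR hs U s s0 hs0 σ hσ hl y hy
  have := hσ.locFin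
  have c0 : Continuous fun x : V => max (1 - ‖x - y‖) 0 := by fun_prop
  have c1 : Continuous fun x : V => max (1 - ‖x - y‖) 0 * |⟪x, e⟫| := by fun_prop
  have k1 : HasCompactSupport fun x : V => max (1 - ‖x - y‖) 0 * |⟪x, e⟫| :=
    .intro (isCompact_closedBall y 1) fun x hx => by
      rw [mem_closedBall, dist_eq_norm, not_le] at hx
      rw [max_eq_right (sub_nonpos.2 hx.le), zero_mul]
  have h1 := (RedX.lim0 (b := ‖y‖ + 1) (by positivity) c0 (fun x => le_max_right _ _)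
    (fun x => max_le (sub_le_self _ (norm_nonneg _)) zero_le_one)
    (fun x hx => max_eq_right (by linarith [norm_sub_norm_le x y]))
    (RedX.intJ hn hC hν hq he hR hs)).comp
    (tendsto_nhdsWithin_iff.2 ⟨hs0, Eventually.of_forall s0⟩)
  have h2 := hl _ c1 k1
  have h3 : ∫ x, max (1 - ‖x - y‖) 0 * |⟪x, e⟫| ∂σ = 0 := by
    refine tendsto_nhds_unique h2 (h1.congr fun k => ?_)
    rw [((h V n C hn hC).1 _ q (s k) ν (s0 k)).2.2.2.2.2.2.2, ← integral_const_mul]
    rfl
  have h4 := eq_zero_of_integral c1 (fun x => by positivity)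
    (c1.integrable_of_hasCompactSupport k1) h3 hy
  simpa using h4

end Vale.Agent.P120
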