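import Vale.Agent.P120.BasK

/-! P120: invariance under similarities. -/

namespace Vale.Agent.P120

open MeasureTheory Metric Filter Module
open scoped Topology ENNReal NNReal RealInnerProductSpace

namespace RescX

variable {V : Type} [NormedAddCommGroup V] [InnerProductSpace ℝ V]
  (O : V ≃ₗᵢ[ℝ] V) (y : V) {s : ℝ}

theorem sim_sub (s : ℝ) (x x' : V) : sim O y s x - sim O y s x' = s⁻¹ • O (x - x') := by
  rw [sim, sim, ← smul_sub, ← map_sub, sub_sub_sub_cancel_right]

theorem norm_sim_sub (hs : 0 < s) (x x' : V) :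
    ‖sim O y s x - sim O y s x'‖ = s⁻¹ * ‖x - x'‖ := by
  rw [sim_sub, norm_smul, O.norm_map, Real.norm_eq_abs, abs_of_pos (inv_pos.2 hs)]

/-- The similarity as a homeomorphism. -/
noncomputable def simH (hs : 0 < s) : V ≃ₜ V where
  toFun := sim O y s
  invFun z := y + s • O.symm z
  left_inv x := by simp [sim, smul_smul, hs.ne']
  right_inv z := by simp [sim, smul_smul, hs.ne']
  continuous_toFun := by unfold sim; fun_prop
  continuous_invFun := by fun_prop

theorem sim_surj (hs : 0 < s) (z : V) : ∃ x, sim O y s x = z := (simH O y hs).surjective z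

theorem pre_ball (hs : 0 < s) (x : V) (r : ℝ) :
    sim O y s ⁻¹' ball (sim O y s x) r = ball x (s * r) := by
  ext z
  rw [Set.mem_preimage, mem_ball, mem_ball, dist_eq_norm, dist_eq_norm, norm_sim_sub O y hs,
    inv_mul_lt_iff₀ hs]

theorem kr_sim (hs : 0 < s) (n : ℕ) (ε : ℝ) (z : V) :
    kr n ε (s⁻¹ • O z) = s ^ (n + 1) * kr n (s * ε) z := by
  have e : ε ^ 2 + ‖s⁻¹ • O z‖ ^ 2 = s⁻¹ ^ 2 * ((s * ε) ^ 2 + ‖z‖ ^ 2) := by
    rw [norm_smul, O.norm_map, Real.norm_eq_abs, abs_of_pos (inv_pos.2 hs)]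
    field_simp
  rw [kr, kr, e, Real.sqrt_mul (sq_nonneg _), Real.sqrt_sq (inv_pos.2 hs).le, mul_inv, inv_inv,
    mul_pow]

theorem wt_sim (hs : 0 < s) (n : ℕ) (y' : V) (t : ℝ) (x : V) :
    wt n (sim O y s y') (t / s) (sim O y s x) = wt n y' t x := by
  rw [wt, wt, norm_sim_sub O y hs]
  congr 3
  by_cases ht : t = 0
  · simp [ht]
  · field_simp

variable [FiniteDimensional ℝ V] [MeasurableSpace V] [BorelSpace V] (n : ℕ) (ν : Measure V)

omit [FiniteDimensional ℝ V] in
theorem resc_apply (hs : 0 < s) (A : Set V) :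
    resc n O y s ν A = ENNReal.ofReal (s⁻¹ ^ n) * ν (sim O y s ⁻¹' A) := by
  rw [resc, Measure.smul_apply, smul_eq_mul]
  congr 1
  exact (simH O y hs).toMeasurableEquiv.map_apply A

omit [FiniteDimensional ℝ V] in
theorem integral_resc (hs : 0 < s) {E : Type} [NormedAddCommGroup E] [NormedSpace ℝ E]
    (f : V → E) : ∫ x, f x ∂resc n O y s ν = s⁻¹ ^ n • ∫ x, f (sim O y s x) ∂ν := by
  rw [resc, integral_smul_measure, ENNReal.toReal_ofReal (by positivity)]
  congr 1
  exact integral_map_equiv (simH O y hs).toMeasurableEquiv f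

omit [FiniteDimensional ℝ V] in
theorem lintegral_resc (hs : 0 < s) (f : V → ℝ≥0∞) :
    ∫⁻ x, f x ∂resc n O y s ν = ENNReal.ofReal (s⁻¹ ^ n) * ∫⁻ x, f (sim O y s x) ∂ν := by
  rw [resc, lintegral_smul_measure, smul_eq_mul]
  congr 1
  exact lintegral_map_equiv f (simH O y hs).toMeasurableEquiv

omit [FiniteDimensional ℝ V] in
theorem mem_supp (hs : 0 < s) (x : V) :
    sim O y s x ∈ (resc n O y s ν).support ↔ x ∈ ν.support := by
  have hc : ENNReal.ofReal (s⁻¹ ^ n) ≠ 0 := by
    rw [Ne, ENNReal.ofReal_eq_zero, not_le]; positivity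
  rw [Measure.mem_support_iff_forall, Measure.mem_support_iff_forall]
  constructor
  · intro h U hU
    have h1 := h (simH O y hs '' U) ((simH O y hs).isOpenMap.image_mem_nhds hU)
    rw [resc_apply O y n ν hs, ENNReal.mul_pos_iff] at h1
    have e : sim O y s ⁻¹' (simH O y hs '' U) = U := (simH O y hs).preimage_image U
    exact e ▸ h1.2
  · intro h U hU
    rw [resc_apply O y n ν hs]
    exact ENNReal.mul_pos hc (h _ ((simH O y hs).continuous.continuousAt.preimage_mem_nhds hU)).ne'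

omit [FiniteDimensional ℝ V] in
theorem up {C : ℝ} (hs : 0 < s) (h : Up n C ν) : Up n C (resc n O y s ν) := by
  intro z r hr
  obtain ⟨x, rfl⟩ := sim_surj O y hs z
  rw [resc_apply O y n ν hs, pre_ball O y hs]
  refine (mul_le_mul_right (h x _ (mul_pos hs hr)) _).trans (le_of_eq ?_)
  rw [← ENNReal.ofReal_mul (by positivity)]
  congr 1
  rw [mul_pow, inv_pow]
  field_simp

omit [FiniteDimensional ℝ V] in
theorem low {C R : ℝ} (hs : 0 < s) (h : Low n C R ν) : Low n C (R / s) (resc n O y s ν) := by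
  intro z hz r hr hR
  obtain ⟨x, rfl⟩ := sim_surj O y hs z
  rw [resc_apply O y n ν hs, pre_ball O y hs]
  refine le_trans (le_of_eq ?_) (mul_le_mul_right (h x ((mem_supp O y n ν hs x).1 hz) _
    (mul_pos hs hr) ((le_div_iff₀' hs).1 hR)) _)
  rw [← ENNReal.ofReal_mul (by positivity)]
  congr 1
  rw [mul_pow, inv_pow, mul_div_assoc, inv_mul_cancel_left₀ (by positivity)]

theorem rz (hs : 0 < s) (ε : ℝ) (f : V → ℝ) (x : V) :
    Rz n ε (resc n O y s ν) f (sim O y s x) = O (Rz n (s * ε) ν (fun z => f (sim O y s z)) x) := by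
  rw [Rz, integral_resc O y n ν hs, Rz, ← integral_smul]
  refine Eq.trans ?_ (O.toLinearIsometry.integral_comp_comm _)
  refine integral_congr_ae (Eventually.of_forall fun z => ?_)
  simp only [LinearIsometryEquiv.coe_toLinearIsometry, map_smul]
  rw [sim_sub, kr_sim O hs, smul_smul, smul_smul]
  congr 1
  rw [inv_pow]
  field_simp
  ring

theorem bd {C : ℝ} (hs : 0 < s) (h : BD n C ν) : BD n C (resc n O y s ν) := by
  intro ε hε f hf hc
  have h1 := h (s * ε) (mul_pos hs hε) (fun z => f (sim O y s z))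
    (hf.comp (simH O y hs).continuous) (hc.comp_homeomorph (simH O y hs))
  rw [lintegral_resc O y n ν hs, integral_resc O y n ν hs]
  simp only [rz O y n ν hs, LinearIsometryEquiv.enorm_map]
  refine (mul_le_mul_right h1 _).trans (le_of_eq ?_)
  rw [← ENNReal.ofReal_mul (by positivity), smul_eq_mul, mul_left_comm]

omit [FiniteDimensional ℝ V] in
theorem tf (hs : 0 < s) (ε : ℝ) (X : V → V) :
    Tf n ε (resc n O y s ν) X =
      s⁻¹ ^ (n + 1) * Tf n (s * ε) ν fun x => s • O.symm (X (sim O y s x)) := by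
  rw [Tf, integral_resc O y n ν hs, Tf, ← integral_smul, ← integral_const_mul]
  refine integral_congr_ae (Eventually.of_forall fun z => ?_)
  simp only
  rw [integral_resc O y n ν hs, ← integral_smul, ← integral_smul, ← integral_const_mul]
  refine integral_congr_ae (Eventually.of_forall fun x => ?_)
  simp only [smul_eq_mul]
  rw [sim_sub, kr_sim O hs, real_inner_smul_left, real_inner_smul_right,
    ← O.inner_map_map (x - z), O.apply_symm_apply, inv_pow, inv_pow]
  field_simp
  ring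

theorem good (hs : 0 < s) {y' : V} {t A η : ℝ} (h : Good n ν y' t A η) :
    Good n (resc n O y s ν) (sim O y s y') (t / s) A η := by
  intro X hX h0 hm
  have h1 := h (fun x => s • O.symm (X (sim O y s x))) (LipschitzWith.of_dist_le_mul fun x x' => by
      have h2 := hX.dist_le_mul (sim O y s x) (sim O y s x')
      rw [dist_eq_norm, dist_eq_norm, norm_sim_sub O y hs] at h2
      rw [dist_eq_norm, dist_eq_norm, ← smul_sub, ← map_sub, norm_smul, O.symm.norm_map,
        Real.norm_eq_abs, abs_of_pos hs]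
      rwa [mul_left_comm, le_inv_mul_iff₀ hs] at h2)
    (fun x hx => by
      rw [h0 (sim O y s x) (by
        rw [norm_sim_sub O y hs, ← mul_div_assoc, div_eq_inv_mul]
        exact mul_le_mul_of_nonneg_left hx (inv_pos.2 hs).le), map_zero, smul_zero])
    (by
      rw [integral_resc O y n ν hs, smul_eq_zero] at hm
      have h2 := O.symm.toLinearIsometry.integral_comp_comm (μ := ν) fun x => X (sim O y s x)
      simp only [LinearIsometryEquiv.coe_toLinearIsometry] at h2
      rw [integral_smul, h2, hm.resolve_left (by positivity), map_zero, smul_zero])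
  have h3 : Tendsto (fun ε : ℝ => s * ε) (𝓝[>] 0) (𝓝[>] 0) := by
    refine tendsto_nhdsWithin_iff.2 ⟨?_, eventually_mem_nhdsWithin.mono fun ε hε => mul_pos hs hε⟩
    have h4 : Tendsto (fun ε : ℝ => s * ε) (𝓝 0) (𝓝 (s * 0)) :=
      (continuous_const.mul continuous_id).tendsto 0
    rw [mul_zero] at h4
    exact h4.mono_left nhdsWithin_le_nhds
  refine (h3.eventually h1).mono fun ε hε => ?_
  rw [tf O y n ν hs, abs_mul, abs_of_pos (by positivity)]
  refine (mul_le_mul_of_nonneg_left hε (by positivity)).trans (le_of_eq ?_)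
  rw [div_eq_mul_inv, mul_pow]
  ring

theorem excD (hs : 0 < s) (y' : V) (t δ : ℝ) (D : Submodule ℝ V) (p : V) :
    ExcD n ν y' t δ D p ↔ ExcD n (resc n O y s ν) (sim O y s y') (t / s) δ
      (D.map (O.toLinearEquiv : V →ₗ[ℝ] V)) (sim O y s p) := by
  have e : ∀ x, ‖perp (D.map (O.toLinearEquiv : V →ₗ[ℝ] V)) (sim O y s x - sim O y s p)‖ ^ 2 *
      wt n (sim O y s y') (t / s) (sim O y s x) = s⁻¹ ^ 2 * (‖perp D (x - p)‖ ^ 2 * wt n y' t x) :=
    fun x => by
    rw [wt_sim O y hs, sim_sub, perp_smul, perp_map, norm_smul, O.norm_map, Real.norm_eq_abs,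
      mul_pow, sq_abs, mul_assoc]
  rw [ExcD, ExcD, integral_resc O y n ν hs]
  simp only [e]
  rw [integral_const_mul, smul_eq_mul, ← mul_assoc, ← pow_add, div_eq_inv_mul, mul_pow,
    mul_left_comm, mul_le_mul_iff_right₀ (by positivity)]

theorem exc (hs : 0 < s) (y' : V) (t δ : ℝ) :
    Exc n ν y' t δ ↔ Exc n (resc n O y s ν) (sim O y s y') (t / s) δ := by
  constructor
  · rintro ⟨D, p, h1, h2⟩
    exact ⟨_, _, (O.toLinearEquiv.finrank_map_eq D).trans h1, (excD O y n ν hs y' t δ D p).1 h2⟩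
  · rintro ⟨D, p, h1, h2⟩
    obtain ⟨p, rfl⟩ := sim_surj O y hs p
    have e : (D.map (O.symm.toLinearEquiv : V →ₗ[ℝ] V)).map (O.toLinearEquiv : V →ₗ[ℝ] V) = D := by
      rw [← Submodule.map_comp]
      convert Submodule.map_id D
      ext x
      simp
    refine ⟨D.map (O.symm.toLinearEquiv : V →ₗ[ℝ] V), p,
      (O.symm.toLinearEquiv.finrank_map_eq D).trans h1, (excD O y n ν hs y' t δ _ p).2 ?_⟩
    rwa [e]

omit [MeasurableSpace V] [BorelSpace V] in
theorem rot (D D₀ : Submodule ℝ V) (h : finrank ℝ D = finrank ℝ D₀) :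
    ∃ O : V ≃ₗᵢ[ℝ] V, D.map (O.toLinearEquiv : V →ₗ[ℝ] V) = D₀ := by
  obtain ⟨L, hL⟩ : ∃ L : D →ₗᵢ[ℝ] V, ∀ x, L x ∈ D₀ :=
    ⟨D₀.subtypeₗᵢ.comp ((stdOrthonormalBasis ℝ D).equiv (stdOrthonormalBasis ℝ D₀)
      (finCongr h)).toLinearIsometry, fun x => Subtype.property _⟩
  refine ⟨L.extend.toLinearIsometryEquiv rfl, Submodule.eq_of_le_of_finrank_eq ?_ ?_⟩
  · rintro _ ⟨x, hx, rfl⟩
    have h1 := hL ⟨x, hx⟩
    rw [← L.extend_apply] at h1
    exact h1
  · exact (LinearEquiv.finrank_map_eq _ D).trans h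

end RescX

open RescX in
theorem resc_pf : Resc_stmt := fun _ _ _ _ _ _ n _ _ _ =>
  ⟨fun O y _ ν hs => ⟨up O y n ν hs, fun _ => low O y n ν hs, bd O y n ν hs, mem_supp O y n ν hs,
    fun _ _ _ _ => good O y n ν hs, fun y' t δ D p _ => excD O y n ν hs y' t δ D p,
    fun y' t δ _ => exc O y n ν hs y' t δ, fun f => integral_resc O y n ν hs f⟩, rot⟩

end Vale.Agent.P120
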