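import Vale.Agent.P120.Bas

/-! P120: the tops of the tree have bounded total weight. -/

namespace Vale.Agent.P120

open MeasureTheory Metric Filter Module
open scoped Topology ENNReal NNReal RealInnerProductSpace

namespace TBX

section Lin
variable {V : Type} [NormedAddCommGroup V] [InnerProductSpace ℝ V] [FiniteDimensional ℝ V]

theorem solve {D D' : Submodule ℝ V} {γ : ℝ} (h : finrank ℝ D = finrank ℝ D') (hγ : 0 < γ)
    (hd : ¬ Deg γ D D') {ρ : V} (hρ : ρ ∈ D) :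
    ∃ u ∈ D', D.starProjection u = ρ ∧ γ * ‖u‖ ≤ ‖ρ‖ := by
  have hd' : ∀ u ∈ D', γ * ‖u‖ ≤ ‖D.starProjection u‖ := fun u hu =>
    not_lt.1 fun hl => hd ⟨u, hu, hl⟩
  let f : D' →ₗ[ℝ] D := LinearMap.codRestrict D
    ((D.starProjection : V →ₗ[ℝ] V) ∘ₗ D'.subtype) fun u => D.starProjection_apply_mem _
  have hf : ∀ u : D', (f u : V) = D.starProjection u := fun u => rfl
  have hi : Function.Injective f := by
    rw [← LinearMap.ker_eq_bot, LinearMap.ker_eq_bot']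
    intro u hu
    have h1 := hd' u u.2
    rw [← hf, hu] at h1
    have h2 : γ * ‖(u : V)‖ ≤ 0 := by simpa using h1
    have h3 : ‖(u : V)‖ ≤ 0 := by
      by_contra h4
      exact absurd h2 (not_le.2 (mul_pos hγ (not_le.1 h4)))
    exact Subtype.ext (norm_le_zero_iff.1 h3)
  obtain ⟨u, hu⟩ := (LinearMap.injective_iff_surjective_of_finrank_eq_finrank h.symm).1 hi ⟨ρ, hρ⟩
  have h5 : D.starProjection u = ρ := by rw [← hf, hu]
  exact ⟨u, u.2, h5, h5 ▸ hd' u u.2⟩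

theorem deg_symm {D D' : Submodule ℝ V} {γ : ℝ} (h : finrank ℝ D = finrank ℝ D') (hγ : 0 < γ)
    (hd : Deg γ D D') : Deg γ D' D := by
  by_contra hn
  obtain ⟨ρ, hρ, hl⟩ := hd
  obtain ⟨u, hu, h1, h2⟩ := solve h.symm hγ hn hρ
  have h3 : ‖ρ‖ ^ 2 ≤ ‖u‖ * ‖D.starProjection ρ‖ := by
    have e1 : ⟪D'.starProjection u, ρ⟫ = ⟪u, ρ⟫ := by
      rw [D'.inner_starProjection_left_eq_right, D'.starProjection_eq_self_iff.2 hρ]
    have e2 : ⟪u, D.starProjection ρ⟫ = ⟪u, ρ⟫ := by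
      rw [← D.inner_starProjection_left_eq_right, D.starProjection_eq_self_iff.2 hu]
    rw [← real_inner_self_eq_norm_sq]
    calc ⟪ρ, ρ⟫ = ⟪D'.starProjection u, ρ⟫ := by rw [h1]
      _ = ⟪u, D.starProjection ρ⟫ := by rw [e1, e2]
      _ ≤ _ := real_inner_le_norm _ _
  have h0 := norm_nonneg (D.starProjection ρ)
  have hp : 0 < ‖ρ‖ := by
    by_contra h4
    have : γ * ‖ρ‖ ≤ 0 := mul_nonpos_of_nonneg_of_nonpos hγ.le (not_lt.1 h4)
    linarith
  have h5 : γ * ‖ρ‖ ^ 2 ≤ ‖ρ‖ * ‖D.starProjection ρ‖ := by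
    calc γ * ‖ρ‖ ^ 2 ≤ γ * (‖u‖ * ‖D.starProjection ρ‖) := by gcongr
      _ = (γ * ‖u‖) * ‖D.starProjection ρ‖ := by ring
      _ ≤ _ := by gcongr
  nlinarith [mul_lt_mul_of_pos_left hl hp]

theorem exists_dir {D D' : Submodule ℝ V} {γ : ℝ} (h : finrank ℝ D = finrank ℝ D') (hγ : 0 < γ)
    (hd : Deg γ D D') : ∃ v : D, ‖v‖ = 1 ∧ ∀ x, |⟪(v : V), x⟫| ≤ γ * ‖x‖ + ‖perp D' x‖ := by
  obtain ⟨u, hu, hl⟩ := deg_symm h hγ hd
  have h0 := norm_nonneg (D'.starProjection u)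
  have hp : 0 < ‖u‖ := by
    by_contra h4
    have : γ * ‖u‖ ≤ 0 := mul_nonpos_of_nonneg_of_nonpos hγ.le (not_lt.1 h4)
    linarith
  have hv : ‖‖u‖⁻¹ • u‖ = 1 := by
    rw [norm_smul, norm_inv, norm_norm, inv_mul_cancel₀ hp.ne']
  have hP : ‖D'.starProjection (‖u‖⁻¹ • u)‖ ≤ γ := by
    rw [map_smul, norm_smul, norm_inv, norm_norm, inv_mul_le_iff₀ hp]
    linarith
  refine ⟨⟨‖u‖⁻¹ • u, D.smul_mem _ hu⟩, hv, fun x => ?_⟩
  show |⟪‖u‖⁻¹ • u, x⟫| ≤ _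
  generalize ‖u‖⁻¹ • u = v at hv hP
  have e : ⟪v, x⟫ = ⟪D'.starProjection v, x⟫ + ⟪v, perp D' x⟫ := by
    rw [D'.inner_starProjection_left_eq_right, ← inner_add_right, perp, add_sub_cancel]
  rw [e]
  refine (abs_add_le _ _).trans (add_le_add ?_ ?_)
  · exact (abs_real_inner_le_norm _ _).trans (by gcongr)
  · simpa [hv] using abs_real_inner_le_norm v (perp D' x)

end Lin

section Vol
variable {Z : Type} [NormedAddCommGroup Z] [InnerProductSpace ℝ Z] [FiniteDimensional ℝ Z]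
  [MeasurableSpace Z] [BorelSpace Z]

/-- A slab inside a ball. -/
def slab (c v : Z) (r γ : ℝ) : Set Z := {z | ‖z - c‖ ≤ 2 * r ∧ |⟪v, z - c⟫| ≤ 3 * γ * r}

omit [FiniteDimensional ℝ Z] [MeasurableSpace Z] [BorelSpace Z] in
theorem slab_sub (c v : Z) (r γ : ℝ) : slab c v r γ ⊆ closedBall c (2 * r) := fun z hz => by
  rw [mem_closedBall, dist_eq_norm]; exact hz.1

theorem slab_vol (μ : Measure Z) [μ.IsAddHaarMeasure] (c v : Z) (hv : ‖v‖ = 1) {r γ : ℝ}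
    (hr : 0 < r) (hγ : 0 < γ) :
    μ.real (slab c v r γ) ≤ γ * ((9 * r) ^ finrank ℝ Z * μ.real (ball 0 1)) := by
  have hcl : IsClosed (slab c v r γ) := by
    have h1 : IsClosed {z : Z | ‖z - c‖ ≤ 2 * r} := isClosed_le (by fun_prop) continuous_const
    have h2 : IsClosed {z : Z | |⟪v, z - c⟫| ≤ 3 * γ * r} :=
      isClosed_le (by fun_prop) continuous_const
    exact h1.inter h2
  let S : ℕ → Set Z := fun k => (fun z => z + (-(7 * γ * r * k)) • v) ⁻¹' slab c v r γ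
  have hS : ∀ k, μ (S k) = μ (slab c v r γ) := fun k => measure_preimage_add_right μ _ _
  have hfin : μ (slab c v r γ) ≠ ∞ :=
    ((measure_mono (slab_sub c v r γ)).trans_lt measure_closedBall_lt_top).ne
  have hin : ∀ k z, z ∈ S k → |⟪v, z - c⟫ - 7 * γ * r * k| ≤ 3 * γ * r := by
    intro k z hz
    have h1 := hz.2
    have e : z + (-(7 * γ * r * k)) • v - c = (z - c) + (-(7 * γ * r * k)) • v := by abel
    rw [e, inner_add_right, real_inner_smul_right, real_inner_self_eq_norm_sq, hv] at h1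
    rwa [show ⟪v, z - c⟫ - 7 * γ * r * k = ⟪v, z - c⟫ + -(7 * γ * r * k) * 1 ^ 2 by ring]
  have hgr : 0 < γ * r := mul_pos hγ hr
  have hdis : Set.PairwiseDisjoint (↑(Finset.range ⌈1 / γ⌉₊) : Set ℕ) S := by
    intro k _ l _ hkl
    refine Set.disjoint_left.2 fun z h1 h2 => hkl ?_
    have h3 := abs_le.1 (hin k z h1)
    have h4 := abs_le.1 (hin l z h2)
    by_contra hne
    rcases lt_or_gt_of_ne hne with h | h
    · have : (k : ℝ) + 1 ≤ l := by exact_mod_cast h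
      nlinarith [h3.1, h3.2, h4.1, h4.2, mul_le_mul_of_nonneg_left this hgr.le]
    · have : (l : ℝ) + 1 ≤ k := by exact_mod_cast h
      nlinarith [h3.1, h3.2, h4.1, h4.2, mul_le_mul_of_nonneg_left this hgr.le]
  have hsub : (⋃ k ∈ Finset.range ⌈1 / γ⌉₊, S k) ⊆ closedBall c (9 * r) := by
    intro z hz
    obtain ⟨k, hk, hz⟩ := Set.mem_iUnion₂.1 hz
    have hk1 : (k : ℝ) < 1 / γ := Nat.lt_ceil.1 (Finset.mem_range.1 hk)
    have hk2 : γ * k ≤ 1 := by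
      rw [lt_div_iff₀ hγ] at hk1; linarith
    have h1 := hz.1
    have e : z - c = (z + (-(7 * γ * r * k)) • v - c) + (7 * γ * r * k) • v := by
      rw [neg_smul]; abel
    rw [mem_closedBall, dist_eq_norm, e]
    refine (norm_add_le _ _).trans ?_
    have h0 : 0 ≤ 7 * γ * r * k := by positivity
    rw [norm_smul, hv, Real.norm_eq_abs, abs_of_nonneg h0]
    nlinarith [mul_le_mul_of_nonneg_left hk2 hr.le]
  have hm := measureReal_mono hsub (measure_closedBall_lt_top (μ := μ)).ne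
  rw [measureReal_biUnion_finset hdis
    (fun k _ => (hcl.preimage (by fun_prop)).measurableSet) (fun k _ => (hS k) ▸ hfin),
    Measure.addHaar_real_closedBall μ c (by positivity)] at hm
  have hS' : ∀ k, μ.real (S k) = μ.real (slab c v r γ) := fun k => by
    rw [measureReal_def, measureReal_def, hS]
  simp only [hS', Finset.sum_const, Finset.card_range, nsmul_eq_mul] at hm
  have h1 : 1 ≤ γ * ⌈1 / γ⌉₊ := by
    have := Nat.le_ceil (1 / γ)
    rw [div_le_iff₀ hγ] at this; linarith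
  have h2 : 0 ≤ μ.real (slab c v r γ) := measureReal_nonneg
  nlinarith [mul_le_mul_of_nonneg_left hm hγ.le, mul_le_mul_of_nonneg_left h1 h2]

end Vol

theorem cover_count {ι κ Z : Type} [DecidableEq κ] [MeasurableSpace Z] (μ : Measure Z)
    (U : Finset ι) (G : ι → κ) (B : κ → Set Z) (S : Set Z) (h : ι → ℝ) (hS : ∀ z ∈ S, ∃ ω ∈ U, z ∈ B (G ω))
    (hfin : ∀ ω ∈ U, μ (B (G ω)) ≠ ∞)
    (hB : ∀ ω ∈ U, μ.real (B (G ω)) ≤ ∑ ω' ∈ U with G ω' = G ω, h ω') :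
    μ.real S ≤ ∑ ω ∈ U, h ω := by
  have h1 : S ⊆ ⋃ g ∈ U.image G, B g := fun z hz => by
    obtain ⟨ω, hω, hz⟩ := hS z hz
    exact Set.mem_iUnion₂.2 ⟨G ω, Finset.mem_image_of_mem G hω, hz⟩
  have h2 : μ (⋃ g ∈ U.image G, B g) ≠ ∞ := by
    refine ((measure_biUnion_finset_le _ _).trans_lt ?_).ne
    refine ENNReal.sum_lt_top.2 fun g hg => ?_
    obtain ⟨ω, hω, rfl⟩ := Finset.mem_image.1 hg
    exact (hfin ω hω).lt_top
  refine (measureReal_mono h1 h2).trans ((measureReal_biUnion_finset_le _ _).trans ?_)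
  rw [← Finset.sum_fiberwise_of_maps_to (fun ω hω => Finset.mem_image_of_mem G hω) h]
  refine Finset.sum_le_sum fun g hg => ?_
  obtain ⟨ω, hω, rfl⟩ := Finset.mem_image.1 hg
  exact hB ω hω

theorem fib_nonneg {ι κ : Type} [DecidableEq κ] (U : Finset ι) (G : ι → κ) (h : ι → ℝ)
    (hB : ∀ ω ∈ U, 0 ≤ ∑ ω' ∈ U with G ω' = G ω, h ω') : 0 ≤ ∑ ω ∈ U, h ω := by
  rw [← Finset.sum_fiberwise_of_maps_to (fun ω hω => Finset.mem_image_of_mem G hω) h]
  refine Finset.sum_nonneg fun g hg => ?_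
  obtain ⟨ω, hω, rfl⟩ := Finset.mem_image.1 hg
  exact hB ω hω

section Tau
variable {V : Type} [NormedAddCommGroup V] [InnerProductSpace ℝ V] [FiniteDimensional ℝ V]
  {par : ℕ → V → V} {W : ℕ → V → Prop} {D : ℕ → V → Submodule ℝ V} {γ : ℝ}

theorem tau_le (j : ℕ) (z : V) : (tau par W D γ j z).1 ≤ j := by
  induction j generalizing z with
  | zero => simp [tau]
  | succ j ih =>
    rw [tau]
    split_ifs
    · exact le_rfl
    · exact (ih _).trans (Nat.le_succ j)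

theorem top_zero (z : V) : IsTop par W D γ 0 z := by simp [IsTop, tau]

theorem top_succ (j : ℕ) (z : V) : IsTop par W D γ (j + 1) z ↔ (W j (par j z) ∨ W (j + 1) z ∨
    Deg γ (D (tau par W D γ j (par j z)).1 (tau par W D γ j (par j z)).2) (D (j + 1) z)) := by
  rw [IsTop, tau]
  split_ifs with h
  · simpa using h
  · simp only [h, iff_false]
    exact (Nat.lt_succ_of_le (tau_le _ _)).ne

theorem tau_top {j : ℕ} {z : V} (h : IsTop par W D γ j z) : tau par W D γ j z = (j, z) := by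
  cases j with
  | zero => simp [tau]
  | succ j => rw [tau, if_pos ((top_succ j z).1 h)]

theorem tau_not {j : ℕ} {z : V} (h : ¬ IsTop par W D γ (j + 1) z) :
    tau par W D γ (j + 1) z = tau par W D γ j (par j z) := by
  rw [tau, if_neg (fun h' => h ((top_succ j z).2 h'))]

end Tau

section Tree
variable {V : Type} [NormedAddCommGroup V] [InnerProductSpace ℝ V] [FiniteDimensional ℝ V]

/-- The standing hypotheses. -/
structure Ctx (n : ℕ) (E : Set V) (C θ r₀ γ ε : ℝ) (x₀ : V) (J : ℕ) (Ω : Finset V)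
    (a par : ℕ → V → V) (W : ℕ → V → Prop) (D : ℕ → V → Submodule ℝ V) : Prop where
  T : TreeP n E C θ r₀ x₀ J Ω a par
  H : ∀ ω ∈ Ω, ∀ j ≤ J, ¬ W j (a j ω) → j < J ∧ θ ^ J ≤ ε * θ ^ j ∧
    BF n E (a j ω) (θ ^ j * r₀) ε (D j (a j ω))
  t0 : 0 < θ
  t1 : θ ≤ 1 / 100
  g0 : 0 < γ
  g1 : γ ≤ 1
  e0 : 0 < ε
  e1 : ε ≤ γ * θ / 100
  r0 : 0 < r₀

/-- The level of the next top below level `i` along the branch of `ω`. -/
noncomputable def nx (a par : ℕ → V → V) (W : ℕ → V → Prop) (D : ℕ → V → Submodule ℝ V) (γ : ℝ)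
    (i : ℕ) (ω : V) : ℕ := sInf {j | i < j ∧ IsTop par W D γ j (a j ω)}

/-- The node at level `j` is not wild and is degenerate with respect to `D₀`. -/
def Bad (W : ℕ → V → Prop) (D : ℕ → V → Submodule ℝ V) (γ : ℝ) (D₀ : Submodule ℝ V) (j : ℕ)
    (y : V) : Prop := ¬ W j y ∧ Deg γ D₀ (D j y)

variable {n : ℕ} {E : Set V} {C θ r₀ γ ε : ℝ} {x₀ : V} {J : ℕ} {Ω : Finset V}
  {a par : ℕ → V → V} {W : ℕ → V → Prop} {D : ℕ → V → Submodule ℝ V}

theorem nx_le {i j : ℕ} {ω : V} (h : i < j) (ht : IsTop par W D γ j (a j ω)) :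
    nx a par W D γ i ω ≤ j := Nat.sInf_le ⟨h, ht⟩

theorem nx_mem {i j : ℕ} {ω : V} (h : i < j) (ht : IsTop par W D γ j (a j ω)) :
    i < nx a par W D γ i ω ∧
      IsTop par W D γ (nx a par W D γ i ω) (a (nx a par W D γ i ω) ω) :=
  Nat.sInf_mem (s := {j | i < j ∧ IsTop par W D γ j (a j ω)}) ⟨j, h, ht⟩

theorem rsucc (θ r₀ : ℝ) (k : ℕ) : θ ^ (k + 1) * r₀ = θ * (θ ^ k * r₀) := by ring

namespace Ctx
variable (X : Ctx n E C θ r₀ γ ε x₀ J Ω a par W D)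
include X

theorem rpos (k : ℕ) : 0 < θ ^ k * r₀ := mul_pos (pow_pos X.t0 k) X.r0

theorem ranti {k j : ℕ} (h : k ≤ j) : θ ^ j * r₀ ≤ θ ^ k * r₀ :=
  mul_le_mul_of_nonneg_right (pow_le_pow_of_le_one X.t0.le (by linarith [X.t1]) h) X.r0.le

theorem anc_dist {ω : V} (hω : ω ∈ Ω) {k j : ℕ} (h : k ≤ j) (hj : j ≤ J) :
    dist (a j ω) (a k ω) ≤ 3 / 2 * (θ ^ k * r₀ - θ ^ j * r₀) := by
  induction j, h using Nat.le_induction with
  | base => simp
  | succ j h ih =>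
    have h1 := ih (Nat.le_of_succ_le hj)
    have h2 := X.T.near ω hω j hj
    have h3 := dist_triangle (a (j + 1) ω) (a j ω) (a k ω)
    have h4 := X.rpos j
    rw [rsucc]
    nlinarith [mul_le_mul_of_nonneg_right X.t1 h4.le]

theorem leaf_dist {ω : V} (hω : ω ∈ Ω) {k : ℕ} (h : k ≤ J) :
    ‖ω - a k ω‖ ≤ 3 / 2 * (θ ^ k * r₀) := by
  have h1 := X.anc_dist hω h le_rfl
  rw [X.T.leaf ω hω, dist_eq_norm] at h1
  linarith [X.rpos J]

theorem anc_eq {ω ω' : V} (hω : ω ∈ Ω) (hω' : ω' ∈ Ω) {k j : ℕ} (h : k ≤ j) (hj : j ≤ J)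
    (e : a j ω' = a j ω) : a k ω' = a k ω := by
  induction j, h using Nat.le_induction with
  | base => exact e
  | succ j h ih =>
    refine ih (Nat.le_of_succ_le hj) ?_
    rw [X.T.step ω hω j hj, X.T.step ω' hω' j hj, e]

theorem top_iff {ω : V} (hω : ω ∈ Ω) {j : ℕ} (hj : j < J) :
    IsTop par W D γ (j + 1) (a (j + 1) ω) ↔ (W j (a j ω) ∨ W (j + 1) (a (j + 1) ω) ∨
    Deg γ (D (tau par W D γ j (a j ω)).1 (tau par W D γ j (a j ω)).2)
      (D (j + 1) (a (j + 1) ω))) := by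
  rw [top_succ, ← X.T.step ω hω j hj]

theorem top_last {ω : V} (hω : ω ∈ Ω) : IsTop par W D γ J (a J ω) := by
  rcases Nat.eq_zero_or_pos J with h | h
  · rw [h]; exact top_zero _
  · obtain ⟨j, hj⟩ : ∃ j, J = j + 1 := ⟨J - 1, by omega⟩
    have hW : W J (a J ω) := by
      by_contra hn
      exact lt_irrefl _ (X.H ω hω J le_rfl hn).1
    have := (X.top_iff hω (j := j) (by omega)).2 (Or.inr (Or.inl (hj ▸ hW)))
    rwa [← hj] at this

theorem tau_eq {ω : V} (hω : ω ∈ Ω) {i k : ℕ} (hi : IsTop par W D γ i (a i ω)) (h : i ≤ k)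
    (hk : k ≤ J) (hn : ∀ j, i < j → j ≤ k → ¬ IsTop par W D γ j (a j ω)) :
    tau par W D γ k (a k ω) = (i, a i ω) := by
  induction k, h using Nat.le_induction with
  | base => exact tau_top hi
  | succ k h ih =>
    rw [tau_not (hn _ (Nat.lt_succ_of_le h) le_rfl), ← X.T.step ω hω k hk]
    exact ih (Nat.le_of_succ_le hk) fun j h1 h2 => hn j h1 (Nat.le_succ_of_le h2)

theorem nx_spec {ω : V} (hω : ω ∈ Ω) {i : ℕ} (h : i < J) :
    i < nx a par W D γ i ω ∧ nx a par W D γ i ω ≤ J :=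
  ⟨(nx_mem h (X.top_last hω)).1, nx_le h (X.top_last hω)⟩

theorem nx_eq {ω ω' : V} (hω : ω ∈ Ω) (hω' : ω' ∈ Ω) {i : ℕ} (h : i < J)
    (e : a (nx a par W D γ i ω) ω' = a (nx a par W D γ i ω) ω) :
    nx a par W D γ i ω' = nx a par W D γ i ω := by
  obtain ⟨h1, h2⟩ := nx_mem h (X.top_last hω)
  have h3 : nx a par W D γ i ω' ≤ nx a par W D γ i ω := nx_le h1 (e ▸ h2)
  obtain ⟨h4, h5⟩ := nx_mem h (X.top_last hω')
  refine le_antisymm h3 (nx_le h4 ?_)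
  rwa [← X.anc_eq hω hω' h3 (X.nx_spec hω h).2 e]

theorem step {ω₀ ω : V} (h₀ : ω₀ ∈ Ω) (hω : ω ∈ Ω) {i k : ℕ} (hik : i ≤ k) (hk : k ≤ J)
    (hW : ¬ W k (a k ω)) {p u : V} (hp : p ∈ E) (hpy : ‖p - a k ω‖ ≤ 2 * (θ ^ k * r₀))
    (hu : u ∈ D k (a k ω)) (hu' : ‖u‖ ≤ θ ^ k * r₀ / 20)
    (hpt : dist p (a i ω₀) ≤ (θ ^ i * r₀ - θ ^ k * r₀) / 5) :
    ∃ ω' ∈ Ω, a i ω' = a i ω₀ ∧ dist ω' (a i ω₀) ≤ (θ ^ i * r₀ - θ ^ (k + 1) * r₀) / 5 ∧
      ‖ω' - (p + u)‖ ≤ γ * (θ ^ (k + 1) * r₀) / 20 := by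
  obtain ⟨hkJ, hJ, -, hb1, hb2⟩ := X.H ω hω k hk hW
  have hr := X.rpos k
  have hri := X.ranti hik
  have hJ' : θ ^ J * r₀ ≤ ε * (θ ^ k * r₀) := by
    rw [← mul_assoc]; exact mul_le_mul_of_nonneg_right hJ X.r0.le
  have he : ε * (θ ^ k * r₀) ≤ γ * (θ * (θ ^ k * r₀)) / 100 := by
    have := mul_le_mul_of_nonneg_right X.e1 hr.le
    linarith
  have ht : θ * (θ ^ k * r₀) ≤ θ ^ k * r₀ / 100 := by
    have := mul_le_mul_of_nonneg_right X.t1 hr.le
    linarith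
  have ht0 : 0 < θ * (θ ^ k * r₀) := mul_pos X.t0 hr
  have hg : γ * (θ * (θ ^ k * r₀)) ≤ θ * (θ ^ k * r₀) := by
    have := mul_le_mul_of_nonneg_right X.g1 ht0.le
    linarith
  rw [rsucc]
  generalize θ * (θ ^ k * r₀) = s' at he ht hg ht0 ⊢
  have hg0 := mul_pos X.g0 ht0
  have h1 := hb1 p hp (by linarith)
  have hw : ‖(D k (a k ω)).starProjection (p - a k ω) + u‖ ≤ 10 * (θ ^ k * r₀) := by
    have := norm_add_le ((D k (a k ω)).starProjection (p - a k ω)) u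
    have := (D k (a k ω)).norm_starProjection_apply_le (p - a k ω)
    linarith
  obtain ⟨x, hx, h2⟩ := hb2 _ ((D k (a k ω)).add_mem (Submodule.starProjection_apply_mem _ _) hu) hw
  have h3 : ‖x - (p + u)‖ ≤ 2 * (ε * (θ ^ k * r₀)) := by
    have e : x - (p + u) = (x - (a k ω + ((D k (a k ω)).starProjection (p - a k ω) + u))) -
        perp (D k (a k ω)) (p - a k ω) := by
      rw [perp]; abel
    rw [e]
    linarith [norm_sub_le (x - (a k ω + ((D k (a k ω)).starProjection (p - a k ω) + u)))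
      (perp (D k (a k ω)) (p - a k ω))]
  have h4 : dist (p + u) p = ‖u‖ := by rw [dist_eq_norm, add_sub_cancel_left]
  have h5 := dist_triangle4 x (p + u) p (a i ω₀)
  rw [h4, dist_eq_norm x (p + u)] at h5
  obtain ⟨ω', hω', h6⟩ := X.T.cov ω₀ h₀ i J (by omega) le_rfl x hx (by linarith)
  rw [X.T.leaf ω' hω'] at h6
  have h7 := dist_triangle ω' x (a i ω₀)
  have h8 := dist_triangle ω' x (p + u)
  rw [dist_comm ω' x] at h7 h8
  rw [dist_eq_norm, dist_eq_norm x (p + u)] at h8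
  refine ⟨ω', hω', X.T.inner ω₀ h₀ ω' hω' i J (by omega) le_rfl ?_, by linarith, by linarith⟩
  rw [X.T.leaf ω' hω']
  linarith

theorem cover_aux {ω₀ : V} (h₀ : ω₀ ∈ Ω) {i : ℕ} (hi : i ≤ J)
    (hT : IsTop par W D γ i (a i ω₀)) (hW : ¬ W i (a i ω₀)) {z : V} (hz : z ∈ D i (a i ω₀))
    (hz' : ‖z‖ ≤ θ ^ i * r₀ / 20) {k : ℕ} (hk : i + 1 ≤ k) (hkJ : k ≤ J) :
    ∃ ω ∈ Ω, a i ω = a i ω₀ ∧ ((nx a par W D γ i ω ≤ k ∧
      ‖z - (D i (a i ω₀)).starProjection (ω - a i ω₀)‖ ≤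
        γ * (θ ^ nx a par W D γ i ω * r₀) / 20) ∨
      (dist ω (a i ω₀) ≤ (θ ^ i * r₀ - θ ^ k * r₀) / 5 ∧
      ‖z - (D i (a i ω₀)).starProjection (ω - a i ω₀)‖ ≤ γ * (θ ^ k * r₀) / 20)) := by
  induction k, hk using Nat.le_induction with
  | base =>
    obtain ⟨ω, hω, h1, h2, h3⟩ := X.step h₀ h₀ le_rfl hi hW (X.T.mem ω₀ h₀ i hi)
      (by simpa using (X.rpos i).le) hz hz' (by simp)
    refine ⟨ω, hω, h1, Or.inr ⟨h2, le_trans ?_ h3⟩⟩
    have e : z - (D i (a i ω₀)).starProjection (ω - a i ω₀) =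
        (D i (a i ω₀)).starProjection (-(ω - (a i ω₀ + z))) := by
      rw [show -(ω - (a i ω₀ + z)) = z - (ω - a i ω₀) by abel, map_sub _ z,
        Submodule.starProjection_eq_self_iff.2 hz]
    rw [e, ← norm_neg (ω - (a i ω₀ + z))]
    exact Submodule.norm_starProjection_apply_le _ _
  | succ k hk ih =>
    obtain ⟨ω, hω, h1, h2⟩ := ih (Nat.le_of_succ_le hkJ)
    rcases h2 with h2 | ⟨h2, h3⟩
    · exact ⟨ω, hω, h1, Or.inl ⟨Nat.le_succ_of_le h2.1, h2.2⟩⟩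
    by_cases hx : nx a par W D γ i ω ≤ k
    · refine ⟨ω, hω, h1, Or.inl ⟨Nat.le_succ_of_le hx, h3.trans ?_⟩⟩
      have := mul_le_mul_of_nonneg_left (X.ranti hx) X.g0.le
      linarith
    have hn : ∀ j, i < j → j ≤ k → ¬ IsTop par W D γ j (a j ω) := fun j h4 h5 h6 =>
      hx ((nx_le h4 h6).trans h5)
    obtain ⟨k, rfl⟩ : ∃ k', k = k' + 1 := ⟨k - 1, by omega⟩
    have h4 := hn (k + 1) (by omega) le_rfl
    rw [X.top_iff hω (by omega), X.tau_eq hω (h1 ▸ hT) (by omega : i ≤ k) (by omega)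
      fun j h5 h6 => hn j h5 (by omega), not_or, not_or, h1] at h4
    obtain ⟨-, hW', hD⟩ := h4
    have hf : finrank ℝ (D i (a i ω₀)) = finrank ℝ (D (k + 1) (a (k + 1) ω)) :=
      (X.H ω₀ h₀ i hi hW).2.2.1.trans (X.H ω hω (k + 1) (by omega) hW').2.2.1.symm
    obtain ⟨u, hu, h5, h6⟩ := solve hf X.g0 hD ((D i (a i ω₀)).sub_mem hz
      (Submodule.starProjection_apply_mem _ (ω - a i ω₀)))
    have h7 : ‖u‖ ≤ θ ^ (k + 1) * r₀ / 20 := by
      refine le_of_mul_le_mul_left ?_ X.g0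
      linarith
    have hE : ω ∈ E := by
      have := X.T.mem ω hω J le_rfl
      rwa [X.T.leaf ω hω] at this
    obtain ⟨ω', hω', h8, h9, h10⟩ := X.step h₀ hω (by omega : i ≤ k + 1) (by omega) hW' hE
      (by linarith [X.leaf_dist hω (by omega : k + 1 ≤ J), X.rpos (k + 1)]) hu h7 h2
    refine ⟨ω', hω', h8, Or.inr ⟨h9, le_trans ?_ h10⟩⟩
    have e : z - (D i (a i ω₀)).starProjection (ω' - a i ω₀) =
        (D i (a i ω₀)).starProjection (-(ω' - (ω + u))) := by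
      rw [show -(ω' - (ω + u)) = u + (ω - a i ω₀) - (ω' - a i ω₀) by abel, map_sub _ (u + _),
        map_add, h5, sub_add_cancel]
    rw [e, ← norm_neg (ω' - (ω + u))]
    exact Submodule.norm_starProjection_apply_le _ _

theorem cover {ω₀ : V} (h₀ : ω₀ ∈ Ω) {i : ℕ} (hi : i ≤ J)
    (hT : IsTop par W D γ i (a i ω₀)) (hW : ¬ W i (a i ω₀)) {z : V} (hz : z ∈ D i (a i ω₀))
    (hz' : ‖z‖ ≤ θ ^ i * r₀ / 20) :
    ∃ ω ∈ Ω, a i ω = a i ω₀ ∧ ‖z - (D i (a i ω₀)).starProjection (ω - a i ω₀)‖ ≤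
      γ * (θ ^ nx a par W D γ i ω * r₀) / 20 := by
  have hiJ := (X.H ω₀ h₀ i hi hW).1
  obtain ⟨ω, hω, h1, h2⟩ := X.cover_aux h₀ hi hT hW hz hz' hiJ le_rfl
  refine ⟨ω, hω, h1, ?_⟩
  rcases h2 with h2 | h2
  · exact h2.2
  · have := mul_le_mul_of_nonneg_left (X.ranti (X.nx_spec hω hiJ).2) X.g0.le
    linarith [h2.2]

theorem exists_piece (D₀ : Submodule ℝ V) [MeasurableSpace D₀] [BorelSpace D₀] (μ : Measure D₀)
    [μ.IsAddHaarMeasure] (hn : finrank ℝ D₀ = n) (t : V) {ω : V} (hω : ω ∈ Ω) {j : ℕ}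
    (hj : j ≤ J) : ∃ B : Set D₀, μ B ≠ ∞ ∧
      (μ.real B ≤ (2 * (θ ^ j * r₀)) ^ n * μ.real (ball 0 1)) ∧
      (Bad W D γ D₀ j (a j ω) → μ.real B ≤ γ * ((9 * (θ ^ j * r₀)) ^ n * μ.real (ball 0 1))) ∧
      ∀ ω' ∈ Ω, a j ω' = a j ω → ∀ z : D₀,
        ‖(z : V) - D₀.starProjection (ω' - t)‖ ≤ γ * (θ ^ j * r₀) / 20 → z ∈ B := by
  have hr := X.rpos j
  have hg : γ * (θ ^ j * r₀) ≤ θ ^ j * r₀ := by
    have := mul_le_mul_of_nonneg_right X.g1 hr.le
    linarith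
  let c : D₀ := ⟨D₀.starProjection (a j ω - t), Submodule.starProjection_apply_mem _ _⟩
  have e : ∀ (ω' : V) (z : D₀), ((z - c : D₀) : V) = ((z : V) - D₀.starProjection (ω' - t)) +
      D₀.starProjection (ω' - a j ω) := fun ω' z => by
    show (z : V) - D₀.starProjection (a j ω - t) = _
    rw [map_sub, map_sub, map_sub]; abel
  have hc : ∀ ω' ∈ Ω, a j ω' = a j ω → ∀ z : D₀,
      ‖(z : V) - D₀.starProjection (ω' - t)‖ ≤ γ * (θ ^ j * r₀) / 20 →
      ‖z - c‖ ≤ 2 * (θ ^ j * r₀) := by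
    intro ω' hω' h1 z hz
    have h2 := X.leaf_dist hω' hj
    rw [h1] at h2
    rw [Submodule.coe_norm, e ω' z]
    have h3 := D₀.norm_starProjection_apply_le (ω' - a j ω)
    linarith [norm_add_le ((z : V) - D₀.starProjection (ω' - t)) (D₀.starProjection (ω' - a j ω))]
  have hb : μ.real (closedBall c (2 * (θ ^ j * r₀))) =
      (2 * (θ ^ j * r₀)) ^ n * μ.real (ball 0 1) := by
    rw [Measure.addHaar_real_closedBall μ c (by positivity), hn]
  by_cases hB : Bad W D γ D₀ j (a j ω)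
  · obtain ⟨-, -, hf, hb1, -⟩ := X.H ω hω j hj hB.1
    obtain ⟨v, hv, hv'⟩ := exists_dir (hn.trans hf.symm) X.g0 hB.2
    refine ⟨slab c v (θ ^ j * r₀) γ,
      ((measure_mono (slab_sub _ _ _ _)).trans_lt measure_closedBall_lt_top).ne,
      hb ▸ measureReal_mono (slab_sub _ _ _ _) measure_closedBall_lt_top.ne,
      fun _ => hn ▸ slab_vol μ c v hv hr X.g0, fun ω' hω' h1 z hz => ⟨hc ω' hω' h1 z hz, ?_⟩⟩
    have h2 := X.leaf_dist hω' hj
    rw [h1] at h2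
    have hE : ω' ∈ E := by
      have := X.T.mem ω' hω' J le_rfl
      rwa [X.T.leaf ω' hω'] at this
    have h3 := hb1 ω' hE (by linarith)
    have h4 := hv' (ω' - a j ω)
    have h5 := abs_real_inner_le_norm (v : V) ((z : V) - D₀.starProjection (ω' - t))
    rw [← Submodule.coe_norm, hv, one_mul] at h5
    have h6 := mul_le_mul_of_nonneg_left h2 X.g0.le
    have h7 : ε * (θ ^ j * r₀) ≤ γ * (θ ^ j * r₀) := by
      refine mul_le_mul_of_nonneg_right (X.e1.trans ?_) hr.le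
      nlinarith [mul_le_mul_of_nonneg_left X.t1 X.g0.le, X.g0]
    rw [Submodule.coe_inner, e ω' z, inner_add_right, ← D₀.inner_starProjection_left_eq_right,
      D₀.starProjection_eq_self_iff.2 v.2]
    have h8 := mul_pos X.g0 hr
    linarith [abs_add_le ⟪(v : V), (z : V) - D₀.starProjection (ω' - t)⟫ ⟪(v : V), ω' - a j ω⟫]
  · refine ⟨closedBall c (2 * (θ ^ j * r₀)), measure_closedBall_lt_top.ne, hb.le,
      fun h => absurd h hB, fun ω' hω' h1 z hz => ?_⟩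
    rw [mem_closedBall, dist_eq_norm]
    exact hc ω' hω' h1 z hz

open Classical in
theorem key [MeasurableSpace V] [BorelSpace V] (hC : 1 ≤ C) {ω₀ : V} (h₀ : ω₀ ∈ Ω) {i : ℕ}
    (hi : i ≤ J) (hT : IsTop par W D γ i (a i ω₀)) (hW : ¬ W i (a i ω₀)) :
    (θ ^ i / 20) ^ n ≤ ∑ ω ∈ Ω with a i ω = a i ω₀, C * (θ ^ J) ^ n *
      (if Bad W D γ (D i (a i ω₀)) (nx a par W D γ i ω) (a (nx a par W D γ i ω) ω)
        then γ * 9 ^ n else 2 ^ n) := by
  obtain ⟨hiJ, -, hn, -⟩ := X.H ω₀ h₀ i hi hW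
  set D₀ := D i (a i ω₀) with hD₀
  let μ : Measure D₀ := volume
  have hb : 0 < μ.real (ball 0 1) :=
    ENNReal.toReal_pos (measure_ball_pos μ _ one_pos).ne' measure_ball_lt_top.ne
  have hP : ∀ g : ℕ × V, ∃ B : Set D₀, ∀ ω ∈ Ω, g.1 ≤ J → a g.1 ω = g.2 → μ B ≠ ∞ ∧
      (μ.real B ≤ (2 * (θ ^ g.1 * r₀)) ^ n * μ.real (ball 0 1)) ∧
      (Bad W D γ D₀ g.1 g.2 → μ.real B ≤ γ * ((9 * (θ ^ g.1 * r₀)) ^ n * μ.real (ball 0 1))) ∧
      ∀ z : D₀, ‖(z : V) - D₀.starProjection (ω - a i ω₀)‖ ≤ γ * (θ ^ g.1 * r₀) / 20 → z ∈ B := by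
    rintro ⟨j, y⟩
    by_cases h : ∃ ω ∈ Ω, j ≤ J ∧ a j ω = y
    · obtain ⟨ω, hω, hj, rfl⟩ := h
      obtain ⟨B, h1, h2, h3, h4⟩ := X.exists_piece D₀ μ hn (a i ω₀) hω hj
      exact ⟨B, fun ω' hω' _ e => ⟨h1, h2, h3, h4 ω' hω' e⟩⟩
    · exact ⟨∅, fun ω hω h1 h2 => absurd ⟨ω, hω, h1, h2⟩ h⟩
  choose B hB using hP
  have hr := X.rpos i
  have hrn : 0 < r₀ ^ n * μ.real (ball 0 1) := mul_pos (pow_pos X.r0 n) hb
  have hθ := X.t0
  have hγ := X.g0
  have main := cover_count μ (Ω.filter fun ω => a i ω = a i ω₀)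
    (fun ω => (nx a par W D γ i ω, a (nx a par W D γ i ω) ω)) B (closedBall 0 (θ ^ i * r₀ / 20))
    (fun ω => (r₀ ^ n * μ.real (ball 0 1)) * (C * (θ ^ J) ^ n *
      (if Bad W D γ D₀ (nx a par W D γ i ω) (a (nx a par W D γ i ω) ω)
        then γ * 9 ^ n else 2 ^ n))) ?_ ?_ ?_
  · rw [Measure.addHaar_real_closedBall μ _ (by positivity), hn, ← Finset.mul_sum] at main
    refine le_of_mul_le_mul_left (le_trans (le_of_eq ?_) main) hrn
    rw [div_pow, div_pow, mul_pow]; ring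
  · intro z hz
    rw [mem_closedBall_zero_iff] at hz
    obtain ⟨ω, hω, h1, h2⟩ := X.cover h₀ hi hT hW z.2 hz
    exact ⟨ω, Finset.mem_filter.2 ⟨hω, h1⟩,
      (hB (_, _) ω hω (X.nx_spec hω hiJ).2 rfl).2.2.2 z h2⟩
  · intro ω hω
    have hω' := (Finset.mem_filter.1 hω).1
    exact (hB (_, _) ω hω' (X.nx_spec hω' hiJ).2 rfl).1
  · intro ω hω
    obtain ⟨hω', e⟩ := Finset.mem_filter.1 hω
    obtain ⟨h1, h2⟩ := X.nx_spec hω' hiJ
    obtain ⟨-, h3, h4, -⟩ := hB (nx a par W D γ i ω, a (nx a par W D γ i ω) ω) ω hω' h2 rfl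
    have h5 := X.T.mass_lo ω hω' _ h2
    have hsub : (Ω.filter fun ω' => a (nx a par W D γ i ω) ω' = a (nx a par W D γ i ω) ω) ⊆
        (Ω.filter fun ω => a i ω = a i ω₀).filter fun ω' =>
          (nx a par W D γ i ω', a (nx a par W D γ i ω') ω') =
            (nx a par W D γ i ω, a (nx a par W D γ i ω) ω) := by
      intro ω' h
      obtain ⟨h6, h7⟩ := Finset.mem_filter.1 h
      refine Finset.mem_filter.2 ⟨Finset.mem_filter.2 ⟨h6, ?_⟩, ?_⟩
      · rw [X.anc_eq hω' h6 h1.le h2 h7, e]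
      · rw [X.nx_eq hω' h6 hiJ h7, h7]
    have h6 : ((Ω.filter fun ω' => a (nx a par W D γ i ω) ω' = a (nx a par W D γ i ω) ω).card : ℝ)
        ≤ _ := Nat.cast_le.2 (Finset.card_le_card hsub)
    rw [Finset.sum_congr rfl (g := fun _ => (r₀ ^ n * μ.real (ball 0 1)) * (C * (θ ^ J) ^ n *
      (if Bad W D γ D₀ (nx a par W D γ i ω) (a (nx a par W D γ i ω) ω)
        then γ * 9 ^ n else 2 ^ n))) (fun ω' h => by
          have h7 := (Finset.mem_filter.1 h).2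
          rw [(Prod.mk.inj h7).2, (Prod.mk.inj h7).1]), Finset.sum_const, nsmul_eq_mul]
    have h7 := h5.trans (mul_le_mul_of_nonneg_left
      (mul_le_mul_of_nonneg_right h6 (by positivity)) (by linarith))
    generalize (Finset.card _ : ℝ) = m at h7 ⊢
    dsimp only at h3 h4
    split_ifs with hbad
    · refine (h4 hbad).trans ?_
      calc _ = (r₀ ^ n * μ.real (ball 0 1)) * (γ * 9 ^ n) * (θ ^ nx a par W D γ i ω) ^ n := by
            rw [mul_pow, mul_pow]; ring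
        _ ≤ (r₀ ^ n * μ.real (ball 0 1)) * (γ * 9 ^ n) * (C * (m * (θ ^ J) ^ n)) := by gcongr
        _ = _ := by ring
    · refine h3.trans ?_
      calc _ = (r₀ ^ n * μ.real (ball 0 1)) * 2 ^ n * (θ ^ nx a par W D γ i ω) ^ n := by
            rw [mul_pow, mul_pow]; ring
        _ ≤ (r₀ ^ n * μ.real (ball 0 1)) * 2 ^ n * (C * (m * (θ ^ J) ^ n)) := by gcongr
        _ = _ := by ring

open Classical in
theorem key2 [MeasurableSpace V] [BorelSpace V] (hC : 1 ≤ C) (hγ : γ * (2 * C ^ 2 * 180 ^ n) ≤ 1)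
    {ω₀ : V} (h₀ : ω₀ ∈ Ω) {i : ℕ}
    (hi : i ≤ J) (hT : IsTop par W D γ i (a i ω₀)) (hW : ¬ W i (a i ω₀)) :
    0 ≤ ∑ ω ∈ Ω with a i ω = a i ω₀, ((2 * C ^ 2 * 40 ^ n) *
      (if Bad W D γ (D i (a i ω₀)) (nx a par W D γ i ω) (a (nx a par W D γ i ω) ω)
        then (0 : ℝ) else 1) - 1) := by
  have h1 := X.key hC h₀ hi hT hW
  have h2 := X.T.mass_up ω₀ h₀ i hi
  have hτ : 0 < (θ ^ J) ^ n := pow_pos (pow_pos X.t0 J) n
  have hg := X.g0
  have h3 : ∑ ω ∈ Ω with a i ω = a i ω₀, C * (θ ^ J) ^ n *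
      (if Bad W D γ (D i (a i ω₀)) (nx a par W D γ i ω) (a (nx a par W D γ i ω) ω)
        then γ * 9 ^ n else 2 ^ n) ≤ ∑ ω ∈ Ω with a i ω = a i ω₀, C * (θ ^ J) ^ n *
      (γ * 9 ^ n + 2 ^ n *
        (if Bad W D γ (D i (a i ω₀)) (nx a par W D γ i ω) (a (nx a par W D γ i ω) ω)
        then (0 : ℝ) else 1)) := by
    refine Finset.sum_le_sum fun ω _ => mul_le_mul_of_nonneg_left ?_ (by positivity)
    split_ifs
    · simp
    · have : 0 ≤ γ * 9 ^ n := by positivity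
      linarith
  have h4 := h1.trans h3
  rw [← Finset.mul_sum, Finset.sum_add_distrib, Finset.sum_const, ← Finset.mul_sum,
    nsmul_eq_mul] at h4
  rw [Finset.sum_sub_distrib, ← Finset.mul_sum, Finset.sum_const, nsmul_eq_mul, mul_one]
  have hm : (0 : ℝ) ≤ (Ω.filter fun ω => a i ω = a i ω₀).card := Nat.cast_nonneg _
  generalize ((Ω.filter fun ω => a i ω = a i ω₀).card : ℝ) = m at h2 h4 hm ⊢
  generalize (Finset.sum _ _ : ℝ) = N at h4 ⊢
  rw [div_pow, div_le_iff₀ (by positivity)] at h4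
  have h5 : m * (θ ^ J) ^ n ≤ (C * (C * (m * (γ * 9 ^ n) + 2 ^ n * N) * 20 ^ n)) * (θ ^ J) ^ n := by
    have := mul_le_mul_of_nonneg_left h4 (by linarith : 0 ≤ C)
    linarith
  have h6 := le_of_mul_le_mul_right h5 hτ
  have e1 : (180 : ℝ) ^ n = 9 ^ n * 20 ^ n := by rw [← mul_pow]; norm_num
  have e2 : (40 : ℝ) ^ n = 2 ^ n * 20 ^ n := by rw [← mul_pow]; norm_num
  rw [e1] at hγ
  rw [e2]
  have h7 := mul_le_mul_of_nonneg_left hγ hm
  linarith

open Classical in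
theorem level [MeasurableSpace V] [BorelSpace V] (hC : 1 ≤ C)
    (hγ : γ * (2 * C ^ 2 * 180 ^ n) ≤ 1) {i : ℕ} (hi : i ≤ J) :
    0 ≤ ∑ ω ∈ Ω, ((2 * C ^ 2 * 40 ^ n - 1) * (if IsTop par W D γ i (a i ω) then (1 : ℝ) else 0) -
      (2 * C ^ 2 * 40 ^ n) * (if IsTop par W D γ i (a i ω) ∧ ¬ W i (a i ω) ∧
        Bad W D γ (D i (a i ω)) (nx a par W D γ i ω) (a (nx a par W D γ i ω) ω)
        then (1 : ℝ) else 0)) := by
  have hK : (1 : ℝ) ≤ 2 * C ^ 2 * 40 ^ n := by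
    have h1 : (1 : ℝ) ≤ 40 ^ n := one_le_pow₀ (by norm_num)
    have h2 : (1 : ℝ) ≤ C ^ 2 := one_le_pow₀ hC
    nlinarith
  refine fib_nonneg Ω (a i) _ fun ω₀ h₀ => ?_
  by_cases h : IsTop par W D γ i (a i ω₀) ∧ ¬ W i (a i ω₀)
  · refine (X.key2 hC hγ h₀ hi h.1 h.2).trans (le_of_eq (Finset.sum_congr rfl fun ω hω => ?_))
    rw [(Finset.mem_filter.1 hω).2, if_pos h.1]
    by_cases hb : Bad W D γ (D i (a i ω₀)) (nx a par W D γ i ω) (a (nx a par W D γ i ω) ω)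
    · rw [if_pos hb, if_pos ⟨h.1, h.2, hb⟩]; ring
    · rw [if_neg hb, if_neg fun h' => hb h'.2.2]; ring
  · refine Finset.sum_nonneg fun ω hω => ?_
    rw [(Finset.mem_filter.1 hω).2, if_neg (c := _ ∧ _) fun h' => h ⟨h'.1, h'.2.1⟩]
    split_ifs <;> linarith

omit X in
theorem exists_prev {ω : V} (j : ℕ) : ∃ i ≤ j, IsTop par W D γ i (a i ω) ∧
    ∀ k, i < k → k ≤ j → ¬ IsTop par W D γ k (a k ω) := by
  classical
  refine ⟨Nat.findGreatest (fun i => IsTop par W D γ i (a i ω)) j, Nat.findGreatest_le j,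
    Nat.findGreatest_spec (P := fun i => IsTop par W D γ i (a i ω)) (Nat.zero_le j) (top_zero _),
    fun k h1 h2 => Nat.findGreatest_is_greatest (P := fun i => IsTop par W D γ i (a i ω)) h1 h2⟩

open Classical in
theorem leaf_count {ω : V} (hω : ω ∈ Ω) : lev J a (IsTop par W D γ) ω ≤ 1 + 2 * lev J a W ω +
    ((Finset.range (J + 1)).filter fun i => IsTop par W D γ i (a i ω) ∧ ¬ W i (a i ω) ∧
      Bad W D γ (D i (a i ω)) (nx a par W D γ i ω) (a (nx a par W D γ i ω) ω)).card := by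
  unfold lev
  set A := (Finset.range (J + 1)).filter fun j => W j (a j ω) with hA
  set Y := (Finset.range (J + 1)).filter fun i => IsTop par W D γ i (a i ω) ∧ ¬ W i (a i ω) ∧
      Bad W D γ (D i (a i ω)) (nx a par W D γ i ω) (a (nx a par W D γ i ω) ω) with hY
  have hsub : ((Finset.range (J + 1)).filter fun j => IsTop par W D γ j (a j ω)) ⊆
      (({0} ∪ A.image Nat.succ) ∪ A) ∪ Y.image fun i => nx a par W D γ i ω := by
    intro j hj
    obtain ⟨h1, h2⟩ := Finset.mem_filter.1 hj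
    have hjJ : j ≤ J := Nat.lt_succ_iff.1 (Finset.mem_range.1 h1)
    simp only [Finset.mem_union, Finset.mem_singleton, Finset.mem_image]
    cases j with
    | zero => exact Or.inl (Or.inl (Or.inl rfl))
    | succ j =>
      by_cases hW1 : W j (a j ω)
      · exact Or.inl (Or.inl (Or.inr
          ⟨j, Finset.mem_filter.2 ⟨Finset.mem_range.2 (by omega), hW1⟩, rfl⟩))
      by_cases hW2 : W (j + 1) (a (j + 1) ω)
      · exact Or.inl (Or.inr (Finset.mem_filter.2 ⟨h1, hW2⟩))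
      obtain ⟨i, hi, h3, h4⟩ := exists_prev (a := a) (par := par) (W := W) (D := D) (γ := γ) (ω := ω) j
      have h5 := (X.top_iff hω hjJ).1 h2
      rw [X.tau_eq hω h3 hi (by omega) h4] at h5
      have h6 : Deg γ (D i (a i ω)) (D (j + 1) (a (j + 1) ω)) :=
        (h5.resolve_left hW1).resolve_left hW2
      have h7 : nx a par W D γ i ω = j + 1 := by
        obtain ⟨h8, h9⟩ := nx_mem (Nat.lt_succ_of_le hi) h2
        refine le_antisymm (nx_le (Nat.lt_succ_of_le hi) h2) ?_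
        by_contra h10
        exact h4 _ h8 (by omega) h9
      have h8 : ¬ W i (a i ω) := by
        rcases eq_or_lt_of_le hi with h | h
        · rwa [h]
        · exact fun h9 => h4 (i + 1) (by omega) h ((X.top_iff hω (by omega)).2 (Or.inl h9))
      refine Or.inr ⟨i, Finset.mem_filter.2 ⟨Finset.mem_range.2 (by omega), h3, h8, ?_⟩, h7⟩
      rw [h7]; exact ⟨hW2, h6⟩
  have h1 := Finset.card_le_card hsub
  have h2 := Finset.card_union_le (({0} ∪ A.image Nat.succ) ∪ A)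
    (Y.image fun i => nx a par W D γ i ω)
  have h3 := Finset.card_union_le ({0} ∪ A.image Nat.succ) A
  have h4 := Finset.card_union_le {0} (A.image Nat.succ)
  have h5 : (A.image Nat.succ).card ≤ A.card := Finset.card_image_le
  have h6 : (Y.image fun i => nx a par W D γ i ω).card ≤ Y.card := Finset.card_image_le
  rw [Finset.card_singleton] at h4
  omega

open Classical in
theorem total [MeasurableSpace V] [BorelSpace V] (hC : 1 ≤ C)
    (hγ : γ * (2 * C ^ 2 * 180 ^ n) ≤ 1) :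
    cnt J Ω a (IsTop par W D γ) ≤ (2 * C ^ 2 * 40 ^ n) * (Ω.card + 2 * cnt J Ω a W) := by
  have h1 := Finset.sum_nonneg (s := Finset.range (J + 1)) fun i hi =>
    X.level hC hγ (Nat.lt_succ_iff.1 (Finset.mem_range.1 hi))
  rw [Finset.sum_comm] at h1
  simp only [Finset.sum_sub_distrib, ← Finset.mul_sum] at h1
  have h2 := Finset.sum_le_sum (s := Ω) fun ω hω => (Nat.cast_le (α := ℝ)).2 (X.leaf_count hω)
  simp only [Nat.cast_add, Nat.cast_mul, Nat.cast_one, Nat.cast_ofNat, Finset.sum_add_distrib,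
    ← Finset.mul_sum, Finset.sum_const, nsmul_eq_mul, mul_one, Finset.natCast_card_filter] at h2
  have h3 : ∑ ω ∈ Ω, ∑ i ∈ Finset.range (J + 1),
      (if IsTop par W D γ i (a i ω) then (1 : ℝ) else 0) = cnt J Ω a (IsTop par W D γ) := by
    simp only [cnt, lev, Finset.natCast_card_filter]
  rw [h3] at h1
  have hK : (0 : ℝ) ≤ 2 * C ^ 2 * 40 ^ n := by positivity
  have h4 := mul_le_mul_of_nonneg_left h2 hK
  unfold cnt at h1 ⊢
  linarith

end Ctx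

end Tree

end TBX

theorem tb_pf : TB_stmt := by
  intro V _ _ _ _ _ n C hn hC θ h0 h1
  have hK : (1 : ℝ) ≤ 2 * C ^ 2 * 180 ^ n := by
    have h1 : (1 : ℝ) ≤ 180 ^ n := one_le_pow₀ (by norm_num)
    have h2 : (1 : ℝ) ≤ C ^ 2 := one_le_pow₀ hC
    nlinarith
  have hK0 : (0 : ℝ) < 2 * C ^ 2 * 180 ^ n := by linarith
  refine ⟨(2 * C ^ 2 * 180 ^ n)⁻¹, inv_pos.2 hK0, inv_le_one_of_one_le₀ hK, fun ε e0 e1 C₃ =>
    ⟨(2 * C ^ 2 * 40 ^ n) * (1 + 2 * C₃), fun E r₀ x₀ J Ω a par hr T W D H hW => ?_⟩⟩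
  have X : TBX.Ctx n E C θ r₀ (2 * C ^ 2 * 180 ^ n)⁻¹ ε x₀ J Ω a par W D :=
    ⟨T, H, h0, h1, inv_pos.2 hK0, inv_le_one_of_one_le₀ hK, e0, e1, hr⟩
  refine (X.total hC (inv_mul_cancel₀ hK0.ne').le).trans ?_
  rw [mul_assoc _ (1 + 2 * C₃)]
  exact mul_le_mul_of_nonneg_left (by linarith) (by positivity)

end Vale.Agent.P120
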