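import Vale.Agent.P120.TCb

/-! P120: the co-Lipschitz map. -/

namespace Vale.Agent.P120

open MeasureTheory Metric Filter Module
open scoped Topology ENNReal NNReal RealInnerProductSpace

namespace TCX

variable {V : Type} [NormedAddCommGroup V] [InnerProductSpace ℝ V] [FiniteDimensional ℝ V]
  {n : ℕ} {E : Set V} {C θ r₀ γ ε s : ℝ} {x₀ : V} {J : ℕ} {Ω : Finset V} {a par : ℕ → V → V}
  {W : ℕ → V → Prop} {D : ℕ → V → Submodule ℝ V} {F : Type} [NormedAddCommGroup F]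
  [NormedSpace ℝ F]

/-- The abstract form of the increments. -/
structure Inc (n : ℕ) (θ r₀ γ κ : ℝ) (J : ℕ) (Ω : Finset V) (a par : ℕ → V → V)
    (W : ℕ → V → Prop) (D : ℕ → V → Submodule ℝ V) (Φ : Submodule ℝ V → V →ₗ[ℝ] F)
    (inc : ℕ → V → V → F) : Prop where
  le : ∀ ω ∈ Ω, ∀ j < J, ‖inc j (a j ω) (a (j + 1) ω)‖ ≤ θ ^ j * r₀
  iso : ∀ (S : Submodule ℝ V) (x : V), finrank ℝ S = n → ‖Φ S x‖ = ‖S.starProjection x‖
  eq : ∀ j z z', ¬ W j z → inc j z z' = Φ (D (tau par W D γ j z).1 (tau par W D γ j z).2) (z' - z)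
  sep : ∀ ω ∈ Ω, ∀ ω' ∈ Ω, ∀ j < J, W j (a j ω) → a j ω = a j ω' → a (j + 1) ω ≠ a (j + 1) ω' →
    κ * (θ ^ j * r₀) ≤ ‖inc j (a j ω) (a (j + 1) ω) - inc j (a j ω) (a (j + 1) ω')‖

variable {κ : ℝ} {Φ : Submodule ℝ V → V →ₗ[ℝ] F} {inc : ℕ → V → V → F}

/-- The terms of the sum. -/
noncomputable def trm (s : ℝ) (a : ℕ → V → V) (P : ℕ → V → Prop) (inc : ℕ → V → V → F) (ω : V)
    (j : ℕ) : F := s ^ lev j a P ω • inc j (a j ω) (a (j + 1) ω)

theorem trm_tail (I : Inc n θ r₀ γ κ J Ω a par W D Φ inc) (h0 : 0 < θ) (h1 : θ ≤ 1 / 100)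
    (hr : 0 < r₀) (hs : 0 < s) (hs1 : s ≤ 1) (P : ℕ → V → Prop) {ω : V} (hω : ω ∈ Ω) {j m : ℕ}
    (hj : j ≤ J) (hm : m ≤ lev j a P ω) :
    ‖∑ k ∈ Finset.Ico j J, trm s a P inc ω k‖ ≤ 2 * (θ ^ j * (s ^ m * r₀)) := by
  have h2 := tail_le (B := s ^ m * r₀) h0 h1 (by positivity) (trm s a P inc ω) hj
    fun k hk hk' => by
      rw [trm, norm_smul, Real.norm_of_nonneg (by positivity), mul_left_comm]
      exact mul_le_mul (pow_le_pow_of_le_one hs.le hs1 (hm.trans (lev_mono hk a P ω)))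
        (I.le ω hω k hk') (norm_nonneg _) (by positivity)
  have h3 : 0 ≤ θ ^ J * (s ^ m * r₀) := by positivity
  linarith

theorem lev_top {P : ℕ → V → Prop} {ω : V} {i j : ℕ} (hij : i < j) (h : P j (a j ω)) :
    lev i a P ω + 1 ≤ lev j a P ω := by
  obtain ⟨k, rfl⟩ : ∃ k, j = k + 1 := ⟨j - 1, by omega⟩
  rw [(lev_succ k a P ω).1 h]
  exact Nat.succ_le_succ (lev_mono (by omega) a P ω)

theorem trm_mid (T : TreeP n E C θ r₀ x₀ J Ω a par) (I : Inc n θ r₀ γ κ J Ω a par W D Φ inc)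
    {ω : V} (hω : ω ∈ Ω) {i j : ℕ} (hij : i < j) (hj : j ≤ J) (hW : ¬ W i (a i ω))
    (h : ∀ k, i < k → k < j → ¬ IsTop par W D γ k (a k ω)) :
    ∑ k ∈ Finset.Ico i j, trm s a (IsTop par W D γ) inc ω k = s ^ lev i a (IsTop par W D γ) ω •
      Φ (D (tau par W D γ i (a i ω)).1 (tau par W D γ i (a i ω)).2) (a j ω - a i ω) := by
  rw [← Finset.sum_Ico_sub (fun k => a k ω) hij.le, map_sum, Finset.smul_sum]
  refine Finset.sum_congr rfl fun k hk => ?_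
  obtain ⟨hk1, hk2⟩ := Finset.mem_Ico.1 hk
  obtain ⟨h1, h2, h3⟩ := stretch (D := D) (γ := γ) T hω hk1 (by omega) hW
    fun m hm hm' => h m hm (by omega)
  rw [trm, I.eq k _ _ h2, h1, h3]

theorem split (g g' : ℕ → F) {i j j' : ℕ} (h1 : i ≤ j) (h2 : j ≤ J) (h3 : i ≤ j') (h4 : j' ≤ J)
    (h : ∀ k < i, g k = g' k) :
    ‖∑ k ∈ Finset.Ico i j, g k - ∑ k ∈ Finset.Ico i j', g' k‖ ≤
      dist (∑ k ∈ Finset.range J, g k) (∑ k ∈ Finset.range J, g' k) +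
        ‖∑ k ∈ Finset.Ico j J, g k‖ + ‖∑ k ∈ Finset.Ico j' J, g' k‖ := by
  have h5 : ∑ k ∈ Finset.range i, g k = ∑ k ∈ Finset.range i, g' k :=
    Finset.sum_congr rfl fun k hk => h k (Finset.mem_range.1 hk)
  rw [dist_eq_norm, ← Finset.sum_range_add_sum_Ico g (h1.trans h2),
    ← Finset.sum_range_add_sum_Ico g' (h3.trans h4), ← Finset.sum_Ico_consecutive g h1 h2,
    ← Finset.sum_Ico_consecutive g' h3 h4, h5, add_sub_add_left_eq_sub]
  generalize ∑ k ∈ Finset.Ico i j, g k = A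
  generalize ∑ k ∈ Finset.Ico i j', g' k = A'
  generalize ∑ k ∈ Finset.Ico j J, g k = B
  generalize ∑ k ∈ Finset.Ico j' J, g' k = B'
  rw [show A - A' = (A + B - (A' + B') - B) + B' by abel]
  exact (norm_add_le _ _).trans (add_le_add_left (norm_sub_le _ _) _)

theorem trm_congr (T : TreeP n E C θ r₀ x₀ J Ω a par) (P : ℕ → V → Prop) {ω ω' : V} (hω : ω ∈ Ω)
    (hω' : ω' ∈ Ω) {i : ℕ} (hi : i ≤ J) (he : a i ω = a i ω') (k : ℕ) (hk : k < i) :
    trm s a P inc ω k = trm s a P inc ω' k := by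
  rw [trm, trm, lev_congr P fun m hm => anc_eq T hω hω' (by omega) hi he,
    anc_eq T hω hω' hk.le hi he, anc_eq T hω hω' hk hi he]

theorem caseW (T : TreeP n E C θ r₀ x₀ J Ω a par) (I : Inc n θ r₀ γ κ J Ω a par W D Φ inc)
    (h0 : 0 < θ) (h1 : θ ≤ 1 / 100) (hr : 0 < r₀) (hs : 0 < s) (hs1 : s ≤ 1) (hκ : s ≤ κ)
    {ω ω' : V} (hω : ω ∈ Ω) (hω' : ω' ∈ Ω) {i : ℕ} (hi : i < J) (he : a i ω = a i ω')
    (hne : a (i + 1) ω ≠ a (i + 1) ω') (hW : W i (a i ω)) :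
    s / 52 * s ^ lev i a (IsTop par W D γ) ω * dist ω ω' ≤
      dist (∑ k ∈ Finset.range J, trm s a (IsTop par W D γ) inc ω k)
        (∑ k ∈ Finset.range J, trm s a (IsTop par W D γ) inc ω' k) := by
  have hl : lev i a (IsTop par W D γ) ω = lev i a (IsTop par W D γ) ω' :=
    lev_congr _ fun m hm => anc_eq T hω hω' hm hi.le he
  have ht : ∀ w ∈ Ω, W i (a i w) → IsTop par W D γ (i + 1) (a (i + 1) w) := fun w hw hW' => by
    by_contra h
    exact (of_not_top par W D γ h).2.1 (T.step w hw i hi ▸ hW')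
  have h2 := split _ _ (Nat.le_succ i) hi (Nat.le_succ i) hi
    (trm_congr (s := s) (inc := inc) T (IsTop par W D γ) hω hω' hi.le he)
  have h3 := trm_tail I h0 h1 hr hs hs1 _ hω hi (lev_top (Nat.lt_succ_self i) (ht ω hω hW))
  have h4 := trm_tail I h0 h1 hr hs hs1 _ hω' hi
    (lev_top (Nat.lt_succ_self i) (ht ω' hω' (he ▸ hW)))
  rw [Nat.Ico_succ_singleton, Finset.sum_singleton, Finset.sum_singleton, trm, trm, ← hl, ← he,
    ← smul_sub, norm_smul, Real.norm_of_nonneg (by positivity)] at h2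
  rw [← hl] at h4
  have h5 := I.sep ω hω ω' hω' i hi hW he hne
  have h6 := anc_dist T h0 h1 hr hω hi.le le_rfl
  have h7 := anc_dist T h0 h1 hr hω' hi.le le_rfl
  rw [T.leaf ω hω] at h6
  rw [T.leaf ω' hω', ← he, norm_sub_rev] at h7
  have h8 := norm_sub_le_norm_sub_add_norm_sub ω (a i ω) ω'
  rw [← dist_eq_norm] at h8
  rw [Nat.succ_eq_add_one] at h2 h3 h4
  rw [pow_succ, pow_succ] at h3 h4
  generalize lev i a (IsTop par W D γ) ω = l at *
  have h9 : 0 < s ^ l := by positivity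
  have h10 : 0 < θ ^ i * r₀ := by positivity
  have h11 := mul_le_mul_of_nonneg_left ((mul_le_mul_of_nonneg_right hκ h10.le).trans h5) h9.le
  have h12 : s * s ^ l * dist ω ω' ≤ s * s ^ l * (4 * (θ ^ i * r₀)) :=
    mul_le_mul_of_nonneg_left (by linarith) (by positivity)
  have h13 : θ * (s * s ^ l * (θ ^ i * r₀)) ≤ 1 / 100 * (s * s ^ l * (θ ^ i * r₀)) :=
    mul_le_mul_of_nonneg_right h1 (by positivity)
  have h14 : 0 < s * s ^ l * (θ ^ i * r₀) := by positivity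
  nlinarith

theorem caseN (T : TreeP n E C θ r₀ x₀ J Ω a par) (I : Inc n θ r₀ γ κ J Ω a par W D Φ inc)
    (h0 : 0 < θ) (h1 : θ ≤ 1 / 100) (hr : 0 < r₀) (hs : 0 < s) (hγ1 : γ ≤ 1) (hsγ : 48 * s ≤ γ)
    (hε : ε ≤ γ * θ / 100) {ω ω' : V} (hω : ω ∈ Ω) (hω' : ω' ∈ Ω)
    (hB : ∀ j ≤ J, ¬ W j (a j ω) → BF n E (a j ω) (θ ^ j * r₀) ε (D j (a j ω)))
    {i j j' : ℕ} (hij : i < j) (hjj : j ≤ j') (hj : j' ≤ J) (he : a i ω = a i ω')
    (hne : a (i + 1) ω ≠ a (i + 1) ω') (hW : ¬ W i (a i ω))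
    (ht : IsTop par W D γ j (a j ω)) (ht' : IsTop par W D γ j' (a j' ω'))
    (h : ∀ k, i < k → k < j → ¬ IsTop par W D γ k (a k ω))
    (h' : ∀ k, i < k → k < j' → ¬ IsTop par W D γ k (a k ω')) :
    s / 52 * s ^ lev i a (IsTop par W D γ) ω * dist ω ω' ≤
      dist (∑ k ∈ Finset.range J, trm s a (IsTop par W D γ) inc ω k)
        (∑ k ∈ Finset.range J, trm s a (IsTop par W D γ) inc ω' k) := by
  have hi : i ≤ J := by omega
  have hl : lev i a (IsTop par W D γ) ω = lev i a (IsTop par W D γ) ω' :=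
    lev_congr _ fun m hm => anc_eq T hω hω' hm hi he
  have h2 := split _ _ hij.le (hjj.trans hj) (hij.le.trans hjj) hj
    (trm_congr (s := s) (inc := inc) T (IsTop par W D γ) hω hω' hi he)
  have h3 := trm_tail I h0 h1 hr hs (by linarith) _ hω (hjj.trans hj) (lev_top hij ht)
  have h4 := trm_tail I h0 h1 hr hs (by linarith) _ hω' hj (lev_top (hij.trans_le hjj) ht')
  rw [trm_mid T I hω hij (hjj.trans hj) hW h, trm_mid T I hω' (hij.trans_le hjj) hj (he ▸ hW) h',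
    ← hl, ← he, ← smul_sub, norm_smul, Real.norm_of_nonneg (by positivity), ← map_sub,
    sub_sub_sub_cancel_right,
    I.iso _ _ (rank_tau T hω (fun k hk hk' => (hB k hk hk').1) hi hW)] at h2
  rw [← hl] at h4
  obtain ⟨h5, h5'⟩ := proj_tops T h0 h1 hr (by linarith) hγ1 hε hω hω' hB hij hjj hj he hne hW h
  have h6 := anc_dist T h0 h1 hr hω (hjj.trans hj) le_rfl
  have h7 := anc_dist T h0 h1 hr hω' hj le_rfl
  rw [T.leaf ω hω] at h6
  rw [T.leaf ω' hω', norm_sub_rev] at h7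
  have h8 := norm_sub_le_norm_sub_add_norm_sub ω (a j ω) ω'
  have h8' := norm_sub_le_norm_sub_add_norm_sub (a j ω) (a j' ω') ω'
  rw [← dist_eq_norm] at h8
  have h9 : θ ^ j' * r₀ ≤ θ ^ j * r₀ :=
    mul_le_mul_of_nonneg_right (pow_le_pow_of_le_one h0.le (by linarith) hjj) hr.le
  rw [pow_succ] at h3 h4
  generalize lev i a (IsTop par W D γ) ω = l at *
  generalize ‖a j ω - a j' ω'‖ = d at *
  have h10 : 0 < s ^ l := by positivity
  have h10' : 0 < θ ^ j * r₀ := by positivity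
  have h11 := mul_le_mul_of_nonneg_left h5' h10.le
  have h12 : s * s ^ l * dist ω ω' ≤ s * s ^ l * (13 * d) :=
    mul_le_mul_of_nonneg_left (by linarith) (by positivity)
  have h13 : s * s ^ l * (θ ^ j * r₀) ≤ s * s ^ l * (3 * d) :=
    mul_le_mul_of_nonneg_left h5 (by positivity)
  have h14 : s * s ^ l * (θ ^ j' * r₀) ≤ s * s ^ l * (3 * d) :=
    mul_le_mul_of_nonneg_left (h9.trans h5) (by positivity)
  have h15 : 48 * s * (s ^ l * d) ≤ γ * (s ^ l * d) :=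
    mul_le_mul_of_nonneg_right hsγ (mul_nonneg h10.le (by linarith))
  have h16 : 0 ≤ s * (s ^ l * d) := mul_nonneg hs.le (mul_nonneg h10.le (by linarith))
  nlinarith

theorem exists_inc (hn : 1 ≤ n) (hC : 1 ≤ C) (T : TreeP n E C θ r₀ x₀ J Ω a par) (h0 : 0 < θ)
    (hr : 0 < r₀) : ∃ (Φ : Submodule ℝ V → V →ₗ[ℝ] EuclideanSpace ℝ (Fin n))
      (inc : ℕ → V → V → EuclideanSpace ℝ (Fin n)),
      Inc n θ r₀ γ (C ^ 2 * θ⁻¹ ^ n)⁻¹ J Ω a par W D Φ inc := by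
  classical
  choose Φ hΦ1 hΦ2 using exists_phi (V := V) n
  choose g hg1 hg2 using exists_idx (V := V)
  let e : EuclideanSpace ℝ (Fin n) := EuclideanSpace.single ⟨0, hn⟩ 1
  have he : ‖e‖ = 1 := by simp [e]
  have hK : 0 < C ^ 2 * θ⁻¹ ^ n := by positivity
  let S : ℕ → V → Finset V := fun j z => (Ω.filter fun w => a j w = z).image (a (j + 1))
  have hS : ∀ ω ∈ Ω, ∀ j z, a j ω = z → a (j + 1) ω ∈ S j z := fun ω hω j z h =>
    Finset.mem_image.2 ⟨ω, Finset.mem_filter.2 ⟨hω, h⟩, rfl⟩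
  refine ⟨Φ, fun j z z' => if W j z then
    ((g (S j z) z' : ℝ) * ((C ^ 2 * θ⁻¹ ^ n)⁻¹ * (θ ^ j * r₀))) • e else
    Φ (D (tau par W D γ j z).1 (tau par W D γ j z).2) (z' - z), fun ω hω j hj => ?_,
    fun S x h => hΦ2 S h x, fun j z z' h => if_neg h, fun ω hω ω' hω' j hj hW h1 h2 => ?_⟩
  · split_ifs with h
    · rw [norm_smul, he, mul_one, Real.norm_of_nonneg (by positivity), ← mul_assoc]
      refine mul_le_of_le_one_left (by positivity) ?_
      rw [← div_eq_mul_inv, div_le_one hK]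
      refine le_trans ?_ (card_child T h0 hC hω hj)
      exact_mod_cast (hg1 _ _ (hS ω hω j _ rfl)).le
    · refine (hΦ1 _ _).trans ?_
      rw [← dist_eq_norm]
      exact (T.near ω hω j hj).le
  · rw [if_pos hW, if_pos hW, ← sub_smul, norm_smul, he, mul_one, ← sub_mul, norm_mul,
      Real.norm_of_nonneg (by positivity : 0 ≤ (C ^ 2 * θ⁻¹ ^ n)⁻¹ * (θ ^ j * r₀))]
    refine le_mul_of_one_le_left (by positivity) ?_
    have h3 : (g (S j (a j ω)) (a (j + 1) ω) : ℤ) - g (S j (a j ω)) (a (j + 1) ω') ≠ 0 := by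
      intro h4
      exact h2 (hg2 _ (hS ω hω j _ rfl) (hS ω' hω' j _ h1.symm) (by omega))
    rw [Real.norm_eq_abs]
    exact_mod_cast Int.one_le_abs h3

end TCX

open TCX in
theorem tc_pf : TC_stmt := by
  intro V _ _ _ _ _ n C hn hC θ γ h0 h1 hγ hγ1
  have hK : 0 < (C ^ 2 * θ⁻¹ ^ n)⁻¹ := by positivity
  have hs : 0 < min (γ / 48) (C ^ 2 * θ⁻¹ ^ n)⁻¹ := lt_min (by positivity) hK
  have hs1 := min_le_left (γ / 48) (C ^ 2 * θ⁻¹ ^ n)⁻¹
  have hs2 := min_le_right (γ / 48) (C ^ 2 * θ⁻¹ ^ n)⁻¹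
  generalize min (γ / 48) (C ^ 2 * θ⁻¹ ^ n)⁻¹ = s at hs hs1 hs2
  have hs3 : s ≤ 1 := by linarith
  refine ⟨s, s / 52, hs, hs3, by positivity, ?_⟩
  intro ε _ hε E r₀ x₀ J Ω a par hr T W D hB
  obtain ⟨Φ, inc, I⟩ := exists_inc (γ := γ) (W := W) (D := D) hn hC T h0 hr
  refine ⟨fun ω => ∑ k ∈ Finset.range J, trm s a (IsTop par W D γ) inc ω k, fun ω hω => ?_,
    fun ω hω ω' hω' => ?_⟩
  · simpa using trm_tail I h0 h1 hr hs hs3 (IsTop par W D γ) hω (Nat.zero_le J) (Nat.zero_le _)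
  rcases eq_or_ne ω ω' with hne | hne
  · simp [hne]
  classical
  have h2 : ∃ k, k ≤ J ∧ a k ω ≠ a k ω' := ⟨J, le_rfl, by rwa [T.leaf ω hω, T.leaf ω' hω']⟩
  have h3 := Nat.find_spec h2
  have h4 : Nat.find h2 ≠ 0 := fun h => h3.2 (by rw [h, T.root ω hω, T.root ω' hω'])
  obtain ⟨i, hi⟩ := Nat.exists_eq_succ_of_ne_zero h4
  have h5 := Nat.find_min h2 (m := i) (by omega)
  rw [hi] at h3
  have hiJ : i < J := h3.1
  have he : a i ω = a i ω' := by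
    by_contra h
    exact h5 ⟨hiJ.le, h⟩
  refine le_trans (mul_le_mul_of_nonneg_right (mul_le_mul_of_nonneg_left
    (pow_le_pow_of_le_one hs.le hs3 (lev_mono hiJ.le a _ ω)) (by positivity)) dist_nonneg) ?_
  by_cases hW : W i (a i ω)
  · exact caseW T I h0 h1 hr hs hs3 hs2 hω hω' hiJ he h3.2 hW
  have hJ : ∀ w ∈ Ω, W J (a J w) := fun w hw => by
    by_contra h
    exact lt_irrefl _ (hB w hw J le_rfl h).1
  obtain ⟨j, hj1, hj2, hj3, hj4⟩ := next_top (par := par) (D := D) (γ := γ) (hJ ω hω) hiJ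
  obtain ⟨j', hj1', hj2', hj3', hj4'⟩ := next_top (par := par) (D := D) (γ := γ) (hJ ω' hω') hiJ
  rcases le_total j j' with h | h
  · exact caseN T I h0 h1 hr hs hγ1 (by linarith) hε hω hω' (fun k hk hk' => (hB ω hω k hk hk').2)
      hj1 h hj2' he h3.2 hW hj3 hj3' hj4 hj4'
  · rw [dist_comm ω, dist_comm (∑ k ∈ Finset.range J, _),
      lev_congr _ fun m hm => anc_eq T hω hω' hm hiJ.le he]
    exact caseN T I h0 h1 hr hs hγ1 (by linarith) hε hω' hω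
      (fun k hk hk' => (hB ω' hω' k hk hk').2) hj1' h hj2 he.symm h3.2.symm (he ▸ hW) hj3' hj3
      hj4' hj4

end Vale.Agent.P120
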