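import Vale.Agent.P120.Stmts

/-! P120: existence of the trees of nets. -/

namespace Vale.Agent.P120

open MeasureTheory Metric Filter Module
open scoped Topology ENNReal NNReal RealInnerProductSpace

namespace TreeExX

section nets
variable {V : Type} [MetricSpace V]

/-- Maximal separated sets. -/
theorem exists_net {E : Set V} {x₀ : V} (h₀ : x₀ ∈ E) {r : ℝ} (hr : 0 < r) : ∃ N : Set V,
    x₀ ∈ N ∧ N ⊆ E ∧ (∀ x ∈ N, ∀ y ∈ N, x ≠ y → r ≤ dist x y) ∧ ∀ x ∈ E, ∃ y ∈ N, dist x y < r := by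
  obtain ⟨N, h1, h2⟩ := zorn_subset_nonempty
    {N : Set V | N ⊆ E ∧ ∀ x ∈ N, ∀ y ∈ N, x ≠ y → r ≤ dist x y} (fun c hc hch _ => by
      refine ⟨⋃₀ c, ⟨Set.sUnion_subset fun s hs => (hc hs).1, ?_⟩,
        fun s hs => Set.subset_sUnion_of_mem hs⟩
      rintro x ⟨s, hs, hx⟩ y ⟨t, ht, hy⟩
      rcases hch.total hs ht with h | h
      · exact (hc ht).2 x (h hx) y hy
      · exact (hc hs).2 x hx y (h hy)) {x₀} ⟨by simpa using h₀, by simp⟩
  refine ⟨N, h1 rfl, h2.prop.1, h2.prop.2, fun x hx => ?_⟩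
  by_contra h
  push Not at h
  have h3 : insert x N ⊆ N := h2.le_of_ge (y := insert x N) ⟨Set.insert_subset hx h2.prop.1, by
    rintro y (rfl | hy) z (rfl | hz) hne
    · exact absurd rfl hne
    · exact h z hz
    · rw [dist_comm]
      exact h y hy
    · exact h2.prop.2 y hy z hz hne⟩ (Set.subset_insert x N)
  have h4 := h x (h3 (Set.mem_insert x N))
  rw [dist_self] at h4
  linarith

/-- The parent map. -/
theorem exists_par {E N : Set V} {r : ℝ} (hs : ∀ x ∈ N, ∀ y ∈ N, x ≠ y → r ≤ dist x y)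
    (hc : ∀ x ∈ E, ∃ y ∈ N, dist x y < r) : ∃ p : V → V, (∀ x ∈ E, p x ∈ N ∧ dist x (p x) < r) ∧
      ∀ x, ∀ y ∈ N, dist x y < r / 2 → p x = y := by
  have h : ∀ x, ∃ z, (x ∈ E → z ∈ N ∧ dist x z < r) ∧ ∀ y ∈ N, dist x y < r / 2 → z = y := by
    intro x
    by_cases h1 : ∃ y ∈ N, dist x y < r / 2
    · obtain ⟨y, hy, h2⟩ := h1
      refine ⟨y, fun _ => ⟨hy, by linarith [dist_nonneg (x := x) (y := y)]⟩, fun z hz h3 => ?_⟩
      by_contra hne
      linarith [hs y hy z hz hne, dist_triangle_left y z x]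
    · by_cases h2 : x ∈ E
      · obtain ⟨y, hy⟩ := hc x h2
        exact ⟨y, fun _ => hy, fun z hz h3 => absurd ⟨z, hz, h3⟩ h1⟩
      · exact ⟨x, fun h3 => absurd h3 h2, fun z hz h3 => absurd ⟨z, hz, h3⟩ h1⟩
  choose p hp using h
  exact ⟨p, fun x => (hp x).1, fun x => (hp x).2⟩

/-- Nets at all scales with parent maps. -/
structure Nets (E : Set V) (r : ℕ → ℝ) (N : ℕ → Set V) (par : ℕ → V → V) : Prop where
  pos : ∀ j, 0 < r j
  dec : ∀ j, 100 * r (j + 1) ≤ r j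
  sub : ∀ j, N j ⊆ E
  sep : ∀ j, ∀ x ∈ N j, ∀ y ∈ N j, x ≠ y → r j ≤ dist x y
  cov : ∀ j, ∀ x ∈ E, ∃ y ∈ N j, dist x y < r j
  mem : ∀ j, ∀ x ∈ E, par j x ∈ N j ∧ dist x (par j x) < r j
  eq : ∀ j x, ∀ y ∈ N j, dist x y < r j / 2 → par j x = y

/-- Iterated parents. -/
def up (par : ℕ → V → V) (J : ℕ) : ℕ → V → V
  | 0, ω => ω
  | k + 1, ω => par (J - (k + 1)) (up par J k ω)

/-- Ancestors. -/
def anc (par : ℕ → V → V) (J j : ℕ) (ω : V) : V := up par J (J - j) ω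

variable {E : Set V} {r : ℕ → ℝ} {N : ℕ → Set V} {par : ℕ → V → V} {J : ℕ} {ω ω' : V}

theorem anc_leaf (par : ℕ → V → V) (J : ℕ) (ω : V) : anc par J J ω = ω := by
  rw [anc, Nat.sub_self, up]

theorem anc_step (par : ℕ → V → V) {j : ℕ} (hj : j < J) (ω : V) :
    anc par J j ω = par j (anc par J (j + 1) ω) := by
  rw [anc, show J - j = J - (j + 1) + 1 by omega, up, show J - (J - (j + 1) + 1) = j by omega, anc]

theorem anc_eq {j : ℕ} (hj : j ≤ J) (h : anc par J j ω' = anc par J j ω) :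
    anc par J 0 ω' = anc par J 0 ω := by
  induction j with
  | zero => exact h
  | succ j ih => exact ih (by omega) (by rw [anc_step par hj, anc_step par hj ω, h])

theorem Nets.lt (H : Nets E r N par) {j i : ℕ} (h : j < i) : 100 * r i ≤ r j := by
  induction i, h using Nat.le_induction with
  | base => exact H.dec j
  | succ i _ ih => linarith [H.dec i, H.pos i]

theorem Nets.anc_mem (H : Nets E r N par) (hω : ω ∈ N J) {j : ℕ} (hj : j ≤ J) :
    anc par J j ω ∈ N j := by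
  induction hj using Nat.decreasingInduction with
  | self => rwa [anc_leaf]
  | of_succ k hk ih =>
    rw [anc_step par hk]
    exact (H.mem k _ (H.sub _ ih)).1

theorem Nets.near (H : Nets E r N par) (hω : ω ∈ N J) {j : ℕ} (hj : j < J) :
    dist (anc par J (j + 1) ω) (anc par J j ω) < r j := by
  rw [anc_step par hj]
  exact (H.mem j _ (H.sub _ (H.anc_mem hω hj))).2

theorem Nets.chain (H : Nets E r N par) (hω : ω ∈ N J) {j i : ℕ} (h : j ≤ i) (hi : i ≤ J) :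
    dist (anc par J i ω) (anc par J j ω) + 2 * r i ≤ 2 * r j := by
  induction i, h using Nat.le_induction with
  | base => simp
  | succ i _ ih =>
    linarith [ih (by omega), H.near hω hi, H.dec i, H.pos (i + 1),
      dist_triangle (anc par J (i + 1) ω) (anc par J i ω) (anc par J j ω)]

theorem Nets.inner (H : Nets E r N par) (hω : ω ∈ N J) {j i : ℕ} (h : j ≤ i) (hi : i ≤ J) {y : V}
    (hy : y ∈ N j) (hd : dist (anc par J i ω) y < r j / 3) : anc par J j ω = y := by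
  rcases h.eq_or_lt with rfl | h
  · by_contra hne
    linarith [H.sep j _ (H.anc_mem hω hi) y hy hne, H.pos j]
  · rw [anc_step par (h.trans_le hi)]
    refine H.eq j _ y hy ?_
    linarith [H.chain hω h hi, H.dec j, H.pos i, H.pos j,
      dist_triangle_left (anc par J (j + 1) ω) y (anc par J i ω)]

theorem Nets.desc (H : Nets E r N par) {i : ℕ} (hi : i ≤ J) {y : V} (hy : y ∈ N i) :
    ∃ ω ∈ N J, anc par J i ω = y := by
  rcases hi.eq_or_lt with rfl | h
  · exact ⟨y, hy, anc_leaf _ _ _⟩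
  · obtain ⟨ω, h1, h2⟩ := H.cov J y (H.sub i hy)
    refine ⟨ω, h1, H.inner h1 hi le_rfl hy ?_⟩
    rw [anc_leaf, dist_comm]
    linarith [H.lt h, H.pos J]

theorem Nets.cov' (H : Nets E r N par) (hω : ω ∈ N J) {j i : ℕ} (h : j < i) (hi : i ≤ J) {x : V}
    (hx : x ∈ E) (hd : dist x (anc par J j ω) < r j / 4) :
    ∃ ω' ∈ N J, anc par J j ω' = anc par J j ω ∧ dist x (anc par J i ω') < r i := by
  obtain ⟨y, h1, h2⟩ := H.cov i x hx
  obtain ⟨ω', h3, rfl⟩ := H.desc hi h1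
  refine ⟨ω', h3, H.inner h3 h.le hi (H.anc_mem hω (h.le.trans hi)) ?_, h2⟩
  linarith [H.lt h, H.pos i, dist_triangle_left (anc par J i ω') (anc par J j ω) x]

end nets

section count
variable {V : Type} [NormedAddCommGroup V] [InnerProductSpace ℝ V] [FiniteDimensional ℝ V]
  [MeasurableSpace V] [BorelSpace V] {n : ℕ} {C R : ℝ} {ν : Measure V}

theorem card_up (hC : 1 ≤ C) (hu : Up n C ν) (hl : Low n C R ν) {S : Finset V} {y : V} {s t : ℝ}
    (hs : 0 < s) (hsR : s ≤ R) (ht : 0 < t) (h1 : ∀ x ∈ S, x ∈ ν.support ∧ dist x y + s ≤ t)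
    (h2 : ∀ x ∈ S, ∀ z ∈ S, x ≠ z → 2 * s ≤ dist x z) : S.card * s ^ n ≤ C ^ 2 * t ^ n := by
  have h3 : (S.card : ℝ≥0∞) * ENNReal.ofReal (s ^ n / C) ≤ ENNReal.ofReal (C * t ^ n) :=
    calc (S.card : ℝ≥0∞) * ENNReal.ofReal (s ^ n / C) ≤ ∑ x ∈ S, ν (ball x s) := by
          rw [← nsmul_eq_mul]
          exact Finset.card_nsmul_le_sum _ _ _ fun x hx => hl x (h1 x hx).1 s hs hsR
      _ = ν (⋃ x ∈ S, ball x s) := (measure_biUnion_finset (fun x hx z hz hne =>
          ball_disjoint_ball (by linarith [h2 x hx z hz hne])) fun _ _ => measurableSet_ball).symm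
      _ ≤ ν (ball y t) := measure_mono (Set.iUnion₂_subset fun x hx =>
          ball_subset_ball' (by linarith [(h1 x hx).2]))
      _ ≤ _ := hu y t ht
  rw [← ENNReal.ofReal_natCast, ← ENNReal.ofReal_mul (by positivity),
    ENNReal.ofReal_le_ofReal_iff (by positivity), ← mul_div_assoc,
    div_le_iff₀ (by positivity)] at h3
  linarith

theorem card_lo (hC : 1 ≤ C) (hu : Up n C ν) (hl : Low n C R ν) {S : Finset V} {y : V} {s t : ℝ}
    (hs : 0 < s) (ht : 0 < t) (htR : t ≤ R) (hy : y ∈ ν.support)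
    (h1 : ∀ x ∈ ν.support, dist x y < t → ∃ z ∈ S, dist x z < s) :
    t ^ n ≤ C ^ 2 * (S.card * s ^ n) := by
  have h3 : ENNReal.ofReal (t ^ n / C) ≤ (S.card : ℝ≥0∞) * ENNReal.ofReal (C * s ^ n) :=
    calc ENNReal.ofReal (t ^ n / C) ≤ ν (ball y t) := hl y hy t ht htR
      _ ≤ ν (⋃ x ∈ S, ball x s) := by
          refine measure_mono_ae ?_
          filter_upwards [Measure.support_mem_ae (μ := ν)] with x hx hb
          obtain ⟨z, hz, h⟩ := h1 x hx hb
          exact Set.mem_biUnion hz h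
      _ ≤ ∑ x ∈ S, ν (ball x s) := measure_biUnion_finset_le _ _
      _ ≤ _ := by
          rw [← nsmul_eq_mul]
          exact Finset.sum_le_card_nsmul _ _ _ fun x _ => hu x s hs
  rw [← ENNReal.ofReal_natCast, ← ENNReal.ofReal_mul (by positivity),
    ENNReal.ofReal_le_ofReal_iff (by positivity), div_le_iff₀ (by positivity)] at h3
  linarith

end count

end TreeExX

open TreeExX Classical in
theorem treeEx_pf : TreeEx_stmt := by
  intro V _ _ _ _ _ n C _ hC θ h0 h1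
  have hC' : 1 ≤ 6 ^ n * C ^ 2 := one_le_mul_of_one_le_of_one_le (one_le_pow₀ (by norm_num))
    (one_le_pow₀ hC)
  refine ⟨6 ^ n * C ^ 2, hC', fun ν x₀ r₀ hr hu hl hx J => ?_⟩
  have hp : ∀ j : ℕ, 0 < θ ^ j * r₀ := fun j => by positivity
  have hle : ∀ j : ℕ, θ ^ j * r₀ ≤ r₀ := fun j =>
    mul_le_of_le_one_left hr.le (pow_le_one₀ h0.le (by linarith))
  choose N n1 n2 n3 n4 using fun j : ℕ => exists_net hx (hp j)
  choose par p1 p2 using fun j : ℕ => exists_par (n3 j) (n4 j)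
  have H : Nets ν.support (fun j => θ ^ j * r₀) N par :=
    ⟨hp, fun j => by rw [pow_succ]; nlinarith [hp j], n2, n3, n4, p1, p2⟩
  have key : ∀ (S : Finset V) (j : ℕ) (y : V), j ≤ J →
      (∀ ω ∈ S, ω ∈ N J ∧ anc par J j ω = y) → S.card * (θ ^ J) ^ n ≤ 6 ^ n * C ^ 2 * (θ ^ j) ^ n := by
    intro S j y hj hS
    have h2 := card_up hC hu hl (S := S) (y := y) (s := θ ^ J * r₀ / 2) (t := 3 * (θ ^ j * r₀))
      (half_pos (hp J)) (by linarith [hle J, hp J]) (by linarith [hp j]) (fun x hx => by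
        have h3 := H.chain (hS x hx).1 hj le_rfl
        rw [anc_leaf, (hS x hx).2] at h3
        exact ⟨n2 J (hS x hx).1, by linarith [hp J, hp j]⟩) fun x hx z hz hne => by
          linarith [n3 J x (hS x hx).1 z (hS z hz).1 hne]
    have h4 : (S.card * (θ ^ J) ^ n) * (r₀ / 2) ^ n ≤ (6 ^ n * C ^ 2 * (θ ^ j) ^ n) * (r₀ / 2) ^ n :=
      calc _ = S.card * (θ ^ J * r₀ / 2) ^ n := by rw [mul_div_assoc, mul_pow, mul_assoc]
        _ ≤ _ := h2
        _ = _ := by
          rw [show 3 * (θ ^ j * r₀) = 6 * θ ^ j * (r₀ / 2) by ring, mul_pow, mul_pow]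
          ring
    exact le_of_mul_le_mul_right h4 (by positivity)
  have hfin : {ω ∈ N J | anc par J 0 ω = x₀}.Finite := by
    by_contra hinf
    obtain ⟨k, hk⟩ := exists_nat_gt (6 ^ n * C ^ 2 * (θ ^ 0) ^ n / (θ ^ J) ^ n)
    obtain ⟨S, h2, h3⟩ := Set.Infinite.exists_subset_card_eq hinf k
    have h4 := key S 0 x₀ J.zero_le fun ω hω => h2 hω
    rw [div_lt_iff₀ (by positivity), ← h3] at hk
    linarith
  have hm : ∀ ω, ω ∈ hfin.toFinset ↔ ω ∈ N J ∧ anc par J 0 ω = x₀ := fun ω => hfin.mem_toFinset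
  refine ⟨hfin.toFinset, anc par J, par, ?_, fun ω hω => ((hm ω).1 hω).2,
    fun ω _ => anc_leaf _ _ _, fun ω _ j hj => anc_step par hj ω,
    fun ω hω j hj => n2 j (H.anc_mem ((hm ω).1 hω).1 hj),
    fun ω hω j hj => H.near ((hm ω).1 hω).1 hj,
    fun ω hω ω' hω' j hj => n3 j _ (H.anc_mem ((hm ω).1 hω).1 hj) _
      (H.anc_mem ((hm ω').1 hω').1 hj),
    fun ω hω ω' hω' j i hji hi hd => H.inner ((hm ω').1 hω').1 hji hi
      (H.anc_mem ((hm ω).1 hω).1 (hji.trans hi)) hd,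
    fun ω hω j i hji hi x hx hd => ?_, fun ω hω j hj => ?_,
    fun ω _ j hj => key _ j _ hj fun ω' hω' =>
      ⟨((hm ω').1 (Finset.mem_filter.1 hω').1).1, (Finset.mem_filter.1 hω').2⟩⟩
  · obtain ⟨ω, h2, h3⟩ := H.desc J.zero_le (n1 0)
    exact ⟨ω, (hm ω).2 ⟨h2, h3⟩⟩
  · obtain ⟨ω', h2, h3, h4⟩ := H.cov' ((hm ω).1 hω).1 hji hi hx hd
    exact ⟨ω', (hm ω').2 ⟨h2, (anc_eq (hji.le.trans hi) h3).trans ((hm ω).1 hω).2⟩, h4⟩
  · generalize hS : (hfin.toFinset.filter fun ω' => anc par J j ω' = anc par J j ω) = S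
    have hS' : ∀ ω' ∈ N J, anc par J j ω' = anc par J j ω → ω' ∈ S := fun ω' h2 h3 =>
      hS ▸ Finset.mem_filter.2 ⟨(hm ω').2 ⟨h2, (anc_eq hj h3).trans ((hm ω).1 hω).2⟩, h3⟩
    rcases hj.eq_or_lt with rfl | hj'
    · have h2 : (1 : ℝ) ≤ S.card := by
        exact_mod_cast Finset.card_pos.2 ⟨ω, hS' ω ((hm ω).1 hω).1 rfl⟩
      have h3 : 0 < (θ ^ j) ^ n := by positivity
      exact (le_mul_of_one_le_left h3.le h2).trans (le_mul_of_one_le_left (by positivity) hC')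
    · have h2 := card_lo hC hu hl (S := S) (y := anc par J j ω) (hp J)
        (t := θ ^ j * r₀ / 4) (by linarith [hp j]) (by linarith [hle j, hp j])
        (n2 j (H.anc_mem ((hm ω).1 hω).1 hj)) fun x hx hd => by
          obtain ⟨ω', h2, h3, h4⟩ := H.cov' ((hm ω).1 hω).1 hj' le_rfl hx hd
          rw [anc_leaf] at h4
          exact ⟨ω', hS' ω' h2 h3, h4⟩
      have h4 : (θ ^ j) ^ n * (r₀ / 6) ^ n ≤
          (6 ^ n * C ^ 2 * (S.card * (θ ^ J) ^ n)) * (r₀ / 6) ^ n :=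
        calc _ = (θ ^ j * r₀ / 6) ^ n := by rw [mul_div_assoc, mul_pow]
          _ ≤ (θ ^ j * r₀ / 4) ^ n := pow_le_pow_left₀ (by positivity) (by linarith [hp j]) n
          _ ≤ _ := h2
          _ = _ := by
            rw [show θ ^ J * r₀ = 6 * θ ^ J * (r₀ / 6) by ring, mul_pow, mul_pow]
            ring
      exact le_of_mul_le_mul_right h4 (by positivity)

end Vale.Agent.P120
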