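import Vale.Agent.P120.Main
import Vale.Agent.P120.Lim
import Vale.Agent.P120.LimQ
import Vale.Agent.P120.Resc
import Vale.Agent.P120.Dim
import Vale.Agent.P120.Red
import Vale.Agent.P120.Down
import Vale.Agent.P120.Bil
import Vale.Agent.P120.Cls0
import Vale.Agent.P120.Cls
import Vale.Agent.P120.Cacc
import Vale.Agent.P120.LinA
import Vale.Agent.P120.LinB
import Vale.Agent.P120.LinC
import Vale.Agent.P120.Lin
import Vale.Agent.P120.PropP
import Vale.Agent.P120.Car
import Vale.Agent.P120.TreeEx
import Vale.Agent.P120.TA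
import Vale.Agent.P120.TB
import Vale.Agent.P120.TC
import Vale.Agent.P120.Fin
import Vale.Agent.P120.Pre
import Vale.Agent.P120.Liou

/-! P120: all modules together. -/

namespace Vale.Agent.P120

open MeasureTheory

theorem limQ_all : LimQ_stmt := limQ_pf limP_pf

theorem full_all : Full_stmt := full_pf lim_pf limP_pf limQ_all resc_pf dim_pf (red_pf resc_pf)

theorem main_all (n d : ℕ) (hn : 1 ≤ n) (hd : n ≤ d) (μ : Measure (EuclideanSpace ℝ (Fin d)))
    (C : ℝ) (hAD : IsADRegular n μ C) (hR : RieszBounded n μ) : IsUniformlyRectifiable n μ :=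
  main_pf (por_pf lim_pf limP_pf limQ_all resc_pf dim_pf (red_pf resc_pf))
    (bil_pf lim_pf limP_pf limQ_all resc_pf full_all (flatLim_pf limP_pf))
    (prop_pf lim_pf limP_pf limQ_all resc_pf (flatLim_pf limP_pf)
      (cls_pf full_all (cls0_pf liou_pf))
      (lin_pf limP_pf cacc_pf (linA_pf limP_pf) (linB_pf limP_pf cacc_pf) liou_pf linC_pf))
    car_pf treeEx_pf ta_pf tb_pf tc_pf fin_pf pre_pf n d hn hd μ C hAD hR

end Vale.Agent.P120
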