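import Vale.Agent.P120.Stmts

/-! P120: basic lemmas (statements frozen). -/

namespace Vale.Agent.P120

open MeasureTheory Metric Filter Module
open scoped Topology ENNReal NNReal RealInnerProductSpace

section kernel
variable {V : Type} [NormedAddCommGroup V] [InnerProductSpace ℝ V] {n : ℕ} {ε : ℝ}

theorem kr_nonneg (n : ℕ) (ε : ℝ) (z : V) : 0 ≤ kr n ε z := by unfold kr; positivity

theorem kr_neg (n : ℕ) (ε : ℝ) (z : V) : kr n ε (-z) = kr n ε z := by simp [kr]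

theorem kr_sub_comm (n : ℕ) (ε : ℝ) (x y : V) : kr n ε (x - y) = kr n ε (y - x) := by
  rw [← kr_neg, neg_sub]

namespace BasKX

theorem norm_le (ε : ℝ) (z : V) : ‖z‖ ≤ √(ε ^ 2 + ‖z‖ ^ 2) :=
  Real.le_sqrt_of_sq_le (le_add_of_nonneg_left (sq_nonneg _))

theorem eps_le (ε : ℝ) (z : V) : ε ≤ √(ε ^ 2 + ‖z‖ ^ 2) :=
  Real.le_sqrt_of_sq_le (le_add_of_nonneg_right (sq_nonneg _))

theorem sq_eq (ε : ℝ) (z : V) : √(ε ^ 2 + ‖z‖ ^ 2) ^ 2 = ε ^ 2 + ‖z‖ ^ 2 :=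
  Real.sq_sqrt (by positivity)

theorem le_add (ε : ℝ) (z z' : V) : √(ε ^ 2 + ‖z‖ ^ 2) ≤ √(ε ^ 2 + ‖z'‖ ^ 2) + ‖z - z'‖ := by
  have h1 := norm_le ε z'
  have h2 := sq_eq ε z'
  have h3 : ‖z‖ ≤ ‖z'‖ + ‖z - z'‖ := norm_le_insert' z z'
  have h4 := norm_nonneg (z - z')
  have h5 := pow_le_pow_left₀ (norm_nonneg z) h3 2
  refine Real.sqrt_le_iff.2 ⟨by positivity, ?_⟩
  nlinarith

theorem lip (ε : ℝ) (z z' : V) : |√(ε ^ 2 + ‖z‖ ^ 2) - √(ε ^ 2 + ‖z'‖ ^ 2)| ≤ ‖z - z'‖ := by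
  have h1 := le_add ε z z'
  have h2 := le_add ε z' z
  rw [norm_sub_rev] at h2
  exact abs_le.2 ⟨by linarith, by linarith⟩

theorem pow_sub {a b m : ℝ} (hm : 0 < m) (ha : m ≤ a) (hb : m ≤ b) (k : ℕ) :
    |a⁻¹ ^ (k + 1) - b⁻¹ ^ (k + 1)| * b ≤ (k + 1) * |a - b| * m⁻¹ ^ (k + 1) := by
  have ha0 := hm.trans_le ha
  have hb0 := hm.trans_le hb
  have h1 := abs_pow_sub_pow_le (a := a⁻¹) (b := b⁻¹) (n := k + 1)
  have h2 : max |a⁻¹| |b⁻¹| ≤ m⁻¹ := max_le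
    ((abs_of_pos (inv_pos.2 ha0)).trans_le (inv_anti₀ hm ha))
    ((abs_of_pos (inv_pos.2 hb0)).trans_le (inv_anti₀ hm hb))
  have h3 : |a⁻¹ - b⁻¹| * b = |a - b| * a⁻¹ := by
    rw [show a⁻¹ - b⁻¹ = (b - a) * (a⁻¹ * b⁻¹) by field_simp, abs_mul, abs_sub_comm,
      abs_of_pos (by positivity : 0 < a⁻¹ * b⁻¹)]
    field_simp
  rw [Nat.add_sub_cancel] at h1
  calc _ ≤ |a⁻¹ - b⁻¹| * ((k + 1 : ℕ) : ℝ) * m⁻¹ ^ k * b := by
        refine mul_le_mul_of_nonneg_right (h1.trans ?_) hb0.le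
        gcongr
    _ = (k + 1) * |a - b| * (m⁻¹ ^ k * a⁻¹) := by
        push_cast
        linear_combination ((k : ℝ) + 1) * m⁻¹ ^ k * h3
    _ ≤ _ := by
        rw [pow_succ]
        gcongr

theorem core1 {m : ℝ} {z z' : V} (hm : 0 < m) (h : m ≤ √(ε ^ 2 + ‖z‖ ^ 2))
    (h' : m ≤ √(ε ^ 2 + ‖z'‖ ^ 2)) :
    |kr n ε z - kr n ε z'| ≤ (n + 2) * ‖z - z'‖ * m⁻¹ ^ (n + 2) := by
  have h1 := (mul_le_mul_of_nonneg_left h' (abs_nonneg _)).trans (pow_sub hm h h' n)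
  rw [← le_mul_inv_iff₀ hm, mul_assoc, ← pow_succ] at h1
  refine h1.trans ?_
  have h2 := lip ε z z'
  gcongr
  norm_num

theorem core2 {m : ℝ} {z z' : V} (hm : 0 < m) (h : m ≤ √(ε ^ 2 + ‖z‖ ^ 2))
    (h' : m ≤ √(ε ^ 2 + ‖z'‖ ^ 2)) :
    ‖kr n ε z • z - kr n ε z' • z'‖ ≤ (n + 2) * ‖z - z'‖ * m⁻¹ ^ (n + 1) := by
  have h1 := (mul_le_mul_of_nonneg_left (norm_le ε z') (abs_nonneg _)).trans (pow_sub hm h h' n)
  have h2 : kr n ε z • z - kr n ε z' • z' = kr n ε z • (z - z') + (kr n ε z - kr n ε z') • z' := by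
    module
  have h3 : kr n ε z ≤ m⁻¹ ^ (n + 1) :=
    pow_le_pow_left₀ (by positivity) (inv_anti₀ hm h) _
  have h4 : (n + 1) * |√(ε ^ 2 + ‖z‖ ^ 2) - √(ε ^ 2 + ‖z'‖ ^ 2)| * m⁻¹ ^ (n + 1) ≤
      (n + 1) * ‖z - z'‖ * m⁻¹ ^ (n + 1) := by
    have := lip ε z z'
    gcongr
  rw [h2]
  refine (norm_add_le _ _).trans ?_
  rw [norm_smul, norm_smul, Real.norm_of_nonneg (kr_nonneg _ _ _), Real.norm_eq_abs]
  have h5 := mul_le_mul_of_nonneg_right h3 (norm_nonneg (z - z'))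
  have h6 := h1.trans h4
  unfold kr at h5 ⊢
  linarith

theorem half {z z' : V} (h : 2 * ‖z - z'‖ ≤ ‖z‖) : ‖z‖ / 2 ≤ ‖z'‖ := by
  have := norm_le_insert' z z'
  linarith

theorem zero {z z' : V} (h : 2 * ‖z - z'‖ ≤ ‖z‖) (hz : z = 0) : z' = z := by
  rw [hz, norm_zero] at h
  rw [hz, ← neg_eq_zero, ← zero_sub]
  exact norm_le_zero_iff.1 (by linarith)

end BasKX

theorem continuous_kr (n : ℕ) (hε : 0 < ε) : Continuous (kr n ε : V → ℝ) := by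
  unfold kr
  exact (Continuous.inv₀ (by fun_prop) fun z => (hε.trans_le (BasKX.eps_le ε z)).ne').pow _

theorem kr_le_eps (hε : 0 < ε) (z : V) : kr n ε z ≤ ε⁻¹ ^ (n + 1) :=
  pow_le_pow_left₀ (by positivity) (inv_anti₀ hε (BasKX.eps_le ε z)) _

theorem kr_le_norm (ε : ℝ) {z : V} (hz : z ≠ 0) : kr n ε z ≤ ‖z‖⁻¹ ^ (n + 1) :=
  pow_le_pow_left₀ (by positivity) (inv_anti₀ (norm_pos_iff.2 hz) (BasKX.norm_le ε z)) _

theorem kr_mul_norm_le (ε : ℝ) (z : V) : kr n ε z * ‖z‖ ≤ ‖z‖⁻¹ ^ n := by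
  rcases eq_or_ne z 0 with hz | hz
  · rw [hz, norm_zero, mul_zero]
    positivity
  · refine (mul_le_mul_of_nonneg_right (kr_le_norm ε hz) (norm_nonneg z)).trans_eq ?_
    rw [pow_succ, inv_mul_cancel_right₀ (norm_ne_zero_iff.2 hz)]

theorem kr_mul_sq_le (hn : 1 ≤ n) (ε : ℝ) (z : V) : kr n ε z * ‖z‖ ^ 2 ≤ ‖z‖⁻¹ ^ (n - 1) := by
  obtain ⟨m, rfl⟩ := Nat.exists_eq_add_of_le' hn
  rcases eq_or_ne z 0 with hz | hz
  · rw [hz, norm_zero, zero_pow two_ne_zero, mul_zero]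
    positivity
  · rw [sq, ← mul_assoc]
    refine (mul_le_mul_of_nonneg_right (kr_mul_norm_le ε z) (norm_nonneg z)).trans_eq ?_
    rw [pow_succ, inv_mul_cancel_right₀ (norm_ne_zero_iff.2 hz), Nat.add_sub_cancel]

theorem kr_mul_norm_le_eps (hε : 0 < ε) (z : V) : kr n ε z * ‖z‖ ≤ ε⁻¹ ^ n := by
  have h1 := BasKX.eps_le ε z
  refine (mul_le_mul_of_nonneg_left (BasKX.norm_le ε z) (kr_nonneg _ _ _)).trans ?_
  rw [kr, pow_succ, inv_mul_cancel_right₀ (hε.trans_le h1).ne']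
  exact pow_le_pow_left₀ (by positivity) (inv_anti₀ hε h1) _

theorem kr_le_dec (hε : 0 < ε) (z : V) :
    kr n ε z ≤ (2 / ε) ^ (n + 1) * (1 + ‖z‖ / ε)⁻¹ ^ (n + 1) := by
  have h1 := BasKX.eps_le ε z
  have h2 := BasKX.norm_le ε z
  have h3 : 2 / ε * (1 + ‖z‖ / ε)⁻¹ = ((ε + ‖z‖) / 2)⁻¹ := by field_simp
  rw [← mul_pow, h3]
  exact pow_le_pow_left₀ (by positivity) (inv_anti₀ (by positivity) (by linarith)) _

theorem kr_anti {ε' : ℝ} (h0 : 0 < ε') (h : ε' ≤ ε) (z : V) : kr n ε z ≤ kr n ε' z := by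
  refine pow_le_pow_left₀ (by positivity) (inv_anti₀ (by positivity) ?_) _
  gcongr

theorem kr_ge {s : ℝ} {z : V} (hε : 0 < ε) (h : ε ≤ s) (hz : ‖z‖ ≤ s) :
    (2 * s)⁻¹ ^ (n + 1) ≤ kr n ε z := by
  have hs := hε.trans_le h
  refine pow_le_pow_left₀ (by positivity) (inv_anti₀ (by positivity) ?_) _
  refine Real.sqrt_le_iff.2 ⟨by positivity, ?_⟩
  have h1 := pow_le_pow_left₀ hε.le h 2
  have h2 := pow_le_pow_left₀ (norm_nonneg z) hz 2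
  nlinarith

theorem kr_sub_le {ε' : ℝ} (h0 : 0 < ε') (h : ε' ≤ ε) {z : V} (hz : z ≠ 0) :
    kr n ε' z - kr n ε z ≤ (n + 1) * ε ^ 2 * ‖z‖⁻¹ ^ (n + 3) := by
  have hr := norm_pos_iff.2 hz
  have h1 := BasKX.norm_le ε z
  have h2 := BasKX.norm_le ε' z
  have h3 := BasKX.sq_eq ε z
  have h4 : |√(ε' ^ 2 + ‖z‖ ^ 2) - √(ε ^ 2 + ‖z‖ ^ 2)| ≤ ε ^ 2 * ‖z‖⁻¹ := by
    have h5 : √(ε' ^ 2 + ‖z‖ ^ 2) ≤ √(ε ^ 2 + ‖z‖ ^ 2) := by gcongr
    rw [abs_of_nonpos (by linarith), le_mul_inv_iff₀ hr]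
    nlinarith
  have h5 := (mul_le_mul_of_nonneg_left h1 (abs_nonneg _)).trans (BasKX.pow_sub hr h2 h1 n)
  rw [← le_mul_inv_iff₀ hr] at h5
  refine (le_abs_self _).trans (h5.trans ?_)
  calc _ ≤ (n + 1) * (ε ^ 2 * ‖z‖⁻¹) * ‖z‖⁻¹ ^ (n + 1) * ‖z‖⁻¹ := by gcongr
    _ = _ := by ring

theorem tendsto_kr {z : V} (hz : z ≠ 0) :
    Tendsto (fun ε => kr n ε z) (𝓝[>] 0) (𝓝 (‖z‖⁻¹ ^ (n + 1))) := by
  have hr := norm_pos_iff.2 hz
  have h1 : ContinuousAt (fun ε : ℝ => kr n ε z) 0 := by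
    unfold kr
    exact (ContinuousAt.inv₀ (f := fun ε : ℝ => √(ε ^ 2 + ‖z‖ ^ 2)) (by fun_prop)
      (hr.trans_le (BasKX.norm_le 0 z)).ne').pow _
  have h2 : kr n 0 z = ‖z‖⁻¹ ^ (n + 1) := by simp [kr]
  exact h2 ▸ h1.tendsto.mono_left nhdsWithin_le_nhds

/-- Lipschitz constant for the kernels. -/
noncomputable def cK (n : ℕ) : ℝ := (n + 2) * 2 ^ (n + 2)

theorem cK_pos (n : ℕ) : 0 < cK n := by unfold cK; positivity

theorem kr_lip_far (hε : 0 < ε) {z z' : V} (h : 2 * ‖z - z'‖ ≤ ‖z‖) :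
    |kr n ε z - kr n ε z'| ≤ cK n * ‖z - z'‖ * ‖z‖⁻¹ ^ (n + 2) := by
  rcases eq_or_ne z 0 with hz | hz
  · simp [BasKX.zero h hz]
  have hr := norm_pos_iff.2 hz
  refine (BasKX.core1 (half_pos hr) ((half_le_self hr.le).trans (BasKX.norm_le ε z))
    ((BasKX.half h).trans (BasKX.norm_le ε z'))).trans_eq ?_
  rw [cK, inv_div, div_eq_mul_inv, mul_pow]
  ring

theorem Kr_lip_far (hε : 0 < ε) {z z' : V} (h : 2 * ‖z - z'‖ ≤ ‖z‖) :
    ‖kr n ε z • z - kr n ε z' • z'‖ ≤ cK n * ‖z - z'‖ * ‖z‖⁻¹ ^ (n + 1) := by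
  rcases eq_or_ne z 0 with hz | hz
  · simp [BasKX.zero h hz]
  have hr := norm_pos_iff.2 hz
  refine (BasKX.core2 (half_pos hr) ((half_le_self hr.le).trans (BasKX.norm_le ε z))
    ((BasKX.half h).trans (BasKX.norm_le ε z'))).trans ?_
  rw [cK, inv_div, div_eq_mul_inv, mul_pow]
  calc _ = (n + 2) * 2 ^ (n + 1) * ‖z - z'‖ * ‖z‖⁻¹ ^ (n + 1) := by ring
    _ ≤ _ := by
      gcongr
      · norm_num
      · norm_num

theorem BasKX.le_cK (n : ℕ) : (n : ℝ) + 2 ≤ cK n :=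
  le_mul_of_one_le_right (by positivity) (one_le_pow₀ (by norm_num))

theorem kr_lip (hε : 0 < ε) (z z' : V) :
    |kr n ε z - kr n ε z'| ≤ cK n * ‖z - z'‖ * ε⁻¹ ^ (n + 2) := by
  refine (BasKX.core1 hε (BasKX.eps_le ε z) (BasKX.eps_le ε z')).trans ?_
  have := BasKX.le_cK n
  gcongr

theorem Kr_lip (hε : 0 < ε) (z z' : V) :
    ‖kr n ε z • z - kr n ε z' • z'‖ ≤ cK n * ‖z - z'‖ * ε⁻¹ ^ (n + 1) := by
  refine (BasKX.core2 hε (BasKX.eps_le ε z) (BasKX.eps_le ε z')).trans ?_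
  have := BasKX.le_cK n
  gcongr

theorem wt_pos (n : ℕ) (y : V) {s : ℝ} (hs : 0 < s) (x : V) : 0 < wt n y s x := by
  unfold wt; positivity

theorem wt_unit (n : ℕ) (x : V) : wt n 0 1 x = (1 + ‖x‖)⁻¹ ^ (n + 3) := by simp [wt]

theorem continuous_wt (n : ℕ) (y : V) {s : ℝ} (hs : 0 < s) : Continuous (wt n y s : V → ℝ) := by
  unfold wt
  exact (Continuous.inv₀ (by fun_prop) fun x => by positivity).pow _

/-- Equi-Lipschitz functions converging pointwise converge locally uniformly. -/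
theorem lu_of_lip [FiniteDimensional ℝ V] {U : Ultrafilter ℕ} {g : ℕ → V → ℝ} {g₀ : V → ℝ}
    (h : ∀ R : ℝ, ∃ K : ℝ, ∀ᶠ k in U, ∀ x y, ‖x‖ ≤ R → ‖y‖ ≤ R → |g k x - g k y| ≤ K * ‖x - y‖)
    (h' : ∀ x, Tendsto (fun k => g k x) U (𝓝 (g₀ x))) : LU U g g₀ := by
  intro R ε hε
  obtain ⟨K, hK⟩ := h R
  have h0 : ∀ x y, ‖x‖ ≤ R → ‖y‖ ≤ R → |g₀ x - g₀ y| ≤ K * ‖x - y‖ := fun x y hx hy =>
    le_of_tendsto ((h' x).sub (h' y)).abs (hK.mono fun k hk => hk x y hx hy)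
  have hδ : 0 < ε / (3 * (|K| + 1)) := by positivity
  obtain ⟨t, ht1, ht2, ht3⟩ := (isCompact_closedBall (0 : V) R).finite_cover_balls hδ
  have h1 : ∀ᶠ k in U, ∀ y ∈ t, |g k y - g₀ y| ≤ ε / 3 :=
    (eventually_all_finite ht2).2 fun y _ =>
      (Metric.tendsto_nhds.1 (h' y) (ε / 3) (by positivity)).mono fun k hk => le_of_lt hk
  filter_upwards [hK, h1] with k hk hk1 x hx
  obtain ⟨y, hy, hxy⟩ := Set.mem_iUnion₂.1 (ht3 (mem_closedBall_zero_iff.2 hx))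
  have hy1 := mem_closedBall_zero_iff.1 (ht1 hy)
  have h2 : K * ‖x - y‖ ≤ ε / 3 := by
    rw [mem_ball, dist_eq_norm] at hxy
    calc _ ≤ (|K| + 1) * (ε / (3 * (|K| + 1))) :=
          mul_le_mul ((le_abs_self K).trans (by linarith)) hxy.le (norm_nonneg _) (by positivity)
      _ = _ := by field_simp
  have h3 := abs_le.1 ((hk x y hx hy1).trans h2)
  have h4 := abs_le.1 ((h0 x y hx hy1).trans h2)
  have h5 := abs_le.1 (hk1 y hy)
  exact abs_le.2 ⟨by linarith, by linarith⟩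

end kernel

section perp
variable {V : Type} [NormedAddCommGroup V] [InnerProductSpace ℝ V] [FiniteDimensional ℝ V]
  (D : Submodule ℝ V)

theorem perp_eq (x : V) : perp D x = Dᗮ.starProjection x := (D.starProjection_orthogonal_val x).symm

theorem perp_mem (x : V) : perp D x ∈ Dᗮ := D.sub_starProjection_mem_orthogonal x

theorem perp_add (x y : V) : perp D (x + y) = perp D x + perp D y := by
  simp only [perp, map_add]; abel

theorem perp_sub (x y : V) : perp D (x - y) = perp D x - perp D y := by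
  simp only [perp, map_sub]; abel

theorem perp_smul (c : ℝ) (x : V) : perp D (c • x) = c • perp D x := by
  simp only [perp, map_smul, smul_sub]

theorem continuous_perp : Continuous (perp D) := by unfold perp; fun_prop

theorem perp_eq_zero {x : V} : perp D x = 0 ↔ x ∈ D := by
  rw [perp, sub_eq_zero, eq_comm, Submodule.starProjection_eq_self_iff]

theorem norm_perp_le_sub (x : V) {w : V} (hw : w ∈ D) : ‖perp D x‖ ≤ ‖x - w‖ := by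
  have h : perp D x = perp D (x - w) := by rw [perp_sub, (perp_eq_zero D).2 hw, sub_zero]
  rw [h, perp_eq]
  exact Dᗮ.norm_starProjection_apply_le _

theorem norm_perp_le (x : V) : ‖perp D x‖ ≤ ‖x‖ := by
  simpa using norm_perp_le_sub D x D.zero_mem

theorem inner_perp (x e : V) : ⟪perp D x, e⟫ = ⟪x, perp D e⟫ := by
  rw [perp_eq, perp_eq, Submodule.inner_starProjection_left_eq_right]

theorem perp_map (O : V ≃ₗᵢ[ℝ] V) (x : V) :
    perp (D.map (O.toLinearEquiv : V →ₗ[ℝ] V)) (O x) = O (perp D x) := by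
  rw [perp, perp, Submodule.starProjection_map_apply, O.symm_apply_apply, map_sub]

theorem exists_ge_rank {n : ℕ} (h : finrank ℝ D ≤ n) (hn : n ≤ finrank ℝ V) :
    ∃ D' : Submodule ℝ V, D ≤ D' ∧ finrank ℝ D' = n := by
  induction n, h using Nat.le_induction with
  | base => exact ⟨D, le_rfl, rfl⟩
  | succ m _ ih =>
    obtain ⟨D', h1, h2⟩ := ih (by omega)
    obtain ⟨v, hv⟩ := D'.exists_of_finrank_lt (by omega)
    refine ⟨D' ⊔ Submodule.span ℝ {v}, h1.trans le_sup_left, ?_⟩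
    rw [Submodule.finrank_sup_span_singleton (by simpa using hv 1 one_ne_zero), h2]

end perp

end Vale.Agent.P120
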