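import Vale.Agent.P120.Bas

/-! P120, Cls0: the density of the measure with respect to volume. -/

namespace Vale.Agent.P120.Cls0X

open MeasureTheory Metric Filter Module
open scoped Topology ENNReal NNReal RealInnerProductSpace

variable {V : Type} [NormedAddCommGroup V] [InnerProductSpace ℝ V] [FiniteDimensional ℝ V]
  [MeasurableSpace V] [BorelSpace V] {n : ℕ} {C : ℝ} {σ : Measure V}

/-- The volume of the unit ball. -/
noncomputable def om (V : Type) [NormedAddCommGroup V] [InnerProductSpace ℝ V]
    [FiniteDimensional ℝ V] [MeasurableSpace V] [BorelSpace V] : ℝ :=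
  ((volume : Measure V) (ball 0 1)).toReal

theorem om_pos : 0 < om V :=
  ENNReal.toReal_pos (measure_ball_pos volume 0 one_pos).ne' measure_ball_lt_top.ne

theorem vol_ball (hn : finrank ℝ V = n) (x : V) {r : ℝ} (hr : 0 < r) :
    (volume : Measure V) (ball x r) = ENNReal.ofReal (om V * r ^ n) := by
  rw [Measure.addHaar_ball_of_pos volume x hr, hn, mul_comm (om V),
    ENNReal.ofReal_mul (by positivity), om, ENNReal.ofReal_toReal measure_ball_lt_top.ne]

theorem vol_closedBall (hn : finrank ℝ V = n) (x : V) {r : ℝ} (hr : 0 < r) :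
    (volume : Measure V) (closedBall x r) = ENNReal.ofReal (om V * r ^ n) := by
  rw [Measure.addHaar_closedBall volume x hr.le, hn, mul_comm (om V),
    ENNReal.ofReal_mul (by positivity), om, ENNReal.ofReal_toReal measure_ball_lt_top.ne]

theorem up_vol (hn : finrank ℝ V = n) : Up n (om V) (volume : Measure V) :=
  fun x _ hr => (vol_ball hn x hr).le

/-- Comparison of measures through closed balls. -/
theorem le_of_balls (μ ν : Measure V) [IsLocallyFiniteMeasure μ] [IsLocallyFiniteMeasure ν]
    (h : ∀ x r, 0 < r → μ (closedBall x r) ≤ ν (closedBall x r)) (s : Set V) : μ s ≤ ν s := by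
  refine (Besicovitch.vitaliFamily μ).measure_le_of_frequently_le ν
    Measure.AbsolutelyContinuous.rfl s fun x _ => ?_
  refine (Besicovitch.tendsto_filterAt μ x).frequently ?_
  refine Eventually.frequently ?_
  filter_upwards [self_mem_nhdsWithin] with r hr using h x r hr

theorem upper (hn : finrank ℝ V = n) (hC : 1 ≤ C) (hu : Up n C σ) (s : Set V) :
    σ s ≤ ENNReal.ofReal (C * 2 ^ n / om V) * volume s := by
  haveI := hu.locFin
  have h := le_of_balls σ (Real.toNNReal (C * 2 ^ n / om V) • volume) (fun x r hr => by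
    have h1 : σ (closedBall x r) ≤ σ (ball x (2 * r)) :=
      measure_mono (closedBall_subset_ball (by linarith))
    refine (h1.trans (hu x _ (by linarith))).trans (le_of_eq ?_)
    have ho := om_pos (V := V)
    rw [Measure.coe_nnreal_smul_apply, vol_closedBall hn x hr]
    change _ = ENNReal.ofReal _ * _
    rw [← ENNReal.ofReal_mul (by positivity)]
    congr 1
    field_simp
    ring) s
  rw [Measure.coe_nnreal_smul_apply] at h
  exact h

theorem lower (hn : finrank ℝ V = n) (hC : 1 ≤ C) (hu : Up n C σ) (hl : ∀ R, Low n C R σ)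
    (hs : ∀ x, x ∈ σ.support) (s : Set V) :
    ENNReal.ofReal (C * om V)⁻¹ * volume s ≤ σ s := by
  haveI := hu.locFin
  have h := le_of_balls (Real.toNNReal (C * om V)⁻¹ • volume) σ (fun x r hr => by
    have h1 : σ (ball x r) ≤ σ (closedBall x r) := measure_mono ball_subset_closedBall
    refine le_trans (le_of_eq ?_) ((hl r x (hs x) r hr le_rfl).trans h1)
    have ho := om_pos (V := V)
    rw [Measure.coe_nnreal_smul_apply, vol_closedBall hn x hr]
    change ENNReal.ofReal _ * _ = _
    rw [← ENNReal.ofReal_mul (by positivity)]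
    congr 1
    field_simp) s
  rw [Measure.coe_nnreal_smul_apply] at h
  exact h

/-- The measure has a density bounded above and below. -/
theorem density (hn : finrank ℝ V = n) (hC : 1 ≤ C) (hu : Up n C σ) (hl : ∀ R, Low n C R σ)
    (hs : ∀ x, x ∈ σ.support) : ∃ (h : V → ℝ) (a b : ℝ), 0 < a ∧ Measurable h ∧
    (∀ x, a ≤ h x ∧ h x ≤ b) ∧ σ = volume.withDensity fun x => ENNReal.ofReal (h x) := by
  haveI := hu.locFin
  have ho := om_pos (V := V)
  set a : ℝ := (C * om V)⁻¹ with ha
  set b : ℝ := C * 2 ^ n / om V with hb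
  have ha0 : 0 < a := by positivity
  have hb0 : 0 < b := by positivity
  have hac : σ ≪ volume := fun s h0 => by
    have := upper hn hC hu s
    rw [h0, mul_zero] at this
    exact le_antisymm this bot_le
  have h1 : σ.rnDeriv volume ≤ᵐ[volume] fun _ => ENNReal.ofReal b := by
    refine ae_le_of_forall_setLIntegral_le_of_sigmaFinite (Measure.measurable_rnDeriv _ _)
      fun s _ _ => ?_
    rw [Measure.setLIntegral_rnDeriv hac, setLIntegral_const]
    exact upper hn hC hu s
  have h2 : (fun _ => ENNReal.ofReal a) ≤ᵐ[volume] σ.rnDeriv volume := by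
    refine ae_le_of_forall_setLIntegral_le_of_sigmaFinite measurable_const fun s _ _ => ?_
    rw [Measure.setLIntegral_rnDeriv hac, setLIntegral_const]
    exact lower hn hC hu hl hs s
  refine ⟨fun x => max a (min b (σ.rnDeriv volume x).toReal), a, max a b, ha0, ?_,
    fun x => ⟨le_max_left _ _, max_le_max le_rfl (min_le_left _ _)⟩, ?_⟩
  · exact measurable_const.max (measurable_const.min
      (Measure.measurable_rnDeriv _ _).ennreal_toReal)
  · rw [← Measure.withDensity_rnDeriv_eq σ volume hac]
    refine withDensity_congr_ae ?_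
    rw [Measure.withDensity_rnDeriv_eq σ volume hac]
    filter_upwards [h1, h2] with x hx1 hx2
    have hfin : σ.rnDeriv volume x ≠ ⊤ := ne_top_of_le_ne_top ENNReal.ofReal_ne_top hx1
    have e1 : (σ.rnDeriv volume x).toReal ≤ b := ENNReal.toReal_le_of_le_ofReal hb0.le hx1
    have e2 : a ≤ (σ.rnDeriv volume x).toReal := (ENNReal.ofReal_le_iff_le_toReal hfin).1 hx2
    rw [min_eq_right e1, max_eq_right e2, ENNReal.ofReal_toReal hfin]

theorem integral_dens {E : Type} [NormedAddCommGroup E] [NormedSpace ℝ E] {h : V → ℝ}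
    (hm : Measurable h) (h0 : ∀ x, 0 ≤ h x) (g : V → E) :
    ∫ x, g x ∂(volume.withDensity fun x => ENNReal.ofReal (h x)) = ∫ x, h x • g x := by
  rw [integral_withDensity_eq_integral_toReal_smul hm.ennreal_ofReal
    (Eventually.of_forall fun _ => ENNReal.ofReal_lt_top)]
  simp only [ENNReal.toReal_ofReal (h0 _)]

/-- A bounded affine density is constant. -/
theorem const_of_affine {h : V → ℝ} {a b c : ℝ} (B : V →L[ℝ] ℝ) (hb : ∀ x, a ≤ h x ∧ h x ≤ b)
    (he : h =ᵐ[volume] fun w => c + B w) : a ≤ c ∧ h =ᵐ[volume] fun _ => c := by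
  have hc : Continuous fun w : V => c + B w := by fun_prop
  have hcl : IsClosed {w : V | a ≤ c + B w ∧ c + B w ≤ b} :=
    (isClosed_le continuous_const hc).inter (isClosed_le hc continuous_const)
  have hall : {w : V | a ≤ c + B w ∧ c + B w ≤ b} = Set.univ := by
    refine (hcl.ae_eq_univ_iff_eq (μ := volume)).1 ?_
    refine ae_eq_univ.2 ?_
    have : ∀ᵐ w ∂(volume : Measure V), a ≤ c + B w ∧ c + B w ≤ b := by
      filter_upwards [he] with w hw
      rw [← hw]
      exact hb w
    exact this
  have hw : ∀ w : V, a ≤ c + B w ∧ c + B w ≤ b := fun w => by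
    have : w ∈ {w : V | a ≤ c + B w ∧ c + B w ≤ b} := hall ▸ Set.mem_univ w
    exact this
  have hB : ∀ w, B w = 0 := fun w => by
    by_contra hne
    have h1 := (hw (((b - c + 1) / B w) • w)).2
    rw [map_smul, smul_eq_mul, div_mul_cancel₀ _ hne] at h1
    linarith
  refine ⟨by simpa [hB] using (hw 0).1, ?_⟩
  filter_upwards [he] with w hw'
  rw [hw', hB, add_zero]

end Vale.Agent.P120.Cls0X
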