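import Vale.Agent.P120.Bas

/-! P120, Cls0: the reflectionless property for square integrable fields. -/

namespace Vale.Agent.P120.Cls0X

open MeasureTheory Metric Filter Module
open scoped Topology ENNReal NNReal RealInnerProductSpace

variable {V : Type} [NormedAddCommGroup V] [InnerProductSpace ℝ V] [FiniteDimensional ℝ V]
  [MeasurableSpace V] [BorelSpace V] {n : ℕ} {C : ℝ} {σ : Measure V}

omit [InnerProductSpace ℝ V] [FiniteDimensional ℝ V] [BorelSpace V] in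
theorem sq_of_lint {u : V → V} (hu : AEStronglyMeasurable u σ) {b : ℝ} (hb : 0 ≤ b)
    (h : ∫⁻ x, ‖u x‖ₑ ^ 2 ∂σ ≤ ENNReal.ofReal b) :
    Integrable (fun x => ‖u x‖ ^ 2) σ ∧ ∫ x, ‖u x‖ ^ 2 ∂σ ≤ b := by
  have e : ∀ x, ENNReal.ofReal (‖u x‖ ^ 2) = ‖u x‖ₑ ^ 2 := fun x => by
    rw [ENNReal.ofReal_pow (norm_nonneg _), ofReal_norm]
  have hm : AEStronglyMeasurable (fun x => ‖u x‖ ^ 2) σ := hu.norm.pow 2
  have h0 : 0 ≤ᵐ[σ] fun x => ‖u x‖ ^ 2 := Eventually.of_forall fun x => by positivity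
  refine ⟨⟨hm, (hasFiniteIntegral_iff_ofReal h0).2 ?_⟩, ?_⟩
  · simp only [e]
    exact h.trans_lt ENNReal.ofReal_lt_top
  · rw [integral_eq_lintegral_of_nonneg_ae h0 hm]
    simp only [e]
    exact ENNReal.toReal_le_of_le_ofReal hb h

theorem mul_le_young {a b t : ℝ} (ht : 0 < t) : a * b ≤ t * a ^ 2 + t⁻¹ * b ^ 2 := by
  have h : t * a ^ 2 + t⁻¹ * b ^ 2 - 2 * (a * b) = t⁻¹ * (t * a - b) ^ 2 := by
    field_simp
    ring
  have h1 : 0 ≤ t⁻¹ * (t * a - b) ^ 2 := by positivity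
  have h2 : 0 ≤ t * a ^ 2 + t⁻¹ * b ^ 2 := by positivity
  linarith

omit [InnerProductSpace ℝ V] [FiniteDimensional ℝ V] in
/-- The `L¹` norm of a field supported in a ball. -/
theorem l1_le [IsFiniteMeasureOnCompacts σ] [ProperSpace V] {X : V → V} {ρ t : ℝ} (ht : 0 < t)
    (hX : AEStronglyMeasurable X σ) (h2 : Integrable (fun x => ‖X x‖ ^ 2) σ)
    (h0 : ∀ x, ρ ≤ ‖x‖ → X x = 0) (hs : ∫ x, ‖X x‖ ^ 2 ∂σ ≤ t ^ 2) :
    Integrable X σ ∧ ∫ x, ‖X x‖ ∂σ ≤ (σ.real (ball 0 ρ) + 1) * t := by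
  have hi : Integrable ((ball (0 : V) ρ).indicator fun _ => t) σ :=
    (integrableOn_const measure_ball_lt_top.ne).integrable_indicator measurableSet_ball
  have hb : ∀ x, ‖X x‖ ≤ (ball (0 : V) ρ).indicator (fun _ => t) x + t⁻¹ * ‖X x‖ ^ 2 := by
    intro x
    by_cases hx : x ∈ ball (0 : V) ρ
    · rw [Set.indicator_of_mem hx]
      have := mul_le_young (a := 1) (b := ‖X x‖) ht
      linarith
    · rw [Set.indicator_of_notMem hx, h0 x (by simpa using hx)]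
      simp
  have hI : Integrable (fun x => (ball (0 : V) ρ).indicator (fun _ => t) x
      + t⁻¹ * ‖X x‖ ^ 2) σ := hi.add (h2.const_mul _)
  have hXi : Integrable X σ := hI.mono' hX (Eventually.of_forall hb)
  refine ⟨hXi, (integral_mono hXi.norm hI hb).trans ?_⟩
  rw [integral_add hi (h2.const_mul _), integral_indicator measurableSet_ball, integral_const_mul,
    setIntegral_const, smul_eq_mul]
  have h3 : t⁻¹ * ∫ x, ‖X x‖ ^ 2 ∂σ ≤ t⁻¹ * t ^ 2 := by gcongr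
  have h4 : t⁻¹ * t ^ 2 = t := by field_simp
  linarith

/-- The near part of the transform. -/
theorem near_le (hu : Up n C σ) (hb : BD n C σ) {f : V → ℝ} (hf : Continuous f)
    (hc : HasCompactSupport f) {ε t : ℝ} (hε : 0 < ε) (ht : 0 < t) {X : V → V}
    (hX : Integrable X σ) (h2 : Integrable (fun x => ‖X x‖ ^ 2) σ)
    (hs : ∫ x, ‖X x‖ ^ 2 ∂σ ≤ t ^ 2) :
    |∫ y, f y * Ti n ε σ X y ∂σ| ≤ (C ^ 2 * ∫ y, f y ^ 2 ∂σ + 1) * t := by
  haveI := hu.locFin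
  have hfi : Integrable f σ := hf.integrable_of_hasCompactSupport hc
  have hF : 0 ≤ C ^ 2 * ∫ y, f y ^ 2 ∂σ :=
    mul_nonneg (sq_nonneg _) (integral_nonneg fun y => sq_nonneg _)
  obtain ⟨hR, hR2⟩ := sq_of_lint (continuous_Rz (n := n) hε hfi).aestronglyMeasurable hF
    (hb ε hε f hf hc)
  rw [hu.integral_mul_Ti hε hX hfi]
  have hI : Integrable (fun x => t * ‖Rz n ε σ f x‖ ^ 2 + t⁻¹ * ‖X x‖ ^ 2) σ :=
    (hR.const_mul _).add (h2.const_mul _)
  have h1 := norm_integral_le_of_norm_le (f := fun x => ⟪Rz n ε σ f x, X x⟫) hI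
    (Eventually.of_forall fun x => (norm_inner_le_norm _ _).trans (mul_le_young ht))
  rw [Real.norm_eq_abs, integral_add (hR.const_mul _) (h2.const_mul _), integral_const_mul,
    integral_const_mul] at h1
  have h3 : t⁻¹ * ∫ x, ‖X x‖ ^ 2 ∂σ ≤ t⁻¹ * t ^ 2 := by gcongr
  have h4 : t⁻¹ * t ^ 2 = t := by field_simp
  have h5 : t * ∫ x, ‖Rz n ε σ f x‖ ^ 2 ∂σ ≤ t * (C ^ 2 * ∫ y, f y ^ 2 ∂σ) := by gcongr
  linarith

/-- The far part of the transform. -/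
theorem far_le (hu : Up n C σ) (hC : 0 ≤ C) {f : V → ℝ} {ρ ε : ℝ} (hρ : 0 < ρ) (hε : 0 < ε)
    (hf : ∀ y, |f y| ≤ 1) (hf0 : ∀ y, ‖y‖ < 2 * ρ → f y = 0) {X : V → V}
    (hX : Integrable X σ) (h0 : ∀ x, ρ ≤ ‖x‖ → X x = 0) (hm : ∫ x, X x ∂σ = 0) :
    |∫ y, f y * Ti n ε σ X y ∂σ| ≤
      cK n * ρ * (2 ^ (n + 1) * C * (2 * ρ)⁻¹ ^ 1) * ∫ x, ‖X x‖ ∂σ := by
  obtain ⟨hi, hle⟩ := hu.far hC (0 : V) (s := 2 * ρ) (by linarith) (a := 1) le_rfl
  set A : ℝ := cK n * ρ * ∫ x, ‖X x‖ ∂σ with hA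
  have hA0 : 0 ≤ A :=
    mul_nonneg (mul_nonneg (cK_pos n).le hρ.le) (integral_nonneg fun x => norm_nonneg _)
  have hI : Integrable ((ball (0 : V) (2 * ρ))ᶜ.indicator fun y => A * ‖y - 0‖⁻¹ ^ (n + 1)) σ :=
    IntegrableOn.integrable_indicator (hi.const_mul A) measurableSet_ball.compl
  have h1 := norm_integral_le_of_norm_le (f := fun y => f y * Ti n ε σ X y) hI
    (Eventually.of_forall fun y => by
      by_cases hy : y ∈ ball (0 : V) (2 * ρ)
      · rw [Set.indicator_of_notMem (by simpa using hy), hf0 y (by simpa using hy)]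
        simp
      · rw [Set.indicator_of_mem hy, Real.norm_eq_abs, abs_mul]
        have h3 := Ti_far (n := n) hε hX (z := 0) (ρ := ρ) (by simpa using h0) hm (y := y)
          (by simpa using hy)
        calc |f y| * |Ti n ε σ X y| ≤ 1 * |Ti n ε σ X y| := by gcongr; exact hf y
          _ ≤ _ := by rw [one_mul]; refine h3.trans (le_of_eq ?_); rw [hA]; ring)
  rw [Real.norm_eq_abs, integral_indicator measurableSet_ball.compl, integral_const_mul] at h1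
  calc _ ≤ _ := h1
    _ ≤ A * (2 ^ (n + 1) * C * (2 * ρ)⁻¹ ^ 1) := by gcongr
    _ = _ := by rw [hA]; ring

/-- The `L²` bound for the transform. -/
theorem Tf_l2 (hu : Up n C σ) (hb : BD n C σ) (hC : 0 ≤ C) {ρ : ℝ} (hρ : 0 < ρ) :
    ∃ M : ℝ, 0 < M ∧ ∀ (t ε : ℝ) (X : V → V), 0 < t → 0 < ε → AEStronglyMeasurable X σ →
    Integrable (fun x => ‖X x‖ ^ 2) σ → (∀ x, ρ ≤ ‖x‖ → X x = 0) → ∫ x, X x ∂σ = 0 →
    ∫ x, ‖X x‖ ^ 2 ∂σ ≤ t ^ 2 → |Tf n ε σ X| ≤ M * t := by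
  haveI := hu.locFin
  let f : ContDiffBump (0 : V) := ⟨2 * ρ, 3 * ρ, by linarith, by linarith⟩
  set E : ℝ := cK n * ρ * (2 ^ (n + 1) * C * (2 * ρ)⁻¹ ^ 1) with hE
  have hE0 : 0 ≤ E := by have := cK_pos n; positivity
  have hF : 0 ≤ C ^ 2 * ∫ y, f y ^ 2 ∂σ :=
    mul_nonneg (sq_nonneg _) (integral_nonneg fun y => sq_nonneg _)
  refine ⟨(C ^ 2 * ∫ y, f y ^ 2 ∂σ + 1) + E * (σ.real (ball 0 ρ) + 1), by positivity, ?_⟩
  intro t ε X ht hε hXm h2 h0 hm hs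
  obtain ⟨hX, h1⟩ := l1_le ht hXm h2 h0 hs
  have hT : Integrable (Ti n ε σ X) σ :=
    hu.integrable_Ti hC hε hX (z := 0) (ρ := ρ) (by simpa using h0) hm
  have hfT : Integrable (fun y => f y * Ti n ε σ X y) σ :=
    hT.bdd_mul (c := 1) f.continuous.aestronglyMeasurable (Eventually.of_forall fun y => by
      rw [Real.norm_eq_abs, abs_of_nonneg f.nonneg]; exact f.le_one)
  have hsplit : Tf n ε σ X = ∫ y, f y * Ti n ε σ X y ∂σ + ∫ y, (1 - f y) * Ti n ε σ X y ∂σ := by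
    simp only [sub_mul, one_mul]
    rw [integral_sub hT hfT, Tf_eq]
    ring
  have h3 := near_le hu hb f.continuous f.hasCompactSupport hε ht hX h2 hs
  have h4 := far_le hu hC (f := fun y => 1 - f y) hρ hε (fun y => by
    have h5 := f.nonneg (x := y)
    have h6 := f.le_one (x := y)
    rw [abs_le]; constructor <;> linarith) (fun y hy => by
      rw [f.one_of_mem_closedBall (by simpa using hy.le), sub_self]) hX h0 hm
  have h5 : E * ∫ x, ‖X x‖ ∂σ ≤ E * ((σ.real (ball 0 ρ) + 1) * t) := by gcongr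
  rw [hsplit]
  refine (abs_add_le _ _).trans ?_
  linarith

omit [FiniteDimensional ℝ V] in
theorem sq_of_eLp {u : V → V} (hu : AEStronglyMeasurable u σ) {s : ℝ} (hs : 0 < s)
    (h : eLpNorm u 2 σ ≤ ENNReal.ofReal s) :
    Integrable (fun x => ‖u x‖ ^ 2) σ ∧ ∫ x, ‖u x‖ ^ 2 ∂σ ≤ s ^ 2 := by
  refine sq_of_lint hu (sq_nonneg s) ?_
  have e := eLpNorm_nnreal_pow_eq_lintegral (f := u) (μ := σ) (p := 2) two_ne_zero
  simp only [NNReal.coe_ofNat, ENNReal.coe_ofNat, ENNReal.rpow_ofNat] at e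
  rw [← e, ENNReal.ofReal_pow hs.le]
  gcongr

/-- Approximation by Lipschitz fields with mean zero. -/
theorem approx (hu : Up n C σ) (hs : ∀ x, x ∈ σ.support) {X : V → V} (hX : MemLp X 2 σ) {ρ : ℝ}
    (hρ : 0 < ρ) (h0 : ∀ x, ρ ≤ ‖x‖ → X x = 0) (hm : ∫ x, X x ∂σ = 0) {t : ℝ} (ht : 0 < t) :
    ∃ (Y : V → V) (K : ℝ≥0), LipschitzWith K Y ∧ (∀ x, 2 * ρ ≤ ‖x‖ → Y x = 0) ∧
    ∫ x, Y x ∂σ = 0 ∧ Integrable (fun x => ‖X x - Y x‖ ^ 2) σ ∧
    ∫ x, ‖X x - Y x‖ ^ 2 ∂σ ≤ t ^ 2 := by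
  haveI := hu.locFin
  let f : ContDiffBump (0 : V) := ⟨ρ, 2 * ρ, hρ, by linarith⟩
  have hfi : Integrable f σ := f.continuous.integrable_of_hasCompactSupport f.hasCompactSupport
  have hf0 : ∀ x, 2 * ρ ≤ ‖x‖ → f x = 0 := fun x hx => f.zero_of_le_dist (by simpa using hx)
  set a : ℝ := ∫ x, f x ∂σ with ha
  have ha0 : 0 < a := by
    refine lt_of_le_of_ne (integral_nonneg fun x => f.nonneg) fun h => ?_
    have := eq_zero_of_integral f.continuous (fun x => f.nonneg) hfi h.symm (hs 0)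
    rw [f.one_of_mem_closedBall (mem_closedBall_self hρ.le)] at this
    exact one_ne_zero this
  set B : ℝ := σ.real (ball 0 (2 * ρ)) + 1 with hB
  have hB0 : 0 < B := by positivity
  set M : ℝ := 2 + 2 * (a⁻¹ * B ^ 2) with hM
  have hM1 : 1 ≤ M := by
    have : 0 ≤ a⁻¹ * B ^ 2 := by positivity
    linarith
  set s : ℝ := t / M with hsdef
  have hs0 : 0 < s := by positivity
  obtain ⟨g, -, hg, hgs⟩ := hX.exist_eLpNorm_sub_le (by simp) (by simp) hs0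
  obtain ⟨hg1, hg2⟩ := sq_of_eLp (hX.1.sub hg.continuous.aestronglyMeasurable) hs0 hgs
  have hZc : ContDiff ℝ (⊤ : ℕ∞) fun x => f x • g x := f.contDiff.smul hg
  have hZs : HasCompactSupport fun x => f x • g x := f.hasCompactSupport.smul_right
  have hZi : Integrable (fun x => f x • g x) σ := hZc.continuous.integrable_of_hasCompactSupport hZs
  have hle : ∀ x, ‖X x - f x • g x‖ ^ 2 ≤ ‖(X - g) x‖ ^ 2 := fun x => by
    have e : X x - f x • g x = f x • (X - g) x := by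
      rw [Pi.sub_apply, smul_sub]
      by_cases hx : ρ ≤ ‖x‖
      · rw [h0 x hx, smul_zero]
      · rw [f.one_of_mem_closedBall (by simpa using (not_le.1 hx).le), one_smul, one_smul]
    rw [e, norm_smul, Real.norm_eq_abs, abs_of_nonneg f.nonneg]
    have h1 := f.le_one (x := x)
    have h2 := f.nonneg (x := x)
    gcongr
    exact mul_le_of_le_one_left (norm_nonneg _) h1
  have hDm : AEStronglyMeasurable (fun x => X x - f x • g x) σ := hX.1.sub hZi.1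
  have hD2 : Integrable (fun x => ‖X x - f x • g x‖ ^ 2) σ :=
    hg1.mono' (hDm.norm.pow 2) (Eventually.of_forall fun x => by
      rw [Real.norm_eq_abs, abs_of_nonneg (sq_nonneg _)]; exact hle x)
  have hDs : ∫ x, ‖X x - f x • g x‖ ^ 2 ∂σ ≤ s ^ 2 := (integral_mono hD2 hg1 hle).trans hg2
  obtain ⟨hDi, hD1⟩ := l1_le (ρ := 2 * ρ) hs0 hDm hD2 (fun x hx => by
    rw [h0 x (by linarith), hf0 x hx, zero_smul, sub_zero]) hDs
  set m : V := ∫ x, f x • g x ∂σ with hmdef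
  have hXi : Integrable X σ :=
    (hDi.add hZi).congr (Eventually.of_forall fun x => sub_add_cancel _ _)
  have hmn : ‖m‖ ≤ B * s := by
    have e : ∫ x, X x - f x • g x ∂σ = -m := by rw [integral_sub hXi hZi, hm, zero_sub]
    rw [← norm_neg, ← e]
    exact (norm_integral_le_integral_norm _).trans hD1
  have hYc : ContDiff ℝ (⊤ : ℕ∞) fun x => f x • (g x - a⁻¹ • m) :=
    f.contDiff.smul (hg.sub contDiff_const)
  obtain ⟨K, hK⟩ := hYc.lipschitzWith_of_hasCompactSupport f.hasCompactSupport.smul_right (by simp)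
  have hpt : ∀ x, ‖X x - f x • (g x - a⁻¹ • m)‖ ^ 2 ≤
      2 * ‖X x - f x • g x‖ ^ 2 + 2 * (a⁻¹ * (B * s)) ^ 2 * f x := fun x => by
    have e : X x - f x • (g x - a⁻¹ • m) = (X x - f x • g x) + f x • a⁻¹ • m := by
      rw [smul_sub]; abel
    have h1 := f.le_one (x := x)
    have h2 := f.nonneg (x := x)
    have h3 : ‖f x • a⁻¹ • m‖ ≤ f x * (a⁻¹ * (B * s)) := by
      rw [norm_smul, norm_smul, Real.norm_eq_abs, Real.norm_eq_abs, abs_of_nonneg h2,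
        abs_of_nonneg (inv_nonneg.2 ha0.le)]
      gcongr
    have h4 : ‖X x - f x • (g x - a⁻¹ • m)‖ ≤ ‖X x - f x • g x‖ + f x * (a⁻¹ * (B * s)) := by
      rw [e]; exact (norm_add_le _ _).trans (by linarith)
    have h5 : (f x * (a⁻¹ * (B * s))) ^ 2 ≤ (a⁻¹ * (B * s)) ^ 2 * f x := by
      have : f x ^ 2 ≤ f x := by nlinarith
      calc _ = (a⁻¹ * (B * s)) ^ 2 * f x ^ 2 := by ring
        _ ≤ _ := by gcongr
    calc _ ≤ (‖X x - f x • g x‖ + f x * (a⁻¹ * (B * s))) ^ 2 := by gcongr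
      _ ≤ 2 * ‖X x - f x • g x‖ ^ 2 + 2 * (f x * (a⁻¹ * (B * s))) ^ 2 := by
        nlinarith [sq_nonneg (‖X x - f x • g x‖ - f x * (a⁻¹ * (B * s)))]
      _ ≤ _ := by linarith
  have hI : Integrable (fun x => 2 * ‖X x - f x • g x‖ ^ 2 + 2 * (a⁻¹ * (B * s)) ^ 2 * f x) σ :=
    (hD2.const_mul _).add (hfi.const_mul _)
  have hW : Integrable (fun x => ‖X x - f x • (g x - a⁻¹ • m)‖ ^ 2) σ :=
    hI.mono' ((hX.1.sub hYc.continuous.aestronglyMeasurable).norm.pow 2)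
      (Eventually.of_forall fun x => by
        rw [Real.norm_eq_abs, abs_of_nonneg (sq_nonneg _)]; exact hpt x)
  refine ⟨fun x => f x • (g x - a⁻¹ • m), K, hK, fun x hx => by
    simp only [hf0 x hx, zero_smul], ?_, hW, ?_⟩
  · simp only [smul_sub]
    rw [integral_sub hZi (hfi.smul_const _), integral_smul_const, ← ha, smul_smul,
      mul_inv_cancel₀ ha0.ne', one_smul, sub_self]
  · refine (integral_mono hW hI hpt).trans ?_
    rw [integral_add (hD2.const_mul _) (hfi.const_mul _), integral_const_mul, integral_const_mul,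
      ← ha]
    have e1 : 2 * (a⁻¹ * (B * s)) ^ 2 * a = 2 * (a⁻¹ * B ^ 2) * s ^ 2 := by field_simp
    have e2 : t = M * s := by rw [hsdef]; field_simp
    have h3 : M * s ^ 2 ≤ M ^ 2 * s ^ 2 := by gcongr; nlinarith
    rw [e1, e2, mul_pow]
    calc _ ≤ 2 * s ^ 2 + 2 * (a⁻¹ * B ^ 2) * s ^ 2 := by linarith
      _ = M * s ^ 2 := by rw [hM]; ring
      _ ≤ _ := h3

theorem Tf_sub (hu : Up n C σ) (hC : 0 ≤ C) {ε ρ : ℝ} (hε : 0 < ε) {X Y : V → V}
    (hX : Integrable X σ) (hY : Integrable Y σ) (hX0 : ∀ x, ρ ≤ ‖x‖ → X x = 0)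
    (hY0 : ∀ x, ρ ≤ ‖x‖ → Y x = 0) (hXm : ∫ x, X x ∂σ = 0) (hYm : ∫ x, Y x ∂σ = 0) :
    Tf n ε σ (fun x => X x - Y x) = Tf n ε σ X - Tf n ε σ Y := by
  have hTX := hu.integrable_Ti hC hε hX (z := 0) (ρ := ρ) (by simpa using hX0) hXm
  have hTY := hu.integrable_Ti hC hε hY (z := 0) (ρ := ρ) (by simpa using hY0) hYm
  rw [Tf_eq, Tf_eq, Tf_eq, ← integral_sub hTX hTY]
  refine integral_congr_ae (Eventually.of_forall fun y => ?_)
  simp only [Ti, inner_sub_right, mul_sub]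
  exact integral_sub (integrable_Ti_aux hε hX y) (integrable_Ti_aux hε hY y)

/-- The reflectionless property extends to square integrable fields. -/
theorem rf_l2 (hu : Up n C σ) (hb : BD n C σ) (hr : RF n σ) (hC : 0 ≤ C)
    (hs : ∀ x, x ∈ σ.support) {X : V → V} (hX : MemLp X 2 σ) (hXi : Integrable X σ) {ρ : ℝ}
    (hρ : 0 < ρ) (h0 : ∀ x, ρ ≤ ‖x‖ → X x = 0) (hm : ∫ x, X x ∂σ = 0) :
    Tendsto (fun ε => Tf n ε σ X) (𝓝[>] 0) (𝓝 0) := by
  haveI := hu.locFin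
  obtain ⟨M, hM, hT⟩ := Tf_l2 hu hb hC (ρ := 2 * ρ) (by linarith)
  refine Metric.tendsto_nhds.2 fun η hη => ?_
  have ht : 0 < η / (2 * M) := by positivity
  obtain ⟨Y, K, hK, hY0, hYm, h2, hs2⟩ := approx hu hs hX hρ h0 hm ht
  have hYs : HasCompactSupport Y :=
    HasCompactSupport.intro (isCompact_closedBall (0 : V) (2 * ρ)) fun x hx =>
      hY0 x (le_of_lt (by simpa using hx))
  have hYi : Integrable Y σ := hK.continuous.integrable_of_hasCompactSupport hYs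
  have hX0 : ∀ x, 2 * ρ ≤ ‖x‖ → X x = 0 := fun x hx => h0 x (by linarith)
  have h1 := Metric.tendsto_nhds.1 (hr Y K hK hYs hYm) (η / 2) (by linarith)
  filter_upwards [h1, self_mem_nhdsWithin] with ε h3 hε
  have h4 := hT _ ε (fun x => X x - Y x) ht hε (hXi.sub hYi).1 h2
    (fun x hx => by simp only [hX0 x hx, hY0 x hx, sub_zero])
    (by rw [integral_sub hXi hYi, hm, hYm, sub_zero]) hs2
  rw [Tf_sub hu hC hε hXi hYi hX0 hY0 hm hYm] at h4
  have e : M * (η / (2 * M)) = η / 2 := by field_simp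
  rw [Real.dist_eq, sub_zero] at h3 ⊢
  have h5 := abs_add_le (Tf n ε σ X - Tf n ε σ Y) (Tf n ε σ Y)
  rw [sub_add_cancel] at h5
  linarith

end Vale.Agent.P120.Cls0X
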