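import Vale.Agent.P120.Defs

/-! P120: internal definitions. -/

namespace Vale.Agent.P120

open MeasureTheory Metric Filter Module
open scoped Topology ENNReal NNReal RealInnerProductSpace

section
variable {V : Type} [NormedAddCommGroup V] [InnerProductSpace ℝ V]

/-- The regularised scalar kernel `(ε² + |z|²) ^ (-(n+1)/2)`. -/
noncomputable def kr (n : ℕ) (ε : ℝ) (z : V) : ℝ := (√(ε ^ 2 + ‖z‖ ^ 2))⁻¹ ^ (n + 1)

/-- The weight at centre `y` and scale `s`. -/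
noncomputable def wt (n : ℕ) (y : V) (s : ℝ) (x : V) : ℝ := (1 + ‖x - y‖ / s)⁻¹ ^ (n + 3)

variable [FiniteDimensional ℝ V]

/-- The component orthogonal to `D`. -/
noncomputable def perp (D : Submodule ℝ V) (x : V) : V := x - D.starProjection x

/-- Bilateral flatness of `E` in the ball of radius `10 s` around `y`. -/
def BF (n : ℕ) (E : Set V) (y : V) (s ε : ℝ) (D : Submodule ℝ V) : Prop :=
  finrank ℝ D = n ∧ (∀ x ∈ E, ‖x - y‖ ≤ 10 * s → ‖perp D (x - y)‖ ≤ ε * s) ∧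
    ∀ w ∈ D, ‖w‖ ≤ 10 * s → ∃ x ∈ E, ‖x - (y + w)‖ ≤ ε * s

/-- The projection to `D` is degenerate on `D'`. -/
def Deg (γ : ℝ) (D D' : Submodule ℝ V) : Prop := ∃ u ∈ D', ‖D.starProjection u‖ < γ * ‖u‖

open Classical in
/-- The top governing a node of the tree. -/
noncomputable def tau (par : ℕ → V → V) (W : ℕ → V → Prop) (D : ℕ → V → Submodule ℝ V) (γ : ℝ) :
    ℕ → V → ℕ × V
  | 0, z => (0, z)
  | j + 1, z =>
    if W j (par j z) ∨ W (j + 1) z ∨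
      Deg γ (D (tau par W D γ j (par j z)).1 (tau par W D γ j (par j z)).2) (D (j + 1) z)
    then (j + 1, z) else tau par W D γ j (par j z)

/-- The tops of the tree. -/
def IsTop (par : ℕ → V → V) (W : ℕ → V → Prop) (D : ℕ → V → Submodule ℝ V) (γ : ℝ) (j : ℕ)
    (z : V) : Prop := (tau par W D γ j z).1 = j

end

section
variable {V : Type}

open Classical in
/-- The number of nodes with property `P` above the leaf `ω`. -/
noncomputable def lev (J : ℕ) (a : ℕ → V → V) (P : ℕ → V → Prop) (ω : V) : ℕ :=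
  ((Finset.range (J + 1)).filter fun j => P j (a j ω)).card

/-- The total weight of the nodes with property `P`. -/
noncomputable def cnt (J : ℕ) (Ω : Finset V) (a : ℕ → V → V) (P : ℕ → V → Prop) : ℝ :=
  ∑ ω ∈ Ω, (lev J a P ω : ℝ)

open Classical in
/-- A finite tree of nets: leaves `Ω` at depth `J`, ancestors `a j ω`, scales `θ ^ j * r₀`. -/
structure TreeP [PseudoMetricSpace V] (n : ℕ) (E : Set V) (C θ r₀ : ℝ) (x₀ : V) (J : ℕ)
    (Ω : Finset V) (a par : ℕ → V → V) : Prop where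
  ne : Ω.Nonempty
  root : ∀ ω ∈ Ω, a 0 ω = x₀
  leaf : ∀ ω ∈ Ω, a J ω = ω
  step : ∀ ω ∈ Ω, ∀ j < J, a j ω = par j (a (j + 1) ω)
  mem : ∀ ω ∈ Ω, ∀ j ≤ J, a j ω ∈ E
  near : ∀ ω ∈ Ω, ∀ j < J, dist (a (j + 1) ω) (a j ω) < θ ^ j * r₀
  sep : ∀ ω ∈ Ω, ∀ ω' ∈ Ω, ∀ j ≤ J, a j ω ≠ a j ω' → θ ^ j * r₀ ≤ dist (a j ω) (a j ω')
  inner : ∀ ω ∈ Ω, ∀ ω' ∈ Ω, ∀ j i, j ≤ i → i ≤ J →
    dist (a i ω') (a j ω) < θ ^ j * r₀ / 3 → a j ω' = a j ω
  cov : ∀ ω ∈ Ω, ∀ j i, j < i → i ≤ J → ∀ x ∈ E, dist x (a j ω) < θ ^ j * r₀ / 4 →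
    ∃ ω' ∈ Ω, dist x (a i ω') < θ ^ i * r₀
  mass_lo : ∀ ω ∈ Ω, ∀ j ≤ J,
    (θ ^ j) ^ n ≤ C * ((Ω.filter fun ω' => a j ω' = a j ω).card * (θ ^ J) ^ n)
  mass_up : ∀ ω ∈ Ω, ∀ j ≤ J,
    (Ω.filter fun ω' => a j ω' = a j ω).card * (θ ^ J) ^ n ≤ C * (θ ^ j) ^ n

end

section
variable {V : Type} [NormedAddCommGroup V] [InnerProductSpace ℝ V] [FiniteDimensional ℝ V]
  [MeasurableSpace V]

/-- Upper regularity, for all centres and radii. -/
def Up (n : ℕ) (C : ℝ) (ν : Measure V) : Prop :=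
  ∀ x r, 0 < r → ν (ball x r) ≤ ENNReal.ofReal (C * r ^ n)

/-- Lower regularity up to radius `R`. -/
def Low (n : ℕ) (C R : ℝ) (ν : Measure V) : Prop :=
  ∀ x ∈ ν.support, ∀ r, 0 < r → r ≤ R → ENNReal.ofReal (r ^ n / C) ≤ ν (ball x r)

/-- The regularised Riesz transform. -/
noncomputable def Rz (n : ℕ) (ε : ℝ) (ν : Measure V) (f : V → ℝ) (x : V) : V :=
  ∫ y, (kr n ε (x - y) * f y) • (x - y) ∂ν

/-- Boundedness of the regularised transforms. -/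
def BD (n : ℕ) (C : ℝ) (ν : Measure V) : Prop :=
  ∀ ε : ℝ, 0 < ε → ∀ f : V → ℝ, Continuous f → HasCompactSupport f →
    ∫⁻ x, ‖Rz n ε ν f x‖ₑ ^ 2 ∂ν ≤ ENNReal.ofReal (C ^ 2 * ∫ y, f y ^ 2 ∂ν)

/-- The transform of `1` tested against the field `X`. -/
noncomputable def Tf (n : ℕ) (ε : ℝ) (ν : Measure V) (X : V → V) : ℝ :=
  ∫ y, (∫ x, kr n ε (x - y) * ⟪x - y, X x⟫ ∂ν) ∂ν

/-- Approximately reflectionless at centre `y` and scale `s`. -/
def Good (n : ℕ) (ν : Measure V) (y : V) (s A η : ℝ) : Prop :=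
  ∀ X : V → V, LipschitzWith 1 X → (∀ x, A * s ≤ ‖x - y‖ → X x = 0) → ∫ x, X x ∂ν = 0 →
    ∀ᶠ ε in 𝓝[>] (0 : ℝ), |Tf n ε ν X| ≤ η * s ^ (n + 1)

/-- Reflectionless. -/
def RF (n : ℕ) (ν : Measure V) : Prop :=
  ∀ (X : V → V) (K : ℝ≥0), LipschitzWith K X → HasCompactSupport X → ∫ x, X x ∂ν = 0 →
    Tendsto (fun ε => Tf n ε ν X) (𝓝[>] 0) (𝓝 0)

/-- The weighted excess with respect to the plane `p + D` is at most `δ`. -/
def ExcD (n : ℕ) (ν : Measure V) (y : V) (s δ : ℝ) (D : Submodule ℝ V) (p : V) : Prop :=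
  ∫ x, ‖perp D (x - p)‖ ^ 2 * wt n y s x ∂ν ≤ δ ^ 2 * s ^ (n + 2)

/-- The weighted excess is at most `δ`. -/
def Exc (n : ℕ) (ν : Measure V) (y : V) (s δ : ℝ) : Prop :=
  ∃ (D : Submodule ℝ V) (p : V), finrank ℝ D = n ∧ ExcD n ν y s δ D p

/-- The similarity used for blow-ups. -/
noncomputable def sim (O : V ≃ₗᵢ[ℝ] V) (y : V) (s : ℝ) (x : V) : V := s⁻¹ • O (x - y)

/-- The rescaled measure. -/
noncomputable def resc (n : ℕ) (O : V ≃ₗᵢ[ℝ] V) (y : V) (s : ℝ) (ν : Measure V) : Measure V :=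
  ENNReal.ofReal (s⁻¹ ^ n) • ν.map (sim O y s)

/-- Vague convergence along an ultrafilter. -/
def Lim (U : Ultrafilter ℕ) (ν : ℕ → Measure V) (σ : Measure V) : Prop :=
  ∀ f : V → ℝ, Continuous f → HasCompactSupport f →
    Tendsto (fun k => ∫ x, f x ∂ν k) U (𝓝 (∫ x, f x ∂σ))

/-- The class of blow-up limits. -/
structure Cl (n : ℕ) (C : ℝ) (ν : Measure V) : Prop where
  up : Up n C ν
  low : ∀ R, Low n C R ν
  rf : RF n ν

/-- A constant multiple of Lebesgue measure on `D`. -/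
noncomputable def flat [BorelSpace V] (D : Submodule ℝ V) (c : ℝ) : Measure V :=
  ENNReal.ofReal c • (volume : Measure D).map Subtype.val

end

end Vale.Agent.P120
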