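import Mathlib

namespace Vale.Agent.P120

open MeasureTheory Metric

/-- `μ` is `n`-Ahlfors-David regular with constant `C`. -/
def IsADRegular {d : ℕ} (n : ℕ) (μ : Measure (EuclideanSpace ℝ (Fin d))) (C : ℝ) : Prop :=
  1 ≤ C ∧ ∀ x ∈ μ.support, ∀ r : ℝ, 0 < r → ENNReal.ofReal r ≤ ediam μ.support →
    ENNReal.ofReal (C⁻¹ * r ^ n) ≤ μ (ball x r) ∧ μ (ball x r) ≤ ENNReal.ofReal (C * r ^ n)

/-- The kernel `z / |z| ^ (n + 1)`. -/
noncomputable def rieszKernel {d : ℕ} (n : ℕ) (z : EuclideanSpace ℝ (Fin d)) :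
    EuclideanSpace ℝ (Fin d) :=
  (‖z‖ ^ (n + 1))⁻¹ • z

/-- The truncated `n`-dimensional Riesz transform. -/
noncomputable def rieszTrunc {d : ℕ} (n : ℕ) (μ : Measure (EuclideanSpace ℝ (Fin d))) (ε : ℝ)
    (f : EuclideanSpace ℝ (Fin d) → ℝ) (x : EuclideanSpace ℝ (Fin d)) :
    EuclideanSpace ℝ (Fin d) :=
  ∫ y in {y | ε < ‖x - y‖}, f y • rieszKernel n (x - y) ∂μ

/-- The `n`-dimensional Riesz transform is bounded on `L²(μ)`. -/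
def RieszBounded {d : ℕ} (n : ℕ) (μ : Measure (EuclideanSpace ℝ (Fin d))) : Prop :=
  ∃ C : ℝ, ∀ f : EuclideanSpace ℝ (Fin d) → ℝ, MemLp f 2 μ → ∀ ε : ℝ, 0 < ε →
    (∀ᵐ x ∂μ, IntegrableOn (fun y => f y • rieszKernel n (x - y)) {y | ε < ‖x - y‖} μ) ∧
    eLpNorm (rieszTrunc n μ ε f) 2 μ ≤ ENNReal.ofReal C * eLpNorm f 2 μ

/-- `μ` is uniformly `n`-rectifiable: AD-regular with big pieces of Lipschitz images. -/
def IsUniformlyRectifiable {d : ℕ} (n : ℕ) (μ : Measure (EuclideanSpace ℝ (Fin d))) : Prop :=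
  (∃ C, IsADRegular n μ C) ∧ ∃ (θ : ℝ) (M : NNReal), 0 < θ ∧
    ∀ x ∈ μ.support, ∀ r : ℝ, 0 < r → ENNReal.ofReal r ≤ ediam μ.support →
      ∃ g : ball (0 : EuclideanSpace ℝ (Fin n)) r → EuclideanSpace ℝ (Fin d),
        LipschitzWith M g ∧ ENNReal.ofReal (θ * r ^ n) ≤ μ (ball x r ∩ Set.range g)

end Vale.Agent.P120
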