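import Vale.Agent.P120.Bas

/-! P120: the regularised half Laplacian of a test function. -/

namespace Vale.Agent.P120.LinBX

open MeasureTheory Metric Filter Module
open scoped Topology ENNReal NNReal RealInnerProductSpace

variable {V : Type} [NormedAddCommGroup V] [InnerProductSpace ℝ V] {n : ℕ} {C s K ρ : ℝ}

theorem kr_dec (hs : 0 < s) (n : ℕ) {R : ℝ} (hR : 0 ≤ R) : ∃ N : ℝ, 0 ≤ N ∧ ∀ x y : V, ‖x‖ ≤ R →
    kr n s (x - y) ≤ N * (1 + ‖y‖)⁻¹ ^ (n + 1) := by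
  refine ⟨(2 / s) ^ (n + 1) * (1 + R + s) ^ (n + 1), by positivity, fun x y hx => ?_⟩
  refine (kr_le_dec hs _).trans ?_
  rw [mul_assoc, ← mul_pow (1 + R + s)]
  refine mul_le_mul_of_nonneg_left (pow_le_pow_left₀ (by positivity) ?_ _) (by positivity)
  rw [← div_eq_mul_inv, inv_eq_one_div, div_le_div_iff₀ (by positivity) (by positivity)]
  have h1 : ‖y‖ ≤ ‖x‖ + ‖x - y‖ := by
    have := norm_sub_le x (x - y)
    rwa [sub_sub_cancel] at this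
  have h2 : (1 + R + s) * (1 + ‖x - y‖ / s) =
      1 + R + ‖x - y‖ + (s + (1 + R) * (‖x - y‖ / s)) := by field_simp; ring
  have h3 : 0 ≤ s + (1 + R) * (‖x - y‖ / s) := by positivity
  linarith

theorem kr_lip_dec (hs : 0 < s) (n : ℕ) {R : ℝ} (hR : 0 ≤ R) : ∃ N : ℝ, 0 ≤ N ∧ ∀ x x' y : V,
    ‖x‖ ≤ R → ‖x'‖ ≤ R →
    |kr n s (x - y) - kr n s (x' - y)| ≤ N * ‖x - x'‖ * (1 + ‖y‖)⁻¹ ^ (n + 1) := by
  have hc := cK_pos n
  refine ⟨cK n * (s⁻¹ ^ (n + 2) * (5 * R + 3) ^ (n + 1) + 2 ^ (n + 1)), by positivity,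
    fun x x' y hx hx' => ?_⟩
  have e : ‖x - y - (x' - y)‖ = ‖x - x'‖ := by rw [sub_sub_sub_cancel_right]
  have key : ∀ a : ℝ, a ≤ (s⁻¹ ^ (n + 2) * (5 * R + 3) ^ (n + 1) + 2 ^ (n + 1)) *
      (1 + ‖y‖)⁻¹ ^ (n + 1) → cK n * ‖x - x'‖ * a ≤ cK n * (s⁻¹ ^ (n + 2) * (5 * R + 3) ^ (n + 1) +
        2 ^ (n + 1)) * ‖x - x'‖ * (1 + ‖y‖)⁻¹ ^ (n + 1) := fun a ha =>
    (mul_le_mul_of_nonneg_left ha (by positivity)).trans (le_of_eq (by ring))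
  rcases le_total ‖y‖ (5 * R + 2) with h | h
  · refine (kr_lip hs _ _).trans ?_
    rw [e]
    refine key _ ?_
    have h1 : 1 ≤ (5 * R + 3) ^ (n + 1) * (1 + ‖y‖)⁻¹ ^ (n + 1) := by
      rw [← mul_pow]
      refine one_le_pow₀ ?_
      rw [← div_eq_mul_inv, one_le_div (by positivity)]
      linarith
    have h2 := mul_le_mul_of_nonneg_left h1 (show 0 ≤ s⁻¹ ^ (n + 2) by positivity)
    have h3 : 0 ≤ 2 ^ (n + 1) * (1 + ‖y‖)⁻¹ ^ (n + 1) := by positivity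
    rw [add_mul, mul_assoc]
    linarith
  · have h1 : ‖y‖ ≤ ‖x‖ + ‖x - y‖ := by
      have := norm_sub_le x (x - y)
      rwa [sub_sub_cancel] at this
    have h2 := norm_sub_le x x'
    refine (kr_lip_far hs (by rw [e]; linarith)).trans ?_
    rw [e]
    refine key _ ?_
    have h4 : ‖x - y‖⁻¹ ^ (n + 2) ≤ ‖x - y‖⁻¹ ^ (n + 1) :=
      pow_le_pow_of_le_one (by positivity) (inv_le_one_of_one_le₀ (by linarith)) (by omega)
    have h5 : ‖x - y‖⁻¹ ^ (n + 1) ≤ 2 ^ (n + 1) * (1 + ‖y‖)⁻¹ ^ (n + 1) := by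
      rw [← mul_pow]
      refine pow_le_pow_left₀ (by positivity) ?_ _
      rw [← div_eq_mul_inv, inv_eq_one_div, div_le_div_iff₀ (by linarith) (by positivity)]
      linarith
    have h6 : 0 ≤ s⁻¹ ^ (n + 2) * (5 * R + 3) ^ (n + 1) * (1 + ‖y‖)⁻¹ ^ (n + 1) := by positivity
    rw [add_mul]
    linarith

omit [InnerProductSpace ℝ V] in
theorem dec_of {g : V → ℝ} {R a b : ℝ} {m : ℕ} (hR : 1 ≤ R) (ha : 0 ≤ a) (hb : 0 ≤ b)
    (h1 : ∀ x, ‖x‖ ≤ R → |g x| ≤ a) (h2 : ∀ x, R ≤ ‖x‖ → |g x| ≤ b * ‖x‖⁻¹ ^ m) (x : V) :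
    |g x| ≤ (a * (1 + R) ^ m + b * 2 ^ m) * (1 + ‖x‖)⁻¹ ^ m := by
  rw [add_mul]
  rcases le_total ‖x‖ R with h | h
  · have h3 : 1 ≤ (1 + R) ^ m * (1 + ‖x‖)⁻¹ ^ m := by
      rw [← mul_pow]
      refine one_le_pow₀ ?_
      rw [← div_eq_mul_inv, one_le_div (by positivity)]
      linarith
    have h4 := mul_le_mul_of_nonneg_left h3 ha
    have h5 : 0 ≤ b * 2 ^ m * (1 + ‖x‖)⁻¹ ^ m := by positivity
    have h6 := h1 x h
    rw [mul_assoc]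
    linarith
  · have h3 : ‖x‖⁻¹ ^ m ≤ 2 ^ m * (1 + ‖x‖)⁻¹ ^ m := by
      rw [← mul_pow]
      refine pow_le_pow_left₀ (by positivity) ?_ _
      rw [← div_eq_mul_inv, inv_eq_one_div, div_le_div_iff₀ (by linarith) (by positivity)]
      linarith
    have h4 := mul_le_mul_of_nonneg_left h3 hb
    have h5 : 0 ≤ a * (1 + R) ^ m * (1 + ‖x‖)⁻¹ ^ m := by positivity
    have h6 := h2 x h
    rw [mul_assoc b]
    linarith

omit [InnerProductSpace ℝ V] in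
theorem cont_of_lip {g : V → ℝ}
    (h : ∀ R : ℝ, 0 ≤ R → ∃ L : ℝ, ∀ x y, ‖x‖ ≤ R → ‖y‖ ≤ R → |g x - g y| ≤ L * ‖x - y‖) :
    Continuous g := by
  refine continuous_iff_continuousAt.2 fun x => ?_
  obtain ⟨L, hL⟩ := h (‖x‖ + 1) (by positivity)
  have h1 : LipschitzOnWith (Real.toNNReal L) g (closedBall 0 (‖x‖ + 1)) :=
    LipschitzOnWith.of_dist_le' fun a ha b hb => by
      rw [Real.dist_eq, dist_eq_norm]
      exact hL a b (mem_closedBall_zero_iff.1 ha) (mem_closedBall_zero_iff.1 hb)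
  exact h1.continuousOn.continuousAt (closedBall_mem_nhds_of_mem (mem_ball_zero_iff.2 (by linarith)))

theorem abs_int_le {α : Type*} [MeasurableSpace α] {μ : Measure α} {f g : α → ℝ}
    (hg : Integrable g μ) (h : ∀ y, |f y| ≤ g y) : |∫ y, f y ∂μ| ≤ ∫ y, g y ∂μ :=
  norm_integral_le_of_norm_le (f := f) hg (Eventually.of_forall h)

/-- Test functions. -/
structure Tst (K ρ : ℝ) (Ψ : V → ℝ) : Prop where
  lip : ∀ x y, |Ψ x - Ψ y| ≤ K * ‖x - y‖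
  bdd : ∀ x, |Ψ x| ≤ K
  supp : ∀ x, ρ ≤ ‖x‖ → Ψ x = 0
  one_le : 1 ≤ ρ

variable {Ψ : V → ℝ}

omit [InnerProductSpace ℝ V] in
theorem Tst.nonneg (h : Tst K ρ Ψ) : 0 ≤ K := (abs_nonneg _).trans (h.bdd 0)

omit [InnerProductSpace ℝ V] in
theorem Tst.cont (h : Tst K ρ Ψ) : Continuous Ψ := cont_of_lip fun _ _ => ⟨K, fun x y _ _ => h.lip x y⟩

omit [InnerProductSpace ℝ V] in
theorem Tst.sub_le (h : Tst K ρ Ψ) (x y : V) : |Ψ x - Ψ y| ≤ 2 * K :=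
  (abs_sub _ _).trans (by linarith [h.bdd x, h.bdd y])

variable [FiniteDimensional ℝ V]

theorem Tst.hcs (h : Tst K ρ Ψ) : HasCompactSupport Ψ :=
  HasCompactSupport.intro (isCompact_closedBall 0 ρ) fun x hx =>
    h.supp x (not_le.1 fun h' => hx (mem_closedBall_zero_iff.2 h')).le

variable [MeasurableSpace V] [BorelSpace V] {ν : Measure V}

theorem Tst.int (h : Tst K ρ Ψ) (hu : Up n C ν) : Integrable Ψ ν :=
  haveI := hu.locFin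
  h.cont.integrable_of_hasCompactSupport h.hcs

theorem Tst.l1 (h : Tst K ρ Ψ) (hu : Up n C ν) (hC : 0 ≤ C) : ∫ x, |Ψ x| ∂ν ≤ K * (C * ρ ^ n) := by
  have := hu.locFin
  have hρ : 0 < ρ := zero_lt_one.trans_le h.one_le
  rw [← setIntegral_eq_integral_of_forall_compl_eq_zero (s := ball 0 ρ) fun x hx => by
    rw [h.supp x (not_lt.1 fun h' => hx (mem_ball_zero_iff.2 h')), abs_zero]]
  refine (le_abs_self _).trans (le_trans (norm_setIntegral_le_of_norm_le_const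
    (f := fun x => |Ψ x|) measure_ball_lt_top fun x _ => (abs_abs _).trans_le (h.bdd x)) ?_)
  exact mul_le_mul_of_nonneg_left (hu.real_ball hC 0 hρ) h.nonneg

theorem dec1 (hu : Up n C ν) (hC : 0 ≤ C) {a : ℕ} (ha : 1 ≤ a) :
    Integrable (fun y : V => (1 + ‖y‖)⁻¹ ^ (n + a)) ν ∧
      ∫ y, (1 + ‖y‖)⁻¹ ^ (n + a) ∂ν ≤ 2 ^ (n + 2) * C := by
  simpa using hu.dec hC 0 one_pos ha

theorem le_dec (hu : Up n C ν) (hC : 0 ≤ C) {f : V → ℝ} {N : ℝ} (hN : 0 ≤ N)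
    (h : ∀ y, |f y| ≤ N * (1 + ‖y‖)⁻¹ ^ (n + 1)) : |∫ y, f y ∂ν| ≤ N * (2 ^ (n + 2) * C) := by
  obtain ⟨h1, h2⟩ := dec1 hu hC le_rfl
  refine (abs_int_le (h1.const_mul N) h).trans ?_
  rw [integral_const_mul]
  exact mul_le_mul_of_nonneg_left h2 hN

/-- The regularised half Laplacian. -/
noncomputable def gg (n : ℕ) (s : ℝ) (ν : Measure V) (Ψ : V → ℝ) (x : V) : ℝ :=
  ∫ y, kr n s (x - y) * (Ψ x - Ψ y) ∂ν

omit [FiniteDimensional ℝ V] [MeasurableSpace V] [BorelSpace V] in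
theorem Tst.ker_le (hs : 0 < s) (n : ℕ) (hK : 0 ≤ K) {R : ℝ} (hR : 0 ≤ R) : ∃ N : ℝ, 0 ≤ N ∧
    ∀ (Ψ : V → ℝ) (ρ : ℝ), Tst K ρ Ψ → ∀ x y : V, ‖x‖ ≤ R →
      |kr n s (x - y) * (Ψ x - Ψ y)| ≤ N * (1 + ‖y‖)⁻¹ ^ (n + 1) := by
  obtain ⟨N, hN, h⟩ := kr_dec (V := V) hs n hR
  refine ⟨N * (2 * K), by positivity, fun Ψ ρ hΨ x y hx => ?_⟩
  rw [abs_mul, abs_of_nonneg (kr_nonneg _ _ _), mul_right_comm]
  exact mul_le_mul (h x y hx) (hΨ.sub_le x y) (abs_nonneg _) (by positivity)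

theorem kr_int (hs : 0 < s) (hu : Up n C ν) (hC : 0 ≤ C) (x : V) :
    Integrable (fun y => kr n s (x - y)) ν := by
  obtain ⟨N, -, h⟩ := kr_dec (V := V) hs n (norm_nonneg x)
  refine hu.integrable hC ((continuous_kr n hs).comp (by fun_prop)).aestronglyMeasurable (N := N)
    fun y => ?_
  rw [Real.norm_eq_abs, abs_of_nonneg (kr_nonneg _ _ _)]
  exact h x y le_rfl

theorem gg_int (hs : 0 < s) (hu : Up n C ν) (hC : 0 ≤ C) (h : Tst K ρ Ψ) (x : V) :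
    Integrable (fun y => kr n s (x - y) * (Ψ x - Ψ y)) ν :=
  (kr_int hs hu hC x).mul_bdd (continuous_const.sub h.cont).aestronglyMeasurable
    (Eventually.of_forall fun y => h.sub_le x y)

theorem gg_lip (hs : 0 < s) (n : ℕ) (hC : 0 ≤ C) (hK : 0 ≤ K) {R : ℝ} (hR : 0 ≤ R) : ∃ L : ℝ,
    ∀ (ν : Measure V) (Ψ : V → ℝ) (ρ : ℝ), Up n C ν → Tst K ρ Ψ → ∀ x x' : V, ‖x‖ ≤ R → ‖x'‖ ≤ R →
      |gg n s ν Ψ x - gg n s ν Ψ x'| ≤ L * ‖x - x'‖ := by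
  obtain ⟨N, hN, h1⟩ := kr_dec (V := V) hs n hR
  obtain ⟨N', hN', h2⟩ := kr_lip_dec (V := V) hs n hR
  refine ⟨(N' * (2 * K) + N * K) * (2 ^ (n + 2) * C), fun ν Ψ ρ hu h x x' hx hx' => ?_⟩
  rw [gg, gg, ← integral_sub (gg_int hs hu hC h x) (gg_int hs hu hC h x'), mul_right_comm]
  refine le_dec hu hC (by positivity) fun y => ?_
  have e : kr n s (x - y) * (Ψ x - Ψ y) - kr n s (x' - y) * (Ψ x' - Ψ y) =
      (kr n s (x - y) - kr n s (x' - y)) * (Ψ x - Ψ y) + kr n s (x' - y) * (Ψ x - Ψ x') := by ring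
  rw [e]
  refine (abs_add_le _ _).trans ?_
  rw [abs_mul, abs_mul, abs_of_nonneg (kr_nonneg _ _ _)]
  refine (add_le_add (mul_le_mul (h2 x x' y hx hx') (h.sub_le x y) (abs_nonneg _) (by positivity))
    (mul_le_mul (h1 x' y hx') (h.lip x x') (abs_nonneg _) (by positivity))).trans (le_of_eq ?_)
  ring

theorem gg_cont (hs : 0 < s) (hu : Up n C ν) (hC : 0 ≤ C) (h : Tst K ρ Ψ) :
    Continuous (gg n s ν Ψ) :=
  cont_of_lip fun _ hR => (gg_lip hs n hC h.nonneg hR).imp fun _ hL => hL ν Ψ ρ hu h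

theorem gg_far (hs : 0 < s) (hu : Up n C ν) (hC : 0 ≤ C) (h : Tst K ρ Ψ) (hm : ∫ x, Ψ x ∂ν = 0)
    (x : V) (hx : 2 * ρ ≤ ‖x‖) :
    |gg n s ν Ψ x| ≤ cK n * ρ * (K * (C * ρ ^ n)) * ‖x‖⁻¹ ^ (n + 2) := by
  have hc := cK_pos n
  have hρ := h.one_le
  have e : gg n s ν Ψ x = ∫ y, (kr n s x - kr n s (x - y)) * Ψ y ∂ν := by
    have h1 := integral_add (gg_int hs hu hC h x) ((h.int hu).const_mul (kr n s x))
    rw [integral_const_mul, hm, mul_zero, add_zero] at h1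
    rw [gg, ← h1]
    refine integral_congr_ae (Eventually.of_forall fun y => ?_)
    simp only [h.supp x (by linarith)]
    ring
  rw [e, mul_right_comm]
  refine (abs_int_le ((h.int hu).abs.const_mul (cK n * ρ * ‖x‖⁻¹ ^ (n + 2)))
    fun y => ?_).trans ?_
  · rcases le_total ρ ‖y‖ with hy | hy
    · simp [h.supp y hy]
    rw [abs_mul]
    refine mul_le_mul_of_nonneg_right ?_ (abs_nonneg _)
    refine (kr_lip_far hs (by rw [sub_sub_cancel]; linarith)).trans ?_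
    rw [sub_sub_cancel]
    gcongr
  · rw [integral_const_mul]
    exact mul_le_mul_of_nonneg_left (h.l1 hu hC) (by positivity)

theorem gg_dec (hs : 0 < s) (n : ℕ) (hC : 0 ≤ C) (hK : 0 ≤ K) (hρ : 1 ≤ ρ) : ∃ N : ℝ,
    ∀ (ν : Measure V) (Ψ : V → ℝ), Up n C ν → Tst K ρ Ψ → ∫ x, Ψ x ∂ν = 0 → ∀ x,
      |gg n s ν Ψ x| ≤ N * (1 + ‖x‖)⁻¹ ^ (n + 2) := by
  have hc := cK_pos n
  obtain ⟨N, hN, h1⟩ := Tst.ker_le (V := V) hs n hK (R := 2 * ρ) (by linarith)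
  exact ⟨_, fun ν Ψ hu h hm => dec_of (R := 2 * ρ) (by linarith) (by positivity) (by positivity)
    (fun x hx => le_dec hu hC hN fun y => h1 Ψ ρ h x y hx) (gg_far hs hu hC h hm)⟩

end Vale.Agent.P120.LinBX
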