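import Vale.Agent.P120.LinBa

/-! P120: the tested transform at two regularisation scales. -/

namespace Vale.Agent.P120.LinBX

open MeasureTheory Metric Filter Module
open scoped Topology ENNReal NNReal RealInnerProductSpace

variable {V : Type} [NormedAddCommGroup V] [InnerProductSpace ℝ V] [FiniteDimensional ℝ V]
  [MeasurableSpace V] [BorelSpace V] {n : ℕ} {C s K ρ : ℝ} {ν : Measure V} {Ψ : V → ℝ}

theorem ti_int (hs : 0 < s) (hu : Up n C ν) (hC : 0 ≤ C) (h : Tst K ρ Ψ) (hm : ∫ x, Ψ x ∂ν = 0)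
    (e : V) : Integrable (Ti n s ν fun x => Ψ x • e) ν :=
  hu.integrable_Ti hC hs ((h.int hu).smul_const e) (z := 0) (ρ := ρ)
    (fun x hx => by rw [h.supp x (by rwa [sub_zero] at hx), zero_smul])
    (by rw [integral_smul_const, hm, zero_smul])

theorem tf_eq (hs : 0 < s) (hu : Up n C ν) (hC : 0 ≤ C) (h : Tst K ρ Ψ) (hm : ∫ x, Ψ x ∂ν = 0)
    (e : V) (p : ℝ) :
    Tf n s ν (fun x => Ψ x • e) = ∫ x, gg n s ν Ψ x * (⟪x, e⟫ - p) ∂ν := by
  have := hu.locFin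
  have hc : Continuous fun x => Ψ x * (⟪x, e⟫ - p) := h.cont.mul (by fun_prop)
  have hΦ : Integrable (fun x => Ψ x * (⟪x, e⟫ - p)) ν :=
    hc.integrable_of_hasCompactSupport h.hcs.mul_right
  obtain ⟨N, hN, h1⟩ := kr_dec (V := V) hs n (zero_le_one.trans h.one_le)
  have hF : Integrable (fun z : V × V => kr n s (z.1 - z.2) * (Ψ z.1 * (⟪z.1, e⟫ - p)))
      (ν.prod ν) := by
    refine (hΦ.norm.mul_prod ((dec1 hu hC le_rfl).1.const_mul N)).mono'
      (((continuous_kr n hs).comp (by fun_prop)).mul (hc.comp continuous_fst)).aestronglyMeasurable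
      (Eventually.of_forall fun z => ?_)
    rcases le_total ρ ‖z.1‖ with hz | hz
    · simp [h.supp _ hz]
    · rw [norm_mul, mul_comm, Real.norm_of_nonneg (kr_nonneg _ _ _)]
      exact mul_le_mul_of_nonneg_left (h1 _ _ hz) (norm_nonneg _)
  have hA := hF.integral_prod_right
  have hB := hF.integral_prod_left
  have e1 : ∀ y, gg n s ν Ψ y * (⟪y, e⟫ - p) = Ti n s ν (fun x => Ψ x • e) y -
      (∫ x, kr n s (x - y) * (Ψ x * (⟪x, e⟫ - p)) ∂ν) +
      ∫ x, kr n s (y - x) * (Ψ y * (⟪y, e⟫ - p)) ∂ν := fun y => by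
    have i1 := integrable_Ti_aux (n := n) hs ((h.int hu).smul_const e) y
    have i2 : Integrable (fun x => kr n s (x - y) * (Ψ x * (⟪x, e⟫ - p))) ν :=
      hΦ.bdd_mul ((continuous_kr n hs).comp (by fun_prop)).aestronglyMeasurable
        (Eventually.of_forall fun x => (Real.norm_of_nonneg (kr_nonneg _ _ _)).trans_le
          (kr_le_eps hs _))
    rw [Ti, ← integral_sub i1 i2, ← integral_add (i1.sub' i2) ((kr_int hs hu hC y).mul_const _), gg,
      ← integral_mul_const]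
    refine integral_congr_ae (Eventually.of_forall fun x => ?_)
    simp only
    rw [kr_sub_comm n s y x, real_inner_smul_right, inner_sub_left]
    ring
  simp only [e1]
  have e2 := integral_prod_symm _ hF
  have e3 := integral_prod _ hF
  simp only at hA hB e2 e3
  rw [integral_add ((ti_int hs hu hC h hm e).sub' hA) hB, integral_sub (ti_int hs hu hC h hm e) hA,
    ← e2, ← e3, sub_add_cancel, Tf_eq]

theorem int_B (hu : Up n C ν) (R : ℝ) {F : V × V → ℝ} (hF : Continuous F) :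
    Integrable F ((ν.restrict (ball 0 R)).prod (ν.restrict (ball 0 R))) := by
  have := hu.locFin
  rw [Measure.prod_restrict]
  exact (hF.continuousOn.integrableOn_compact ((isCompact_closedBall 0 R).prod
    (isCompact_closedBall 0 R))).mono_set (Set.prod_mono ball_subset_closedBall
      ball_subset_closedBall)

theorem near_le {ε l a R : ℝ} (hn : 1 ≤ n) (hu : Up n C ν) (hC : 0 ≤ C) (h : Tst K ρ Ψ) {e : V}
    (hε : 0 < ε) (hεs : ε ≤ s) (hl : 0 < l) (hR : 0 < R)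
    (ha : ∫ x in ball 0 R, (∫ y in ball 0 R, kr n ε (x - y) * ⟪x - y, e⟫ ^ 2 ∂ν) ∂ν ≤ a) :
    |∫ y in ball 0 R, (∫ x in ball 0 R,
      (kr n ε (x - y) - kr n s (x - y)) * ⟪x - y, e⟫ * Ψ x ∂ν) ∂ν| ≤
      K * (l * a + l⁻¹ * (cK n * C * s * (C * R ^ n))) := by
  have := hu.locFin
  have hK := h.nonneg
  have hs := hε.trans_le hεs
  have hc := cK_pos n
  have c1 : Continuous fun z : V × V => kr n ε (z.1 - z.2) :=
    (continuous_kr n hε).comp (by fun_prop)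
  have c2 : Continuous fun z : V × V => kr n ε (z.1 - z.2) - kr n s (z.1 - z.2) :=
    c1.sub ((continuous_kr n hs).comp (by fun_prop))
  have i1 := int_B hu R (F := fun z : V × V => (kr n ε (z.1 - z.2) - kr n s (z.1 - z.2)) *
    ⟪z.1 - z.2, e⟫ * Ψ z.1) ((c2.mul (by fun_prop)).mul (h.cont.comp continuous_fst))
  have i2 := int_B hu R (F := fun z : V × V => kr n ε (z.1 - z.2) * ⟪z.1 - z.2, e⟫ ^ 2)
    (c1.mul (by fun_prop))
  have i3 := int_B hu R (F := fun z : V × V => (kr n ε (z.1 - z.2) - kr n s (z.1 - z.2)) *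
    ‖z.1 - z.2‖ ^ 2) (c2.mul (by fun_prop))
  have b3 : ∫ z : V × V, (kr n ε (z.1 - z.2) - kr n s (z.1 - z.2)) * ‖z.1 - z.2‖ ^ 2
      ∂(ν.restrict (ball 0 R)).prod (ν.restrict (ball 0 R)) ≤ cK n * C * s * (C * R ^ n) := by
    rw [integral_prod _ i3]
    refine (Real.le_norm_self _).trans (le_trans (norm_setIntegral_le_of_norm_le_const
      (C := cK n * C * s) measure_ball_lt_top fun x _ => ?_) ?_)
    · obtain ⟨k1, k2⟩ := hu.diff hn hC x hε hεs
      have k3 : ∀ y, 0 ≤ (kr n ε (x - y) - kr n s (x - y)) * ‖x - y‖ ^ 2 := fun y =>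
        mul_nonneg (sub_nonneg.2 (kr_anti hε hεs _)) (sq_nonneg _)
      rw [Real.norm_of_nonneg (integral_nonneg k3)]
      exact (setIntegral_le_integral k1 (Eventually.of_forall k3)).trans k2
    · exact mul_le_mul_of_nonneg_left (hu.real_ball hC 0 hR) (by positivity)
  rw [← integral_prod _ i2] at ha
  rw [← integral_prod_symm _ i1]
  have h2 := integral_add i1 i1.swap
  simp only [Function.comp] at h2
  rw [integral_prod_swap (fun z : V × V => (kr n ε (z.1 - z.2) - kr n s (z.1 - z.2)) *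
    ⟪z.1 - z.2, e⟫ * Ψ z.1)] at h2
  have h3 := abs_int_le (((i2.const_mul l).add (i3.const_mul l⁻¹)).const_mul K)
    (f := fun z : V × V => (kr n ε (z.1 - z.2) - kr n s (z.1 - z.2)) * ⟪z.1 - z.2, e⟫ * Ψ z.1 +
      (kr n ε (z.swap.1 - z.swap.2) - kr n s (z.swap.1 - z.swap.2)) * ⟪z.swap.1 - z.swap.2, e⟫ *
        Ψ z.swap.1) fun ⟨x, y⟩ => by
    simp only [Prod.swap, Pi.add_apply]
    have k1 := sub_nonneg.2 (kr_anti (n := n) hε hεs (x - y))
    have k2 := kr_nonneg n s (x - y)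
    have k3 := h.lip x y
    rw [kr_sub_comm n ε y x, kr_sub_comm n s y x, ← neg_sub x y, inner_neg_left]
    generalize kr n ε (x - y) = k at *
    generalize kr n s (x - y) = k' at *
    generalize ⟪x - y, e⟫ = u at *
    have k4 := norm_nonneg (x - y)
    generalize ‖x - y‖ = r at *
    have k5 : |u| * r ≤ l * u ^ 2 + l⁻¹ * r ^ 2 := by
      have e1 : l * u ^ 2 + l⁻¹ * r ^ 2 - 2 * (|u| * r) = l⁻¹ * (l * |u| - r) ^ 2 := by
        rw [← sq_abs u]; field_simp; ring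
      have e2 : 0 ≤ l⁻¹ * (l * |u| - r) ^ 2 := by positivity
      have e3 : 0 ≤ |u| * r := by positivity
      linarith
    calc _ = (k - k') * (|u| * |Ψ x - Ψ y|) := by
          rw [← abs_mul, ← abs_of_nonneg k1, ← abs_mul, abs_of_nonneg k1]
          congr 1
          ring
      _ ≤ (k - k') * (|u| * (K * r)) := by gcongr
      _ = K * ((k - k') * (|u| * r)) := by ring
      _ ≤ K * ((k - k') * (l * u ^ 2 + l⁻¹ * r ^ 2)) := by gcongr
      _ = K * (l * ((k - k') * u ^ 2) + l⁻¹ * ((k - k') * r ^ 2)) := by ring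
      _ ≤ _ := by gcongr; linarith
  rw [h2, integral_const_mul, integral_add' (i2.const_mul l) (i3.const_mul l⁻¹), integral_const_mul,
    integral_const_mul, ← two_mul, abs_mul, abs_two] at h3
  refine le_trans ?_ (h3.trans (by gcongr))
  exact le_mul_of_one_le_left (abs_nonneg _) one_le_two

theorem sq_int (hu : Up n C ν) (hC : 0 ≤ C) {e : V} (he : ‖e‖ ≤ 1) (p : ℝ) :
    Integrable (fun x => (⟪x, e⟫ - p) ^ 2 * (1 + ‖x‖)⁻¹ ^ (n + 3)) ν := by
  refine hu.integrable hC (Continuous.aestronglyMeasurable (Continuous.mul (by fun_prop)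
    ((Continuous.inv₀ (by fun_prop) fun x => by positivity).pow _))) (N := (1 + |p|) ^ 2)
    fun x => ?_
  have h1 : |⟪x, e⟫ - p| ≤ (1 + |p|) * (1 + ‖x‖) := by
    have h2 := (abs_real_inner_le_norm x e).trans (mul_le_of_le_one_right (norm_nonneg x) he)
    have h3 := abs_sub ⟪x, e⟫ p
    have h4 : 0 ≤ |p| * ‖x‖ := by positivity
    nlinarith
  rw [Real.norm_of_nonneg (by positivity), ← sq_abs]
  refine (mul_le_mul_of_nonneg_right (pow_le_pow_left₀ (abs_nonneg _) h1 2)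
    (by positivity)).trans (le_of_eq ?_)
  have : (1 + ‖x‖) ≠ 0 := by positivity
  simp only [inv_pow]
  field_simp
  ring

omit [FiniteDimensional ℝ V] [MeasurableSpace V] [BorelSpace V] in
theorem far_pt {ε δ : ℝ} (h : Tst K ρ Ψ) (e : V) (p : ℝ) (hε : 0 < ε) (hεs : ε ≤ s) (hδ : 0 < δ)
    (x y : V) (hy : 2 * ρ ≤ ‖y‖) :
    |(kr n ε (x - y) - kr n s (x - y)) * ⟪x - y, e⟫ * Ψ x| ≤
      (n + 1) * s ^ 2 * 3 ^ (n + 3) * (K * (1 + ρ) ^ (n + 3)) * δ *
        ((1 + ((⟪y, e⟫ - p) / δ) ^ 2) * (1 + ‖y‖)⁻¹ ^ (n + 3)) *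
        ((1 + ((⟪x, e⟫ - p) / δ) ^ 2) * (1 + ‖x‖)⁻¹ ^ (n + 3)) := by
  have hK := h.nonneg
  have hρ := h.one_le
  rcases le_total ρ ‖x‖ with hx | hx
  · rw [h.supp x hx, mul_zero, abs_zero]
    positivity
  have h1 : ‖y‖ ≤ ‖x‖ + ‖x - y‖ := by
    have := norm_sub_le x (x - y)
    rwa [sub_sub_cancel] at this
  have h2 := kr_sub_le (n := n) hε hεs (z := x - y) (norm_pos_iff.1 (by linarith))
  have h3 : ‖x - y‖⁻¹ ^ (n + 3) ≤ 3 ^ (n + 3) * (1 + ‖y‖)⁻¹ ^ (n + 3) := by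
    rw [← mul_pow]
    refine pow_le_pow_left₀ (by positivity) ?_ _
    rw [← div_eq_mul_inv, inv_eq_one_div, div_le_div_iff₀ (by linarith) (by positivity)]
    linarith
  have h4 : |Ψ x| ≤ K * ((1 + ρ) ^ (n + 3) * (1 + ‖x‖)⁻¹ ^ (n + 3)) := by
    refine (h.bdd x).trans (le_mul_of_one_le_right hK ?_)
    rw [← mul_pow]
    refine one_le_pow₀ ?_
    rw [← div_eq_mul_inv, one_le_div (by positivity)]
    linarith
  have h5 : |⟪x - y, e⟫| ≤ δ * ((1 + ((⟪y, e⟫ - p) / δ) ^ 2) * (1 + ((⟪x, e⟫ - p) / δ) ^ 2)) := by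
    have e1 : ⟪x - y, e⟫ = δ * ((⟪x, e⟫ - p) / δ - (⟪y, e⟫ - p) / δ) := by
      rw [inner_sub_left]; field_simp; ring
    rw [e1, abs_mul, abs_of_pos hδ]
    generalize (⟪x, e⟫ - p) / δ = a
    generalize (⟪y, e⟫ - p) / δ = b
    refine mul_le_mul_of_nonneg_left ((abs_sub _ _).trans ?_) hδ.le
    rw [← sq_abs a, ← sq_abs b]
    nlinarith [sq_nonneg (|a| - 1), sq_nonneg (|b| - 1), sq_nonneg (|a| * |b|)]
  rw [abs_mul, abs_mul, abs_of_nonneg (sub_nonneg.2 (kr_anti hε hεs _))]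
  refine (mul_le_mul (mul_le_mul (h2.trans (mul_le_mul_of_nonneg_left h3 (by positivity))) h5
    (abs_nonneg _) (by positivity)) h4 (abs_nonneg _) (by positivity)).trans (le_of_eq (by ring))

theorem tf_diff (hn : 1 ≤ n) (hC : 0 ≤ C) (hK : 0 ≤ K) (hρ : 1 ≤ ρ) : ∃ c : ℝ,
    ∀ (ν : Measure V) (Ψ : V → ℝ) (e : V) (p δ ε t a : ℝ), Up n C ν → Tst K ρ Ψ →
    ∫ x, Ψ x ∂ν = 0 → ‖e‖ ≤ 1 → 0 < δ → 0 < ε → ε ≤ t ^ 2 → 0 < t → t ≤ 1 →
    ∫ x, (⟪x, e⟫ - p) ^ 2 * wt n 0 1 x ∂ν ≤ δ ^ 2 →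
    ∫ x in ball 0 (2 * ρ), (∫ y in ball 0 (2 * ρ), kr n ε (x - y) * ⟪x - y, e⟫ ^ 2 ∂ν) ∂ν
      ≤ a * δ ^ 2 →
    |Tf n ε ν (fun x => Ψ x • e) - Tf n (t ^ 2) ν (fun x => Ψ x • e)| ≤ (c + K * a) * t * δ := by
  refine ⟨K * (cK n * C * (C * (2 * ρ) ^ n)) +
    (n + 1) * 3 ^ (n + 3) * (K * (1 + ρ) ^ (n + 3)) * (2 ^ (n + 2) * C + 1) ^ 2,
    fun ν Ψ e p δ ε t a hu h hm he hδ hε hεs ht ht1 hx ha => ?_⟩
  have hs := hε.trans_le hεs
  have i1 := ti_int hε hu hC h hm e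
  have i2 := ti_int hs hu hC h hm e
  have e1 : ∀ y, Ti n ε ν (fun x => Ψ x • e) y - Ti n (t ^ 2) ν (fun x => Ψ x • e) y =
      ∫ x, (kr n ε (x - y) - kr n (t ^ 2) (x - y)) * ⟪x - y, e⟫ * Ψ x ∂ν := fun y => by
    rw [Ti, Ti, ← integral_sub (integrable_Ti_aux hε ((h.int hu).smul_const e) y)
      (integrable_Ti_aux hs ((h.int hu).smul_const e) y)]
    refine integral_congr_ae (Eventually.of_forall fun x => ?_)
    simp only [real_inner_smul_right]
    ring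
  obtain ⟨G, hG⟩ : ∃ G : V → ℝ, ∀ x, G x = (1 + ((⟪x, e⟫ - p) / δ) ^ 2) * (1 + ‖x‖)⁻¹ ^ (n + 3) :=
    ⟨_, fun _ => rfl⟩
  have g0 : ∀ x, 0 ≤ G x := fun x => by rw [hG]; positivity
  obtain ⟨d1, d2⟩ := dec1 hu hC (a := 3) (by norm_num)
  have g1 : G = fun x => (1 + ‖x‖)⁻¹ ^ (n + 3) +
      (δ ^ 2)⁻¹ * ((⟪x, e⟫ - p) ^ 2 * (1 + ‖x‖)⁻¹ ^ (n + 3)) := by
    funext x
    rw [hG, div_pow]
    ring
  have g2 : Integrable G ν := g1 ▸ d1.add ((sq_int hu hC he p).const_mul _)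
  have g3 : ∫ x, G x ∂ν ≤ 2 ^ (n + 2) * C + 1 := by
    rw [g1, integral_add d1 ((sq_int hu hC he p).const_mul _), integral_const_mul]
    simp only [wt_unit] at hx
    exact add_le_add d2 ((inv_mul_le_iff₀ (by positivity)).2 (by rwa [mul_one]))
  obtain ⟨b, hb⟩ : ∃ b : ℝ, b = (n + 1) * (t ^ 2) ^ 2 * 3 ^ (n + 3) * (K * (1 + ρ) ^ (n + 3)) * δ :=
    ⟨_, rfl⟩
  have hb0 : 0 ≤ b := by rw [hb]; positivity
  have f1 : |∫ y in (ball 0 (2 * ρ))ᶜ, (Ti n ε ν (fun x => Ψ x • e) y -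
      Ti n (t ^ 2) ν (fun x => Ψ x • e) y) ∂ν| ≤ b * (2 ^ (n + 2) * C + 1) ^ 2 := by
    rw [← Real.norm_eq_abs]
    refine le_trans (norm_integral_le_of_norm_le
      (g2.const_mul (b * (2 ^ (n + 2) * C + 1))).integrableOn
      ((ae_restrict_mem measurableSet_ball.compl).mono fun y hy => ?_)) ?_
    · rw [e1]
      refine le_trans (abs_int_le (g2.const_mul (b * G y)) fun x => ?_) ?_
      · rw [hb, hG, hG]
        exact far_pt h e p hε hεs hδ x y (not_lt.1 fun h' => hy (mem_ball_zero_iff.2 h'))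
      · rw [integral_const_mul, mul_right_comm]
        exact mul_le_mul_of_nonneg_right (mul_le_mul_of_nonneg_left g3 hb0) (g0 y)
    · rw [integral_const_mul, sq, ← mul_assoc]
      exact mul_le_mul_of_nonneg_left ((setIntegral_le_integral g2
        (Eventually.of_forall g0)).trans g3) (by positivity)
  have f2 := near_le hn hu hC h hε hεs (div_pos ht hδ) (by linarith) ha
  have e2 : ∀ y, ∫ x in ball 0 (2 * ρ), (kr n ε (x - y) - kr n (t ^ 2) (x - y)) * ⟪x - y, e⟫ * Ψ x ∂ν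
      = Ti n ε ν (fun x => Ψ x • e) y - Ti n (t ^ 2) ν (fun x => Ψ x • e) y := fun y => by
    rw [e1]
    refine setIntegral_eq_integral_of_forall_compl_eq_zero fun x hx => ?_
    rw [h.supp x (by linarith [not_lt.1 fun h' => hx (mem_ball_zero_iff.2 h')]), mul_zero]
  simp only [e2] at f2
  rw [Tf_eq, Tf_eq, ← integral_sub i1 i2,
    ← integral_add_compl (s := ball 0 (2 * ρ)) measurableSet_ball (i1.sub' i2)]
  refine (abs_add_le _ _).trans ((add_le_add f2 f1).trans ?_)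
  have h4 : (t ^ 2) ^ 2 ≤ t := by
    rw [← pow_mul]
    exact pow_le_of_le_one ht.le ht1 (by norm_num)
  have h5 : b ≤ (n + 1) * t * 3 ^ (n + 3) * (K * (1 + ρ) ^ (n + 3)) * δ := by
    rw [hb]; gcongr
  refine (add_le_add_right (mul_le_mul_of_nonneg_right h5 (sq_nonneg _)) _).trans (le_of_eq ?_)
  field_simp
  ring

end Vale.Agent.P120.LinBX
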