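import Mathlib

/-! P120, Liou: the heat kernel. -/

namespace Vale.Agent.P120.LiouX

open MeasureTheory Filter Module Set Real
open scoped Topology RealInnerProductSpace

/-- Normalising constant. -/
noncomputable def cs (n : ℕ) (s : ℝ) : ℝ := (√(π * s))⁻¹ ^ n

/-- Heat kernel. -/
noncomputable def G {W : Type} [NormedAddCommGroup W] (n : ℕ) (s : ℝ) (z : W) : ℝ :=
  cs n s * exp (-s⁻¹ * ‖z‖ ^ 2)

/-- The weight. -/
noncomputable def rho {W : Type} [NormedAddCommGroup W] (n : ℕ) (x : W) : ℝ :=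
  (1 + ‖x‖)⁻¹ ^ (n + 2)

theorem cs_pos (n : ℕ) {s : ℝ} (hs : 0 < s) : 0 < cs n s := by
  have := pi_pos
  unfold cs
  positivity

theorem cs_nonneg (n : ℕ) (s : ℝ) : 0 ≤ cs n s := by
  unfold cs
  positivity

theorem rpow_half (n : ℕ) {x : ℝ} (hx : 0 ≤ x) : x ^ (n / 2 : ℝ) = √x ^ n := by
  rw [sqrt_eq_rpow, ← rpow_natCast, ← rpow_mul hx]
  congr 1
  ring

theorem cs_two (n : ℕ) {s : ℝ} (hs : 0 < s) : cs n s = √2 ^ n * cs n (2 * s) := by
  have := pi_pos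
  unfold cs
  rw [← mul_pow, show π * (2 * s) = 2 * (π * s) by ring, sqrt_mul (x := 2) (by norm_num)]
  congr 1
  have : 0 < √(π * s) := by positivity
  field_simp

theorem cs_le (n : ℕ) {s : ℝ} (hs : 0 < s) : cs n s ≤ (√s)⁻¹ ^ n := by
  unfold cs
  have h1 : s ≤ π * s := by nlinarith [pi_gt_three]
  have h2 : 0 < √s := by positivity
  gcongr

theorem tendsto_cs {n : ℕ} (hn : 1 ≤ n) : Tendsto (cs n) atTop (𝓝 0) := by
  have h1 : Tendsto (fun s : ℝ => (√(π * s))⁻¹) atTop (𝓝 0) :=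
    tendsto_inv_atTop_zero.comp (tendsto_sqrt_atTop.comp (tendsto_id.const_mul_atTop pi_pos))
  have h2 := h1.pow n
  rwa [zero_pow (by omega)] at h2

theorem poly_exp (m : ℕ) {c : ℝ} (hc : 0 < c) (u : ℝ) (hu : 0 ≤ u) :
    (1 + u) ^ m * exp (-(c * u ^ 2)) ≤ exp (m ^ 2 / (4 * c)) := by
  have h1 : (1 + u) ^ m ≤ exp (m * u) := by
    rw [exp_nat_mul]
    gcongr
    linarith [add_one_le_exp u]
  calc _ ≤ exp (m * u) * exp (-(c * u ^ 2)) := by gcongr
    _ = exp (m * u - c * u ^ 2) := by rw [← exp_add]; ring_nf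
    _ ≤ _ := by
      gcongr
      rw [le_div_iff₀ (by positivity)]
      nlinarith [sq_nonneg (m - 2 * c * u)]

variable {W : Type} [NormedAddCommGroup W]

theorem G_nonneg (n : ℕ) (s : ℝ) (z : W) : 0 ≤ G n s z :=
  mul_nonneg (cs_nonneg n s) (exp_pos _).le

theorem G_le (n : ℕ) {s : ℝ} (hs : 0 < s) (z : W) : G n s z ≤ cs n s := by
  unfold G
  refine mul_le_of_le_one_right (cs_nonneg n s) (exp_le_one_iff.2 ?_)
  have : 0 ≤ s⁻¹ * ‖z‖ ^ 2 := by positivity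
  linarith

theorem G_neg (n : ℕ) (s : ℝ) (z : W) : G n s (-z) = G n s z := by simp [G]

theorem continuous_G (n : ℕ) (s : ℝ) : Continuous (G n s : W → ℝ) := by
  unfold G
  fun_prop

theorem rho_pos (n : ℕ) (x : W) : 0 < rho n x := by
  unfold rho
  positivity

theorem rho_le_one (n : ℕ) (x : W) : rho n x ≤ 1 := by
  unfold rho
  exact pow_le_one₀ (by positivity) (inv_le_one_of_one_le₀ (by linarith [norm_nonneg x]))

theorem continuous_rho (n : ℕ) : Continuous (rho n : W → ℝ) := by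
  unfold rho
  exact (Continuous.inv₀ (by fun_prop) fun x => by positivity).pow _

theorem one_le_mul_rho (n : ℕ) {x : W} {a : ℝ} (h : 1 + ‖x‖ ≤ a) : 1 ≤ a ^ (n + 2) * rho n x := by
  unfold rho
  rw [← mul_pow]
  refine one_le_pow₀ ?_
  rw [← div_eq_mul_inv, le_div_iff₀ (by positivity)]
  linarith

theorem rho_sub (n : ℕ) (x y : W) : rho n (x - y) ≤ (1 + ‖y‖) ^ (n + 2) * rho n x := by
  unfold rho
  rw [← mul_pow]
  refine pow_le_pow_left₀ (by positivity) ?_ _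
  have h1 : ‖x‖ ≤ ‖x - y‖ + ‖y‖ := by simpa using norm_add_le (x - y) y
  have := norm_nonneg x
  have := norm_nonneg y
  have := norm_nonneg (x - y)
  rw [← div_eq_mul_inv, inv_eq_one_div, div_le_div_iff₀ (by positivity) (by positivity)]
  nlinarith [mul_nonneg (norm_nonneg y) (norm_nonneg (x - y))]

theorem mom (n m : ℕ) {T : ℝ} (hT : 0 < T) : ∃ C, 0 < C ∧ ∀ s, 0 < s → s ≤ T → ∀ z : W,
    G n s z * (1 + ‖z‖) ^ m ≤ C * G n (2 * s) z ∧
      G n s z * (‖z‖ ^ 2 * (1 + ‖z‖) ^ m) ≤ C * s * G n (2 * s) z := by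
  refine ⟨4 * √2 ^ n * exp (m ^ 2 / (4 * (4 * T)⁻¹)), by positivity, fun s hs hsT z => ?_⟩
  have hp := poly_exp m (c := (4 * T)⁻¹) (by positivity) ‖z‖ (norm_nonneg z)
  set u := (4 * s)⁻¹ * ‖z‖ ^ 2 with hu
  have hu0 : 0 ≤ u := by positivity
  have h1 : exp (-u) ≤ exp (-((4 * T)⁻¹ * ‖z‖ ^ 2)) := by
    rw [hu]
    gcongr
  have h2 : (1 + ‖z‖) ^ m * exp (-u) ≤ exp (m ^ 2 / (4 * (4 * T)⁻¹)) :=
    le_trans (by gcongr) hp
  have h3 : exp (-u) ≤ 1 := exp_le_one_iff.2 (by linarith)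
  have h4 : ‖z‖ ^ 2 * exp (-u) ≤ 4 * s := by
    have e : ‖z‖ ^ 2 = 4 * s * u := by rw [hu]; field_simp
    have h5 : u * exp (-u) ≤ 1 := by
      rw [exp_neg, ← div_eq_mul_inv, div_le_one (exp_pos u)]
      linarith [add_one_le_exp u]
    rw [e, mul_assoc]
    exact mul_le_of_le_one_right (by positivity) h5
  have e : G n s z = √2 ^ n * G n (2 * s) z * (exp (-u) * exp (-u)) := by
    unfold G
    rw [cs_two n hs, mul_assoc, mul_assoc, mul_assoc, ← exp_add, ← exp_add]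
    congr 3
    rw [hu]
    field_simp
    ring
  have hG := G_nonneg n (2 * s) z
  set E := exp (m ^ 2 / (4 * (4 * T)⁻¹))
  have hE : 0 < E := exp_pos _
  constructor
  · calc _ = √2 ^ n * G n (2 * s) z * (exp (-u) * ((1 + ‖z‖) ^ m * exp (-u))) := by rw [e]; ring
      _ ≤ √2 ^ n * G n (2 * s) z * (4 * E) := by
        gcongr
        linarith
      _ = _ := by ring
  · calc _ = √2 ^ n * G n (2 * s) z * ((‖z‖ ^ 2 * exp (-u)) * ((1 + ‖z‖) ^ m * exp (-u))) := by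
          rw [e]; ring
      _ ≤ √2 ^ n * G n (2 * s) z * ((4 * s) * E) := by gcongr
      _ = _ := by ring

theorem subord (n : ℕ) {z : W} (hz : z ≠ 0) :
    ∫ s in Ioi (0 : ℝ), s ^ (-(3 / 2 : ℝ)) * G n s z =
      (√π)⁻¹ ^ n * Gamma ((n + 1) / 2) * ‖z‖⁻¹ ^ (n + 1) := by
  have hz' : 0 < ‖z‖ := norm_pos_iff.2 hz
  have h1 := integral_rpow_mul_exp_neg_mul_Ioi (a := (n + 1) / 2) (r := ‖z‖ ^ 2) (by positivity)
    (by positivity)
  rw [← integral_comp_rpow_Ioi _ (p := -1) (by norm_num)] at h1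
  have h2 : (1 / ‖z‖ ^ 2) ^ ((n + 1) / 2 : ℝ) = ‖z‖⁻¹ ^ (n + 1) := by
    have := rpow_half (n + 1) (x := 1 / ‖z‖ ^ 2) (by positivity)
    push_cast at this
    rw [this, one_div, sqrt_inv, sqrt_sq hz'.le]
  rw [h2] at h1
  rw [mul_assoc, mul_comm (Gamma _), ← h1, ← integral_const_mul]
  refine setIntegral_congr_fun measurableSet_Ioi fun s hs => ?_
  have hs : 0 < s := hs
  have e1 : cs n s = (√π)⁻¹ ^ n * s ^ (-(n / 2 : ℝ)) := by
    unfold cs
    rw [rpow_neg hs.le, rpow_half n hs.le, sqrt_mul pi_pos.le, mul_inv, mul_pow, inv_pow (√s)]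
  have e2 : s ^ (-(3 / 2 : ℝ)) * s ^ (-(n / 2 : ℝ)) =
      s ^ (-1 - 1 : ℝ) * (s ^ (-1 : ℝ)) ^ ((n + 1) / 2 - 1 : ℝ) := by
    rw [← rpow_mul hs.le, ← rpow_add hs, ← rpow_add hs]
    congr 1
    ring
  simp only [G, e1, smul_eq_mul, abs_neg, abs_one, one_mul]
  rw [show -s⁻¹ * ‖z‖ ^ 2 = -(‖z‖ ^ 2 * s ^ (-1 : ℝ)) by rw [rpow_neg_one]; ring]
  calc _ = (√π)⁻¹ ^ n * ((s ^ (-(3 / 2 : ℝ)) * s ^ (-(n / 2 : ℝ))) *
        exp (-(‖z‖ ^ 2 * s ^ (-1 : ℝ)))) := by ring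
    _ = _ := by rw [e2]; ring

variable [InnerProductSpace ℝ W]

theorem G_second (n : ℕ) (a : W) : ∃ C, 0 ≤ C ∧ ∀ s, max 1 (4 * ‖a‖ ^ 2) ≤ s → ∀ x : W,
    |2 * G n s x - G n s (x + a) - G n s (x - a)| ≤ C * rho n x := by
  refine ⟨16 * ‖a‖ ^ 2 * exp ((n + 2 : ℕ) ^ 2 / (4 * 4⁻¹)), by positivity, fun s hs x => ?_⟩
  have hs1 : 1 ≤ s := (le_max_left _ _).trans hs
  have hs2 : 4 * ‖a‖ ^ 2 ≤ s := (le_max_right _ _).trans hs
  have hs0 : 0 < s := by linarith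
  set α := s⁻¹ * ‖a‖ ^ 2 with hα
  set U := s⁻¹ * ‖x‖ ^ 2 with hU
  set β := 2 * s⁻¹ * ⟪x, a⟫ with hβ
  have hα0 : 0 ≤ α := by positivity
  have hU0 : 0 ≤ U := by positivity
  have hα1 : α ≤ 1 / 4 := by
    rw [hα, inv_mul_le_iff₀ hs0]
    linarith
  have hq : β ^ 2 / 2 ≤ 2 * α * U := by
    have h1 : ⟪x, a⟫ ^ 2 ≤ (‖x‖ * ‖a‖) ^ 2 := sq_le_sq' (by
      linarith [neg_abs_le ⟪x, a⟫, abs_real_inner_le_norm x a]) (real_inner_le_norm x a)
    calc _ = 2 * s⁻¹ ^ 2 * ⟪x, a⟫ ^ 2 := by rw [hβ]; ring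
      _ ≤ 2 * s⁻¹ ^ 2 * (‖x‖ * ‖a‖) ^ 2 := by gcongr
      _ = _ := by rw [hα, hU]; ring
  have e : 2 * G n s x - G n s (x + a) - G n s (x - a) =
      2 * cs n s * exp (-U) * (1 - exp (-α) * cosh β) := by
    unfold G
    rw [cosh_eq, norm_add_sq_real, norm_sub_sq_real,
      show -s⁻¹ * (‖x‖ ^ 2 + 2 * ⟪x, a⟫ + ‖a‖ ^ 2) = -U + -α + -β by rw [hα, hU, hβ]; ring,
      show -s⁻¹ * (‖x‖ ^ 2 - 2 * ⟪x, a⟫ + ‖a‖ ^ 2) = -U + -α + β by rw [hα, hU, hβ]; ring,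
      show -s⁻¹ * ‖x‖ ^ 2 = -U by rw [hU]; ring, exp_add, exp_add, exp_add, exp_add]
    ring
  have h1 : 1 ≤ cosh β := one_le_cosh β
  have h2 : cosh β - 1 ≤ 2 * α * U * exp (U / 2) := by
    have h3 : cosh β ≤ exp (2 * α * U) := (cosh_le_exp_half_sq β).trans (exp_le_exp.2 hq)
    have h4 : exp (2 * α * U) - 1 ≤ 2 * α * U * exp (2 * α * U) := by
      have h5 := add_one_le_exp (-(2 * α * U))
      have h6 : exp (-(2 * α * U)) * exp (2 * α * U) = 1 := by rw [← exp_add]; simp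
      nlinarith [exp_pos (2 * α * U)]
    have h7 : exp (2 * α * U) ≤ exp (U / 2) := exp_le_exp.2 (by nlinarith)
    calc _ ≤ 2 * α * U * exp (2 * α * U) := by linarith
      _ ≤ _ := by gcongr
  have h3 : exp (-α) ≤ 1 := exp_le_one_iff.2 (by linarith)
  have h4 : 1 - α ≤ exp (-α) := by linarith [add_one_le_exp (-α)]
  have hE1 : 1 ≤ exp (U / 2) := one_le_exp (by linarith)
  have h5 : |1 - exp (-α) * cosh β| ≤ α * (1 + 2 * U) * exp (U / 2) := by
    have h6 : exp (-α) * (cosh β - 1) ≤ cosh β - 1 := mul_le_of_le_one_left (by linarith) h3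
    have h7 : 0 ≤ exp (-α) * (cosh β - 1) := mul_nonneg (exp_pos _).le (by linarith)
    have h8 : α ≤ α * exp (U / 2) := le_mul_of_one_le_right hα0 hE1
    have h9 : 0 ≤ 2 * α * U * exp (U / 2) := by positivity
    rw [abs_le]
    constructor <;> nlinarith
  have h6 : 1 + 2 * U ≤ 8 * exp (U / 4) := by linarith [add_one_le_exp (U / 4)]
  have hr : 0 < √s := by positivity
  have hr1 : 1 ≤ √s := one_le_sqrt.2 hs1
  have hp := poly_exp (n + 2) (c := 4⁻¹) (by positivity) (‖x‖ / √s) (by positivity)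
  have e2 : 4⁻¹ * (‖x‖ / √s) ^ 2 = U / 4 := by
    rw [div_pow, sq_sqrt hs0.le, hU]
    field_simp
  rw [e2] at hp
  have h7 : (√s)⁻¹ ^ (n + 2) ≤ (1 + ‖x‖ / √s) ^ (n + 2) * rho n x := by
    unfold rho
    rw [← mul_pow]
    refine pow_le_pow_left₀ (by positivity) ?_ _
    have := norm_nonneg x
    rw [← div_eq_mul_inv, le_div_iff₀ (by positivity), mul_add, mul_one, div_eq_inv_mul]
    linarith [inv_le_one_of_one_le₀ hr1]
  have e3 : s⁻¹ = (√s)⁻¹ ^ 2 := by rw [inv_pow, sq_sqrt hs0.le]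
  have e4 : exp (-U) * (exp (U / 4) * exp (U / 2)) = exp (-(U / 4)) := by
    rw [← exp_add, ← exp_add]
    congr 1
    ring
  have hc := cs_le n hs0
  have hc0 := cs_nonneg n s
  have hρ := (rho_pos n x).le
  rw [e, abs_mul, abs_of_nonneg (by positivity)]
  calc _ ≤ 2 * (√s)⁻¹ ^ n * exp (-U) * (α * (8 * exp (U / 4)) * exp (U / 2)) := by
        refine mul_le_mul (by gcongr) (h5.trans (by gcongr)) (abs_nonneg _) (by positivity)
    _ = 16 * ‖a‖ ^ 2 * ((√s)⁻¹ ^ (n + 2) * (exp (-U) * (exp (U / 4) * exp (U / 2)))) := by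
        rw [hα, e3]; ring
    _ ≤ 16 * ‖a‖ ^ 2 * (((1 + ‖x‖ / √s) ^ (n + 2) * rho n x) * exp (-(U / 4))) := by
        rw [e4]; gcongr
    _ = 16 * ‖a‖ ^ 2 * ((1 + ‖x‖ / √s) ^ (n + 2) * exp (-(U / 4))) * rho n x := by ring
    _ ≤ _ := by gcongr

variable [FiniteDimensional ℝ W] [MeasurableSpace W] [BorelSpace W] {n : ℕ}

omit [InnerProductSpace ℝ W] [FiniteDimensional ℝ W] in
theorem measurable_G (n : ℕ) : Measurable fun p : ℝ × W => G n p.1 p.2 := by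
  unfold G cs
  fun_prop

theorem integral_G (hn : finrank ℝ W = n) {s : ℝ} (hs : 0 < s) : ∫ z : W, G n s z = 1 := by
  have := pi_pos
  unfold G cs
  rw [integral_const_mul, GaussianFourier.integral_rexp_neg_mul_sq_norm (inv_pos.2 hs), hn,
    rpow_half n (by positivity), div_inv_eq_mul, ← mul_pow, inv_mul_cancel₀ (by positivity),
    one_pow]

theorem integrable_G (hn : finrank ℝ W = n) {s : ℝ} (hs : 0 < s) :
    Integrable (G n s : W → ℝ) :=
  Integrable.of_integral_ne_zero (by rw [integral_G hn hs]; norm_num)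

theorem G_conv (hn : finrank ℝ W = n) {t s : ℝ} (ht : 0 < t) (hs : 0 < s) (x : W) :
    ∫ y, G n t y * G n s (x - y) = G n (t + s) x := by
  have := pi_pos
  have hb : 0 < (t + s) / (t * s) := by positivity
  have e : ∀ y : W, G n t y * G n s (x - y) = cs n t * cs n s * exp (-(t + s)⁻¹ * ‖x‖ ^ 2) *
      exp (-((t + s) / (t * s)) * ‖y - (t / (t + s)) • x‖ ^ 2) := fun y => by
    unfold G
    rw [mul_mul_mul_comm, mul_assoc (cs n t * cs n s), ← exp_add, ← exp_add]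
    congr 2
    rw [norm_sub_sq_real, norm_sub_sq_real, inner_smul_right, norm_smul, real_inner_comm x y,
      mul_pow, Real.norm_eq_abs, sq_abs]
    field_simp
    ring
  simp_rw [e]
  rw [integral_const_mul, integral_sub_right_eq_self
    (fun y : W => exp (-((t + s) / (t * s)) * ‖y‖ ^ 2)),
    GaussianFourier.integral_rexp_neg_mul_sq_norm hb, hn, rpow_half n (by positivity)]
  unfold G cs
  rw [mul_right_comm, ← mul_pow, ← mul_pow]
  congr 2
  rw [← sqrt_inv, ← sqrt_inv, ← sqrt_inv, ← sqrt_mul (by positivity), ← sqrt_mul (by positivity)]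
  congr 1
  field_simp

theorem mom_int (hn : finrank ℝ W = n) (m : ℕ) {T : ℝ} (hT : 0 < T) :
    ∃ C, 0 < C ∧ ∀ s, 0 < s → s ≤ T →
      (Integrable fun z : W => G n s z * (1 + ‖z‖) ^ m) ∧
      (∫ z : W, G n s z * (1 + ‖z‖) ^ m) ≤ C ∧
      (Integrable fun z : W => G n s z * (‖z‖ ^ 2 * (1 + ‖z‖) ^ m)) ∧
      (∫ z : W, G n s z * (‖z‖ ^ 2 * (1 + ‖z‖) ^ m)) ≤ C * s := by
  obtain ⟨C, hC, h⟩ := mom (W := W) n m hT
  refine ⟨C, hC, fun s hs hsT => ?_⟩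
  have hc := continuous_G (W := W) n s
  have h2 := integrable_G hn (s := 2 * s) (by positivity)
  have h3 := integral_G hn (s := 2 * s) (by positivity)
  have i1 : Integrable fun z : W => G n s z * (1 + ‖z‖) ^ m :=
    (h2.const_mul C).mono' (by fun_prop) (ae_of_all _ fun z => by
      rw [Real.norm_of_nonneg (mul_nonneg (G_nonneg n s z) (by positivity))]
      exact (h s hs hsT z).1)
  have i2 : Integrable fun z : W => G n s z * (‖z‖ ^ 2 * (1 + ‖z‖) ^ m) :=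
    (h2.const_mul (C * s)).mono' (by fun_prop) (ae_of_all _ fun z => by
      rw [Real.norm_of_nonneg (mul_nonneg (G_nonneg n s z) (by positivity))]
      exact (h s hs hsT z).2)
  refine ⟨i1, ?_, i2, ?_⟩
  · refine (integral_mono i1 (h2.const_mul C) fun z => (h s hs hsT z).1).trans ?_
    rw [integral_const_mul, h3, mul_one]
  · refine (integral_mono i2 (h2.const_mul (C * s)) fun z => (h s hs hsT z).2).trans ?_
    rw [integral_const_mul, h3, mul_one]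

end Vale.Agent.P120.LiouX
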