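import Vale.Agent.P120.LiouA
import Vale.Agent.P120.Cls0C

/-! P120, Liou: the heat semigroup on test functions. -/

namespace Vale.Agent.P120.LiouX

open MeasureTheory Filter Module Set Real
open scoped Topology RealInnerProductSpace

theorem int_prod {X Y : Type} [MeasurableSpace X] [MeasurableSpace Y] {μ : Measure X}
    {ν : Measure Y} [SFinite ν] {f : X → Y → ℝ} {a : X → ℝ} {b : Y → ℝ}
    (hf : Measurable (Function.uncurry f)) (ha : Integrable a μ) (hb : Integrable b ν)
    (h : ∀ x y, |f x y| ≤ a x * b y) : Integrable (Function.uncurry f) (μ.prod ν) :=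
  (ha.mul_prod hb).mono' hf.aestronglyMeasurable (ae_of_all _ fun p => h p.1 p.2)

theorem int3 {X : Type} [MeasurableSpace X] {μ : Measure X} {a b c : X → ℝ} (ha : Integrable a μ)
    (hb : Integrable b μ) (hc : Integrable c μ) :
    ∫ x, (2 * a x - b x - c x) ∂μ = 2 * ∫ x, a x ∂μ - ∫ x, b x ∂μ - ∫ x, c x ∂μ := by
  have h1 : Integrable (fun x => 2 * a x - b x) μ := (ha.const_mul 2).sub hb
  rw [integral_sub h1 hc, integral_sub (ha.const_mul 2) hb, integral_const_mul]

/-- The time weight. -/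
noncomputable def be (s : ℝ) : ℝ := s ^ (-(3 / 2 : ℝ)) * min s 1

theorem integrable_be : IntegrableOn be (Ioi 0) := by
  rw [← Ioc_union_Ioi_eq_Ioi zero_le_one]
  refine IntegrableOn.union ?_ ?_
  · have h := (intervalIntegral.intervalIntegrable_rpow' (a := 0) (b := 1) (r := -(1 / 2))
      (by norm_num)).1
    refine h.congr_fun (fun s hs => ?_) measurableSet_Ioc
    simp only [be, min_eq_left hs.2]
    rw [← rpow_add_one hs.1.ne']
    norm_num
  · refine (integrableOn_Ioi_rpow_of_lt (a := -(3 / 2)) (by norm_num) zero_lt_one).congr_fun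
      (fun s hs => ?_) measurableSet_Ioi
    simp only [be, min_eq_right (le_of_lt (mem_Ioi.1 hs)), mul_one]

theorem max_principle {F : ℝ → ℝ}
    (hL : ∀ T, 0 < T → ∃ C, ∀ t s, 0 < t → t ≤ T → 0 < s → |F t - F (t + s)| ≤ C * s)
    (h0 : Tendsto F atTop (𝓝 0))
    (hI : ∀ t, 0 < t → IntegrableOn (fun s => s ^ (-(3 / 2 : ℝ)) * (F t - F (t + s))) (Ioi 0))
    (hZ : ∀ t, 0 < t → ∫ s in Ioi 0, s ^ (-(3 / 2 : ℝ)) * (F t - F (t + s)) = 0)
    {t : ℝ} (ht : 0 < t) : F t ≤ 0 := by
  by_contra hc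
  rw [not_le] at hc
  obtain ⟨T0, hT0⟩ := eventually_atTop.1 (h0.eventually (gt_mem_nhds hc))
  set T := max T0 t
  have htT : t ≤ T := le_max_right _ _
  obtain ⟨C, hC⟩ := hL T (ht.trans_le htT)
  have hcont : ContinuousOn F (Icc t T) := by
    refine (LipschitzOnWith.of_dist_le' (K := |C|) fun x hx y hy => ?_).continuousOn
    rw [Real.dist_eq, Real.dist_eq]
    rcases lt_trichotomy x y with h | h | h
    · have := hC x (y - x) (ht.trans_le hx.1) hx.2 (by linarith)
      rw [add_sub_cancel] at this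
      rw [abs_sub_comm x y, abs_of_pos (sub_pos.2 h)]
      exact this.trans (by gcongr; exact le_abs_self C)
    · simp [h]
    · have := hC y (x - y) (ht.trans_le hy.1) hy.2 (by linarith)
      rw [add_sub_cancel, abs_sub_comm] at this
      rw [abs_of_pos (sub_pos.2 h)]
      exact this.trans (by gcongr; exact le_abs_self C)
  obtain ⟨u, hu, hmax⟩ := isCompact_Icc.exists_isMaxOn (nonempty_Icc.2 htT) hcont
  have hu0 : 0 < u := ht.trans_le hu.1
  have htu : F t ≤ F u := hmax (left_mem_Icc.2 htT)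
  have hge : ∀ s, 0 < s → F (u + s) ≤ F u := fun s hs => by
    by_cases h : u + s ≤ T
    · exact hmax ⟨by linarith [hu.1], h⟩
    · exact (hT0 _ ((le_max_left _ _).trans (not_le.1 h).le)).le.trans htu
  have hpos : 0 < ∫ s in Ioi 0, s ^ (-(3 / 2 : ℝ)) * (F u - F (u + s)) := by
    rw [setIntegral_pos_iff_support_of_nonneg_ae _ (hI u hu0)]
    · refine lt_of_lt_of_le (b := volume (Ioi T)) (by simp) (measure_mono fun s hs => ?_)
      have hs' : T < s := hs
      have hs0 : 0 < s := by linarith [ht.trans_le htT]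
      refine ⟨(mul_pos (rpow_pos_of_pos hs0 _) ?_).ne', hs0⟩
      have := hT0 (u + s) (by linarith [le_max_left T0 t])
      linarith
    · filter_upwards [ae_restrict_mem measurableSet_Ioi] with s hs
      exact mul_nonneg (rpow_nonneg (le_of_lt hs) _) (sub_nonneg.2 (hge s hs))
  exact hpos.ne' (hZ u hu0)

variable {W : Type} [NormedAddCommGroup W] [InnerProductSpace ℝ W] [FiniteDimensional ℝ W]
  [MeasurableSpace W] [BorelSpace W] {n : ℕ}

/-- Heat semigroup. -/
noncomputable def P (n : ℕ) (s : ℝ) (f : W → ℝ) (x : W) : ℝ := ∫ z, G n s z * f (x - z)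

/-- Second difference. -/
def dd {W : Type} [NormedAddCommGroup W] (f : W → ℝ) (x z : W) : ℝ :=
  2 * f x - f (x + z) - f (x - z)

/-- Test functions. -/
structure Tst {W : Type} [NormedAddCommGroup W] [NormedSpace ℝ W] (f : W → ℝ) : Prop where
  sm : ContDiff ℝ (⊤ : ℕ∞) f
  cp : HasCompactSupport f

section
omit [FiniteDimensional ℝ W] [MeasurableSpace W] [BorelSpace W]

theorem Tst.cont {f : W → ℝ} (h : Tst f) : Continuous f := h.sm.continuous

theorem Tst.sub {f : W → ℝ} (h : Tst f) (y : W) : Tst fun w => f (w - y) :=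
  ⟨h.sm.comp (contDiff_id.sub contDiff_const), h.cp.comp_homeomorph (Homeomorph.subRight y)⟩

theorem Tst.add {f : W → ℝ} (h : Tst f) (y : W) : Tst fun w => f (w + y) :=
  ⟨h.sm.comp (contDiff_id.add contDiff_const), h.cp.comp_homeomorph (Homeomorph.addRight y)⟩

theorem Tst.dd {f : W → ℝ} (h : Tst f) (a : W) : Tst fun w => dd f w a := by
  refine ⟨((contDiff_const.mul h.sm).sub (h.add a).sm).sub (h.sub a).sm, ?_⟩
  have h1 : HasCompactSupport fun w => 2 * f w := h.cp.mul_left (f := fun _ => 2)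
  exact (h1.sub (h.add a).cp).sub (h.sub a).cp

theorem Tst.bd {f : W → ℝ} (h : Tst f) :
    ∃ S R : ℝ, 0 ≤ S ∧ 0 ≤ R ∧ (∀ x, |f x| ≤ S) ∧ ∀ x, R < ‖x‖ → f x = 0 := by
  obtain ⟨S, hS⟩ := h.cont.bounded_above_of_compact_support h.cp
  obtain ⟨R, hR⟩ := h.cp.isCompact.isBounded.exists_norm_le
  refine ⟨S, max R 0, (norm_nonneg _).trans (hS 0), le_max_right _ _, hS, fun x hx => ?_⟩
  by_contra hne
  linarith [hR x (subset_tsupport _ hne), le_max_left R 0]

theorem Tst.le_rho {f : W → ℝ} (h : Tst f) (n : ℕ) : ∃ C, 0 ≤ C ∧ ∀ x, |f x| ≤ C * rho n x := by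
  obtain ⟨S, R, hS0, hR0, hS, hR⟩ := h.bd
  refine ⟨S * (1 + R) ^ (n + 2), by positivity, fun x => ?_⟩
  by_cases hx : R < ‖x‖
  · rw [hR x hx, abs_zero]
    exact mul_nonneg (by positivity) (rho_pos n x).le
  · rw [mul_assoc]
    exact (hS x).trans (le_mul_of_one_le_right hS0 (one_le_mul_rho n (by linarith [not_lt.1 hx])))

theorem Tst.dd_le {f : W → ℝ} (h : Tst f) (n : ℕ) : ∃ C, 0 ≤ C ∧ ∀ x z,
    |LiouX.dd f x z| ≤ C * rho n x * (‖z‖ ^ 2 * (1 + ‖z‖) ^ (n + 2)) := by
  obtain ⟨S, R, hS0, hR0, hS, hR⟩ := h.bd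
  have hs1 : ContDiff ℝ 1 (fderiv ℝ f) :=
    h.sm.fderiv_right (m := 1) (WithTop.coe_le_coe.2 (le_top (a := (2 : ℕ∞))))
  obtain ⟨L, hL⟩ := hs1.lipschitzWith_of_hasCompactSupport (h.cp.fderiv ℝ) one_ne_zero
  refine ⟨4 * L * (1 + R) ^ (n + 2), by positivity, fun x z => ?_⟩
  have hρ := (rho_pos n x).le
  by_cases hx : R + ‖z‖ < ‖x‖
  · have h1 : ‖x‖ ≤ ‖x + z‖ + ‖z‖ := by simpa using norm_sub_le (x + z) z
    have h2 : ‖x‖ ≤ ‖x - z‖ + ‖z‖ := by simpa using norm_add_le (x - z) z
    rw [LiouX.dd, hR x (by linarith [norm_nonneg z]), hR _ (by linarith), hR _ (by linarith)]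
    simp only [mul_zero, sub_zero, abs_zero]
    positivity
  · have h1 := Cls0X.second_le (h.sm.differentiable (by simp)) hL x z
    have h2 := one_le_mul_rho n (x := x) (a := (1 + R) * (1 + ‖z‖)) (by
      nlinarith [not_lt.1 hx, mul_nonneg hR0 (norm_nonneg z)])
    calc _ ≤ 4 * L * ‖z‖ ^ 2 * 1 := by rwa [mul_one]
      _ ≤ 4 * L * ‖z‖ ^ 2 * (((1 + R) * (1 + ‖z‖)) ^ (n + 2) * rho n x) := by gcongr
      _ = _ := by rw [mul_pow]; ring
end

theorem Tst.int {f : W → ℝ} (h : Tst f) : Integrable f :=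
  h.cont.integrable_of_hasCompactSupport h.cp

theorem Tst.integral_dd {f : W → ℝ} (h : Tst f) (a : W) : ∫ w, LiouX.dd f w a = 0 := by
  unfold LiouX.dd
  rw [int3 h.int (h.add a).int (h.sub a).int, integral_add_right_eq_self,
    integral_sub_right_eq_self]
  ring

theorem int_G_mul (hn : finrank ℝ W = n) {s : ℝ} (hs : 0 < s) {f : W → ℝ} (hf : Measurable f)
    {S : ℝ} (hS : ∀ x, |f x| ≤ S) : Integrable fun z => G n s z * f z :=
  (integrable_G hn hs).mul_bdd hf.aestronglyMeasurable (ae_of_all _ hS)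

theorem measurable_P {f : W → ℝ} (hf : Measurable f) :
    Measurable fun p : ℝ × W => P n p.1 f p.2 := by
  have h1 : Measurable fun q : (ℝ × W) × W => G n q.1.1 q.2 * f (q.1.2 - q.2) :=
    ((measurable_G n).comp (f := fun q : (ℝ × W) × W => (q.1.1, q.2)) (by fun_prop)).mul
      (by fun_prop)
  exact (h1.stronglyMeasurable.integral_prod_right' (ν := volume)).measurable

theorem P_eq (s : ℝ) (f : W → ℝ) (x : W) : P n s f x = ∫ y, G n s (x - y) * f y := by
  rw [P, ← integral_sub_left_eq_self _ volume x]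
  simp only [sub_sub_cancel]

theorem two_D (hn : finrank ℝ W = n) {f : W → ℝ} (h : Tst f) {s : ℝ} (hs : 0 < s) (x : W) :
    ∫ z, G n s z * dd f x z = 2 * (f x - P n s f x) := by
  obtain ⟨S, -, -, -, hS, -⟩ := h.bd
  have hc := h.cont
  have i1 := int_G_mul hn hs (f := fun z => f (x + z)) (by fun_prop) fun z => hS _
  have i2 := int_G_mul hn hs (f := fun z => f (x - z)) (by fun_prop) fun z => hS _
  have i0 := (integrable_G hn hs).mul_const (f x)
  have e : ∫ z, G n s z * f (x + z) = P n s f x := by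
    rw [P, ← integral_neg_eq_self]
    simp only [G_neg, sub_eq_add_neg]
  simp only [dd, mul_sub, mul_left_comm _ (2 : ℝ)]
  rw [int3 i0 i1 i2, integral_mul_const, integral_G hn hs, e, P]
  ring

theorem abs_dd_int (hn : finrank ℝ W = n) {f : W → ℝ} (h : Tst f) {T : ℝ} (hT : 0 < T) :
    ∃ C, 0 ≤ C ∧ ∀ s, 0 < s → s ≤ T → ∀ x, ∫ z, |G n s z * dd f x z| ≤ C * s * rho n x := by
  obtain ⟨C, hC, hd⟩ := h.dd_le n
  obtain ⟨M, hM, hm⟩ := mom_int hn (n + 2) hT
  refine ⟨C * M, by positivity, fun s hs hsT x => ?_⟩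
  obtain ⟨-, -, i1, i2⟩ := hm s hs hsT
  have hρ := (rho_pos n x).le
  refine (integral_mono_of_nonneg (ae_of_all _ fun z => abs_nonneg _)
    (i1.const_mul (C * rho n x)) (ae_of_all _ fun z => ?_)).trans ?_
  · simp only
    rw [abs_mul, abs_of_nonneg (G_nonneg n s z), mul_left_comm]
    exact mul_le_mul_of_nonneg_left (hd x z) (G_nonneg n s z)
  · rw [integral_const_mul]
    calc _ ≤ C * rho n x * (M * s) := by gcongr
      _ = _ := by ring

theorem L0_eq (hn : finrank ℝ W = n) (h1 : 1 ≤ n) {f : W → ℝ} (h : Tst f) (x : W) :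
    ∫ s in Ioi (0 : ℝ), s ^ (-(3 / 2 : ℝ)) * (f x - P n s f x) =
      (√π)⁻¹ ^ n * Gamma ((n + 1) / 2) / 2 * L0 n f x := by
  have : Nontrivial W := Module.nontrivial_of_finrank_pos (R := ℝ) (by omega)
  obtain ⟨S, -, hS0, -, hS, -⟩ := h.bd
  obtain ⟨C, hC, hd⟩ := abs_dd_int hn h zero_lt_one
  have hc := h.cont
  have hdS : ∀ z, |dd f x z| ≤ 4 * S := fun z => by
    have a1 := abs_le.1 (hS x)
    have a2 := abs_le.1 (hS (x + z))
    have a3 := abs_le.1 (hS (x - z))
    rw [dd, abs_le]
    constructor <;> linarith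
  have hdm : Measurable (dd f x) := by
    unfold dd
    fun_prop
  have hm : Measurable (Function.uncurry fun (s : ℝ) (z : W) =>
      s ^ (-(3 / 2 : ℝ)) * (G n s z * dd f x z)) :=
    Measurable.mul (by fun_prop) ((measurable_G n).mul (hdm.comp measurable_snd))
  have hi : Integrable (Function.uncurry fun (s : ℝ) (z : W) =>
      s ^ (-(3 / 2 : ℝ)) * (G n s z * dd f x z)) ((volume.restrict (Ioi 0)).prod volume) := by
    rw [integrable_prod_iff hm.aestronglyMeasurable]
    constructor
    · filter_upwards [ae_restrict_mem measurableSet_Ioi] with s hs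
      exact (int_G_mul hn hs hdm hdS).const_mul (s ^ (-(3 / 2 : ℝ)))
    · refine (integrable_be.const_mul (C + 4 * S)).mono'
        hm.norm.stronglyMeasurable.integral_prod_right'.aestronglyMeasurable ?_
      filter_upwards [ae_restrict_mem measurableSet_Ioi] with s hs
      have hs : 0 < s := hs
      have hr : 0 ≤ s ^ (-(3 / 2 : ℝ)) := by positivity
      rw [Real.norm_of_nonneg (integral_nonneg fun z => norm_nonneg _)]
      simp only [Function.uncurry, norm_mul (s ^ (-(3 / 2 : ℝ))), Real.norm_of_nonneg hr,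
        Real.norm_eq_abs]
      rw [integral_const_mul, be, mul_left_comm]
      refine mul_le_mul_of_nonneg_left ?_ hr
      rcases le_total s 1 with h1 | h1
      · rw [min_eq_left h1]
        refine (hd s hs h1 x).trans ((mul_le_of_le_one_right (by positivity)
          (rho_le_one n x)).trans (by nlinarith))
      · rw [min_eq_right h1, mul_one]
        refine (integral_mono_of_nonneg (ae_of_all _ fun z => abs_nonneg _)
          ((integrable_G hn hs).mul_const (4 * S)) (ae_of_all _ fun z => ?_)).trans ?_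
        · simp only
          rw [abs_mul, abs_of_nonneg (G_nonneg n s z)]
          exact mul_le_mul_of_nonneg_left (hdS z) (G_nonneg n s z)
        · rw [integral_mul_const, integral_G hn hs]
          linarith
  have hsw := integral_integral_swap hi
  have e1 : ∫ s in Ioi (0 : ℝ), ∫ z : W, s ^ (-(3 / 2 : ℝ)) * (G n s z * dd f x z) =
      2 * ∫ s in Ioi (0 : ℝ), s ^ (-(3 / 2 : ℝ)) * (f x - P n s f x) := by
    rw [← integral_const_mul]
    refine setIntegral_congr_fun measurableSet_Ioi fun s hs => ?_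
    rw [integral_const_mul, two_D hn h hs]
    ring
  have e2 : ∫ z : W, ∫ s in Ioi (0 : ℝ), s ^ (-(3 / 2 : ℝ)) * (G n s z * dd f x z) =
      (√π)⁻¹ ^ n * Gamma ((n + 1) / 2) * L0 n f x := by
    rw [L0, ← integral_const_mul]
    refine integral_congr_ae ?_
    filter_upwards [Measure.ae_ne volume (0 : W)] with z hz
    simp only [← mul_assoc]
    rw [integral_mul_const, subord n hz, dd]
  rw [e1, e2] at hsw
  linarith

theorem P_P (hn : finrank ℝ W = n) {f : W → ℝ} (h : Tst f) {t s : ℝ} (ht : 0 < t) (hs : 0 < s)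
    (w : W) : P n t (P n s f) w = P n (t + s) f w := by
  have hc := h.cont
  have hG := continuous_G (W := W) n
  have e : ∀ y, G n t y * P n s f (w - y) = ∫ x, G n t y * G n s (w - x - y) * f x := fun y => by
    rw [P_eq, ← integral_const_mul]
    simp only [mul_assoc, sub_right_comm]
  rw [P, P_eq]
  simp_rw [e]
  rw [integral_integral_swap (int_prod (a := fun y => G n t y * cs n s) (b := fun x => |f x|)
    (Continuous.measurable (by have := hG t; have := hG s; fun_prop))
    ((integrable_G hn ht).mul_const _) h.int.abs fun y x => ?_)]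
  · refine integral_congr_ae (ae_of_all _ fun x => ?_)
    simp only
    rw [integral_mul_const, G_conv hn ht hs]
  · rw [abs_mul, abs_of_nonneg (mul_nonneg (G_nonneg _ _ _) (G_nonneg _ _ _))]
    have := G_nonneg n t y
    gcongr
    exact G_le n hs _

theorem P_le (n : ℕ) {f : W → ℝ} (h : Tst f) {s : ℝ} (hs : 0 < s) (x : W) :
    |P n s f x| ≤ cs n s * ∫ y, |f y| := by
  rw [P_eq, ← integral_const_mul]
  refine (abs_integral_le_integral_abs).trans (integral_mono_of_nonneg
    (ae_of_all _ fun z => abs_nonneg _) (h.int.abs.const_mul _) (ae_of_all _ fun y => ?_))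
  simp only
  rw [abs_mul, abs_of_nonneg (G_nonneg _ _ _)]
  gcongr
  exact G_le n hs _

theorem P_rho (hn : finrank ℝ W = n) {T : ℝ} (hT : 0 < T) : ∃ M, 0 < M ∧ ∀ t, 0 < t → t ≤ T →
    ∀ (f : W → ℝ) (C : ℝ), 0 ≤ C → (∀ x, |f x| ≤ C * rho n x) →
      ∀ x, |P n t f x| ≤ M * C * rho n x := by
  obtain ⟨M, hM, hm⟩ := mom_int hn (n + 2) hT
  refine ⟨M, hM, fun t ht htT f C hC hf x => ?_⟩
  obtain ⟨i1, i2, -⟩ := hm t ht htT
  have hρ := (rho_pos n x).le
  refine (abs_integral_le_integral_abs).trans ((integral_mono_of_nonneg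
    (ae_of_all _ fun z => abs_nonneg _) (i1.mul_const (C * rho n x))
    (ae_of_all _ fun y => ?_)).trans ?_)
  · simp only
    rw [abs_mul, abs_of_nonneg (G_nonneg _ _ _), mul_assoc]
    refine mul_le_mul_of_nonneg_left ((hf _).trans ?_) (G_nonneg _ _ _)
    rw [mul_left_comm]
    exact mul_le_mul_of_nonneg_left (rho_sub n x y) hC
  · rw [integral_mul_const, mul_assoc]
    gcongr

theorem D_le (hn : finrank ℝ W = n) {χ : W → ℝ} (h : Tst χ) (a : W) : ∃ C, 0 ≤ C ∧ ∀ s, 0 < s →
    ∀ x, |dd χ x a - P n s (fun w => dd χ w a) x| ≤ C * min s 1 * rho n x := by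
  set T := max 1 (4 * ‖a‖ ^ 2)
  have hT : 1 ≤ T := le_max_left _ _
  obtain ⟨C1, hC1, h1⟩ := abs_dd_int hn (h.dd a) (T := T) (by linarith)
  obtain ⟨C2, hC2, h2⟩ := G_second n a
  obtain ⟨C3, hC3, h3⟩ := (h.dd a).le_rho n
  obtain ⟨S, -, -, -, hS, -⟩ := h.bd
  have hc := h.cont
  have iχ : Integrable fun y => |χ y| * (1 + ‖y‖) ^ (n + 2) :=
    Continuous.integrable_of_hasCompactSupport (by fun_prop) h.cp.abs.mul_right
  set I := ∫ y, |χ y| * (1 + ‖y‖) ^ (n + 2)
  have hI : 0 ≤ I := integral_nonneg fun y => by positivity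
  refine ⟨C1 * T + (C3 + C2 * I), by positivity, fun s hs x => ?_⟩
  have hρ := (rho_pos n x).le
  have hm : 0 ≤ min s 1 := le_min hs.le zero_le_one
  rcases le_total s T with hsT | hsT
  · have h4 := (abs_integral_le_integral_abs).trans (h1 s hs hsT x)
    rw [two_D hn (h.dd a) hs, abs_mul, abs_two] at h4
    have h5 : s ≤ T * min s 1 := by
      rcases le_total s 1 with h | h
      · rw [min_eq_left h]; nlinarith
      · rw [min_eq_right h]; linarith
    calc _ ≤ C1 * s * rho n x := by linarith [abs_nonneg (dd χ x a - P n s (fun w => dd χ w a) x)]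
      _ ≤ C1 * (T * min s 1) * rho n x := by gcongr
      _ = C1 * T * min s 1 * rho n x := by ring
      _ ≤ _ := by gcongr; exact le_add_of_nonneg_right (by positivity)
  · have hG := continuous_G (W := W) n s
    have iG : ∀ x', Integrable fun y => G n s (x' - y) * χ y := fun x' =>
      Continuous.integrable_of_hasCompactSupport (by fun_prop) h.cp.mul_left
    have iz : ∀ x', Integrable fun z => G n s z * χ (x' - z) := fun x' =>
      int_G_mul hn hs (f := fun z => χ (x' - z)) (by fun_prop) fun z => hS _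
    have e : P n s (fun w => dd χ w a) x =
        ∫ y, (2 * G n s (x - y) - G n s (x - y + a) - G n s (x - y - a)) * χ y := by
      have e1 : P n s (fun w => dd χ w a) x =
          2 * P n s χ x - P n s χ (x + a) - P n s χ (x - a) := by
        unfold P
        rw [← int3 (iz x) (iz _) (iz _)]
        refine integral_congr_ae (ae_of_all _ fun z => ?_)
        simp only [dd, sub_add_eq_add_sub, sub_right_comm x z a]
        ring
      rw [e1, P_eq, P_eq, P_eq, ← int3 (iG x) (iG _) (iG _)]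
      refine integral_congr_ae (ae_of_all _ fun y => ?_)
      simp only [sub_add_eq_add_sub, sub_right_comm x y a]
      ring
    have h4 : |P n s (fun w => dd χ w a) x| ≤ C2 * I * rho n x := by
      rw [e]
      refine (abs_integral_le_integral_abs).trans ((integral_mono_of_nonneg
        (ae_of_all _ fun z => abs_nonneg _) (iχ.const_mul (C2 * rho n x))
        (ae_of_all _ fun y => ?_)).trans (le_of_eq ?_))
      · simp only
        rw [abs_mul]
        calc _ ≤ C2 * ((1 + ‖y‖) ^ (n + 2) * rho n x) * |χ y| := by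
              gcongr
              exact (h2 s hsT _).trans (mul_le_mul_of_nonneg_left (rho_sub n x y) hC2)
          _ = _ := by ring
      · rw [integral_const_mul]
        ring
    rw [min_eq_right (hT.trans hsT), mul_one]
    calc _ ≤ C3 * rho n x + C2 * I * rho n x := (abs_sub _ _).trans (add_le_add (h3 x) h4)
      _ = (C3 + C2 * I) * rho n x := by ring
      _ ≤ _ := by
        have : 0 ≤ C1 * T := by positivity
        exact mul_le_mul_of_nonneg_right (by linarith) hρ

end Vale.Agent.P120.LiouX
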