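import Vale.Agent.P120.Bas

/-! P120: assembly of the modules. -/

namespace Vale.Agent.P120

open MeasureTheory Metric Filter Module
open scoped Topology ENNReal NNReal

theorem tree_dist {V : Type} [PseudoMetricSpace V] {n : ℕ} {E : Set V} {C θ r₀ : ℝ} {x₀ : V}
    {J : ℕ} {Ω : Finset V} {a par : ℕ → V → V} (T : TreeP n E C θ r₀ x₀ J Ω a par) (h0 : 0 < θ)
    (h1 : θ ≤ 1 / 2) (hr : 0 < r₀) {ω : V} (hω : ω ∈ Ω) {j : ℕ} (hj : j ≤ J) :
    dist (a j ω) x₀ ≤ 2 * r₀ := by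
  have : dist (a j ω) x₀ ≤ 2 * r₀ - 2 * (θ ^ j * r₀) := by
    induction j with
    | zero => simp [T.root ω hω]
    | succ j ih =>
      have h2 := T.near ω hω j hj
      have h3 := dist_triangle (a (j + 1) ω) (a j ω) x₀
      have h4 := ih (Nat.le_of_succ_le hj)
      have h5 : θ ^ (j + 1) * r₀ ≤ θ ^ j * r₀ / 2 := by
        have : 0 < θ ^ j * r₀ := by positivity
        rw [pow_succ]; nlinarith
      linarith
  have h6 : 0 < θ ^ j * r₀ := by positivity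
  linarith

theorem lev_or_le {V : Type} (J : ℕ) (a : ℕ → V → V) (P : ℕ → V → Prop) (M : ℕ) (ω : V) :
    lev J a (fun j z => P j z ∨ J ≤ j + M) ω ≤ lev J a P ω + (M + 1) := by
  classical
  unfold lev
  refine (Finset.card_le_card (t := ((Finset.range (J + 1)).filter fun j => P j (a j ω)) ∪
    Finset.Icc (J - M) J) fun j hj => ?_).trans ((Finset.card_union_le _ _).trans
      (add_le_add le_rfl (by simp; omega)))
  simp only [Finset.mem_filter, Finset.mem_range, Finset.mem_union, Finset.mem_Icc] at hj ⊢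
  rcases hj.2 with h | h
  · exact Or.inl ⟨hj.1, h⟩
  · exact Or.inr (by omega)

theorem half_card {V : Type} (Ω : Finset V) (l : V → ℕ) {c : ℝ}
    (h : ∑ ω ∈ Ω, (l ω : ℝ) ≤ c * Ω.card) :
    (Ω.card : ℝ) ≤ 2 * (Ω.filter fun ω => l ω ≤ ⌈2 * c⌉₊).card := by
  have h1 := Finset.card_filter_add_card_filter_not (s := Ω) fun ω => l ω ≤ ⌈2 * c⌉₊
  have h2 : ((Ω.filter fun ω => ¬ l ω ≤ ⌈2 * c⌉₊).card : ℝ) * (⌈2 * c⌉₊ + 1) ≤ c * Ω.card := by
    refine le_trans ?_ ((Finset.sum_le_sum_of_subset_of_nonneg (Finset.filter_subset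
      (fun ω => ¬ l ω ≤ ⌈2 * c⌉₊) Ω) fun _ _ _ => Nat.cast_nonneg _).trans h)
    rw [← nsmul_eq_mul]
    refine Finset.card_nsmul_le_sum _ _ _ fun ω hω => ?_
    exact_mod_cast Nat.succ_le_of_lt (not_le.1 (Finset.mem_filter.1 hω).2)
  have h3 := Nat.le_ceil (2 * c)
  have h4 : (Ω.card : ℝ) = (Ω.filter fun ω => l ω ≤ ⌈2 * c⌉₊).card +
    (Ω.filter fun ω => ¬ l ω ≤ ⌈2 * c⌉₊).card := by exact_mod_cast h1.symm
  have h5 : (0 : ℝ) ≤ Ω.card := Nat.cast_nonneg _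
  have h6 : (0 : ℝ) ≤ ⌈2 * c⌉₊ := Nat.cast_nonneg _
  by_contra h7
  nlinarith

theorem main_core (hPor : Por_stmt) (hBil : Bil_stmt) (hProp : Prop_stmt) (hCar : Car_stmt)
    (hEx : TreeEx_stmt) (hA : TA_stmt) (hB : TB_stmt) (hC : TC_stmt) (hF : Fin_stmt)
    (V : Type) [NormedAddCommGroup V] [InnerProductSpace ℝ V] [FiniteDimensional ℝ V]
    [MeasurableSpace V] [BorelSpace V] (n : ℕ) (C : ℝ) (hn : 1 ≤ n) (hC1 : 1 ≤ C)
    (hd : n ≤ finrank ℝ V) : ∃ (θ' : ℝ) (M : ℝ≥0), 0 < θ' ∧ ∀ (μ : Measure V) (x₀ : V) (r : ℝ),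
    0 < r → Up n C μ → Low n C r μ → BD n C μ → x₀ ∈ μ.support →
    ∃ g : ball (0 : EuclideanSpace ℝ (Fin n)) r → V,
      LipschitzWith M g ∧ ENNReal.ofReal (θ' * r ^ n) ≤ μ (ball x₀ r ∩ Set.range g) := by
  classical
  set θ : ℝ := 3⁻¹ ^ (n + 5) with hθ
  have h0 : 0 < θ := by positivity
  have h1 : θ ≤ 1 / 100 := by
    refine (pow_le_pow_of_le_one (by norm_num) (by norm_num) (by omega : 5 ≤ n + 5)).trans ?_
    norm_num
  have h2 : θ ≤ 1 / 2 := by linarith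
  obtain ⟨C', hC', hT⟩ := hEx V n C hn hC1 θ h0 h1
  obtain ⟨γ, hγ, hγ1, hTB⟩ := hB V n C' hn hC' θ h0 h1
  obtain ⟨s, c, hs, hs1, hc, hTC⟩ := hC V n C' hn hC' θ γ h0 h1 hγ hγ1
  have hε : 0 < γ * θ / 100 := by positivity
  obtain ⟨δ₁, A₁, η₁, hδ₁, hA₁, hη₁, hb⟩ := hBil V n C hn hC1 _ hε
  obtain ⟨δ₀, hδ₀, hp⟩ := hProp V n C hn hC1 θ h0 le_rfl
  have hδ : 0 < min δ₀ δ₁ := lt_min hδ₀ hδ₁
  obtain ⟨A₂, η₂, hA₂, hη₂, hp⟩ := hp _ hδ (min_le_left _ _)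
  obtain ⟨M, A₃, η₃, hA₃, hη₃, hq⟩ := hPor V n C hn hC1 hd θ _ h0 (by linarith) hδ
  set A := A₁ + A₂ + A₃ + 1 with hAd
  set η := min η₁ (min η₂ η₃) with hη
  have hη0 : 0 < η := lt_min hη₁ (lt_min hη₂ hη₃)
  obtain ⟨C₁, hcar⟩ := hCar V n C hn hC1 θ A η h0 h2 (by linarith) hη0
  obtain ⟨C₃, hTA⟩ := hA V n C' hn hC' θ C₁ M h0 h1
  obtain ⟨M', hM'⟩ := exists_pow_lt_of_lt_one hε (by linarith : θ < 1)
  obtain ⟨C₄, hTB⟩ := hTB _ hε le_rfl (C₃ + (M' + 1))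
  obtain ⟨θ', Mg, hθ', hfin⟩ := hF V n C hn hC1 (1 / (2 * C')) (c * s ^ ⌈2 * C₄⌉₊)⁻¹
    (by positivity)
  have hA4 : 4 ≤ A := by linarith
  refine ⟨θ' * A⁻¹ ^ n, Mg, by positivity, fun μ x₀ r hr hu hl hbd hx => ?_⟩
  set r₀ := r / A with hr₀
  have hr0 : 0 < r₀ := by positivity
  have hAr : A * r₀ = r := by rw [hr₀]; field_simp
  have hl0 : Low n C r₀ μ := hl.mono (by nlinarith)
  rw [show θ' * A⁻¹ ^ n * r ^ n = θ' * r₀ ^ n by rw [hr₀, div_eq_mul_inv, mul_pow]; ring]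
  refine hfin μ x₀ r₀ r hr0 (by nlinarith) hu hl0 fun t ht => ?_
  obtain ⟨J, hJ⟩ := exists_pow_lt_of_lt_one (div_pos ht hr0) (by linarith : θ < 1)
  obtain ⟨Ω, a, par, T⟩ := hT μ x₀ r₀ hr0 hu hl0 hx J
  have hs0 : ∀ j, 0 < θ ^ j * r₀ := fun j => by positivity
  have hlow : ∀ A' j, 0 ≤ A' → A' ≤ A → Low n C (A' * (θ ^ j * r₀)) μ := fun A' j h3 h4 =>
    hl.mono (hAr ▸ mul_le_mul h4 (mul_le_of_le_one_left hr0.le (pow_le_one₀ h0.le (by linarith)))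
      (hs0 j).le (by linarith))
  set Gd : ℕ → V → Prop := fun j z => Good n μ z (θ ^ j * r₀) A η with hGd
  set Fl : ℕ → V → Prop := fun j z => Exc n μ z (θ ^ j * r₀) (min δ₀ δ₁) with hFl
  have c3 := hTA _ r₀ x₀ J Ω a par hr0 T Gd Fl (fun F hF => by
    refine hcar μ x₀ r₀ hr0 hu hbd F (fun q hq => ⟨?_, (hF q hq).2.2⟩) fun q hq q' hq' e ne => ?_
    · obtain ⟨h3, ⟨ω, hω, h4⟩, -⟩ := hF q hq
      exact h4 ▸ tree_dist T h0 h2 hr0 hω h3
    · obtain ⟨h3, ⟨ω, hω, h4⟩, -⟩ := hF q hq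
      obtain ⟨-, ⟨ω', hω', h5⟩, -⟩ := hF q' hq'
      rw [← e] at h5
      rw [← h4, ← h5]
      exact T.sep ω hω ω' hω' _ h3 fun h6 => ne (Prod.ext e (h4 ▸ h5 ▸ h6)))
    (fun ω hω j hj hg hf => by
      have := hp μ _ _ (hs0 j) hu (hlow A₂ j (by linarith) (by linarith)) hbd
        (T.mem ω hω j hj.le) (hg.mono (hs0 j) (by linarith)
          ((min_le_right _ _).trans (min_le_left _ _))) hf _ (T.near ω hω j hj).le
      simpa only [hFl, pow_succ', mul_assoc] using this)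
    (fun ω hω j hj hg => by
      obtain ⟨i, h3, h4, x, hx, h5, h6⟩ := hq μ _ _ (hs0 j) hu
        (hlow A₃ j (by linarith) (by linarith)) (T.mem ω hω j (by omega))
        (hg.mono (hs0 j) (by linarith) ((min_le_right _ _).trans (min_le_right _ _)))
      obtain ⟨ω', hω', h7⟩ := T.cov ω hω j (j + i) (by omega) (by omega) x hx
        (by linarith [hs0 j])
      have e : θ ^ (j + i) * r₀ = θ ^ i * (θ ^ j * r₀) := by ring
      have h8 : θ ^ i * (θ ^ j * r₀) ≤ 1 / 100 * (θ ^ j * r₀) :=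
        mul_le_mul_of_nonneg_right ((pow_le_of_le_one h0.le (by linarith) (by omega)).trans h1)
          (hs0 j).le
      refine ⟨i, h3, h4, ω', hω', T.inner ω hω ω' hω' j (j + i) (by omega) (by omega) ?_, ?_⟩
      · linarith [dist_triangle_left (a (j + i) ω') (a j ω) x, hs0 j]
      · simp only [hFl, e]
        exact h6 _ (by rw [dist_comm, ← e]; exact h7.le))
  set W : ℕ → V → Prop := fun j z => ¬ (Gd j z ∧ Fl j z) ∨ J ≤ j + M' with hW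
  have hD : ∀ j z, ∃ D, z ∈ μ.support → ¬ W j z → BF n μ.support z (θ ^ j * r₀) (γ * θ / 100) D := by
    intro j z
    by_cases h3 : z ∈ μ.support ∧ ¬ W j z
    · have h4 := not_not.1 (not_or.1 h3.2).1
      obtain ⟨D, hD⟩ := hb μ z _ (hs0 j) hu (hlow A₁ j (by linarith) (by linarith)) h3.1
        (h4.1.mono (hs0 j) (by linarith) (min_le_left _ _))
        (h4.2.mono (hs0 j) hδ.le (min_le_right _ _))
      exact ⟨D, fun _ _ => hD⟩
    · exact ⟨⊥, fun h4 h5 => absurd ⟨h4, h5⟩ h3⟩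
  choose D hD using hD
  have c4 := hTB _ r₀ x₀ J Ω a par hr0 T W D (fun ω hω j hj h3 => by
    have h4 : j + M' < J := not_le.1 (not_or.1 h3).2
    refine ⟨by omega, ?_, hD _ _ (T.mem ω hω j hj) h3⟩
    calc θ ^ J ≤ θ ^ (M' + j) := pow_le_pow_of_le_one h0.le (by linarith) (by omega)
      _ ≤ _ := by rw [pow_add]; exact mul_le_mul_of_nonneg_right hM'.le (by positivity)) (by
    rw [add_mul]
    refine le_trans ?_ (add_le_add c3 le_rfl)
    rw [cnt, cnt, mul_comm, ← nsmul_eq_mul, ← Finset.sum_const, ← Finset.sum_add_distrib]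
    exact Finset.sum_le_sum fun ω _ => by exact_mod_cast lev_or_le J a _ M' ω)
  obtain ⟨f, hf, hf'⟩ := hTC _ hε le_rfl _ r₀ x₀ J Ω a par hr0 T W D fun ω hω j hj h3 =>
    ⟨by have := not_le.1 (not_or.1 h3).2; omega, hD _ _ (T.mem ω hω j hj) h3⟩
  refine ⟨Ω.filter fun ω => lev J a (IsTop par W D γ) ω ≤ ⌈2 * C₄⌉₊, θ ^ J * r₀, f, hs0 J,
    ((lt_div_iff₀ hr0).1 hJ).le, fun ω hω => ?_, fun ω hω ω' hω' ne => ?_,
    fun ω hω ω' hω' => ?_, ?_⟩
  · have h3 := (Finset.mem_filter.1 hω).1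
    refine ⟨T.leaf ω h3 ▸ T.mem ω h3 J le_rfl, ?_, hf ω h3⟩
    exact T.leaf ω h3 ▸ tree_dist T h0 h2 hr0 h3 le_rfl
  · have h3 := (Finset.mem_filter.1 hω).1
    have h4 := (Finset.mem_filter.1 hω').1
    have := T.sep ω h3 ω' h4 J le_rfl
    rw [T.leaf ω h3, T.leaf ω' h4] at this
    exact this ne
  · obtain ⟨h3, h4⟩ := Finset.mem_filter.1 hω
    rw [inv_mul_eq_div, le_div_iff₀ (by positivity), mul_comm]
    refine le_trans ?_ (hf' ω h3 ω' (Finset.mem_filter.1 hω').1)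
    gcongr ?_ * _
    exact mul_le_mul_of_nonneg_left (pow_le_pow_of_le_one hs.le hs1 h4) hc.le
  · have h3 := half_card Ω _ c4
    obtain ⟨ω, hω⟩ := T.ne
    have h4 := T.mass_lo ω hω 0 (Nat.zero_le _)
    have h5 : ((Ω.filter fun ω' => a 0 ω' = a 0 ω).card : ℝ) ≤ Ω.card := by
      exact_mod_cast Finset.card_filter_le _ _
    rw [pow_zero, one_pow] at h4
    rw [mul_pow, ← mul_assoc]
    gcongr
    rw [div_le_iff₀ (by positivity)]
    refine h4.trans ?_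
    calc _ ≤ C' * ((2 * (Ω.filter fun ω =>
          lev J a (IsTop par W D γ) ω ≤ ⌈2 * C₄⌉₊).card) * (θ ^ J) ^ n) := by
          gcongr; exact le_trans (by convert h5) h3
      _ = _ := by ring

theorem main_pf (hPor : Por_stmt) (hBil : Bil_stmt) (hProp : Prop_stmt) (hCar : Car_stmt)
    (hEx : TreeEx_stmt) (hA : TA_stmt) (hB : TB_stmt) (hC : TC_stmt) (hF : Fin_stmt)
    (hP : Pre_stmt) (n d : ℕ) (hn : 1 ≤ n) (hd : n ≤ d) (μ : Measure (EuclideanSpace ℝ (Fin d)))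
    (C : ℝ) (hAD : IsADRegular n μ C) (hR : RieszBounded n μ) : IsUniformlyRectifiable n μ := by
  refine ⟨⟨C, hAD⟩, ?_⟩
  rcases eq_zero_or_pos (ediam μ.support) with h | h
  · refine ⟨1, 1, one_pos, fun x _ r hr h' => ?_⟩
    rw [h, nonpos_iff_eq_zero, ENNReal.ofReal_eq_zero] at h'
    linarith
  obtain ⟨C', h1, h2, h3, h4⟩ := hP d n μ C hn hAD hR h
  obtain ⟨θ, M, hθ, h5⟩ := main_core hPor hBil hProp hCar hEx hA hB hC hF
    (EuclideanSpace ℝ (Fin d)) n C' hn h1 (by simpa using hd)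
  exact ⟨θ, M, hθ, fun x hx r hr h' => h5 μ x r hr h2 (h4 r h') h3 hx⟩

end Vale.Agent.P120
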