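import Vale.Agent.P120.Core

/-! P120: module statements. -/

namespace Vale.Agent.P120

open MeasureTheory Metric Filter Module
open scoped Topology ENNReal NNReal RealInnerProductSpace

/-- Locally uniform convergence along `U`. -/
def LU {V : Type} [NormedAddCommGroup V] (U : Ultrafilter ℕ) (g : ℕ → V → ℝ) (g₀ : V → ℝ) :
    Prop :=
  ∀ R ε : ℝ, 0 < ε → ∀ᶠ k in U, ∀ x, ‖x‖ ≤ R → |g k x - g₀ x| ≤ ε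

/-- The half Laplacian. -/
noncomputable def L0 {W : Type} [NormedAddCommGroup W] [MeasureSpace W] (n : ℕ) (ψ : W → ℝ)
    (w : W) : ℝ :=
  ∫ z, ‖z‖⁻¹ ^ (n + 1) * (2 * ψ w - ψ (w + z) - ψ (w - z))

/-- Liouville theorem for the half Laplacian. -/
def Liou_stmt : Prop :=
  ∀ (W : Type) [NormedAddCommGroup W] [InnerProductSpace ℝ W] [FiniteDimensional ℝ W]
    [MeasurableSpace W] [BorelSpace W] (n : ℕ), finrank ℝ W = n → 1 ≤ n → ∀ v : W → ℝ,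
    Integrable (fun w => v w ^ 2 * (1 + ‖w‖)⁻¹ ^ (n + 3)) → AEStronglyMeasurable v volume →
    (∀ ψ : W → ℝ, ContDiff ℝ (⊤ : ℕ∞) ψ → HasCompactSupport ψ → ∫ w, ψ w = 0 →
      ∫ w, v w * L0 n ψ w = 0) →
    ∃ (b : ℝ) (B : W →L[ℝ] ℝ), v =ᵐ[volume] fun w => b + B w

/-- Existence of vague limits. -/
def Lim_stmt : Prop :=
  ∀ (V : Type) [NormedAddCommGroup V] [InnerProductSpace ℝ V] [FiniteDimensional ℝ V]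
    [MeasurableSpace V] [BorelSpace V] (n : ℕ) (C : ℝ), 1 ≤ n → 1 ≤ C →
  ∀ (U : Ultrafilter ℕ) (ν : ℕ → Measure V), (∀ k, Up n C (ν k)) → ∃ σ, Up n C σ ∧ Lim U ν σ

/-- Properties of vague limits, first part. -/
def LimP_stmt : Prop :=
  ∀ (V : Type) [NormedAddCommGroup V] [InnerProductSpace ℝ V] [FiniteDimensional ℝ V]
    [MeasurableSpace V] [BorelSpace V] (n : ℕ) (C : ℝ), 1 ≤ n → 1 ≤ C →
  ∀ (U : Ultrafilter ℕ) (ν : ℕ → Measure V) (σ : Measure V), (∀ k, Up n C (ν k)) → Up n C σ →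
    Lim U ν σ →
    (∀ (g : ℕ → V → ℝ) (g₀ : V → ℝ) (N : ℝ),
      (∀ᶠ k in U, Continuous (g k) ∧ ∀ x, |g k x| ≤ N * (1 + ‖x‖)⁻¹ ^ (n + 1)) →
      Continuous g₀ → LU U g g₀ → Tendsto (fun k => ∫ x, g k x ∂ν k) U (𝓝 (∫ x, g₀ x ∂σ))) ∧
    (∀ x ∈ σ.support, ∀ ε : ℝ, 0 < ε → ∀ᶠ k in U, ∃ x' ∈ (ν k).support, dist x' x < ε) ∧
    (∀ (R : ℕ → ℝ) (R₀ : ℝ), 0 < R₀ → (∀ᶠ k in U, R₀ ≤ R k) → (∀ k, Low n C (R k) (ν k)) →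
      Low n C R₀ σ ∧ ∀ (x : ℕ → V) (x₀ : V), (∀ᶠ k in U, x k ∈ (ν k).support) →
        Tendsto x U (𝓝 x₀) → x₀ ∈ σ.support)

/-- Properties of vague limits, second part. -/
def LimQ_stmt : Prop :=
  ∀ (V : Type) [NormedAddCommGroup V] [InnerProductSpace ℝ V] [FiniteDimensional ℝ V]
    [MeasurableSpace V] [BorelSpace V] (n : ℕ) (C : ℝ), 1 ≤ n → 1 ≤ C →
  ∀ (U : Ultrafilter ℕ) (ν : ℕ → Measure V) (σ : Measure V), (∀ k, Up n C (ν k)) → Up n C σ →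
    Lim U ν σ → ((∀ k, BD n C (ν k)) → BD n C σ) ∧
    (σ ≠ 0 → ∀ A η : ℕ → ℝ, Tendsto A U atTop → Tendsto η U (𝓝 0) →
      (∀ k, Good n (ν k) 0 1 (A k) (η k)) → RF n σ)

/-- Invariance under similarities. -/
def Resc_stmt : Prop :=
  ∀ (V : Type) [NormedAddCommGroup V] [InnerProductSpace ℝ V] [FiniteDimensional ℝ V]
    [MeasurableSpace V] [BorelSpace V] (n : ℕ) (C : ℝ), 1 ≤ n → 1 ≤ C →
  (∀ (O : V ≃ₗᵢ[ℝ] V) (y : V) (s : ℝ) (ν : Measure V), 0 < s →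
    (Up n C ν → Up n C (resc n O y s ν)) ∧
    (∀ R, Low n C R ν → Low n C (R / s) (resc n O y s ν)) ∧
    (BD n C ν → BD n C (resc n O y s ν)) ∧
    (∀ x, sim O y s x ∈ (resc n O y s ν).support ↔ x ∈ ν.support) ∧
    (∀ y' t A η, Good n ν y' t A η → Good n (resc n O y s ν) (sim O y s y') (t / s) A η) ∧
    (∀ y' t δ D p, 0 < t → (ExcD n ν y' t δ D p ↔ ExcD n (resc n O y s ν) (sim O y s y') (t / s) δ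
      (D.map (O.toLinearEquiv : V →ₗ[ℝ] V)) (sim O y s p))) ∧
    (∀ y' t δ, 0 < t → (Exc n ν y' t δ ↔ Exc n (resc n O y s ν) (sim O y s y') (t / s) δ)) ∧
    (∀ f : V → ℝ, ∫ x, f x ∂resc n O y s ν = s⁻¹ ^ n * ∫ x, f (sim O y s x) ∂ν)) ∧
  ∀ D D₀ : Submodule ℝ V, finrank ℝ D = finrank ℝ D₀ →
    ∃ O : V ≃ₗᵢ[ℝ] V, D.map (O.toLinearEquiv : V →ₗ[ℝ] V) = D₀

/-- Dimension comparison. -/
def Dim_stmt : Prop :=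
  ∀ (V : Type) [NormedAddCommGroup V] [InnerProductSpace ℝ V] [FiniteDimensional ℝ V]
    [MeasurableSpace V] [BorelSpace V] (n : ℕ) (C : ℝ), 1 ≤ n → 1 ≤ C →
  ∀ (ν : Measure V) (R : ℝ) (p : V) (D : Submodule ℝ V), 0 < R → Up n C ν → Low n C R ν →
    (ν.support.Nonempty → (∀ x ∈ ν.support, x - p ∈ D) → n ≤ finrank ℝ D) ∧
    (∀ r : ℝ, 0 < r → (∀ w ∈ D, ‖w‖ < r → p + w ∈ ν.support) → finrank ℝ D ≤ n)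

/-- Blow-up at a point touched by a ball in the complement. -/
def Red_stmt : Prop :=
  ∀ (V : Type) [NormedAddCommGroup V] [InnerProductSpace ℝ V] [FiniteDimensional ℝ V]
    [MeasurableSpace V] [BorelSpace V] (n : ℕ) (C : ℝ), 1 ≤ n → 1 ≤ C →
  ∀ (ν : Measure V), Cl n C ν → ∀ q ∈ ν.support, ∀ (e : V) (R : ℝ), ‖e‖ = 1 → 0 < R →
    (∀ y ∈ ν.support, 0 ≤ ‖y - q‖ ^ 2 + 2 * R * ⟪y - q, e⟫) →
    ∀ (U : Ultrafilter ℕ) (s : ℕ → ℝ), (∀ k, 0 < s k) → Tendsto s U (𝓝 0) →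
    ∀ σ : Measure V, Up n C σ →
    Lim U (fun k => resc n (LinearIsometryEquiv.refl ℝ V) q (s k) ν) σ →
    ∀ y ∈ σ.support, ⟪y, e⟫ = 0

/-- A limit carried by an `n`-plane fills the plane. -/
def Full_stmt : Prop :=
  ∀ (V : Type) [NormedAddCommGroup V] [InnerProductSpace ℝ V] [FiniteDimensional ℝ V]
    [MeasurableSpace V] [BorelSpace V] (n : ℕ) (C : ℝ), 1 ≤ n → 1 ≤ C →
  ∀ (σ : Measure V) (D : Submodule ℝ V), Cl n C σ → 0 ∈ σ.support → finrank ℝ D = n →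
    (∀ x ∈ σ.support, x ∈ D) → ∀ x ∈ D, x ∈ σ.support

/-- The flattening lemma. -/
def Por_stmt : Prop :=
  ∀ (V : Type) [NormedAddCommGroup V] [InnerProductSpace ℝ V] [FiniteDimensional ℝ V]
    [MeasurableSpace V] [BorelSpace V] (n : ℕ) (C : ℝ), 1 ≤ n → 1 ≤ C →
  n ≤ finrank ℝ V → ∀ θ δ : ℝ, 0 < θ → θ < 1 → 0 < δ → ∃ (M : ℕ) (A η : ℝ), 1 ≤ A ∧ 0 < η ∧
    ∀ (ν : Measure V) (y : V) (s : ℝ), 0 < s → Up n C ν → Low n C (A * s) ν → y ∈ ν.support →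
    Good n ν y s A η → ∃ i, 1 ≤ i ∧ i ≤ M ∧ ∃ x ∈ ν.support, dist x y < s / 10 ∧
      ∀ y', dist y' x ≤ θ ^ i * s → Exc n ν y' (θ ^ i * s) δ

/-- Limits of measures with vanishing excess are carried by the plane. -/
def FlatLim_stmt : Prop :=
  ∀ (V : Type) [NormedAddCommGroup V] [InnerProductSpace ℝ V] [FiniteDimensional ℝ V]
    [MeasurableSpace V] [BorelSpace V] (n : ℕ) (C : ℝ), 1 ≤ n → 1 ≤ C →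
  ∀ (U : Ultrafilter ℕ) (ν : ℕ → Measure V) (σ : Measure V) (D : Submodule ℝ V) (p : ℕ → V)
    (δ : ℕ → ℝ), (∀ k, Up n C (ν k) ∧ Low n C 1 (ν k) ∧ 0 ∈ (ν k).support ∧
      ExcD n (ν k) 0 1 (δ k) D (p k)) → Up n C σ → Lim U ν σ → Tendsto δ U (𝓝 0) →
    ∀ x ∈ σ.support, x ∈ D

/-- Flat and good implies bilaterally flat. -/
def Bil_stmt : Prop :=
  ∀ (V : Type) [NormedAddCommGroup V] [InnerProductSpace ℝ V] [FiniteDimensional ℝ V]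
    [MeasurableSpace V] [BorelSpace V] (n : ℕ) (C : ℝ), 1 ≤ n → 1 ≤ C →
  ∀ ε : ℝ, 0 < ε → ∃ δ A η : ℝ, 0 < δ ∧ 1 ≤ A ∧ 0 < η ∧
    ∀ (ν : Measure V) (y : V) (s : ℝ), 0 < s → Up n C ν → Low n C (A * s) ν → y ∈ ν.support →
    Good n ν y s A η → Exc n ν y s δ → ∃ D, BF n ν.support y s ε D

/-- Classification in full dimension. -/
def Cls0_stmt : Prop :=
  ∀ (V : Type) [NormedAddCommGroup V] [InnerProductSpace ℝ V] [FiniteDimensional ℝ V]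
    [MeasurableSpace V] [BorelSpace V] (n : ℕ) (C : ℝ), 1 ≤ n → 1 ≤ C →
  finrank ℝ V = n → ∀ σ : Measure V, Cl n C σ → BD n C σ → (∀ x, x ∈ σ.support) →
    ∃ c : ℝ, 0 < c ∧ σ = ENNReal.ofReal c • volume

/-- Classification of limits carried by an `n`-plane. -/
def Cls_stmt : Prop :=
  ∀ (V : Type) [NormedAddCommGroup V] [InnerProductSpace ℝ V] [FiniteDimensional ℝ V]
    [MeasurableSpace V] [BorelSpace V] (n : ℕ) (C : ℝ), 1 ≤ n → 1 ≤ C →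
  ∀ (σ : Measure V) (D : Submodule ℝ V), Cl n C σ → BD n C σ → 0 ∈ σ.support →
    finrank ℝ D = n → (∀ x ∈ σ.support, x ∈ D) → ∃ c : ℝ, 0 < c ∧ σ = flat D c

/-- The Caccioppoli inequality. -/
def Cacc_stmt : Prop :=
  ∀ (V : Type) [NormedAddCommGroup V] [InnerProductSpace ℝ V] [FiniteDimensional ℝ V]
    [MeasurableSpace V] [BorelSpace V] (n : ℕ) (C : ℝ), 1 ≤ n → 1 ≤ C →
  ∀ ρ : ℝ, 0 < ρ → ∃ K : ℝ, ∀ (ν : Measure V) (e : V) (p δ η A : ℝ), Up n C ν → Low n C 1 ν →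
    0 ∈ ν.support → ‖e‖ ≤ 1 → 0 < δ → δ ≤ 1 → 0 ≤ η → 2 * ρ + 2 ≤ A → Good n ν 0 1 A η →
    ∫ x, (⟪x, e⟫ - p) ^ 2 * wt n 0 1 x ∂ν ≤ δ ^ 2 →
    ∀ᶠ ε in 𝓝[>] (0 : ℝ), ∫ x in ball 0 ρ, (∫ y in ball 0 ρ,
      kr n ε (x - y) * ⟪x - y, e⟫ ^ 2 ∂ν) ∂ν ≤ K * (δ ^ 2 + η)

section
variable {V : Type} [NormedAddCommGroup V] [InnerProductSpace ℝ V] [FiniteDimensional ℝ V]
  [MeasurableSpace V] [BorelSpace V] (n : ℕ) (C : ℝ)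

/-- `v₀` represents the limit of the functions `v k`. -/
def Rep (U : Ultrafilter ℕ) (ν : ℕ → Measure V) (v : ℕ → V → ℝ) (D : Submodule ℝ V) (c : ℝ)
    (v₀ : D → ℝ) : Prop :=
  AEStronglyMeasurable v₀ volume ∧ Integrable (fun w => v₀ w ^ 2 * (1 + ‖w‖)⁻¹ ^ (n + 3)) ∧
    ∀ (g : ℕ → V → ℝ) (g₀ : V → ℝ) (N : ℝ),
      (∀ᶠ k in U, Continuous (g k) ∧ ∀ x, |g k x| ≤ N * (1 + ‖x‖)⁻¹ ^ (n + 2)) →
      Continuous g₀ → LU U g g₀ →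
      Tendsto (fun k => ∫ x, g k x * v k x ∂ν k) U (𝓝 (c * ∫ w : D, g₀ w * v₀ w))

/-- The blow-up setting for the height in the direction `e`. -/
structure Set1 (U : Ultrafilter ℕ) (ν : ℕ → Measure V) (D : Submodule ℝ V) (c : ℝ) (e : V)
    (p δ A η : ℕ → ℝ) : Prop where
  up : ∀ k, Up n C (ν k)
  low : ∀ k, Low n C 1 (ν k)
  zero : ∀ k, 0 ∈ (ν k).support
  rank : finrank ℝ D = n
  pos : 0 < c
  upl : Up n C (flat D c)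
  lim : Lim U ν (flat D c)
  norm_le : ‖e‖ ≤ 1
  δ_pos : ∀ k, 0 < δ k
  δ_le : ∀ k, δ k ≤ 1
  η_pos : ∀ k, 0 ≤ η k
  η_le : ∀ k, η k ≤ δ k ^ 2
  δ_lim : Tendsto δ U (𝓝 0)
  A_lim : Tendsto A U atTop
  good : ∀ k, Good n (ν k) 0 1 (A k) (η k)
  exc : ∀ k, ∫ x, (⟪x, e⟫ - p k) ^ 2 * wt n 0 1 x ∂ν k ≤ δ k ^ 2

end

/-- Existence of the limit function. -/
def LinA_stmt : Prop :=
  ∀ (V : Type) [NormedAddCommGroup V] [InnerProductSpace ℝ V] [FiniteDimensional ℝ V]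
    [MeasurableSpace V] [BorelSpace V] (n : ℕ) (C : ℝ), 1 ≤ n → 1 ≤ C →
  ∀ (U : Ultrafilter ℕ) (ν : ℕ → Measure V) (v : ℕ → V → ℝ) (D : Submodule ℝ V) (c : ℝ),
    (∀ k, Up n C (ν k)) → finrank ℝ D = n → 0 < c → Up n C (flat D c) → Lim U ν (flat D c) →
    (∀ k, Continuous (v k) ∧ Integrable (fun x => v k x ^ 2 * wt n 0 1 x) (ν k) ∧
      ∫ x, v k x ^ 2 * wt n 0 1 x ∂ν k ≤ 1) → ∃ v₀, Rep n U ν v D c v₀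

/-- The limit equation. -/
def LinB_stmt : Prop :=
  ∀ (V : Type) [NormedAddCommGroup V] [InnerProductSpace ℝ V] [FiniteDimensional ℝ V]
    [MeasurableSpace V] [BorelSpace V] (n : ℕ) (C : ℝ), 1 ≤ n → 1 ≤ C →
  ∀ (U : Ultrafilter ℕ) (ν : ℕ → Measure V) (D : Submodule ℝ V) (c : ℝ) (e : V)
    (p δ A η : ℕ → ℝ), Set1 n C U ν D c e p δ A η →
    ∀ v₀, Rep n U ν (fun k x => (⟪x, e⟫ - p k) / δ k) D c v₀ →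
    ∀ ψ : D → ℝ, ContDiff ℝ (⊤ : ℕ∞) ψ → HasCompactSupport ψ → ∫ w, ψ w = 0 →
      ∫ w, v₀ w * L0 n ψ w = 0

/-- Strong convergence from the energy bound. -/
def LinC_stmt : Prop :=
  ∀ (V : Type) [NormedAddCommGroup V] [InnerProductSpace ℝ V] [FiniteDimensional ℝ V]
    [MeasurableSpace V] [BorelSpace V] (n : ℕ) (C : ℝ), 1 ≤ n → 1 ≤ C →
  ∀ (U : Ultrafilter ℕ) (ν : ℕ → Measure V) (f : ℕ → V → ℝ),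
    (∀ k, Up n C (ν k) ∧ Low n C 1 (ν k) ∧ Continuous (f k)) →
    (∀ g : V → ℝ, Continuous g → HasCompactSupport g →
      Tendsto (fun k => ∫ x, g x * f k x ∂ν k) U (𝓝 0)) →
    (∀ ρ : ℝ, ∃ N : ℝ, ∀ k, ∫ x in ball 0 ρ, f k x ^ 2 ∂ν k ≤ N) →
    (∀ ρ : ℝ, ∃ N : ℝ, ∀ s : ℝ, 0 < s → s ≤ 1 → ∀ᶠ k in U,
      ∫ x in ball 0 ρ, (∫ y in ball x s, (f k x - f k y) ^ 2 ∂ν k) ∂ν k ≤ N * s ^ (n + 1)) →
    ∀ ρ : ℝ, Tendsto (fun k => ∫ x in ball 0 ρ, f k x ^ 2 ∂ν k) U (𝓝 0)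

/-- The normalised heights converge strongly to an affine function. -/
def Lin_stmt : Prop :=
  ∀ (V : Type) [NormedAddCommGroup V] [InnerProductSpace ℝ V] [FiniteDimensional ℝ V]
    [MeasurableSpace V] [BorelSpace V] (n : ℕ) (C : ℝ), 1 ≤ n → 1 ≤ C →
  ∀ (U : Ultrafilter ℕ) (ν : ℕ → Measure V) (D : Submodule ℝ V) (c : ℝ) (e : V)
    (p δ A η : ℕ → ℝ), Set1 n C U ν D c e p δ A η → ∃ (b : ℝ) (B : D →L[ℝ] ℝ), ∀ ρ : ℝ,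
    Tendsto (fun k => ∫ x in ball 0 ρ,
      ((⟪x, e⟫ - p k) / δ k - (b + B (D.orthogonalProjectionOnto x))) ^ 2 ∂ν k) U (𝓝 0)

/-- Propagation of flatness. -/
def Prop_stmt : Prop :=
  ∀ (V : Type) [NormedAddCommGroup V] [InnerProductSpace ℝ V] [FiniteDimensional ℝ V]
    [MeasurableSpace V] [BorelSpace V] (n : ℕ) (C : ℝ), 1 ≤ n → 1 ≤ C →
  ∀ θ : ℝ, 0 < θ → θ ≤ 3⁻¹ ^ (n + 5) → ∃ δ₀ : ℝ, 0 < δ₀ ∧ ∀ δ : ℝ, 0 < δ → δ ≤ δ₀ →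
    ∃ A η : ℝ, 1 ≤ A ∧ 0 < η ∧ ∀ (ν : Measure V) (y : V) (s : ℝ), 0 < s → Up n C ν →
    Low n C (A * s) ν → BD n C ν → y ∈ ν.support → Good n ν y s A η → Exc n ν y s δ →
    ∀ y', dist y' y ≤ s → Exc n ν y' (θ * s) δ

/-- The Carleson bound for bad nodes. -/
def Car_stmt : Prop :=
  ∀ (V : Type) [NormedAddCommGroup V] [InnerProductSpace ℝ V] [FiniteDimensional ℝ V]
    [MeasurableSpace V] [BorelSpace V] (n : ℕ) (C : ℝ), 1 ≤ n → 1 ≤ C →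
  ∀ θ A η : ℝ, 0 < θ → θ ≤ 1 / 2 → 1 ≤ A → 0 < η → ∃ C₁ : ℝ,
    ∀ (ν : Measure V) (x₀ : V) (r₀ : ℝ), 0 < r₀ → Up n C ν → BD n C ν → ∀ F : Finset (ℕ × V),
    (∀ q ∈ F, dist q.2 x₀ ≤ 2 * r₀ ∧ ¬ Good n ν q.2 (θ ^ q.1 * r₀) A η) →
    (∀ q ∈ F, ∀ q' ∈ F, q.1 = q'.1 → q ≠ q' → θ ^ q.1 * r₀ ≤ dist q.2 q'.2) →
    ∑ q ∈ F, (θ ^ q.1) ^ n ≤ C₁

/-- Existence of the trees. -/
def TreeEx_stmt : Prop :=
  ∀ (V : Type) [NormedAddCommGroup V] [InnerProductSpace ℝ V] [FiniteDimensional ℝ V]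
    [MeasurableSpace V] [BorelSpace V] (n : ℕ) (C : ℝ), 1 ≤ n → 1 ≤ C →
  ∀ θ : ℝ, 0 < θ → θ ≤ 1 / 100 → ∃ C' : ℝ, 1 ≤ C' ∧ ∀ (ν : Measure V) (x₀ : V) (r₀ : ℝ),
    0 < r₀ → Up n C ν → Low n C r₀ ν → x₀ ∈ ν.support → ∀ J : ℕ,
    ∃ (Ω : Finset V) (a par : ℕ → V → V), TreeP n ν.support C' θ r₀ x₀ J Ω a par

/-- Packing of the nodes that are not both good and flat. -/
def TA_stmt : Prop :=
  ∀ (V : Type) [NormedAddCommGroup V] [InnerProductSpace ℝ V] [FiniteDimensional ℝ V]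
    [MeasurableSpace V] [BorelSpace V] (n : ℕ) (C : ℝ), 1 ≤ n → 1 ≤ C →
  ∀ (θ C₁ : ℝ) (M : ℕ), 0 < θ → θ ≤ 1 / 100 → ∃ C₃ : ℝ, ∀ (E : Set V) (r₀ : ℝ) (x₀ : V) (J : ℕ)
    (Ω : Finset V) (a par : ℕ → V → V), 0 < r₀ → TreeP n E C θ r₀ x₀ J Ω a par →
    ∀ Gd Fl : ℕ → V → Prop,
    (∀ F : Finset (ℕ × V), (∀ q ∈ F, q.1 ≤ J ∧ (∃ ω ∈ Ω, a q.1 ω = q.2) ∧ ¬ Gd q.1 q.2) →
      ∑ q ∈ F, (θ ^ q.1) ^ n ≤ C₁) →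
    (∀ ω ∈ Ω, ∀ j < J, Gd j (a j ω) → Fl j (a j ω) → Fl (j + 1) (a (j + 1) ω)) →
    (∀ ω ∈ Ω, ∀ j, j + M ≤ J → Gd j (a j ω) → ∃ i, 1 ≤ i ∧ i ≤ M ∧ ∃ ω' ∈ Ω,
      a j ω' = a j ω ∧ Fl (j + i) (a (j + i) ω')) →
    cnt J Ω a (fun j z => ¬ (Gd j z ∧ Fl j z)) ≤ C₃ * Ω.card

/-- Packing of the tops. -/
def TB_stmt : Prop :=
  ∀ (V : Type) [NormedAddCommGroup V] [InnerProductSpace ℝ V] [FiniteDimensional ℝ V]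
    [MeasurableSpace V] [BorelSpace V] (n : ℕ) (C : ℝ), 1 ≤ n → 1 ≤ C →
  ∀ θ : ℝ, 0 < θ → θ ≤ 1 / 100 → ∃ γ : ℝ, 0 < γ ∧ γ ≤ 1 ∧ ∀ ε : ℝ, 0 < ε → ε ≤ γ * θ / 100 →
    ∀ C₃ : ℝ, ∃ C₄ : ℝ, ∀ (E : Set V) (r₀ : ℝ) (x₀ : V) (J : ℕ) (Ω : Finset V)
    (a par : ℕ → V → V), 0 < r₀ → TreeP n E C θ r₀ x₀ J Ω a par →
    ∀ (W : ℕ → V → Prop) (D : ℕ → V → Submodule ℝ V),
    (∀ ω ∈ Ω, ∀ j ≤ J, ¬ W j (a j ω) → j < J ∧ θ ^ J ≤ ε * θ ^ j ∧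
      BF n E (a j ω) (θ ^ j * r₀) ε (D j (a j ω))) →
    cnt J Ω a W ≤ C₃ * Ω.card → cnt J Ω a (IsTop par W D γ) ≤ C₄ * Ω.card

/-- The co-Lipschitz map. -/
def TC_stmt : Prop :=
  ∀ (V : Type) [NormedAddCommGroup V] [InnerProductSpace ℝ V] [FiniteDimensional ℝ V]
    [MeasurableSpace V] [BorelSpace V] (n : ℕ) (C : ℝ), 1 ≤ n → 1 ≤ C →
  ∀ θ γ : ℝ, 0 < θ → θ ≤ 1 / 100 → 0 < γ → γ ≤ 1 → ∃ s c : ℝ, 0 < s ∧ s ≤ 1 ∧ 0 < c ∧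
    ∀ ε : ℝ, 0 < ε → ε ≤ γ * θ / 100 → ∀ (E : Set V) (r₀ : ℝ) (x₀ : V) (J : ℕ) (Ω : Finset V)
    (a par : ℕ → V → V), 0 < r₀ → TreeP n E C θ r₀ x₀ J Ω a par →
    ∀ (W : ℕ → V → Prop) (D : ℕ → V → Submodule ℝ V),
    (∀ ω ∈ Ω, ∀ j ≤ J, ¬ W j (a j ω) → j < J ∧ BF n E (a j ω) (θ ^ j * r₀) ε (D j (a j ω))) →
    ∃ f : V → EuclideanSpace ℝ (Fin n), (∀ ω ∈ Ω, ‖f ω‖ ≤ 2 * r₀) ∧ ∀ ω ∈ Ω, ∀ ω' ∈ Ω,
      c * s ^ lev J a (IsTop par W D γ) ω * dist ω ω' ≤ dist (f ω) (f ω')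

/-- Passage to the limit of infinite depth. -/
def Fin_stmt : Prop :=
  ∀ (V : Type) [NormedAddCommGroup V] [InnerProductSpace ℝ V] [FiniteDimensional ℝ V]
    [MeasurableSpace V] [BorelSpace V] (n : ℕ) (C : ℝ), 1 ≤ n → 1 ≤ C →
  ∀ c M' : ℝ, 0 < c → ∃ (θ' : ℝ) (M : ℝ≥0), 0 < θ' ∧ ∀ (μ : Measure V) (x₀ : V) (r₀ r : ℝ),
    0 < r₀ → 4 * r₀ ≤ r → Up n C μ → Low n C r₀ μ →
    (∀ t : ℝ, 0 < t → ∃ (G : Finset V) (ρ : ℝ) (f : V → EuclideanSpace ℝ (Fin n)),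
      0 < ρ ∧ ρ ≤ t ∧ (∀ ω ∈ G, ω ∈ μ.support ∧ dist ω x₀ ≤ 2 * r₀ ∧ ‖f ω‖ ≤ 2 * r₀) ∧
      (∀ ω ∈ G, ∀ ω' ∈ G, ω ≠ ω' → ρ ≤ dist ω ω') ∧
      (∀ ω ∈ G, ∀ ω' ∈ G, dist ω ω' ≤ M' * dist (f ω) (f ω')) ∧ c * r₀ ^ n ≤ G.card * ρ ^ n) →
    ∃ g : ball (0 : EuclideanSpace ℝ (Fin n)) r → V,
      LipschitzWith M g ∧ ENNReal.ofReal (θ' * r₀ ^ n) ≤ μ (ball x₀ r ∩ Set.range g)

/-- From the hypotheses of the problem to the internal ones. -/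
def Pre_stmt : Prop :=
  ∀ (d n : ℕ) (μ : Measure (EuclideanSpace ℝ (Fin d))) (C : ℝ), 1 ≤ n → IsADRegular n μ C →
    RieszBounded n μ → 0 < ediam μ.support → ∃ C' : ℝ, 1 ≤ C' ∧ Up n C' μ ∧ BD n C' μ ∧
    ∀ R : ℝ, ENNReal.ofReal R ≤ ediam μ.support → Low n C' R μ

end Vale.Agent.P120
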