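import Vale.Agent.P120.Stmts

/-! P120: packing of the nodes that are not both good and flat. -/

namespace Vale.Agent.P120

open Finset
open scoped Classical

namespace TAX

/-- Indicator of a proposition. -/
noncomputable def I (p : Prop) : ℝ := if p then 1 else 0

theorem I_pos {p : Prop} (h : p) : I p = 1 := if_pos h

theorem I_neg {p : Prop} (h : ¬ p) : I p = 0 := if_neg h

theorem I_nonneg (p : Prop) : 0 ≤ I p := by
  unfold I; split_ifs <;> simp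

theorem I_le (p : Prop) : I p ≤ 1 := by
  unfold I; split_ifs <;> simp

theorem card_I {α : Type} (s : Finset α) (p : α → Prop) :
    ∑ x ∈ s, I (p x) = ((s.filter p).card : ℝ) := by
  rw [Finset.natCast_card_filter]; rfl

theorem lev_eq {V : Type} (J : ℕ) (a : ℕ → V → V) (P : ℕ → V → Prop) (ω : V) :
    (lev J a P ω : ℝ) = ∑ j ∈ range (J + 1), I (P j (a j ω)) := by
  unfold lev
  rw [card_I]

theorem fib {V : Type} (Ω : Finset V) (g : V → V) (P : V → Prop) (h : V → ℝ) {K : ℝ}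
    (hK : 0 ≤ K) (h0 : ∀ ω, 0 ≤ h ω)
    (hP : ∀ ω ∈ Ω, P ω → ((Ω.filter fun ω' => g ω' = g ω).card : ℝ) ≤
      K * ∑ ω' ∈ Ω.filter (fun ω' => g ω' = g ω), h ω') :
    ∑ ω ∈ Ω, (I (P ω)) ≤ K * ∑ ω ∈ Ω, h ω := by
  have hm : ∀ ω ∈ Ω, g ω ∈ Ω.image g := fun ω hω => mem_image_of_mem g hω
  rw [← Finset.sum_fiberwise_of_maps_to hm, ← Finset.sum_fiberwise_of_maps_to hm h, mul_sum]
  refine sum_le_sum fun z _ => ?_
  by_cases hz : ∃ ω ∈ Ω, g ω = z ∧ P ω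
  · obtain ⟨ω, hω, rfl, hPω⟩ := hz
    refine le_trans ?_ (hP ω hω hPω)
    rw [Finset.card_eq_sum_ones, Nat.cast_sum]
    refine sum_le_sum fun ω' _ => ?_
    simpa using I_le _
  · have h1 : ∑ ω ∈ Ω.filter (fun ω' => g ω' = z), (I (P ω)) = 0 := by
      refine sum_eq_zero fun ω hω => ?_
      rw [mem_filter] at hω
      rw [I_neg fun hPω => hz ⟨ω, hω.1, hω.2, hPω⟩]
    rw [h1]
    exact mul_nonneg hK (sum_nonneg fun ω _ => h0 ω)

theorem exits (u b : ℕ → Prop) (J : ℕ) (h : ∀ t < J, ¬ u t → u (t + 1) → b t) :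
    ∀ T ≤ J, (∑ t ∈ range T, I (u t ∧ ¬ u (t + 1))) +
      (I (u T)) ≤ 1 + ∑ t ∈ range T, I (b t) := by
  intro T
  induction T with
  | zero => intro _; simpa using I_le _
  | succ T ih =>
    intro hT
    have h1 := ih (by omega)
    have h2 := h T (by omega)
    rw [sum_range_succ, sum_range_succ]
    have h3 := I_nonneg (b T)
    by_cases hu : u T <;> by_cases hu' : u (T + 1)
    · rw [I_pos hu] at h1; rw [I_pos hu', I_neg fun h => h.2 hu']; linarith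
    · rw [I_pos hu] at h1; rw [I_neg hu', I_pos ⟨hu, hu'⟩]; linarith
    · rw [I_neg hu] at h1; rw [I_pos hu', I_neg fun h => hu h.1, I_pos (h2 hu hu')]; linarith
    · rw [I_neg hu] at h1; rw [I_neg hu', I_neg fun h => hu h.1]; linarith

theorem first_exit (u : ℕ → Prop) (j : ℕ) (hj : u j) :
    ∀ i, ¬ u (j + i) → ∃ l < i, u (j + l) ∧ ¬ u (j + l + 1) := by
  intro i
  induction i with
  | zero => intro h; exact absurd hj h
  | succ i ih =>
    intro h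
    by_cases hi : u (j + i)
    · exact ⟨i, Nat.lt_succ_self i, hi, h⟩
    · obtain ⟨l, hl, h1⟩ := ih hi
      exact ⟨l, by omega, h1⟩

theorem shift (e : ℕ → Prop) (J l : ℕ) :
    (∑ j ∈ range (J + 1), I (j + l < J ∧ e (j + l))) ≤
      ∑ t ∈ range J, I (e t) := by
  rw [card_I, card_I, Nat.cast_le]
  refine Finset.card_le_card_of_injOn (fun j => j + l) (fun j hj => ?_) fun j _ j' _ h => ?_
  · simp only [coe_filter, mem_range, Set.mem_ofPred_eq] at hj ⊢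
    exact hj.2
  · simpa using h

theorem tail (J M : ℕ) :
    (∑ j ∈ range (J + 1), I (¬ (j + M ≤ J))) ≤ M := by
  rw [card_I, Nat.cast_le]
  refine le_trans (Finset.card_le_card_of_injOn (t := range M) (fun j => J - j)
    (fun j hj => ?_) fun j hj j' hj' h => ?_) (card_range M).le
  · simp only [coe_filter, mem_range, Set.mem_ofPred_eq, coe_range, Set.mem_Iio] at hj ⊢
    omega
  · simp only [coe_filter, mem_range, Set.mem_ofPred_eq] at hj hj' h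
    omega

variable {V : Type} [PseudoMetricSpace V] {n : ℕ} {E : Set V} {C θ r₀ : ℝ} {x₀ : V} {J : ℕ}
  {Ω : Finset V} {a par : ℕ → V → V}

theorem anc (T : TreeP n E C θ r₀ x₀ J Ω a par) {ω ω' : V} (hω : ω ∈ Ω) (hω' : ω' ∈ Ω) (j : ℕ) :
    ∀ l, j + l ≤ J → a (j + l) ω = a (j + l) ω' → a j ω = a j ω' := by
  intro l
  induction l with
  | zero => intro _ h; exact h
  | succ l ih =>
    intro hl h
    refine ih (by omega) ?_
    rw [T.step ω hω (j + l) (by omega), T.step ω' hω' (j + l) (by omega)]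
    exact congrArg _ h

theorem bad (T : TreeP n E C θ r₀ x₀ J Ω a par) (hC : 1 ≤ C) (hθ : 0 < θ) {C₁ : ℝ}
    (B : ℕ → V → Prop)
    (hB : ∀ F : Finset (ℕ × V), (∀ q ∈ F, q.1 ≤ J ∧ (∃ ω ∈ Ω, a q.1 ω = q.2) ∧ B q.1 q.2) →
      ∑ q ∈ F, (θ ^ q.1) ^ n ≤ C₁) :
    ∑ ω ∈ Ω, ∑ j ∈ range (J + 1), (I (B j (a j ω))) ≤
      C ^ 2 * C₁ * Ω.card := by
  have hC₁ : 0 ≤ C₁ := by simpa using hB ∅ (by simp)
  have hp : 0 < (θ ^ J) ^ n := by positivity
  obtain ⟨ω₀, hω₀⟩ := T.ne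
  have h1 : 1 ≤ C * (Ω.card * (θ ^ J) ^ n) := by
    have h2 := T.mass_lo ω₀ hω₀ 0 (Nat.zero_le _)
    rw [filter_true_of_mem fun ω hω => by rw [T.root ω hω, T.root ω₀ hω₀]] at h2
    simpa using h2
  set S := (Ω ×ˢ range (J + 1)).filter fun p => B p.2 (a p.2 p.1) with hS
  set f : V × ℕ → ℕ × V := fun p => (p.2, a p.2 p.1) with hf
  have h2 : ∑ ω ∈ Ω, ∑ j ∈ range (J + 1), (I (B j (a j ω))) = S.card := by
    rw [hS, ← card_I, Finset.sum_product]
  have h3 : ∑ q ∈ S.image f, (θ ^ q.1) ^ n ≤ C₁ := by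
    refine hB _ fun q hq => ?_
    obtain ⟨p, hp, rfl⟩ := mem_image.1 hq
    simp only [hS, mem_filter, mem_product, mem_range] at hp
    exact ⟨by simp only [hf]; omega, ⟨p.1, hp.1.1, rfl⟩, hp.2⟩
  have h4 : (S.card : ℝ) * (θ ^ J) ^ n ≤ C * C₁ := by
    rw [Finset.card_eq_sum_card_image f S, Nat.cast_sum, sum_mul]
    refine le_trans (sum_le_sum fun q hq => ?_)
      ((mul_sum _ _ C).ge.trans (mul_le_mul_of_nonneg_left h3 (by linarith)))
    obtain ⟨p, hp', rfl⟩ := mem_image.1 hq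
    simp only [hS, mem_filter, mem_product, mem_range] at hp'
    refine le_trans (mul_le_mul_of_nonneg_right ?_ hp.le)
      (T.mass_up p.1 hp'.1.1 p.2 (by omega))
    rw [Nat.cast_le]
    refine Finset.card_le_card_of_injOn Prod.fst (fun x hx => ?_) fun x hx y hy h => ?_
    · simp only [hS, hf, coe_filter, mem_filter, mem_product, Set.mem_ofPred_eq,
        Prod.mk.injEq] at hx ⊢
      refine ⟨hx.1.1.1, ?_⟩
      rw [← hx.2.2, hx.2.1]
    · simp only [hf, coe_filter, Set.mem_ofPred_eq, Prod.mk.injEq] at hx hy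
      exact Prod.ext h (hx.2.1.trans hy.2.1.symm)
  rw [h2]
  refine le_of_mul_le_mul_right (h4.trans ?_) hp
  have h5 : 0 ≤ C * C₁ := mul_nonneg (by linarith) hC₁
  calc C * C₁ = C * C₁ * 1 := (mul_one _).symm
    _ ≤ C * C₁ * (C * (Ω.card * (θ ^ J) ^ n)) := mul_le_mul_of_nonneg_left h1 h5
    _ = _ := by ring

theorem charge (T : TreeP n E C θ r₀ x₀ J Ω a par) (hC : 1 ≤ C) (hθ : 0 < θ) (hθ1 : θ ≤ 1)
    {M : ℕ} (U : ℕ → V → Prop) {j : ℕ}
    (hU : ∀ ω ∈ Ω, j + M ≤ J → U j (a j ω) → ∃ i, i ≤ M ∧ ∃ ω' ∈ Ω,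
      a j ω' = a j ω ∧ ¬ U (j + i) (a (j + i) ω')) :
    ∑ ω ∈ Ω, (I (j + M ≤ J ∧ U j (a j ω))) ≤
      C ^ 2 / (θ ^ M) ^ n * ∑ ω ∈ Ω, ∑ l ∈ range M,
        I (j + l < J ∧ (U (j + l) (a (j + l) ω) ∧ ¬ U (j + l + 1) (a (j + l + 1) ω))) := by
  have hp : 0 < (θ ^ J) ^ n := by positivity
  have hM : 0 < (θ ^ M) ^ n := by positivity
  refine fib Ω (a j) (fun ω => j + M ≤ J ∧ U j (a j ω)) _ (K := C ^ 2 / (θ ^ M) ^ n) (by positivity)
    (fun ω => sum_nonneg fun l _ => I_nonneg _) fun ω hω hP => ?_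
  obtain ⟨i, hi, ω', hω', h1, h2⟩ := hU ω hω hP.1 hP.2
  obtain ⟨l, hl, h3, h4⟩ := first_exit (fun t => U t (a t ω')) j (by rw [h1]; exact hP.2) i h2
  have hJ : j + l + 1 ≤ J := by have := hP.1; omega
  have h5 : ((Ω.filter fun ω'' => a (j + l + 1) ω'' = a (j + l + 1) ω').card : ℝ) ≤
      ∑ ω'' ∈ Ω.filter (fun ω'' => a j ω'' = a j ω), ∑ l ∈ range M,
        I (j + l < J ∧ (U (j + l) (a (j + l) ω'') ∧ ¬ U (j + l + 1) (a (j + l + 1) ω''))) := by
    rw [Finset.card_eq_sum_ones, Nat.cast_sum]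
    have hsub : (Ω.filter fun ω'' => a (j + l + 1) ω'' = a (j + l + 1) ω') ⊆
        Ω.filter (fun ω'' => a j ω'' = a j ω) := by
      intro x hx
      rw [mem_filter] at hx ⊢
      exact ⟨hx.1, (anc T hx.1 hω' j (l + 1) hJ hx.2).trans h1⟩
    refine le_trans (sum_le_sum fun x hx => ?_) (sum_le_sum_of_subset_of_nonneg hsub
      fun x _ _ => sum_nonneg fun l _ => I_nonneg _)
    rw [mem_filter] at hx
    have h6 : a (j + l) x = a (j + l) ω' := anc T hx.1 hω' (j + l) 1 hJ hx.2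
    refine le_trans (le_of_eq ?_) (single_le_sum (f := fun l =>
      I (j + l < J ∧ (U (j + l) (a (j + l) x) ∧ ¬ U (j + l + 1) (a (j + l + 1) x)))) (fun l _ => I_nonneg _) (mem_range.2 (by omega : l < M)))
    rw [I_pos ⟨by omega, by rw [h6]; exact h3, by rw [hx.2]; exact h4⟩]
    simp
  have h7 := T.mass_up ω hω j (by omega)
  have h8 := T.mass_lo ω' hω' (j + l + 1) hJ
  have h9 : (θ ^ j) ^ n * (θ ^ M) ^ n ≤ (θ ^ (j + l + 1)) ^ n := by
    rw [← mul_pow, ← pow_add]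
    exact pow_le_pow_left₀ (by positivity) (pow_le_pow_of_le_one hθ.le hθ1 (by omega)) n
  refine le_trans ?_ (mul_le_mul_of_nonneg_left h5 (by positivity))
  rw [div_mul_eq_mul_div, le_div_iff₀ hM]
  refine le_of_mul_le_mul_right ?_ hp
  have hC0 : 0 ≤ C := by linarith
  calc _ = ((Ω.filter fun ω' => a j ω' = a j ω).card * (θ ^ J) ^ n) * (θ ^ M) ^ n := by ring
    _ ≤ C * (θ ^ j) ^ n * (θ ^ M) ^ n := mul_le_mul_of_nonneg_right h7 hM.le
    _ = C * ((θ ^ j) ^ n * (θ ^ M) ^ n) := by ring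
    _ ≤ C * (C * ((Ω.filter fun ω'' => a (j + l + 1) ω'' = a (j + l + 1) ω').card *
        (θ ^ J) ^ n)) := mul_le_mul_of_nonneg_left (h9.trans h8) hC0
    _ = _ := by ring

end TAX

open TAX in
theorem ta_pf : TA_stmt := by
  intro V _ _ _ _ _ n C _ hC θ C₁ M hθ hθ1
  refine ⟨C ^ 2 * C₁ + M + C ^ 2 / (θ ^ M) ^ n * (M * (1 + C ^ 2 * C₁)), ?_⟩
  intro E r₀ x₀ J Ω a par _ T Gd Fl hbad hfl hM
  set K := C ^ 2 / (θ ^ M) ^ n with hK
  have hK0 : 0 ≤ K := by positivity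
  set U : ℕ → V → Prop := fun j z => Gd j z ∧ ¬ Fl j z with hU
  have hB := bad T hC hθ (fun j z => ¬ Gd j z) hbad
  have hex : ∀ ω ∈ Ω, (∑ t ∈ range J, I (U t (a t ω) ∧ ¬ U (t + 1) (a (t + 1) ω))) ≤ 1 + ∑ j ∈ range (J + 1), I (¬ Gd j (a j ω)) := by
    intro ω hω
    have h1 := exits (fun t => U t (a t ω)) (fun t => ¬ Gd t (a t ω)) J
      (fun t ht h1 h2 h3 => h2.2 (hfl ω hω t ht h3 (by_contra fun h4 => h1 ⟨h3, h4⟩))) J le_rfl
    rw [sum_range_succ]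
    have h2 : (0 : ℝ) ≤ I (U J (a J ω)) := I_nonneg _
    have h3 : (0 : ℝ) ≤ I (¬ Gd J (a J ω)) := I_nonneg _
    linarith
  have hch : ∑ j ∈ range (J + 1), ∑ ω ∈ Ω,
      (I (j + M ≤ J ∧ U j (a j ω))) ≤
      K * (M * (1 + C ^ 2 * C₁)) * Ω.card := by
    refine le_trans (sum_le_sum fun j _ => charge T hC hθ (by linarith) U
      (j := j) (M := M) fun ω hω hj hu => ?_) ?_
    · obtain ⟨i, _, hi, ω', hω', h1, h2⟩ := hM ω hω j hj hu.1
      exact ⟨i, hi, ω', hω', h1, fun h => h.2 h2⟩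
    rw [← mul_sum, mul_assoc]
    refine mul_le_mul_of_nonneg_left ?_ hK0
    rw [sum_comm]
    have h3 : ∀ ω ∈ Ω, (∑ j ∈ range (J + 1), ∑ l ∈ range M,
        I (j + l < J ∧ (U (j + l) (a (j + l) ω) ∧ ¬ U (j + l + 1) (a (j + l + 1) ω)))) ≤
        M * (1 + ∑ j ∈ range (J + 1), I (¬ Gd j (a j ω))) := by
      intro ω hω
      rw [sum_comm]
      refine le_trans (sum_le_sum fun l _ => (shift
        (fun t => U t (a t ω) ∧ ¬ U (t + 1) (a (t + 1) ω)) J l).trans (hex ω hω)) ?_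
      rw [sum_const, card_range, nsmul_eq_mul]
    refine (sum_le_sum h3).trans ?_
    rw [← mul_sum, sum_add_distrib, sum_const, nsmul_eq_mul, mul_assoc]
    refine mul_le_mul_of_nonneg_left ?_ (Nat.cast_nonneg M)
    linarith
  have htl : ∑ _ω ∈ Ω, ∑ j ∈ range (J + 1), (I (¬ (j + M ≤ J))) ≤
      M * Ω.card := by
    refine (sum_le_sum fun ω _ => tail J M).trans ?_
    rw [sum_const, nsmul_eq_mul, mul_comm]
  rw [sum_comm] at hch
  have hsum : cnt J Ω a (fun j z => ¬ (Gd j z ∧ Fl j z)) ≤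
      (∑ ω ∈ Ω, ∑ j ∈ range (J + 1), (I (¬ Gd j (a j ω)))) +
      (∑ _ω ∈ Ω, ∑ j ∈ range (J + 1), (I (¬ (j + M ≤ J)))) +
      ∑ ω ∈ Ω, ∑ j ∈ range (J + 1), (I (j + M ≤ J ∧ U j (a j ω))) := by
    unfold cnt
    rw [← sum_add_distrib, ← sum_add_distrib]
    refine sum_le_sum fun ω _ => ?_
    rw [lev_eq, ← sum_add_distrib, ← sum_add_distrib]
    refine sum_le_sum fun j _ => ?_
    by_cases h1 : Gd j (a j ω) <;> by_cases h2 : Fl j (a j ω) <;> by_cases h3 : j + M ≤ J <;>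
      simp [I, hU, h1, h2, h3]
  linarith

end Vale.Agent.P120
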