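import Vale.Agent.P120.BasK

/-! P120: the co-Lipschitz map, auxiliary lemmas. -/

namespace Vale.Agent.P120.TCX

open MeasureTheory Metric Filter Module
open scoped Topology ENNReal NNReal RealInnerProductSpace

variable {V : Type} [NormedAddCommGroup V] [InnerProductSpace ℝ V] [FiniteDimensional ℝ V]

section tau
variable (par : ℕ → V → V) (W : ℕ → V → Prop) (D : ℕ → V → Submodule ℝ V) (γ : ℝ)

theorem tau_cases (j : ℕ) (z : V) : tau par W D γ (j + 1) z = (j + 1, z) ∨
    (tau par W D γ (j + 1) z = tau par W D γ j (par j z) ∧ ¬ W j (par j z) ∧ ¬ W (j + 1) z ∧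
      ¬ Deg γ (D (tau par W D γ j (par j z)).1 (tau par W D γ j (par j z)).2) (D (j + 1) z)) := by
  rw [tau]
  split_ifs with h
  · exact Or.inl rfl
  · push Not at h
    exact Or.inr ⟨rfl, h⟩

theorem tau_le (j : ℕ) (z : V) : (tau par W D γ j z).1 ≤ j := by
  induction j generalizing z with
  | zero => exact le_rfl
  | succ j ih =>
    rcases tau_cases par W D γ j z with h | h
    · rw [h]
    · rw [h.1]
      exact (ih _).trans (Nat.le_succ j)

theorem tau_of_top {j : ℕ} {z : V} (h : IsTop par W D γ j z) : tau par W D γ j z = (j, z) := by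
  cases j with
  | zero => rfl
  | succ j =>
    rcases tau_cases par W D γ j z with h1 | h1
    · exact h1
    · have h2 := tau_le par W D γ j (par j z)
      rw [IsTop, h1.1] at h
      omega

theorem of_not_top {j : ℕ} {z : V} (h : ¬ IsTop par W D γ (j + 1) z) :
    tau par W D γ (j + 1) z = tau par W D γ j (par j z) ∧ ¬ W j (par j z) ∧ ¬ W (j + 1) z ∧
      ¬ Deg γ (D (tau par W D γ j (par j z)).1 (tau par W D γ j (par j z)).2) (D (j + 1) z) := by
  rcases tau_cases par W D γ j z with h1 | h1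
  · exact absurd (by rw [IsTop, h1]) h
  · exact h1

theorem top_of_W {j : ℕ} {z : V} (h : W j z) : IsTop par W D γ j z := by
  cases j with
  | zero => rfl
  | succ j =>
    by_contra h1
    exact (of_not_top par W D γ h1).2.2.1 h

theorem not_deg (hγ : γ ≤ 1) (j : ℕ) (z : V) :
    ¬ Deg γ (D (tau par W D γ j z).1 (tau par W D γ j z).2) (D j z) := by
  by_cases h : IsTop par W D γ j z
  · rw [tau_of_top par W D γ h]
    rintro ⟨u, hu, h1⟩
    rw [Submodule.starProjection_eq_self_iff.2 hu] at h1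
    nlinarith [norm_nonneg u]
  · cases j with
    | zero => exact absurd rfl h
    | succ j =>
      have h1 := of_not_top par W D γ h
      rw [h1.1]
      exact h1.2.2.2

end tau

theorem exists_phi (n : ℕ) (S : Submodule ℝ V) : ∃ φ : V →ₗ[ℝ] EuclideanSpace ℝ (Fin n),
    (∀ x, ‖φ x‖ ≤ ‖x‖) ∧ (finrank ℝ S = n → ∀ x, ‖φ x‖ = ‖S.starProjection x‖) := by
  by_cases h : finrank ℝ S = n
  · let e : S ≃ₗᵢ[ℝ] EuclideanSpace ℝ (Fin n) :=
      (stdOrthonormalBasis ℝ S).repr.trans (LinearIsometryEquiv.piLpCongrLeft 2 ℝ ℝ (finCongr h))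
    have h1 : ∀ x, ‖(e.toLinearEquiv.toLinearMap ∘ₗ S.orthogonalProjectionOnto.toLinearMap) x‖ =
        ‖S.starProjection x‖ := fun x => e.norm_map _
    exact ⟨_, fun x => (h1 x).trans_le (S.norm_starProjection_apply_le x), fun _ => h1⟩
  · exact ⟨0, fun x => by simp, fun h' => absurd h' h⟩

theorem exists_idx (S : Finset V) : ∃ g : V → ℕ, (∀ x ∈ S, g x < S.card) ∧ Set.InjOn g S := by
  classical
  refine ⟨fun x => if h : x ∈ S then S.equivFin ⟨x, h⟩ else 0, fun x hx => ?_,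
    fun x hx y hy h => ?_⟩
  · simp only [dif_pos hx]
    exact (S.equivFin ⟨x, hx⟩).2
  · simp only [dif_pos (Finset.mem_coe.1 hx), dif_pos (Finset.mem_coe.1 hy)] at h
    exact congrArg Subtype.val (S.equivFin.injective (Fin.ext h))

theorem lev_succ (j : ℕ) (a : ℕ → V → V) (P : ℕ → V → Prop) (ω : V) :
    (P (j + 1) (a (j + 1) ω) → lev (j + 1) a P ω = lev j a P ω + 1) ∧
    (¬ P (j + 1) (a (j + 1) ω) → lev (j + 1) a P ω = lev j a P ω) := by
  unfold lev
  rw [Finset.range_add_one (n := j + 1), Finset.filter_insert]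
  refine ⟨fun h => ?_, fun h => ?_⟩
  · rw [if_pos h, Finset.card_insert_of_notMem (by simp)]
  · rw [if_neg h]

open Classical in
theorem lev_mono {i j : ℕ} (h : i ≤ j) (a : ℕ → V → V) (P : ℕ → V → Prop) (ω : V) :
    lev i a P ω ≤ lev j a P ω :=
  Finset.card_le_card (Finset.filter_subset_filter _ (Finset.range_mono (by omega)))

open Classical in
theorem lev_congr {j : ℕ} {a : ℕ → V → V} (P : ℕ → V → Prop) {ω ω' : V}
    (h : ∀ i ≤ j, a i ω = a i ω') : lev j a P ω = lev j a P ω' := by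
  unfold lev
  rw [Finset.filter_congr fun i hi => by rw [h i (by simpa [Nat.lt_succ_iff] using hi)]]

theorem tail_le {F : Type} [NormedAddCommGroup F] {θ B : ℝ} (h0 : 0 < θ) (h1 : θ ≤ 1 / 100)
    (hB : 0 ≤ B) (g : ℕ → F) {i j : ℕ} (hij : i ≤ j) (hg : ∀ k, i ≤ k → k < j → ‖g k‖ ≤ θ ^ k * B) :
    ‖∑ k ∈ Finset.Ico i j, g k‖ ≤ 2 * (θ ^ i * B) - 2 * (θ ^ j * B) := by
  induction j, hij using Nat.le_induction with
  | base => simp
  | succ j hij ih =>
    rw [Finset.sum_Ico_succ_top hij]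
    have h2 := ih fun k h h' => hg k h (by omega)
    have h3 := hg j hij (by omega)
    have h4 : 0 ≤ θ ^ j * B := by positivity
    refine (norm_add_le _ _).trans ?_
    rw [pow_succ]
    nlinarith

section tree
variable {n : ℕ} {E : Set V} {C θ r₀ : ℝ} {x₀ : V} {J : ℕ} {Ω : Finset V} {a par : ℕ → V → V}

theorem anc_eq (T : TreeP n E C θ r₀ x₀ J Ω a par) {ω ω' : V} (hω : ω ∈ Ω) (hω' : ω' ∈ Ω)
    {i j : ℕ} (hij : i ≤ j) (hj : j ≤ J) (h : a j ω = a j ω') : a i ω = a i ω' := by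
  induction j, hij using Nat.le_induction with
  | base => exact h
  | succ j hij ih =>
    refine ih (by omega) ?_
    rw [T.step ω hω j hj, T.step ω' hω' j hj, h]

theorem anc_dist (T : TreeP n E C θ r₀ x₀ J Ω a par) (h0 : 0 < θ) (h1 : θ ≤ 1 / 100)
    (hr : 0 < r₀) {ω : V} (hω : ω ∈ Ω) {i j : ℕ} (hij : i ≤ j) (hj : j ≤ J) :
    ‖a j ω - a i ω‖ ≤ 2 * (θ ^ i * r₀) := by
  have h2 := tail_le h0 h1 hr.le (fun k => a (k + 1) ω - a k ω) hij fun k _ hk => by
    rw [← dist_eq_norm]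
    exact (T.near ω hω k (by omega)).le
  rw [Finset.sum_Ico_sub (fun k => a k ω) hij] at h2
  have h3 : 0 ≤ θ ^ j * r₀ := by positivity
  linarith

open Classical in
theorem card_child (T : TreeP n E C θ r₀ x₀ J Ω a par) (h0 : 0 < θ) (hC : 1 ≤ C)
    {ω : V} (hω : ω ∈ Ω) {j : ℕ} (hj : j < J) :
    (((Ω.filter fun ω' => a j ω' = a j ω).image (a (j + 1))).card : ℝ) ≤ C ^ 2 * θ⁻¹ ^ n := by
  set S := Ω.filter fun ω' => a j ω' = a j ω with hS
  have h1 := T.mass_up ω hω j hj.le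
  have h2 : (S.card : ℝ) = ∑ z ∈ S.image (a (j + 1)), ((S.filter fun w => a (j + 1) w = z).card : ℝ) := by
    exact_mod_cast Finset.card_eq_sum_card_image (a (j + 1)) S
  have h3 : ∀ z ∈ S.image (a (j + 1)), (θ ^ (j + 1)) ^ n ≤
      C * (((S.filter fun w => a (j + 1) w = z).card : ℝ) * (θ ^ J) ^ n) := by
    intro z hz
    obtain ⟨w, hw, rfl⟩ := Finset.mem_image.1 hz
    obtain ⟨hw1, hw2⟩ := Finset.mem_filter.1 hw
    refine (T.mass_lo w hw1 (j + 1) hj).trans ?_
    have h4 : (Ω.filter fun ω' => a (j + 1) ω' = a (j + 1) w) ⊆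
        S.filter fun w' => a (j + 1) w' = a (j + 1) w := by
      intro u hu
      obtain ⟨hu1, hu2⟩ := Finset.mem_filter.1 hu
      exact Finset.mem_filter.2 ⟨Finset.mem_filter.2
        ⟨hu1, (anc_eq T hu1 hw1 (Nat.le_succ j) hj hu2).trans hw2⟩, hu2⟩
    have h5 : ((Ω.filter fun ω' => a (j + 1) ω' = a (j + 1) w).card : ℝ) ≤
        (S.filter fun w' => a (j + 1) w' = a (j + 1) w).card := by
      exact_mod_cast Finset.card_le_card h4
    have h6 : 0 ≤ C := by linarith
    gcongr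
  have h4 := Finset.sum_le_sum h3
  rw [Finset.sum_const, nsmul_eq_mul, ← Finset.mul_sum, ← Finset.sum_mul, ← h2] at h4
  have h5 : 0 < (θ ^ (j + 1)) ^ n := by positivity
  refine le_of_mul_le_mul_right (h4.trans ?_) h5
  calc _ ≤ C * (C * (θ ^ j) ^ n) := by gcongr
    _ = _ := by
      rw [pow_succ θ j, mul_pow, inv_pow]
      field_simp

end tree

end Vale.Agent.P120.TCX
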