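import Vale.Agent.P120.TCa

/-! P120: the co-Lipschitz map, geometric part. -/

namespace Vale.Agent.P120.TCX

open MeasureTheory Metric Filter Module
open scoped Topology ENNReal NNReal RealInnerProductSpace

variable {V : Type} [NormedAddCommGroup V] [InnerProductSpace ℝ V] [FiniteDimensional ℝ V]
  {n : ℕ} {E : Set V} {C θ r₀ γ ε : ℝ} {x₀ : V} {J : ℕ} {Ω : Finset V} {a par : ℕ → V → V}
  {W : ℕ → V → Prop} {D : ℕ → V → Submodule ℝ V}

/-- Along a stretch without tops nothing changes. -/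
theorem stretch (T : TreeP n E C θ r₀ x₀ J Ω a par) {ω : V} (hω : ω ∈ Ω) {i j : ℕ} (hij : i ≤ j)
    (hj : j ≤ J) (hW : ¬ W i (a i ω))
    (h : ∀ k, i < k → k ≤ j → ¬ IsTop par W D γ k (a k ω)) :
    tau par W D γ j (a j ω) = tau par W D γ i (a i ω) ∧ ¬ W j (a j ω) ∧
      lev j a (IsTop par W D γ) ω = lev i a (IsTop par W D γ) ω := by
  induction j, hij using Nat.le_induction with
  | base => exact ⟨rfl, hW, rfl⟩
  | succ j hij ih =>
    obtain ⟨h1, -, h3⟩ := ih (by omega) fun k hk hk' => h k hk (by omega)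
    have h4 := h (j + 1) (by omega) le_rfl
    have h5 := of_not_top par W D γ h4
    rw [← T.step ω hω j hj] at h5
    exact ⟨h5.1.trans h1, h5.2.2.1, ((lev_succ j a _ ω).2 h4).trans h3⟩

theorem rank_tau (T : TreeP n E C θ r₀ x₀ J Ω a par) {ω : V} (hω : ω ∈ Ω)
    (hB : ∀ j ≤ J, ¬ W j (a j ω) → finrank ℝ (D j (a j ω)) = n) {j : ℕ} (hj : j ≤ J)
    (hW : ¬ W j (a j ω)) :
    finrank ℝ (D (tau par W D γ j (a j ω)).1 (tau par W D γ j (a j ω)).2) = n := by
  induction j with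
  | zero => exact hB 0 hj hW
  | succ j ih =>
    by_cases h : IsTop par W D γ (j + 1) (a (j + 1) ω)
    · rw [tau_of_top par W D γ h]
      exact hB _ hj hW
    · have h5 := of_not_top par W D γ h
      rw [← T.step ω hω j hj] at h5
      rw [h5.1]
      exact ih (by omega) h5.2.1

/-- The next top after generation `i`. -/
theorem next_top {ω : V} (hJ : W J (a J ω)) {i : ℕ} (hi : i < J) :
    ∃ j, i < j ∧ j ≤ J ∧ IsTop par W D γ j (a j ω) ∧
      ∀ k, i < k → k < j → ¬ IsTop par W D γ k (a k ω) := by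
  classical
  have h : ∃ j, i < j ∧ IsTop par W D γ j (a j ω) := ⟨J, hi, top_of_W par W D γ hJ⟩
  refine ⟨Nat.find h, (Nat.find_spec h).1, Nat.find_min' h ⟨hi, top_of_W par W D γ hJ⟩,
    (Nat.find_spec h).2, fun k hk hk' hk'' => Nat.find_min h hk' ⟨hk, hk''⟩⟩

theorem proj_ge {S S' : Submodule ℝ V} (h0 : 0 < γ) (h1 : γ ≤ 1) (h : ¬ Deg γ S S') {x : V}
    (hx : ‖perp S' x‖ ≤ γ * ‖x‖ / 4) : γ * ‖x‖ / 2 ≤ ‖S.starProjection x‖ := by
  have h2 : γ * ‖S'.starProjection x‖ ≤ ‖S.starProjection (S'.starProjection x)‖ :=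
    not_lt.1 fun h' => h ⟨_, S'.starProjection_apply_mem x, h'⟩
  have h3 : S.starProjection (S'.starProjection x) =
      S.starProjection x - S.starProjection (perp S' x) := by
    rw [perp, map_sub]
    abel
  have h4 := S.norm_starProjection_apply_le (perp S' x)
  have h5 := norm_sub_le (S.starProjection x) (S.starProjection (perp S' x))
  have h6 : ‖x‖ ≤ ‖S'.starProjection x‖ + ‖perp S' x‖ := by
    refine le_of_eq_of_le ?_ (norm_add_le _ _)
    rw [perp, add_sub_cancel]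
  rw [h3] at h2
  have h7 := norm_nonneg (perp S' x)
  nlinarith

/-- The projection of the difference of the next tops is large. -/
theorem proj_tops (T : TreeP n E C θ r₀ x₀ J Ω a par) (h0 : 0 < θ) (h1 : θ ≤ 1 / 100)
    (hr : 0 < r₀) (hγ : 0 < γ) (hγ1 : γ ≤ 1) (hε : ε ≤ γ * θ / 100) {ω ω' : V} (hω : ω ∈ Ω)
    (hω' : ω' ∈ Ω)
    (hB : ∀ j ≤ J, ¬ W j (a j ω) → BF n E (a j ω) (θ ^ j * r₀) ε (D j (a j ω)))
    {i j j' : ℕ} (hij : i < j) (hjj : j ≤ j') (hj : j' ≤ J) (he : a i ω = a i ω')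
    (hne : a (i + 1) ω ≠ a (i + 1) ω') (hW : ¬ W i (a i ω))
    (h : ∀ k, i < k → k < j → ¬ IsTop par W D γ k (a k ω)) :
    θ ^ j * r₀ ≤ 3 * ‖a j ω - a j' ω'‖ ∧ γ * ‖a j ω - a j' ω'‖ / 2 ≤
      ‖(D (tau par W D γ i (a i ω)).1 (tau par W D γ i (a i ω)).2).starProjection
        (a j ω - a j' ω')‖ := by
  classical
  have h2 : θ ^ j * r₀ ≤ 3 * ‖a j ω - a j' ω'‖ := by
    by_contra h3
    refine hne (anc_eq T hω hω' hij (hjj.trans hj) (T.inner ω hω ω' hω' j j' hjj hj ?_).symm)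
    rw [dist_comm, dist_eq_norm]
    linarith
  refine ⟨h2, ?_⟩
  have h3 : ∃ k, i ≤ k ∧ k < j ∧ ‖a j ω - a j' ω'‖ ≤ 4 * (θ ^ k * r₀) ∧
      θ ^ (k + 1) * r₀ ≤ 3 * ‖a j ω - a j' ω'‖ := by
    have h4 : ‖a j ω - a j' ω'‖ ≤ 4 * (θ ^ i * r₀) := by
      have h5 := anc_dist T h0 h1 hr hω hij.le (hjj.trans hj)
      have h6 := anc_dist T h0 h1 hr hω' (hij.le.trans hjj) hj
      have h7 := norm_sub_le_norm_sub_add_norm_sub (a j ω) (a i ω) (a j' ω')
      rw [norm_sub_rev, ← he] at h6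
      linarith
    have h5 : ∃ k, i ≤ k ∧ θ ^ (k + 1) * r₀ ≤ 3 * ‖a j ω - a j' ω'‖ :=
      ⟨j - 1, by omega, by rwa [Nat.sub_add_cancel (by omega)]⟩
    have h6 := Nat.find_spec h5
    have h7 : Nat.find h5 ≤ j - 1 :=
      Nat.find_min' h5 ⟨by omega, by rwa [Nat.sub_add_cancel (by omega)]⟩
    refine ⟨Nat.find h5, h6.1, by omega, ?_, h6.2⟩
    rcases h6.1.eq_or_lt with h8 | h8
    · rwa [← h8]
    · have h9 := Nat.find_min h5 (m := Nat.find h5 - 1) (by omega)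
      rw [Nat.sub_add_cancel (by omega), not_and, not_le] at h9
      have h10 := h9 (by omega)
      have h11 := norm_nonneg (a j ω - a j' ω')
      linarith
  obtain ⟨k, hk1, hk2, hk3, hk4⟩ := h3
  obtain ⟨h4, h5, -⟩ := stretch (D := D) (γ := γ) T hω hk1 (by omega) hW
    fun m hm hm' => h m hm (by omega)
  rw [← h4]
  refine proj_ge hγ hγ1 (not_deg par W D γ hγ1 k (a k ω)) ?_
  obtain ⟨-, h6, -⟩ := hB k (by omega) h5
  have h7 := anc_dist T h0 h1 hr hω hk2.le (hjj.trans hj)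
  have h8 : 0 < θ ^ k * r₀ := by positivity
  have h9 := h6 _ (T.mem ω hω j (hjj.trans hj)) (by linarith)
  have h10 := h6 _ (T.mem ω' hω' j' hj) (by
    have h11 := norm_sub_le_norm_sub_add_norm_sub (a j' ω') (a j ω) (a k ω)
    rw [norm_sub_rev] at hk3
    linarith)
  have h11 : perp (D k (a k ω)) (a j ω - a j' ω') =
      perp (D k (a k ω)) (a j ω - a k ω) - perp (D k (a k ω)) (a j' ω' - a k ω) := by
    rw [← perp_sub, sub_sub_sub_cancel_right]
  rw [h11]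
  refine (norm_sub_le _ _).trans ?_
  have h12 := mul_le_mul_of_nonneg_right hε h8.le
  have h13 := mul_le_mul_of_nonneg_left hk4 hγ.le
  rw [pow_succ] at h13
  have h14 : 0 ≤ γ * ‖a j ω - a j' ω'‖ := by positivity
  nlinarith

end Vale.Agent.P120.TCX
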